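import Vale.Agent.P132.Std

/-! Right multiplication and separating vectors. -/

open scoped InnerProductSpace Topology ComplexConjugate
open Filter MeasureTheory

namespace Vale.Agent.P132

open Vale.Agent.P104

variable {H : Type*} [NormedAddCommGroup H] [InnerProductSpace ℂ H] [CompleteSpace H]
  {M : VonNeumannAlgebra H} {J : H →L⋆[ℂ] H} {P : Set H} {ξ : H}

omit [CompleteSpace H] in
theorem IsConj.norm (h : IsConj J) (η : H) : ‖J η‖ = ‖η‖ := by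
  rw [norm_eq_sqrt_re_inner (𝕜 := ℂ), norm_eq_sqrt_re_inner (𝕜 := ℂ) η, h.inner]

omit [CompleteSpace H] in
theorem IsConj.inner_left (h : IsConj J) (η ζ : H) : ⟪J η, ζ⟫_ℂ = ⟪J ζ, η⟫_ℂ := by
  rw [← h.inner η (J ζ), h.inv]

omit [CompleteSpace H] in
theorem IsConj.inj (h : IsConj J) {η ζ : H} (e : J η = J ζ) : η = ζ := by
  rw [← h.inv η, e, h.inv]

theorem rt_apply (x : H →L[ℂ] H) (η : H) : rt J x η = J (star x (J η)) := rfl

theorem rt_add (x y : H →L[ℂ] H) : rt J (x + y) = rt J x + rt J y := by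
  ext η
  simp [rt_apply]

theorem rt_sub (x y : H →L[ℂ] H) : rt J (x - y) = rt J x - rt J y := by
  ext η
  simp [rt_apply]

theorem rt_neg (x : H →L[ℂ] H) : rt J (-x) = -rt J x := by
  ext η
  simp [rt_apply]

theorem rt_zero : rt J 0 = 0 := by
  ext η
  simp [rt_apply]

theorem rt_smul (c : ℂ) (x : H →L[ℂ] H) : rt J (c • x) = c • rt J x := by
  ext η
  simp [rt_apply]

theorem rt_sum {ι : Type*} (t : Finset ι) (x : ι → (H →L[ℂ] H)) :
    rt J (∑ i ∈ t, x i) = ∑ i ∈ t, rt J (x i) := by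
  classical
  induction t using Finset.induction_on with
  | empty => simp [rt_zero]
  | insert a t ha ih => rw [Finset.sum_insert ha, Finset.sum_insert ha, rt_add, ih]

theorem IsConj.rt_one (h : IsConj J) : rt J 1 = 1 := by
  ext η
  simp [rt_apply, h.inv]

theorem IsConj.rt_mul (h : IsConj J) (x y : H →L[ℂ] H) : rt J (x * y) = rt J y * rt J x := by
  ext η
  simp [rt_apply, h.inv]

theorem IsConj.rt_mul_apply (h : IsConj J) (x y : H →L[ℂ] H) (η : H) :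
    rt J (x * y) η = rt J y (rt J x η) := by
  rw [h.rt_mul]; rfl

theorem IsConj.inner_rt_left (h : IsConj J) (x : H →L[ℂ] H) (η ζ : H) :
    ⟪rt J x η, ζ⟫_ℂ = ⟪η, rt J (star x) ζ⟫_ℂ := by
  rw [rt_apply, rt_apply, h.inner_left, inner_star_right, star_star, ← h.inner, h.inv]

theorem IsConj.inner_rt_right (h : IsConj J) (x : H →L[ℂ] H) (η ζ : H) :
    ⟪η, rt J x ζ⟫_ℂ = ⟪rt J (star x) η, ζ⟫_ℂ := by
  rw [h.inner_rt_left, star_star]

theorem IsConj.rt_star (h : IsConj J) (x : H →L[ℂ] H) : star (rt J x) = rt J (star x) := by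
  ext η
  refine ext_inner_left ℂ fun ζ => ?_
  rw [inner_star_right, h.inner_rt_left]

theorem IsConj.J_apply (h : IsConj J) (x : H →L[ℂ] H) (η : H) : J (x η) = rt J (star x) (J η) := by
  rw [rt_apply, star_star, h.inv]

theorem IsConj.J_rt (h : IsConj J) (x : H →L[ℂ] H) (η : H) : J (rt J x η) = star x (J η) := by
  rw [rt_apply, h.inv]

theorem IsConj.rt_rt (h : IsConj J) (x : H →L[ℂ] H) : rt J (rt J x) = x := by
  ext η
  rw [rt_apply, h.rt_star, h.J_rt, star_star, h.inv]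

theorem IsConj.norm_rt_apply (h : IsConj J) (x : H →L[ℂ] H) (η : H) :
    ‖rt J x η‖ = ‖star x (J η)‖ := by
  rw [rt_apply, h.norm]

theorem IsConj.norm_rt_le (h : IsConj J) (x : H →L[ℂ] H) (η : H) : ‖rt J x η‖ ≤ ‖x‖ * ‖η‖ := by
  rw [h.norm_rt_apply, ← h.norm η, ← norm_star x]
  exact (star x).le_opNorm _

theorem IsConj.norm_rt (h : IsConj J) (x : H →L[ℂ] H) : ‖rt J x‖ = ‖x‖ := by
  have k : ∀ x : H →L[ℂ] H, ‖rt J x‖ ≤ ‖x‖ := fun x =>
    ContinuousLinearMap.opNorm_le_bound _ (norm_nonneg _) (h.norm_rt_le x)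
  refine le_antisymm (k x) ?_
  have := k (rt J x)
  rwa [h.rt_rt] at this

theorem IsConj.norm_rt_fix (h : IsConj J) {ζ : H} (hζ : J ζ = ζ) (x : H →L[ℂ] H) :
    ‖rt J x ζ‖ = ‖star x ζ‖ := by
  rw [h.norm_rt_apply, hζ]

theorem IsConj.rt_proj (h : IsConj J) {e : H →L[ℂ] H} (he : IsStarProjection e) :
    IsStarProjection (rt J e) := by
  refine ⟨?_, ?_⟩
  · show rt J e * rt J e = rt J e
    rw [← h.rt_mul, he.isIdempotentElem]
  · show star (rt J e) = rt J e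
    rw [h.rt_star, he.isSelfAdjoint.star_eq]

theorem IsConj.tendsto_rt (_h : IsConj J) {ι : Type*} {l : Filter ι} {x : ι → (H →L[ℂ] H)}
    {a : H →L[ℂ] H} (hx : ∀ η, Tendsto (fun i => star (x i) η) l (𝓝 (star a η))) (η : H) :
    Tendsto (fun i => rt J (x i) η) l (𝓝 (rt J a η)) :=
  (J.continuous.tendsto _).comp (hx (J η))

theorem IsConj.sc_rt (h : IsConj J) {g : ℝ → (H →L[ℂ] H)} (hg : SC fun t => star (g t)) :
    SC fun t => rt J (g t) := by
  obtain ⟨h1, C, hC⟩ := hg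
  refine ⟨fun η => J.continuous.comp (h1 (J η)), C, fun t => ?_⟩
  rw [h.norm_rt, ← norm_star]
  exact hC t

theorem IsConj.grow_rt (h : IsConj J) {ι : Type*} [Fintype ι] {C : ℝ} {w : ι → (H →L[ℂ] H)}
    (hw : GRow C w) : GRow C fun i => rt J (star (w i)) := by
  intro z
  have := hw fun a => J (z a)
  simp only [h.norm] at this
  simp only [rt_apply, star_star]
  rwa [← map_sum, h.norm]

theorem Bi.comm (h : Bi M J) {x y : H →L[ℂ] H} (hx : x ∈ M) (hy : y ∈ M) :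
    x * rt J y = rt J y * x :=
  (commute_of_mem M (h.rt_mem y hy) hx).eq.symm

theorem Bi.comm_apply (h : Bi M J) {x y : H →L[ℂ] H} (hx : x ∈ M) (hy : y ∈ M) (η : H) :
    x (rt J y η) = rt J y (x η) :=
  congrArg (fun T : H →L[ℂ] H => T η) (h.comm hx hy)

theorem Bi.rt_mem' (h : Bi M J) {y : H →L[ℂ] H} (hy : y ∈ M.commutant) : rt J y ∈ M := by
  obtain ⟨x, hx, rfl⟩ := h.rt_surj y hy
  rwa [h.cj.rt_rt]

/-- `‖e ζ f‖ = ‖f* ζ e*‖` for a self conjugate vector. -/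
theorem Bi.norm_flip (h : Bi M J) {ζ : H} (hζ : J ζ = ζ) {x y : H →L[ℂ] H} (hx : x ∈ M)
    (hy : y ∈ M) : ‖x (rt J y ζ)‖ = ‖star y (rt J (star x) ζ)‖ := by
  rw [← h.cj.norm, h.cj.J_apply, h.cj.J_rt, hζ, h.comm_apply (star_mem hy) (star_mem hx)]

theorem IsConj.J_df (h : IsConj J) {ζ₁ ζ₂ : H} (h₁ : J ζ₁ = ζ₁) (h₂ : J ζ₂ = ζ₂) (c : ℝ)
    (x : H →L[ℂ] H) : J (df J c x ζ₁ ζ₂) = (c : ℂ) • rt J (star x) ζ₁ - star x ζ₂ := by
  rw [df, map_sub, map_smulₛₗ, h.J_apply, h.J_rt, h₁, h₂, Complex.conj_ofReal]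

theorem IsSupp.rt_fix {e : H →L[ℂ] H} {ζ : H} (h : IsSupp M J e ζ) (_hJ : IsConj J)
    (hζ : J ζ = ζ) : rt J e ζ = ζ := by
  rw [rt_apply, hζ, h.proj.isSelfAdjoint.star_eq, h.fix, hζ]

theorem IsSupp.eq_zero {e : H →L[ℂ] H} {ζ : H} (h : IsSupp M J e ζ) (hB : Bi M J)
    {x : H →L[ℂ] H} (hx : x ∈ M) (hxe : x * e = x) (h0 : x ζ = 0) : x = 0 := by
  rw [← hxe]
  refine h.faith x hx ?_
  rw [hB.comm_apply hx (star_mem hx), h0, map_zero]

theorem Sep.cyc_comm (h : Sep M ξ) : Cyc M.commutant ξ := by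
  let N : Submodule ℂ H :=
    { carrier := {z | ∃ y ∈ M.commutant, y ξ = z}
      add_mem' := by
        rintro _ _ ⟨y, hy, rfl⟩ ⟨y', hy', rfl⟩
        exact ⟨y + y', add_mem hy hy', rfl⟩
      zero_mem' := ⟨0, zero_mem _, rfl⟩
      smul_mem' := by
        rintro c _ ⟨y, hy, rfl⟩
        exact ⟨c • y, M.commutant.toStarSubalgebra.smul_mem hy c, rfl⟩ }
  let K := N.topologicalClosure
  have hs : IsStarProjection K.starProjection := isStarProjection_starProjection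
  have hM : K.starProjection ∈ M := by
    refine (VonNeumannAlgebra.IsStarProjection.mem_iff hs M).2 fun y hy => ?_
    rw [Submodule.range_starProjection, Module.End.mem_invtSubmodule]
    refine Submodule.topologicalClosure_minimal _ ?_
      (N.isClosed_topologicalClosure.preimage y.continuous)
    rintro _ ⟨y', hy', rfl⟩
    exact Submodule.le_topologicalClosure N ⟨y * y', mul_mem hy hy', rfl⟩
  have h1 : K.starProjection ξ = ξ :=
    Submodule.starProjection_eq_self_iff.2 (Submodule.le_topologicalClosure _ ⟨1, one_mem _, rfl⟩)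
  have h2 : K.starProjection = 1 :=
    (sub_eq_zero.1 (h _ (sub_mem (one_mem _) hM) (sub_eq_zero.2 h1.symm))).symm
  intro η ε hε
  have hm : K.starProjection η ∈ closure (N : Set H) := K.starProjection_apply_mem η
  rw [h2] at hm
  obtain ⟨_, ⟨y, hy, rfl⟩, hd⟩ := Metric.mem_closure_iff.1 hm ε hε
  exact ⟨y, hy, by rw [← dist_eq_norm]; exact hd.le⟩

theorem Cyc.ext (h : Cyc M ξ) {E : Type*} [TopologicalSpace E] [T2Space E] {f g : H → E}
    (hf : Continuous f) (hg : Continuous g) (e : ∀ x ∈ M, f (x ξ) = g (x ξ)) (η : H) : f η = g η := by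
  refine (isClosed_eq hf hg).closure_subset (Metric.mem_closure_iff.2 fun ε hε => ?_)
  obtain ⟨x, hx, hd⟩ := h η (ε / 2) (half_pos hε)
  exact ⟨x ξ, e x hx, by rw [dist_eq_norm]; linarith⟩

theorem Cyc.sep_comm (h : Cyc M ξ) : Sep M.commutant ξ := by
  intro y hy h0
  ext η
  refine h.ext y.continuous continuous_const (fun x hx => ?_) η
  show (y * x) ξ = 0
  rw [(commute_of_mem M hy hx).eq]
  show x (y ξ) = 0
  rw [h0, map_zero]

theorem Sep.ext (h : Sep M ξ) {x y : H →L[ℂ] H} (hx : x ∈ M) (hy : y ∈ M) (e : x ξ = y ξ) :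
    x = y :=
  sub_eq_zero.1 (h _ (sub_mem hx hy) (sub_eq_zero.2 e))

theorem Bi.cyc_of_sep (h : Bi M J) (hξ : J ξ = ξ) (hs : Sep M ξ) : Cyc M ξ := by
  intro η ε hε
  obtain ⟨y, hy, hd⟩ := hs.cyc_comm (J η) ε hε
  obtain ⟨x, hx, rfl⟩ := h.rt_surj y hy
  refine ⟨star x, star_mem hx, ?_⟩
  rwa [rt_apply, hξ, ← map_sub, h.cj.norm] at hd

theorem Sep.unif (h : Sep M ξ) (η : H) (C : ℝ) {ε : ℝ} (hε : 0 < ε) :
    ∃ δ : ℝ, 0 < δ ∧ ∀ x ∈ M, ‖x‖ ≤ C → ‖x ξ‖ ≤ δ → ‖x η‖ ≤ ε := by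
  have hC : 0 < |C| + 1 := by positivity
  obtain ⟨y, hy, hd⟩ := h.cyc_comm η (ε / 2 / (|C| + 1)) (by positivity)
  have hy1 : 0 < ‖y‖ + 1 := by positivity
  refine ⟨ε / 2 / (‖y‖ + 1), by positivity, fun x hx h1 h2 => ?_⟩
  have e : x η = x (η - y ξ) + y (x ξ) := by
    have : y (x ξ) = x (y ξ) :=
      congrArg (fun T : H →L[ℂ] H => T ξ) (commute_of_mem M hy hx).eq
    rw [this, map_sub, sub_add_cancel]
  have a1 : ‖x (η - y ξ)‖ ≤ ε / 2 := by
    calc ‖x (η - y ξ)‖ ≤ ‖x‖ * ‖η - y ξ‖ := x.le_opNorm _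
      _ ≤ (|C| + 1) * (ε / 2 / (|C| + 1)) := by
        gcongr
        linarith [le_abs_self C]
      _ = ε / 2 := by field_simp
  have a2 : ‖y (x ξ)‖ ≤ ε / 2 := by
    calc ‖y (x ξ)‖ ≤ ‖y‖ * ‖x ξ‖ := y.le_opNorm _
      _ ≤ (‖y‖ + 1) * (ε / 2 / (‖y‖ + 1)) := by
        gcongr
        linarith
      _ = ε / 2 := by field_simp
  rw [e]
  linarith [norm_add_le (x (η - y ξ)) (y (x ξ))]

theorem Sep.tendsto (h : Sep M ξ) {ι : Type*} {l : Filter ι} {x : ι → (H →L[ℂ] H)} {C : ℝ}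
    (hx : ∀ᶠ i in l, x i ∈ M ∧ ‖x i‖ ≤ C) {a : H →L[ℂ] H} (ha : a ∈ M)
    (h0 : Tendsto (fun i => x i ξ) l (𝓝 (a ξ))) (η : H) :
    Tendsto (fun i => x i η) l (𝓝 (a η)) := by
  refine Metric.tendsto_nhds.2 fun ε hε => ?_
  obtain ⟨δ, hδ, k⟩ := h.unif η (C + ‖a‖) (half_pos hε)
  filter_upwards [hx, Metric.tendsto_nhds.1 h0 δ hδ] with i hi hd
  rw [dist_eq_norm] at hd ⊢
  exact (k (x i - a) (sub_mem hi.1 ha) ((norm_sub_le _ _).trans (by linarith [hi.2]))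
    hd.le).trans_lt (half_lt_self hε)

theorem Sep.tendsto_zero (h : Sep M ξ) {x : ℕ → (H →L[ℂ] H)} (hx : Bd M x)
    (h0 : Tendsto (fun i => x i ξ) atTop (𝓝 0)) (η : H) : Tendsto (fun i => x i η) atTop (𝓝 0) := by
  obtain ⟨h1, C, hC⟩ := hx
  exact h.tendsto (a := 0) (Eventually.of_forall fun i => ⟨h1 i, hC i⟩) (zero_mem _) h0 η

theorem Sep.exists_lim (h : Sep M ξ) {ι : Type*} {l : Filter ι} [l.NeBot]
    {x : ι → (H →L[ℂ] H)} {C : ℝ} (hx : ∀ᶠ i in l, x i ∈ M ∧ ‖x i‖ ≤ C) {η₀ : H}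
    (h0 : Tendsto (fun i => x i ξ) l (𝓝 η₀)) :
    ∃ a ∈ M, ‖a‖ ≤ C ∧ a ξ = η₀ ∧ ∀ η, Tendsto (fun i => x i η) l (𝓝 (a η)) := by
  have hc : ∀ η, ∃ ζ, Tendsto (fun i => x i η) l (𝓝 ζ) := by
    intro η
    refine cauchy_map_iff_exists_tendsto.1 (Metric.cauchy_iff.2 ⟨inferInstance, fun ε hε => ?_⟩)
    obtain ⟨δ, hδ, k⟩ := h.unif η (C + C) (half_pos hε)
    have h1 := hx.and (Metric.tendsto_nhds.1 h0 (δ / 2) (half_pos hδ))
    refine ⟨_, image_mem_map h1, ?_⟩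
    rintro _ ⟨i, hi, rfl⟩ _ ⟨j, hj, rfl⟩
    rw [dist_eq_norm]
    refine (k (x i - x j) (sub_mem hi.1.1 hj.1.1)
      ((norm_sub_le _ _).trans (add_le_add hi.1.2 hj.1.2)) ?_).trans_lt (half_lt_self hε)
    have := dist_triangle_right (x i ξ) (x j ξ) η₀
    rw [dist_eq_norm] at this
    exact this.trans (by linarith [hi.2, hj.2])
  choose f hf using hc
  let a := ContinuousLinearMap.ofMemClosureImageCoeBounded f
    (s := Metric.closedBall (0 : H →L[ℂ] H) C) Metric.isBounded_closedBall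
    (mem_closure_of_tendsto (tendsto_pi_nhds.2 hf) (hx.mono fun i hi =>
      Set.mem_image_of_mem _ (mem_closedBall_zero_iff.2 hi.2)))
  have ha : ∀ η, Tendsto (fun i => x i η) l (𝓝 (a η)) := hf
  obtain ⟨i0, hi0⟩ := hx.exists
  refine ⟨a, mem_of_commute M fun y hy => ?_, ?_, tendsto_nhds_unique (ha ξ) h0, ha⟩
  · ext η
    refine tendsto_nhds_unique ((y.continuous.tendsto _).comp (ha η))
      ((ha (y η)).congr' (hx.mono fun i hi => ?_))
    exact congrArg (fun T : H →L[ℂ] H => T η) (commute_of_mem M hy hi.1).eq.symm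
  · refine ContinuousLinearMap.opNorm_le_bound _ ((norm_nonneg _).trans hi0.2) fun η => ?_
    exact le_of_tendsto (ha η).norm (hx.mono fun i hi => (x i).le_of_opNorm_le hi.2 η)

theorem mem_gr {x : H →L[ℂ] H} (hx : x ∈ M) : (x ξ, star x ξ) ∈ gr M ξ :=
  subset_closure ⟨x, hx, rfl⟩

end Vale.Agent.P132
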