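import Vale.Agent.P132.FC3
import Vale.Agent.P132.RtA

/-! Right multiplication, separating vectors, modular data. -/

open scoped InnerProductSpace Topology ComplexConjugate
open Filter MeasureTheory

namespace Vale.Agent.P132

open Vale.Agent.P104

variable {H : Type*} [NormedAddCommGroup H] [InnerProductSpace ℂ H] [CompleteSpace H]
  {M : VonNeumannAlgebra H} {J : H →L⋆[ℂ] H} {P : Set H} {ξ : H} {F : FC H}

theorem Pre.J_V {G : Set (H × H)} (h : Pre G J F) (t : ℝ) (η : H) : J (F.V t η) = F.V t (J η) := by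
  have : (fun s => conj (ex t (-s))) = ex t := funext fun s => by
    rw [conj_ex]
    simp [ex]
  rw [FC.V, h.refl _ (bc_ex t), this]

theorem Pre.σ_rt {G : Set (H × H)} (h : Pre G J F) (t : ℝ) (x : H →L[ℂ] H) :
    F.σ t (rt J x) = rt J (F.σ t x) := by
  ext η
  rw [rt_apply, F.σ_star, F.σ_apply₃, F.σ_apply₃, rt_apply, h.J_V, h.J_V]

theorem Pre.V_rt {G : Set (H × H)} (h : Pre G J F) (t : ℝ) (x : H →L[ℂ] H) (η : H) :
    F.V t (rt J x η) = rt J (F.σ t x) (F.V t η) := by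
  rw [← h.σ_rt, F.σ_V]

theorem Pre.J_fa {G : Set (H × H)} (h : Pre G J F) (η : H) : J (F.f fa η) = F.f fb (J η) := by
  have : (fun s => conj (fa (-s))) = fb := funext fun s => by rw [fa_neg, conj_fb]
  rw [h.refl _ bc_fa, this]

theorem Pre.J_fb {G : Set (H × H)} (h : Pre G J F) (η : H) : J (F.f fb η) = F.f fa (J η) := by
  have : (fun s => conj (fb (-s))) = fa := funext fun s => by rw [← fa_neg, neg_neg, conj_fa]
  rw [h.refl _ bc_fb, this]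

theorem Pre.exists_rho (h : Pre (gr M ξ) J F) {x : H →L[ℂ] H} (hx : x ∈ M) :
    ∃ ρ, x ξ = F.f fa ρ ∧ J (star x ξ) = F.f fb ρ :=
  (h.graph _ _).1 (mem_gr hx)

theorem Pre.approx (h : Pre (gr M ξ) J F) (ρ : H) {ε : ℝ} (hε : 0 < ε) :
    ∃ x ∈ M, ‖F.f fa ρ - x ξ‖ ≤ ε ∧ ‖F.f fb ρ - J (star x ξ)‖ ≤ ε := by
  have h1 : (F.f fa ρ, J (F.f fb ρ)) ∈ gr M ξ := (h.graph _ _).2 ⟨ρ, rfl, h.cj.inv _⟩
  obtain ⟨_, ⟨x, hx, rfl⟩, hd⟩ := Metric.mem_closure_iff.1 h1 ε hε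
  rw [Prod.dist_eq, max_lt_iff, dist_eq_norm, dist_eq_norm] at hd
  refine ⟨x, hx, hd.1.le, ?_⟩
  rw [← h.cj.norm, map_sub, h.cj.inv]
  exact hd.2.le

theorem RtAux.inter {J' : H →L⋆[ℂ] H} {ξ' : H} {F' : FC H} (h : Pre (gr M ξ) J F)
    (h' : Pre (gr M ξ') J' F') (A A' : H →L[ℂ] H)
    (h1 : ∀ x ∈ M, ∃ x' ∈ M, A (x ξ) = x' ξ' ∧ A' (J (star x ξ)) = J' (star x' ξ')) (ρ : H) :
    ∃ ρ', A (F.f fa ρ) = F'.f fa ρ' ∧ A' (F.f fb ρ) = F'.f fb ρ' := by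
  have h2 : (F.f fa ρ, J (F.f fb ρ)) ∈ gr M ξ := (h.graph _ _).2 ⟨ρ, rfl, h.cj.inv _⟩
  have h3 : (A (F.f fa ρ), J' (A' (J (J (F.f fb ρ))))) ∈ gr M ξ' := by
    refine map_mem_closure (f := fun p : H × H => (A p.1, J' (A' (J p.2)))) (by fun_prop) h2 ?_
    rintro _ ⟨x, hx, rfl⟩
    obtain ⟨x', hx', e1, e2⟩ := h1 x hx
    exact ⟨x', hx', by simp only [e1, e2, h'.cj.inv]⟩
  obtain ⟨ρ', e1, e2⟩ := (h'.graph _ _).1 h3
  rw [h'.cj.inv, h.cj.inv] at e2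
  exact ⟨ρ', e1, e2⟩

/-- Operators that respect both Tomita graphs intertwine the two calculi. -/
theorem Pre.inter {J' : H →L⋆[ℂ] H} {ξ' : H} {F' : FC H} (h : Pre (gr M ξ) J F)
    (h' : Pre (gr M ξ') J' F') (A A' : H →L[ℂ] H)
    (h1 : ∀ x ∈ M, ∃ x' ∈ M, A (x ξ) = x' ξ' ∧ A' (J (star x ξ)) = J' (star x' ξ'))
    (h2 : ∀ x' ∈ M, ∃ x ∈ M, star A (x' ξ') = x ξ ∧ star A' (J' (star x' ξ')) = J (star x ξ))
    {g : ℝ → ℂ} (hg : BC g) (η : H) : A (F.f g η) = F'.f g (A η) :=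
  F.inter_of_graph F' A A' (RtAux.inter h h' A A' h1) (RtAux.inter h' h (star A) (star A') h2) hg η

/-- The geometric mean of `fa` and `fb`. -/
noncomputable def RtAux.gm (s : ℝ) : ℂ := ((√(‖fa s‖ * ‖fb s‖) : ℝ) : ℂ)

theorem RtAux.bc_gm : BC RtAux.gm := by
  obtain ⟨C, hC, h⟩ := bc_fa.bound
  obtain ⟨D, -, h'⟩ := bc_fb.bound
  refine ⟨Complex.continuous_ofReal.comp (bc_fa.1.norm.mul bc_fb.1.norm).sqrt, √(C * D),
    fun s => ?_⟩
  rw [RtAux.gm, Complex.norm_real, Real.norm_of_nonneg (Real.sqrt_nonneg _)]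
  exact Real.sqrt_le_sqrt (mul_le_mul (h s) (h' s) (norm_nonneg _) hC)

theorem RtAux.gm_ne (s : ℝ) : RtAux.gm s ≠ 0 :=
  Complex.ofReal_ne_zero.2 (Real.sqrt_ne_zero'.2
    (mul_pos (norm_pos_iff.2 (fa_ne_zero s)) (norm_pos_iff.2 (fb_ne_zero s))))

theorem RtAux.gm_sq (s : ℝ) : conj (RtAux.gm s) * RtAux.gm s = conj (fa s) * fb s := by
  rw [RtAux.gm, Complex.conj_ofReal, ← Complex.ofReal_mul, Real.mul_self_sqrt (by positivity),
    conj_fa, fa, fb, Complex.norm_real, Complex.norm_real, Real.norm_of_nonneg (Real.sqrt_nonneg _),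
    Real.norm_of_nonneg (Real.sqrt_nonneg _), Complex.ofReal_mul]

theorem RtAux.inner_ab (F : FC H) (ρ : H) :
    (⟪F.f fa ρ, F.f fb ρ⟫_ℂ).re = ‖F.f RtAux.gm ρ‖ ^ 2 := by
  rw [← inner_self_eq_norm_sq (𝕜 := ℂ), F.inner_f bc_fa, F.inner_f RtAux.bc_gm,
    F.f_f bc_fa.cj bc_fb, F.f_f RtAux.bc_gm.cj RtAux.bc_gm]
  simp only [RtAux.gm_sq]
  rfl

theorem RtAux.supp_of_fa {ρ : H} {S : Set ℝ} (hS : IsClosed S) (h : F.Supp (F.f fa ρ) S) :
    F.Supp ρ S := by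
  refine (F.supp_iff hS).2 fun g hg h0 => F.inj bc_fa fa_ne_zero ?_
  have := congrArg (fun T : H →L[ℂ] H => T ρ) (F.f_comm bc_fa hg)
  exact this.trans ((F.supp_iff hS).1 h g hg h0)

theorem RtAux.ex_zero' (t : ℝ) : ex t 0 = 1 := by rw [ex_comm, ex_zero]

namespace Mod

theorem cj (h : Mod M J ξ F) : IsConj J := h.bi.cj

theorem rt_xi (h : Mod M J ξ F) (x : H →L[ℂ] H) : rt J x ξ = J (star x ξ) := by
  rw [rt_apply, h.fix]

theorem exists_rho (h : Mod M J ξ F) {x : H →L[ℂ] H} (hx : x ∈ M) :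
    ∃ ρ, x ξ = F.f fa ρ ∧ rt J x ξ = F.f fb ρ := by
  rw [h.rt_xi]
  exact h.pre.exists_rho hx

theorem approx (h : Mod M J ξ F) (ρ : H) {ε : ℝ} (hε : 0 < ε) :
    ∃ x ∈ M, ‖F.f fa ρ - x ξ‖ ≤ ε ∧ ‖F.f fb ρ - rt J x ξ‖ ≤ ε := by
  simp only [h.rt_xi]
  exact h.pre.approx ρ hε

theorem f_rt (h : Mod M J ξ F) {x : H →L[ℂ] H} (hx : x ∈ M) {g k : ℝ → ℂ} (hg : BC g)
    (hk : BC k) (e : ∀ s, k s = (Real.exp (s / 2) : ℝ) * g s) : F.f g (rt J x ξ) = F.f k (x ξ) := by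
  obtain ⟨ρ, e1, e2⟩ := h.exists_rho hx
  rw [e1, e2, F.f_f hg bc_fb, F.f_f hk bc_fa]
  congr 2
  funext s
  rw [e, fb_eq]
  ring

theorem good (h : Mod M J ξ F) {w : H →L[ℂ] H} (hw : w ∈ M) :
    0 ≤ (⟪ξ, w (rt J (star w) ξ)⟫_ℂ).re := by
  obtain ⟨ρ, e1, e2⟩ := h.exists_rho (star_mem hw)
  rw [← inner_star_left, e1, e2, RtAux.inner_ab]
  positivity

theorem isSupp_one (h : Mod M J ξ F) : IsSupp M J 1 ξ := by
  refine ⟨one_mem _, IsStarProjection.one _, rfl, fun x hx h0 => ?_⟩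
  obtain ⟨ρ, e1, e2⟩ := h.exists_rho (star_mem hx)
  have := RtAux.inner_ab F ρ
  rw [← e1, ← e2, inner_star_left, h0, inner_zero_right, Complex.zero_re] at this
  have h1 : ρ = 0 := F.inj RtAux.bc_gm RtAux.gm_ne
    (norm_eq_zero.1 (pow_eq_zero_iff two_ne_zero |>.1 this.symm))
  rw [h1, map_zero] at e1
  rw [mul_one, ← star_eq_zero]
  exact h.sep _ (star_mem hx) e1

theorem V_xi (h : Mod M J ξ F) (t : ℝ) : F.V t ξ = ξ := by
  rw [FC.V, h.f_xi _ (bc_ex t), RtAux.ex_zero', one_smul]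

theorem σ_xi (h : Mod M J ξ F) (t : ℝ) (x : H →L[ℂ] H) : F.σ t x ξ = F.V t (x ξ) := by
  rw [← F.σ_V, h.V_xi]

theorem rt_σ_xi (h : Mod M J ξ F) (t : ℝ) (x : H →L[ℂ] H) :
    rt J (F.σ t x) ξ = F.V t (rt J x ξ) := by
  rw [h.pre.V_rt, h.V_xi]

theorem df_σ (h : Mod M J ξ F) (c t : ℝ) (x : H →L[ℂ] H) :
    df J c (F.σ t x) ξ ξ = F.V t (df J c x ξ ξ) := by
  rw [df, df, h.σ_xi, h.rt_σ_xi, map_sub, map_smul]

theorem rt_inj (h : Mod M J ξ F) {x : H →L[ℂ] H} (hx : x ∈ M) (h0 : rt J x ξ = 0) : x = 0 := by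
  rw [h.rt_xi, ← map_zero J] at h0
  exact star_eq_zero.1 (h.sep _ (star_mem hx) (h.cj.inj h0))

theorem tendsto_rt (h : Mod M J ξ F) {x : ℕ → (H →L[ℂ] H)} (hx : Bd M x)
    (h0 : Tendsto (fun i => rt J (x i) ξ) atTop (𝓝 0)) (η : H) :
    Tendsto (fun i => rt J (x i) η) atTop (𝓝 0) := by
  obtain ⟨h1, C, hC⟩ := hx
  have h2 : Tendsto (fun i => star (x i) ξ) atTop (𝓝 0) := by
    have := (J.continuous.tendsto _).comp h0
    simpa only [Function.comp_def, h.cj.J_rt, h.fix, map_zero] using this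
  have h3 := h.sep.tendsto_zero (x := fun i => star (x i))
    ⟨fun i => star_mem (h1 i), C, fun i => (norm_star _).trans_le (hC i)⟩ h2 (J η)
  simpa only [Function.comp_def, map_zero, ← rt_apply] using (J.continuous.tendsto _).comp h3

theorem inter {ξ' : H} {F' : FC H} (h : Mod M J ξ F) (h' : Mod M J ξ' F') (A : H →L[ℂ] H)
    (h1 : ∀ x ∈ M, ∃ x' ∈ M, A (x ξ) = x' ξ' ∧ A (rt J x ξ) = rt J x' ξ')
    (h2 : ∀ x' ∈ M, ∃ x ∈ M, star A (x' ξ') = x ξ ∧ star A (rt J x' ξ') = rt J x ξ)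
    {g : ℝ → ℂ} (hg : BC g) (η : H) : A (F.f g η) = F'.f g (A η) := by
  simp only [h.rt_xi, h'.rt_xi] at h1 h2
  exact h.pre.inter h'.pre A A h1 h2 hg η

/-- Vectors with narrow spectrum are approximate eigenvectors. -/
theorem df_le_of_supp (h : Mod M J ξ F) {x : H →L[ℂ] H} (hx : x ∈ M) {s δ : ℝ} (hδ : 0 ≤ δ)
    (hδ1 : δ ≤ 1) (hS : F.Supp (x ξ) (Set.Icc (s - δ) (s + δ))) :
    ‖df J (Real.exp (s / 2)) x ξ ξ‖ ≤ δ * Real.exp (s / 2) * ‖x ξ‖ := by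
  obtain ⟨ρ, e1, e2⟩ := h.exists_rho hx
  rw [e1] at hS
  have hb := bc_fa.const_mul ((Real.exp (s / 2) : ℝ) : ℂ)
  have e3 : df J (Real.exp (s / 2)) x ξ ξ =
      F.f (fun u => ((Real.exp (s / 2) : ℝ) : ℂ) * fa u - fb u) ρ := by
    rw [F.f_sub hb bc_fb, F.f_const_mul _ bc_fa, df, e1, e2]
    rfl
  rw [e3, e1]
  refine F.norm_le_norm (hb.sub bc_fb) bc_fa (RtAux.supp_of_fa isClosed_Icc hS) (by positivity)
    fun u hu => ?_
  rw [fb_eq, ← sub_mul, norm_mul, ← Complex.ofReal_sub, Complex.norm_real, Real.norm_eq_abs]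
  refine mul_le_mul_of_nonneg_right ?_ (norm_nonneg _)
  have h1 : |(u - s) / 2| ≤ δ / 2 := by
    rw [abs_le]
    constructor <;> linarith [hu.1, hu.2]
  have h2 := Real.abs_exp_sub_one_le (h1.trans (by linarith))
  have h3 : Real.exp (s / 2) - Real.exp (u / 2) =
      -(Real.exp ((u - s) / 2) - 1) * Real.exp (s / 2) := by
    rw [neg_sub, sub_mul, one_mul, ← Real.exp_add]
    congr 2
    ring
  rw [h3, abs_mul, abs_neg, abs_of_pos (Real.exp_pos _)]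
  exact mul_le_mul_of_nonneg_right (by linarith) (Real.exp_pos _).le

theorem rt_of_supp (h : Mod M J ξ F) {x : H →L[ℂ] H} (hx : x ∈ M) {s : ℝ}
    (hS : F.Supp (x ξ) {s}) : rt J x ξ = (Real.exp (s / 2) : ℝ) • x ξ := by
  have := h.df_le_of_supp hx (s := s) le_rfl zero_le_one (hS.mono (by simp))
  rw [zero_mul, zero_mul, norm_le_zero_iff, df, sub_eq_zero] at this
  rw [← this, Complex.coe_smul]

theorem σ_of_supp (h : Mod M J ξ F) {x : H →L[ℂ] H} (hx : x ∈ M) {s : ℝ}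
    (hS : F.Supp (x ξ) {s}) (t : ℝ) : F.σ t x = ex t s • x := by
  refine h.sep.ext (h.sigma_mem t x hx) (M.toStarSubalgebra.smul_mem hx _) ?_
  rw [h.σ_xi]
  exact F.eigen_of_supp (bc_ex t) hS

theorem cen_of_σ (h : Mod M J ξ F) {c : H →L[ℂ] H} (hc : c ∈ M) (e : ∀ t, F.σ t c = c) :
    rt J c ξ = c ξ := by
  have : F.Supp (c ξ) {0} := F.supp_of_eigen fun t => by
    rw [← h.σ_xi, e, RtAux.ex_zero', one_smul]
  simpa using h.rt_of_supp hc this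

theorem σ_of_cen (h : Mod M J ξ F) {c : H →L[ℂ] H} (hc : c ∈ M) (e : rt J c ξ = c ξ) (t : ℝ) :
    F.σ t c = c := by
  obtain ⟨ρ, e1, e2⟩ := h.exists_rho hc
  have h1 : F.f (fun s => fa s - fb s) ρ = 0 := by
    rw [F.f_sub bc_fa bc_fb, sub_apply, ← e1, ← e2, e, sub_self]
  have h2 : F.Supp ρ {0} := (F.supp_of_f_eq_zero (bc_fa.sub bc_fb) h1).mono fun s hs => by
    have h3 : fa s - fb s = 0 := hs
    rw [fb_eq, ← one_sub_mul, mul_eq_zero, or_iff_left (fa_ne_zero s), sub_eq_zero, eq_comm,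
      Complex.ofReal_eq_one, Real.exp_eq_one_iff] at h3
    show s = 0
    linarith
  have h3 : F.Supp (c ξ) {0} := by
    rw [e1]
    exact F.supp_f bc_fa h2 isClosed_singleton fun s hs hs' => absurd hs hs'
  rw [h.σ_of_supp hc h3, RtAux.ex_zero', one_smul]

theorem comm_of_cen (h : Mod M J ξ F) {c : H →L[ℂ] H} (hc : c ∈ M) (e : rt J c ξ = c ξ)
    {g : ℝ → ℂ} (hg : BC g) : c * F.f g = F.f g * c := by
  ext η
  exact F.inter_of_V F c (fun t η => by rw [← F.σ_V, h.σ_of_cen hc e]) hg η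

theorem rt_comm_of_cen (h : Mod M J ξ F) {c : H →L[ℂ] H} (hc : c ∈ M) (e : rt J c ξ = c ξ)
    {g : ℝ → ℂ} (hg : BC g) : rt J c * F.f g = F.f g * rt J c := by
  ext η
  exact F.inter_of_V F (rt J c) (fun t η => by rw [h.pre.V_rt, h.σ_of_cen hc e]) hg η

end Mod

end Vale.Agent.P132
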