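import Vale.Agent.P132.OpInt

/-! Double operator integrals and the band lemma. -/

open scoped InnerProductSpace Topology ComplexConjugate
open Filter MeasureTheory

namespace Vale.Agent.P132

open Vale.Agent.P104

variable {H : Type*} [NormedAddCommGroup H] [InnerProductSpace ℂ H] [CompleteSpace H]

/-- Mesh of the `n`-th discretisation. -/
noncomputable def mesh₆ (n : ℕ) : ℝ := 1 / ((n : ℝ) + 1)

/-- Nodes of the `n`-th discretisation. -/
noncomputable def nodes₆ (n : ℕ) : Finset ℤ := Finset.Icc (-((n : ℤ) + 1) ^ 2) (((n : ℤ) + 1) ^ 2)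

/-- Piecewise linear interpolation of `b` with compact support. -/
noncomputable def disc₆ (n : ℕ) (b : ℝ → ℂ) (s : ℝ) : ℂ :=
  ∑ l ∈ nodes₆ n, b (l * mesh₆ n) * tri (l * mesh₆ n) (mesh₆ n) s

theorem mesh_pos₆ (n : ℕ) : 0 < mesh₆ n := by unfold mesh₆; positivity

theorem bc_disc₆ (n : ℕ) (b : ℝ → ℂ) : BC (disc₆ n b) :=
  BC.sum _ fun _ _ => (bc_tri _ (mesh_pos₆ n)).const_mul _

theorem sum_norm_tri_le₆ {ε : ℝ} (hε : 0 < ε) (s : ℝ) (t : Finset ℤ) :
    ∑ l ∈ t, ‖tri (l * ε) ε s‖ ≤ 1 := by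
  have h := norm_sum_tri_le hε s t
  have e : ∀ l : ℤ, ‖tri (l * ε) ε s‖ = max (1 - |s - l * ε| / ε) 0 := fun l => by
    rw [tri, Complex.norm_real, Real.norm_of_nonneg (le_max_right _ _)]
  simp only [tri, ← Complex.ofReal_sum, Complex.norm_real] at h
  simp only [e]
  exact (le_abs_self _).trans h

theorem norm_sum_mul_tri_le₆ {ε : ℝ} (hε : 0 < ε) (s : ℝ) (t : Finset ℤ) {c : ℤ → ℂ} {C : ℝ}
    (hC0 : 0 ≤ C) (hC : ∀ l : ℤ, |s - l * ε| < ε → ‖c l‖ ≤ C) :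
    ‖∑ l ∈ t, c l * tri (l * ε) ε s‖ ≤ C := by
  calc ‖∑ l ∈ t, c l * tri (l * ε) ε s‖ ≤ ∑ l ∈ t, C * ‖tri (l * ε) ε s‖ := by
        refine (norm_sum_le _ _).trans (Finset.sum_le_sum fun l _ => ?_)
        rw [norm_mul]
        rcases lt_or_ge |s - l * ε| ε with h | h
        · exact mul_le_mul_of_nonneg_right (hC l h) (norm_nonneg _)
        · simp [tri_eq_zero hε h]
    _ ≤ C := by
        rw [← Finset.mul_sum]
        exact mul_le_of_le_one_right hC0 (sum_norm_tri_le₆ hε s t)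

theorem norm_disc_le₆ (n : ℕ) {b : ℝ → ℂ} {C : ℝ} (hC : ∀ s, ‖b s‖ ≤ C) (s : ℝ) :
    ‖disc₆ n b s‖ ≤ C :=
  norm_sum_mul_tri_le₆ (mesh_pos₆ n) s _ ((norm_nonneg _).trans (hC 0)) fun _ _ => hC _

theorem mem_nodes₆ {n : ℕ} {s : ℝ} (hs : |s| ≤ n) (l : ℤ) (hl : |s - l * mesh₆ n| < mesh₆ n) :
    l ∈ nodes₆ n := by
  have hn : (0 : ℝ) < (n : ℝ) + 1 := by positivity
  have h1 : |(l : ℝ)| * mesh₆ n ≤ n + mesh₆ n := by
    have := abs_sub_abs_le_abs_sub (l * mesh₆ n) s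
    rw [abs_sub_comm, abs_mul, abs_of_pos (mesh_pos₆ n)] at this
    linarith
  have h2 : |(l : ℝ)| ≤ ((n : ℝ) + 1) ^ 2 := by
    have h3 := mul_le_mul_of_nonneg_right h1 hn.le
    have h4 : mesh₆ n * ((n : ℝ) + 1) = 1 := by unfold mesh₆; field_simp
    rw [mul_assoc, add_mul, h4] at h3
    nlinarith [Nat.cast_nonneg (α := ℝ) n]
  rw [nodes₆, Finset.mem_Icc, ← abs_le]
  exact_mod_cast h2

theorem tendsto_disc₆ {b : ℝ → ℂ} (hb : Continuous b) (s : ℝ) :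
    Tendsto (fun n => disc₆ n b s) atTop (𝓝 (b s)) := by
  rw [Metric.tendsto_nhds]
  intro γ hγ
  obtain ⟨δ, hδ, hb'⟩ := Metric.continuous_iff.1 hb s (γ / 2) (half_pos hγ)
  have h1 : ∀ᶠ n : ℕ in atTop, mesh₆ n < δ :=
    (tendsto_one_div_add_atTop_nhds_zero_nat (𝕜 := ℝ)).eventually (gt_mem_nhds hδ)
  have h2 : ∀ᶠ n : ℕ in atTop, |s| ≤ n := tendsto_natCast_atTop_atTop.eventually_ge_atTop _
  filter_upwards [h1, h2] with n h1 h2
  have e : disc₆ n b s - b s =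
      ∑ l ∈ nodes₆ n, (b (l * mesh₆ n) - b s) * tri (l * mesh₆ n) (mesh₆ n) s := by
    simp only [sub_mul, Finset.sum_sub_distrib, ← Finset.mul_sum]
    rw [sum_tri (mesh_pos₆ n) _ (mem_nodes₆ h2), mul_one, disc₆]
  rw [dist_eq_norm, e]
  refine (norm_sum_mul_tri_le₆ (mesh_pos₆ n) s _ (half_pos hγ).le fun l hl => ?_).trans_lt
    (half_lt_self hγ)
  rw [← dist_eq_norm]
  refine (hb' _ ?_).le
  rw [Real.dist_eq, abs_sub_comm]
  exact hl.trans h1

theorem ft_shift₆ (k : ℝ → ℂ) (a s : ℝ) : ft (fun t => k t * ex t (-a)) s = ft k (s - a) := by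
  simp only [ft, mul_assoc, ← ex_add']
  congr 1
  funext t
  rw [neg_add_eq_sub]

theorem integrable_shift₆ {k : ℝ → ℂ} (hk : Integrable k) (a : ℝ) :
    Integrable fun t => k t * ex t (-a) :=
  hk.mul_bdd (c := 1) (continuous_ex₅ _).aestronglyMeasurable
    (.of_forall fun _ => (norm_ex _ _).le)

namespace FC

variable (F : FC H)

theorem f_disc₆ (n : ℕ) (b : ℝ → ℂ) (η : H) : F.f (disc₆ n b) η =
    ∑ l ∈ nodes₆ n, b (l * mesh₆ n) • F.f (tri (l * mesh₆ n) (mesh₆ n)) η := by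
  have h := F.f_sum (nodes₆ n) (g := fun l s => b (l * mesh₆ n) * tri (l * mesh₆ n) (mesh₆ n) s)
    fun _ _ => (bc_tri _ (mesh_pos₆ n)).const_mul _
  rw [show disc₆ n b = _ from rfl]
  erw [h]
  simp only [F.f_const_mul _ (bc_tri _ (mesh_pos₆ n)), sum_apply, smul_apply]

theorem tendsto_f_disc₆ {b : ℝ → ℂ} (hb : BC b) (η : H) :
    Tendsto (fun n => F.f (disc₆ n b) η) atTop (𝓝 (F.f b η)) := by
  obtain ⟨C, hC⟩ := hb.2
  exact F.tendsto (.of_forall fun n => bc_disc₆ n b) hb (.of_forall fun n => norm_disc_le₆ n hC)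
    (tendsto_disc₆ hb.1) η

theorem smul_V_disc₆ (k : ℝ → ℂ) (b : ℝ → ℂ) (y : H →L[ℂ] H) (η : H) (n : ℕ) (t : ℝ) :
    k t • F.V t (y (F.f (disc₆ n fun s => ex (-t) s * b s) η)) =
      ∑ l ∈ nodes₆ n, b (l * mesh₆ n) • ((k t * ex t (-(l * mesh₆ n))) •
        F.V t (y (F.f (tri (l * mesh₆ n) (mesh₆ n)) η))) := by
  simp only [F.f_disc₆, map_sum, map_smul, Finset.smul_sum, smul_smul, ex_neg_comm₅]
  exact Finset.sum_congr rfl fun l _ => by congr 1; ring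

/-- Discretised form of the smearing. -/
theorem tendsto_sm₆ {k : ℝ → ℂ} (hk : Integrable k) {b : ℝ → ℂ} (hb : BC b) (y : H →L[ℂ] H)
    (η : H) : Tendsto (fun n => ∑ l ∈ nodes₆ n, b (l * mesh₆ n) •
      F.f (fun s => ft k (s - l * mesh₆ n)) (y (F.f (tri (l * mesh₆ n) (mesh₆ n)) η))) atTop
      (𝓝 (F.sm k y (F.f b η))) := by
  obtain ⟨C, hC⟩ := hb.2
  have hC0 : 0 ≤ C := (norm_nonneg _).trans (hC 0)
  have hI : ∀ n : ℕ, ∀ l ∈ nodes₆ n, Integrable fun t => b (l * mesh₆ n) •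
      ((k t * ex t (-(l * mesh₆ n))) • F.V t (y (F.f (tri (l * mesh₆ n) (mesh₆ n)) η))) :=
    fun n l _ => (F.integrable_V₃ (integrable_shift₆ hk _) _).smul (b (l * mesh₆ n))
  have h1 := tendsto_integral_of_dominated_convergence (μ := volume)
    (F := fun n t => k t • F.V t (y (F.f (disc₆ n fun s => ex (-t) s * b s) η)))
    (f := fun t => k t • F.V t (y (F.V (-t) (F.f b η))))
    (fun t => ‖k t‖ * (‖y‖ * (C * ‖η‖))) (fun n => ?_) (hk.norm.mul_const _)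
    (fun n => .of_forall fun t => ?_) (.of_forall fun t => ?_)
  · rw [F.sm_apply₅ hk]
    refine h1.congr fun n => ?_
    simp only [F.smul_V_disc₆]
    rw [integral_finsetSum _ (hI n)]
    refine Finset.sum_congr rfl fun l _ => ?_
    rw [integral_smul, F.integral_V (integrable_shift₆ hk _)]
    congr 3
    funext s
    exact ft_shift₆ k _ s
  · simp only [F.smul_V_disc₆]
    exact (integrable_finsetSum _ (hI n)).aestronglyMeasurable
  · rw [norm_smul, F.V_norm]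
    refine mul_le_mul_of_nonneg_left (y.le_opNorm_of_le ?_) (norm_nonneg _)
    refine F.norm_le (bc_disc₆ _ _) (F.supp_univ η) hC0 fun s _ => norm_disc_le₆ n (fun s => ?_) s
    rw [norm_mul, norm_ex, one_mul]
    exact hC s
  · have h2 := F.tendsto_f_disc₆ ((bc_ex (-t)).mul hb) η
    rw [← F.f_f (bc_ex (-t)) hb] at h2
    exact ((((F.V t).continuous.comp y.continuous).tendsto _).comp h2).const_smul (k t)

theorem doi {k : ℝ → ℂ} (hk : Integrable k) {ι κ : Type*} (t : Finset ι) (t' : Finset κ)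
    {g g' : ι → ℝ → ℂ} {h h' : κ → ℝ → ℂ} (hg : ∀ i ∈ t, BC (g i)) (hg' : ∀ i ∈ t, BC (g' i))
    (hh : ∀ j ∈ t', BC (h j)) (hh' : ∀ j ∈ t', BC (h' j))
    (E : ∀ s s', (∑ i ∈ t, g i s * g' i s') * ft k (s - s') = ∑ j ∈ t', h j s * h' j s')
    (y : H →L[ℂ] H) :
    ∑ i ∈ t, F.f (g i) * F.sm k y * F.f (g' i) = ∑ j ∈ t', F.f (h j) * y * F.f (h' j) := by
  ext η
  simp only [sum_apply]
  have t1 := tendsto_finsetSum t fun i hi =>
    ((F.f (g i)).continuous.tendsto _).comp (F.tendsto_sm₆ hk (hg' i hi) y η)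
  have t2 := tendsto_finsetSum t' fun j hj =>
    (((F.f (h j)).continuous.comp y.continuous).tendsto _).comp (F.tendsto_f_disc₆ (hh' j hj) η)
  refine tendsto_nhds_unique t1 (t2.congr fun n => ?_)
  simp only [Function.comp, F.f_disc₆, map_sum, map_smul]
  rw [Finset.sum_comm, Finset.sum_comm (s := t)]
  refine Finset.sum_congr rfl fun l _ => ?_
  set a : ℝ := l * mesh₆ n
  set w := y (F.f (tri a (mesh₆ n)) η)
  have hb : BC fun s => ft k (s - a) := by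
    have := bc_ft (integrable_shift₆ hk a)
    rwa [show ft (fun t => k t * ex t (-a)) = fun s => ft k (s - a) from
      funext (ft_shift₆ k a)] at this
  have e1 : ∑ j ∈ t', h' j a • F.f (h j) w = F.f (fun s => ∑ j ∈ t', h' j a * h j s) w := by
    rw [F.f_sum t' fun j hj => (hh j hj).const_mul _, sum_apply]
    exact Finset.sum_congr rfl fun j hj => by rw [F.f_const_mul _ (hh j hj), smul_apply]
  have e2 : ∑ i ∈ t, g' i a • F.f (g i) (F.f (fun s => ft k (s - a)) w) =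
      F.f (fun s => ∑ i ∈ t, g' i a * (g i s * ft k (s - a))) w := by
    rw [F.f_sum t fun i hi => ((hg i hi).mul hb).const_mul _, sum_apply]
    exact Finset.sum_congr rfl fun i hi => by
      rw [F.f_const_mul _ ((hg i hi).mul hb), smul_apply, F.f_f (hg i hi) hb]
  rw [e1, e2]
  congr 2
  funext s
  have := E s a
  rw [Finset.sum_mul] at this
  simp only [mul_comm (h' _ a), ← this]
  exact Finset.sum_congr rfl fun i _ => by ring

theorem inner_D_V₆ (D : H →L[ℂ] H) (r : ℝ) (a b : H) :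
    ⟪D (F.V r a), D (F.V r b)⟫_ℂ = ⟪a, F.σ (-r) (star D * D) b⟫_ℂ := by
  rw [F.σ_apply₃, neg_neg, ← F.V_inner r a, F.V_V_neg, ContinuousLinearMap.star_eq_adjoint,
    ← ContinuousLinearMap.adjoint_inner_right]
  rfl

theorem cross_zero₆ {ε ε' : ℝ} (hε' : 0 < ε') (hε : ε' ≤ ε) (x : H →L[ℂ] H) {k l : ℤ}
    (hkl : 3 ≤ |k - l|) (η : H) :
    mc ε' (fun r => ⟪F.f (tri (k * ε) ε) η, F.σ (-r) x (F.f (tri (l * ε) ε) η)⟫_ℂ) = 0 := by
  have h0 : 0 < ε := hε'.trans_le hε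
  have h := F.doi (integrable_fejc₅ hε') ({()} : Finset Unit) (∅ : Finset Unit)
    (g := fun _ => tri (k * ε) ε) (g' := fun _ => tri (l * ε) ε) (h := fun _ _ => 0)
    (h' := fun _ _ => 0) (fun _ _ => bc_tri _ h0) (fun _ _ => bc_tri _ h0) (by simp) (by simp)
    (fun s s' => ?_) x
  · rw [mc_comp_neg ε' fun r => ⟪F.f (tri (k * ε) ε) η, F.σ r x (F.f (tri (l * ε) ε) η)⟫_ℂ,
      mc_inner (F.sc_σ x) hε', F.inner_f_left₃ (bc_tri _ h0)]
    simp only [conj_tri]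
    rw [Finset.sum_singleton, Finset.sum_empty] at h
    exact (congrArg (fun T : H →L[ℂ] H => ⟪η, T η⟫_ℂ) h).trans (by simp)
  · rw [Finset.sum_singleton, Finset.sum_empty, ft_fej hε']
    rcases le_or_gt ε |s - k * ε| with h1 | h1
    · rw [tri_eq_zero h0 h1, zero_mul, zero_mul]
    rcases le_or_gt ε |s' - l * ε| with h2 | h2
    · rw [tri_eq_zero h0 h2, mul_zero, zero_mul]
    rw [tri_eq_zero (h := 0) hε', mul_zero]
    have h3 : (3 : ℝ) ≤ |(k : ℝ) - l| := by exact_mod_cast hkl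
    have h4 : |(k : ℝ) - l| * ε ≤ |s - k * ε| + |s' - l * ε| + |s - s'| := by
      rw [← abs_of_pos h0, ← abs_mul, abs_of_pos h0, abs_le]
      constructor <;> linarith [le_abs_self (s - k * ε), neg_abs_le (s - k * ε),
        le_abs_self (s' - l * ε), neg_abs_le (s' - l * ε), le_abs_self (s - s'),
        neg_abs_le (s - s')]
    rw [sub_zero]
    nlinarith

theorem mn_orth₆ {ε ε' : ℝ} (hε' : 0 < ε') (hε : ε' ≤ ε) (D : H →L[ℂ] H) (t : Finset ℤ)
    (ht : ∀ k ∈ t, ∀ l ∈ t, l ≠ k → 3 ≤ |k - l|) (η : H) :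
    mn ε' (fun r => ‖D (F.V r (∑ k ∈ t, F.f (tri (k * ε) ε) η))‖ ^ 2) =
      ∑ k ∈ t, mn ε' fun r => ‖D (F.V r (F.f (tri (k * ε) ε) η))‖ ^ 2 := by
  have e : ∀ r a, ‖D (F.V r a)‖ ^ 2 = (⟪a, F.σ (-r) (star D * D) a⟫_ℂ).re := fun r a => by
    rw [← F.inner_D_V₆, ← inner_self_eq_norm_sq (𝕜 := ℂ)]
    rfl
  have hb : ∀ a b, BC fun r => ⟪a, F.σ (-r) (star D * D) b⟫_ℂ :=
    (F.sc_σ (star D * D)).comp_neg.bc
  simp only [e]
  simp only [map_sum, sum_inner, inner_sum, Complex.re_sum]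
  rw [mn_sum hε' t fun l _ => BR.sum t fun k _ => (hb _ _).re]
  refine Finset.sum_congr rfl fun l hl => ?_
  rw [mn_sum hε' t fun k _ => (hb _ _).re, Finset.sum_eq_single_of_mem l hl]
  intro k hk hkl
  rw [mn_re hε' (hb _ _), F.cross_zero₆ hε' hε _ (ht k hk l hl hkl.symm), Complex.zero_re]

/-- Time means over long windows split over the bands. -/
theorem band_lemma {ε ε' : ℝ} (hε' : 0 < ε') (hε : ε' ≤ ε) (D : H →L[ℂ] H) (t : Finset ℤ)
    (η : H) :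
    mn ε' (fun r => ‖D (F.V r (∑ k ∈ t, F.f (tri (k * ε) ε) η))‖ ^ 2) ≤
      3 * ∑ k ∈ t, mn ε' fun r => ‖D (F.V r (F.f (tri (k * ε) ε) η))‖ ^ 2 := by
  have hsc : SC fun r => D * F.V r :=
    (SC.const D).mul ⟨F.V_cont, 1, F.V_opNorm_le₃⟩
  have hbr : ∀ a, BR fun r => ‖D (F.V r a)‖ ^ 2 := hsc.br
  have hmap : ∀ k ∈ t, k % 3 ∈ ({0, 1, 2} : Finset ℤ) := fun k _ => by
    simp only [Finset.mem_insert, Finset.mem_singleton]
    omega
  rw [← Finset.sum_fiberwise_of_maps_to hmap, ← Finset.sum_fiberwise_of_maps_to hmap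
    fun k => mn ε' fun r => ‖D (F.V r (F.f (tri (k * ε) ε) η))‖ ^ 2]
  have e : ∀ c ∈ ({0, 1, 2} : Finset ℤ), ∑ k ∈ t with k % 3 = c,
      (mn ε' fun r => ‖D (F.V r (F.f (tri (k * ε) ε) η))‖ ^ 2) =
      mn ε' fun r => ‖D (F.V r (∑ k ∈ t with k % 3 = c, F.f (tri (k * ε) ε) η))‖ ^ 2 :=
    fun c _ => (F.mn_orth₆ hε' hε D _ (fun k hk l hl hkl => by
      have h1 := (Finset.mem_filter.1 hk).2
      have h2 := (Finset.mem_filter.1 hl).2
      rcases abs_cases (k - l) with h | h <;> omega) η).symm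
  rw [Finset.sum_congr rfl e, ← mn_sum hε' _ fun c _ => hbr _, ← mn_const_mul]
  refine mn_mono hε' (hbr _) ((BR.sum _ fun c _ => hbr _).const_mul 3) fun r => ?_
  rw [map_sum, map_sum]
  refine (pow_le_pow_left₀ (norm_nonneg _) (norm_sum_le _ _) 2).trans ?_
  exact sq_sum_le_card_mul_sum_sq.trans (le_of_eq (by norm_num))

end FC

end Vale.Agent.P132
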