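import Vale.Agent.P132.OpInt
import Vale.Agent.P132.Rt

/-! Smearing inside the algebra. -/

open scoped InnerProductSpace Topology ComplexConjugate
open Filter MeasureTheory

namespace Vale.Agent.P132

open Vale.Agent.P104

variable {H : Type*} [NormedAddCommGroup H] [InnerProductSpace ℂ H] [CompleteSpace H]
  {M : VonNeumannAlgebra H} {J : H →L⋆[ℂ] H} {P : Set H} {ξ : H} {F : FC H}

theorem IsConj.rt_opInt (h : IsConj J) {g : ℝ → (H →L[ℂ] H)} (hg : SC g)
    (hg' : SC fun t => star (g t)) {k : ℝ → ℂ} (hk : Integrable k) :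
    rt J (opInt k g) = opInt k fun t => rt J (g t) := by
  ext η
  refine ext_inner_left ℂ fun ζ => ?_
  have e : ∀ x : H →L[ℂ] H, ⟪ζ, rt J x η⟫_ℂ = ⟪J η, x (J ζ)⟫_ℂ := fun x => by
    rw [rt_apply, ← inner_conj_symm, h.inner_left, inner_conj_symm,
      ContinuousLinearMap.star_eq_adjoint, ContinuousLinearMap.adjoint_inner_left]
  rw [inner_opInt (h.sc_rt hg') hk, e, inner_opInt hg hk]
  simp only [e]

theorem Pre.rt_sm {G : Set (H × H)} (h : Pre G J F) {k : ℝ → ℂ} (hk : Integrable k)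
    (x : H →L[ℂ] H) : rt J (F.sm k x) = F.sm k (rt J x) := by
  have e : (fun t => star (F.σ t x)) = fun t => F.σ t (star x) := funext fun t => F.σ_star t x
  rw [FC.sm, h.cj.rt_opInt (F.sc_σ x) (e ▸ F.sc_σ (star x)) hk, FC.sm]
  simp only [h.σ_rt]

/-- Translation is continuous in the mean. -/
theorem tendsto_translate₈ {k : ℝ → ℂ} (hk : Integrable k) (r₀ : ℝ) :
    Tendsto (fun r => ∫ t, ‖k (t - r) - k (t - r₀)‖) (𝓝 r₀) (𝓝 0) := by
  let c : ℝ → C(ℝ, ℝ) := fun r =>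
    ContinuousMap.curry ⟨fun p : ℝ × ℝ => p.2 - p.1, by fun_prop⟩ r
  have hc : Continuous c := (ContinuousMap.curry _).continuous
  have hm : ∀ r, MeasurePreserving (c r) volume volume := fun r =>
    measurePreserving_sub_right volume r
  have hT := Continuous.compMeasurePreservingLp (p := 1) (f := fun _ : ℝ => hk.toL1 k)
    continuous_const hc hm ENNReal.one_ne_top
  have hae : ∀ r, (Lp.compMeasurePreserving (c r) (hm r) (hk.toL1 k) : ℝ → ℂ) =ᵐ[volume]
      fun t => k (t - r) := fun r =>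
    (Lp.coeFn_compMeasurePreserving _ (hm r)).trans
      ((hm r).quasiMeasurePreserving.ae_eq_comp hk.coeFn_toL1)
  refine (tendsto_iff_norm_sub_tendsto_zero.1 (hT.tendsto r₀)).congr fun r => ?_
  rw [L1.norm_eq_integral_norm]
  refine integral_congr_ae ?_
  filter_upwards [Lp.coeFn_sub (Lp.compMeasurePreserving (c r) (hm r) (hk.toL1 k))
    (Lp.compMeasurePreserving (c r₀) (hm r₀) (hk.toL1 k)), hae r, hae r₀] with t h1 h2 h3
  rw [h1, Pi.sub_apply, h2, h3]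

theorem FC.σ_sm_eq₈ (F : FC H) {k : ℝ → ℂ} (hk : Integrable k) (x : H →L[ℂ] H) (r : ℝ) :
    F.σ r (F.sm k x) = F.sm (fun t => k (t - r)) x := by
  ext η
  rw [F.σ_sm hk, FC.sm, FC.sm, opInt_apply (F.sc_σ _) hk,
    opInt_apply (F.sc_σ _) (hk.comp_sub_right r),
    ← integral_add_right_eq_self (fun t => k (t - r) • F.σ t x η) r]
  simp only [F.σ_σ, add_sub_cancel_right]

theorem FC.sm_sub_kern₈ (F : FC H) {k k' : ℝ → ℂ} (hk : Integrable k) (hk' : Integrable k')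
    (x : H →L[ℂ] H) : F.sm k x - F.sm k' x = F.sm (fun t => k t - k' t) x := by
  ext η
  have hI : Integrable fun t => k t - k' t := hk.sub hk'
  rw [sub_apply, FC.sm, FC.sm, FC.sm, opInt_apply (F.sc_σ _) hk,
    opInt_apply (F.sc_σ _) hk', opInt_apply (F.sc_σ _) hI,
    ← integral_sub ((F.sc_σ x).integrable hk η) ((F.sc_σ x).integrable hk' η)]
  simp only [sub_smul]

/-- Smeared operators have norm continuous orbits. -/
theorem FC.continuous_σ_sm (F : FC H) {k : ℝ → ℂ} (hk : Integrable k) (x : H →L[ℂ] H) :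
    Continuous fun r => F.σ r (F.sm k x) := by
  rw [continuous_iff_continuousAt]
  intro r₀
  refine tendsto_iff_norm_sub_tendsto_zero.2 (squeeze_zero (fun _ => norm_nonneg _) (fun r => ?_)
    (by simpa only [zero_mul] using (tendsto_translate₈ hk r₀).mul_const ‖x‖))
  beta_reduce
  rw [F.σ_sm_eq₈ hk, F.σ_sm_eq₈ hk, F.sm_sub_kern₈ (hk.comp_sub_right r) (hk.comp_sub_right r₀)]
  exact F.norm_sm_le ((hk.comp_sub_right r).sub (hk.comp_sub_right r₀)) x

theorem FC.tendsto_tri_atTop (F : FC H) (η : H) :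
    Tendsto (fun n : ℕ => F.f (tri 0 (n + 1)) η) atTop (𝓝 η) := by
  have hp : ∀ n : ℕ, (0 : ℝ) < n + 1 := fun n => by positivity
  have := F.tendsto (l := atTop) (g := fun n : ℕ => tri 0 (n + 1)) (k := fun _ => 1)
    (.of_forall fun n => bc_tri 0 (hp n)) (BC.const 1) (C := 1)
    (.of_forall fun n s => norm_tri_le 0 (hp n) s) (fun s => ?_) η
  · rwa [F.one] at this
  · have h0 : Tendsto (fun n : ℕ => |s - 0| / ((n : ℝ) + 1)) atTop (𝓝 0) :=
      tendsto_const_nhds.div_atTop (tendsto_atTop_add_const_right _ _ tendsto_natCast_atTop_atTop)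
    have h1 := ((h0.const_sub 1).max (tendsto_const_nhds (x := (0 : ℝ)))).ofReal
    simpa only [sub_zero, max_eq_left zero_le_one, Complex.ofReal_one, tri] using h1

theorem bc_gauss₈ {n : ℝ} (hn : 0 < n) (h : ℝ) :
    BC fun s => ((Real.exp (-((s + h) ^ 2 / (4 * n))) : ℝ) : ℂ) := by
  have := bc_ft (integrable_gau hn h)
  rwa [show ft (fun t => gau n t * ex t h) = _ from funext (ft_gau hn h)] at this

namespace Mod

theorem sm_mem (h : Mod M J ξ F) {k : ℝ → ℂ} (hk : Integrable k) {x : H →L[ℂ] H} (hx : x ∈ M) :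
    F.sm k x ∈ M :=
  opInt_mem M (F.sc_σ x) hk fun t => h.sigma_mem t x hx

theorem sm_xi (h : Mod M J ξ F) {k : ℝ → ℂ} (hk : Integrable k) (x : H →L[ℂ] H) :
    F.sm k x ξ = F.f (ft k) (x ξ) :=
  F.sm_apply_fixed hk x h.V_xi

theorem rt_sm_xi (h : Mod M J ξ F) {k : ℝ → ℂ} (hk : Integrable k) (x : H →L[ℂ] H) :
    rt J (F.sm k x) ξ = F.f (ft k) (rt J x ξ) := by
  rw [h.pre.rt_sm hk, h.sm_xi hk]

theorem band_mem (h : Mod M J ξ F) {ε : ℝ} (hε : 0 < ε) (s : ℝ) {x : H →L[ℂ] H} (hx : x ∈ M) :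
    F.band s ε x ∈ M :=
  h.sm_mem (integrable_fejx hε s) hx

theorem band_xi (h : Mod M J ξ F) {ε : ℝ} (hε : 0 < ε) (s : ℝ) (x : H →L[ℂ] H) :
    F.band s ε x ξ = F.f (tri s ε) (x ξ) := by
  rw [FC.band, h.sm_xi (integrable_fejx hε s), ft_fejx hε]

theorem band_supp (h : Mod M J ξ F) {ε : ℝ} (hε : 0 < ε) (s : ℝ) (x : H →L[ℂ] H) :
    F.Supp (F.band s ε x ξ) (Set.Icc (s - ε) (s + ε)) := by
  rw [h.band_xi hε]
  exact F.supp_tri hε s _

theorem band_df (h : Mod M J ξ F) {ε : ℝ} (hε : 0 < ε) (hε1 : ε ≤ 1) (s : ℝ) {x : H →L[ℂ] H}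
    (hx : x ∈ M) : ‖df J (Real.exp (s / 2)) (F.band s ε x) ξ ξ‖ ≤
      ε * Real.exp (s / 2) * ‖F.band s ε x ξ‖ :=
  h.df_le_of_supp (h.band_mem hε s hx) hε.le hε1 (h.band_supp hε s x)

/-- Bands respect corners of the centralizer. -/
theorem band_corner (h : Mod M J ξ F) {ε : ℝ} (hε : 0 < ε) (s : ℝ) {e f : H →L[ℂ] H}
    (he : e ∈ M) (he' : rt J e ξ = e ξ) (hf : f ∈ M) (hf' : rt J f ξ = f ξ) (x : H →L[ℂ] H) :
    e * F.band s ε x * f = F.band s ε (e * x * f) :=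
  F.mul_sm_mul (integrable_fejx hε s) (fun t => h.comm_of_cen he he' (bc_ex t))
    (fun t => h.comm_of_cen hf hf' (bc_ex t)) x

/-- The spectral component of `x` at the point `s`. -/
theorem exists_comp (h : Mod M J ξ F) (s : ℝ) {x : H →L[ℂ] H} (hx : x ∈ M) :
    ∃ c ∈ M, F.Supp (c ξ) {s} ∧ ∀ η, Tendsto (fun ε => F.band s ε x η) (𝓝[>] 0) (𝓝 (c η)) := by
  obtain ⟨η₀, hS, hT⟩ := F.exists_erg s (x ξ)
  have hp : ∀ᶠ ε in 𝓝[>] (0 : ℝ), 0 < ε := self_mem_nhdsWithin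
  obtain ⟨c, hc, -, e, hl⟩ := h.sep.exists_lim (l := 𝓝[>] (0 : ℝ)) (x := fun ε => F.band s ε x)
    (C := ‖x‖) (hp.mono fun ε hε => ⟨h.band_mem hε s hx, F.norm_band_le hε s x⟩)
    (hT.congr' (hp.mono fun ε hε => (h.band_xi hε s x).symm))
  exact ⟨c, hc, e ▸ hS, hl⟩

theorem gau_xi' (h : Mod M J ξ F) {n : ℝ} (hn : 0 < n) (c : ℝ) (x : H →L[ℂ] H) :
    F.sm (fun t => gau n t * ex t c) x ξ =
      F.f (fun s => (Real.exp (-((s + c) ^ 2 / (4 * n))) : ℝ)) (x ξ) := by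
  rw [h.sm_xi (integrable_gau hn c), show ft (fun t => gau n t * ex t c) = _ from
    funext (ft_gau hn c)]

/-- Gaussian smearing gives `a ξ = ξ a'`. -/
theorem gau_an (h : Mod M J ξ F) {n : ℝ} (hn : 0 < n) {x : H →L[ℂ] H} (hx : x ∈ M) :
    An M J ξ (F.sm (fun t => gau n t * ex t 0) x) := by
  refine ⟨((Real.exp (n / 4) : ℝ) : ℂ) • F.sm (fun t => gau n t * ex t n) x,
    M.toStarSubalgebra.smul_mem (h.sm_mem (integrable_gau hn n) hx) _, ?_⟩
  rw [rt_smul, smul_apply, h.rt_sm_xi (integrable_gau hn n), h.gau_xi' hn,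
    show ft (fun t => gau n t * ex t n) = _ from funext (ft_gau hn n),
    ← smul_apply, ← F.f_const_mul _ (bc_gauss₈ hn n)]
  refine (h.f_rt hx ((bc_gauss₈ hn n).const_mul _) (bc_gauss₈ hn 0) fun s => ?_).symm
  rw [← Complex.ofReal_mul, ← Complex.ofReal_mul, ← Real.exp_add, ← Real.exp_add]
  congr 2
  field_simp
  ring

theorem gau_xi (h : Mod M J ξ F) {n : ℝ} (hn : 0 < n) (x : H →L[ℂ] H) :
    F.sm (fun t => gau n t * ex t 0) x ξ =
      F.f (fun s => (Real.exp (-(s ^ 2 / (4 * n))) : ℝ)) (x ξ) := by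
  simpa only [add_zero] using h.gau_xi' hn 0 x

theorem gau_tendsto (h : Mod M J ξ F) (x : H →L[ℂ] H) :
    Tendsto (fun n : ℕ => F.sm (fun t => gau (n + 1) t * ex t 0) x ξ) atTop (𝓝 (x ξ)) := by
  have hp : ∀ n : ℕ, (0 : ℝ) < n + 1 := fun n => by positivity
  have := F.tendsto (l := atTop)
    (g := fun (n : ℕ) s => ((Real.exp (-((s + 0) ^ 2 / (4 * ((n : ℝ) + 1)))) : ℝ) : ℂ))
    (k := fun _ => 1) (.of_forall fun n => bc_gauss₈ (hp n) 0) (BC.const 1) (C := 1)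
    (.of_forall fun n s => ?_) (fun s => ?_) (x ξ)
  · rw [F.one] at this
    exact this.congr fun n => (h.gau_xi' (hp n) 0 x).symm
  · rw [Complex.norm_real, Real.norm_eq_abs, abs_of_pos (Real.exp_pos _), Real.exp_le_one_iff,
      neg_nonpos]
    have := hp n
    positivity
  · have h0 : Tendsto (fun n : ℕ => (s + 0) ^ 2 / (4 * ((n : ℝ) + 1))) atTop (𝓝 0) :=
      tendsto_const_nhds.div_atTop ((tendsto_atTop_add_const_right _ _
        tendsto_natCast_atTop_atTop).const_mul_atTop (by norm_num))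
    have h1 := ((Real.continuous_exp.tendsto _).comp h0.neg).ofReal
    simpa only [neg_zero, Real.exp_zero, Complex.ofReal_one, Function.comp_def] using h1

end Mod

end Vale.Agent.P132
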