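import Vale.Agent.P132.Basic

/-! Tools for the linear Radon-Nikodym theorem. -/

open scoped InnerProductSpace Topology ComplexConjugate
open Filter MeasureTheory

namespace Vale.Agent.P132

open Vale.Agent.P104

/-- A separation lemma in a real Hilbert space. -/
theorem rn_sep {E : Type*} [NormedAddCommGroup E] [InnerProductSpace ℝ E] [CompleteSpace E]
    (K : Submodule ℝ E) {C : Set E} (hconv : Convex ℝ C) (hne : (0 : E) ∈ C)
    (hcl : IsClosed {ζ | ∃ c ∈ C, ζ - c ∈ Kᗮ}) {R : ℝ} (hb : ∀ c ∈ C, ‖c‖ ≤ R) (v : E)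
    (h : ∀ k ∈ K, ∃ c ∈ C, ⟪k, v⟫_ℝ ≤ ⟪k, c⟫_ℝ) : ∃ c ∈ C, v - c ∈ Kᗮ := by
  have hD : Convex ℝ {ζ | ∃ c ∈ C, ζ - c ∈ Kᗮ} := by
    rintro x ⟨c, hc, hx⟩ y ⟨d, hd, hy⟩ a b ha hb hab
    refine ⟨a • c + b • d, hconv hc hd ha hb hab, ?_⟩
    have : a • x + b • y - (a • c + b • d) = a • (x - c) + b • (y - d) := by module
    rw [this]
    exact add_mem (Kᗮ.smul_mem _ hx) (Kᗮ.smul_mem _ hy)
  obtain ⟨z, hz, hmin⟩ := exists_norm_eq_iInf_of_complete_convex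
    (K := {ζ | ∃ c ∈ C, ζ - c ∈ Kᗮ}) ⟨0, 0, hne, by simp⟩ hcl.isComplete hD v
  have hvar := (norm_eq_iInf_iff_real_inner_le_zero hD hz).1 hmin
  obtain ⟨c0, hc0, hz0⟩ := hz
  have hK : v - z ∈ K.topologicalClosure := by
    rw [← K.orthogonal_orthogonal_eq_closure, Submodule.mem_orthogonal']
    intro w hw
    have h1 := hvar (z + w) ⟨c0, hc0, by rw [add_sub_right_comm]; exact add_mem hz0 hw⟩
    have h2 := hvar (z - w) ⟨c0, hc0, by rw [sub_right_comm]; exact sub_mem hz0 hw⟩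
    rw [add_sub_cancel_left] at h1
    rw [sub_sub_cancel_left, inner_neg_right] at h2
    linarith
  have hR : 0 ≤ R := (norm_nonneg _).trans (hb 0 hne)
  have h0 : ‖v - z‖ ^ 2 ≤ 0 := by
    refine le_of_forall_pos_le_add fun ε hε => ?_
    have hp : 0 < ‖v‖ + R + 1 := by positivity
    obtain ⟨k, hk, hd⟩ := Metric.mem_closure_iff.1 hK (ε / (‖v‖ + R + 1)) (by positivity)
    obtain ⟨c, hc, hkc⟩ := h k hk
    have h1 := hvar c ⟨c, hc, by simp⟩
    have h2 : ⟪v - z - k, v - c⟫_ℝ ≤ ε := by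
      refine (real_inner_le_norm _ _).trans ?_
      rw [dist_eq_norm, lt_div_iff₀ hp] at hd
      have h3 : ‖v - c‖ ≤ ‖v‖ + R + 1 := (norm_sub_le _ _).trans (by linarith [hb c hc])
      exact (mul_le_mul_of_nonneg_left h3 (norm_nonneg _)).trans hd.le
    have h3 : ‖v - z‖ ^ 2 = ⟪v - z - k, v - c⟫_ℝ + (⟪k, v⟫_ℝ - ⟪k, c⟫_ℝ) +
        ⟪v - z, c - z⟫_ℝ := by
      rw [← real_inner_self_eq_norm_sq, ← inner_sub_right, ← inner_add_left, sub_add_cancel,
        ← inner_add_right, sub_add_sub_cancel]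
    linarith
  have h1 : v = z := sub_eq_zero.1 (norm_eq_zero.1 (pow_eq_zero_iff two_ne_zero |>.1
    (le_antisymm h0 (sq_nonneg _))))
  exact ⟨c0, hc0, h1 ▸ hz0⟩

variable {H : Type*} [NormedAddCommGroup H] [InnerProductSpace ℂ H] [CompleteSpace H]

theorem rn_smul_mem {M : VonNeumannAlgebra H} (c : ℂ) {x : H →L[ℂ] H} (hx : x ∈ M) : c • x ∈ M :=
  M.toStarSubalgebra.smul_mem hx c

theorem rn_decomp {M : VonNeumannAlgebra H} {c : H →L[ℂ] H} (hc : c ∈ M) :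
    ∃ a ∈ M, ∃ b ∈ M, IsSelfAdjoint a ∧ IsSelfAdjoint b ∧ c = a + Complex.I • b := by
  refine ⟨(1 / 2 : ℂ) • (c + star c), rn_smul_mem _ (add_mem hc (star_mem hc)),
    (-Complex.I / 2) • (c - star c), rn_smul_mem _ (sub_mem hc (star_mem hc)), ?_, ?_, ?_⟩
  · simp [IsSelfAdjoint, add_comm]
  · rw [IsSelfAdjoint, star_smul, star_sub, star_star, ← neg_sub c, smul_neg, ← neg_smul]
    congr 1
    simp [neg_div]
  · rw [smul_smul, mul_div_assoc', mul_neg, Complex.I_mul_I, neg_neg, ← smul_add,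
      add_add_sub_cancel, ← two_smul ℂ c, smul_smul]
    simp

/-- Bounded self-adjoint families have weak ultralimits. -/
theorem rn_wl (M : VonNeumannAlgebra H) {ι : Type*} (U : Ultrafilter ι) {x : ι → (H →L[ℂ] H)}
    (hx : ∀ i, x i ∈ M) (hsa : ∀ i, IsSelfAdjoint (x i)) {C : ℝ} (h0 : 0 ≤ C)
    (hC : ∀ i, ‖x i‖ ≤ C) : ∃ a ∈ M, IsSelfAdjoint a ∧ ‖a‖ ≤ C ∧
      ∀ η ζ, Tendsto (fun i => ⟪η, x i ζ⟫_ℂ) U (𝓝 ⟪η, a ζ⟫_ℂ) := by
  have hb : ∀ (η ξ : H) i, ‖⟪η, x i ξ⟫_ℂ‖ ≤ C * ‖η‖ * ‖ξ‖ := fun η ξ i =>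
    (norm_inner_le_norm _ _).trans (by
      have := (x i).le_of_opNorm_le (hC i) ξ
      nlinarith [norm_nonneg η])
  have hd : ∀ η ξ : H, ∃ d, Tendsto (fun i => ⟪η, x i ξ⟫_ℂ) U (𝓝 d) := fun η ξ => by
    obtain ⟨d, -, hd⟩ := (isCompact_closedBall (0 : ℂ) (C * ‖η‖ * ‖ξ‖)).ultrafilter_le_nhds
      (U.map fun i => ⟪η, x i ξ⟫_ℂ) (by
        rw [Ultrafilter.coe_map, le_principal_iff, mem_map]
        exact Eventually.of_forall fun i => by simpa using hb η ξ i)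
    exact ⟨d, hd⟩
  choose d hd using hd
  let F : H →ₗ⋆[ℂ] H →ₗ[ℂ] ℂ := LinearMap.mk₂'ₛₗ (starRingEnd ℂ) (RingHom.id ℂ) d
    (fun η η' ξ => tendsto_nhds_unique (hd _ _) (by
      simpa only [inner_add_left] using (hd η ξ).add (hd η' ξ)))
    (fun c η ξ => tendsto_nhds_unique (hd _ _) (by
      simpa only [inner_smul_left, smul_eq_mul] using (hd η ξ).const_mul (starRingEnd ℂ c)))
    (fun η ξ ξ' => tendsto_nhds_unique (hd _ _) (by
      simpa only [map_add, inner_add_right] using (hd η ξ).add (hd η ξ')))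
    (fun c η ξ => tendsto_nhds_unique (hd _ _) (by
      simpa only [map_smul, inner_smul_right, smul_eq_mul, RingHom.id_apply] using
        (hd η ξ).const_mul c))
  have hdb : ∀ η ξ, ‖d η ξ‖ ≤ C * ‖η‖ * ‖ξ‖ := fun η ξ =>
    le_of_tendsto (hd η ξ).norm (Eventually.of_forall (hb η ξ))
  let G : H →L⋆[ℂ] H →L[ℂ] ℂ := F.mkContinuous₂ C hdb
  let Y : H →L[ℂ] H := star (InnerProductSpace.continuousLinearMapOfBilin G)
  have hY : ∀ η ξ, ⟪η, Y ξ⟫_ℂ = d η ξ := fun η ξ => by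
    rw [inner_star_right, InnerProductSpace.continuousLinearMapOfBilin_apply]
    rfl
  refine ⟨Y, mem_of_commute M fun s hs => ContinuousLinearMap.ext fun ξ =>
    ext_inner_left ℂ fun η => ?_, ContinuousLinearMap.ext fun ξ => ext_inner_left ℂ fun η => ?_,
    ContinuousLinearMap.opNorm_le_bound _ h0 fun ξ => ?_, fun η ζ => hY η ζ ▸ hd η ζ⟩
  · rw [mul_apply_eq_comp, mul_apply_eq_comp, ← inner_star_left, hY, hY]
    refine tendsto_nhds_unique (hd _ _) ((hd _ _).congr fun i => ?_)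
    rw [inner_star_left, ← mul_apply_eq_comp, ← (commute_of_mem M hs (hx _)).eq,
      mul_apply_eq_comp]
  · rw [inner_star_right, ← inner_conj_symm, hY, hY]
    refine tendsto_nhds_unique ((Complex.continuous_conj.tendsto _).comp (hd _ _))
      ((hd _ _).congr fun i => ?_)
    rw [Function.comp_apply, inner_conj_symm, ← inner_star_right, (hsa i).star_eq]
  · have h1 := hdb (Y ξ) ξ
    rw [← hY, inner_self_eq_norm_sq_to_K, norm_pow, RCLike.norm_ofReal, abs_norm] at h1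
    refine le_of_not_gt fun h2 => ?_
    have h3 : 0 < ‖Y ξ‖ := lt_of_le_of_lt (by positivity) h2
    nlinarith

theorem rn_pos {h y : H →L[ℂ] H} (hy : Commute y h) {φ : ℝ → ℝ}
    (hφ : Continuous φ) (h0 : ∀ s, 0 ≤ φ s) (ξ : H) :
    ∃ r : ℝ, ⟪ξ, cfc φ h ξ⟫_ℂ = r ∧ |(⟪ξ, cfc φ h (y ξ)⟫_ℂ).re| ≤ ‖y‖ * r := by
  set a := cfc (fun s => √(φ s)) h with ha
  have h1 : cfc φ h = a * a := by
    rw [ha, ← cfc_mul _ _ h]
    exact cfc_congr fun s _ => (Real.mul_self_sqrt (h0 s)).symm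
  have h2 : star a = a := (cfc_predicate (R := ℝ) _ h).star_eq
  have h3 : Commute y a := (hy.symm.cfc_real _).symm
  refine ⟨‖a ξ‖ ^ 2, ?_, ?_⟩
  · rw [h1, mul_apply_eq_comp, ← inner_star_left, h2, inner_self_eq_norm_sq_to_K]
    simp
  · rw [h1, mul_apply_eq_comp, ← inner_star_left, h2, ← mul_apply_eq_comp, ← h3.eq,
      mul_apply_eq_comp]
    refine (Complex.abs_re_le_norm _).trans ((norm_inner_le_norm _ _).trans ?_)
    have := y.le_opNorm (a ξ)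
    nlinarith [norm_nonneg (a ξ)]

theorem rn_sign {M : VonNeumannAlgebra H} {h y : H →L[ℂ] H} (hM : h ∈ M) (hh : IsSelfAdjoint h)
    (hy : y ∈ M.commutant) (ξ : H) : ∃ u ∈ M, IsSelfAdjoint u ∧ ‖u‖ ≤ 1 ∧
      ∃ r : ℝ, ⟪h ξ, u ξ⟫_ℂ = r ∧ (⟪h ξ, y ξ⟫_ℂ).re ≤ ‖y‖ * r := by
  obtain ⟨E, hE, hc, h1, h2⟩ := exists_cut h 0
  have hyh := commute_of_mem M hy hM
  obtain ⟨r, hr, hr'⟩ := rn_pos hyh (φ := fun s => max (s - 0) 0) (by fun_prop)
    (fun s => le_max_right _ _) ξ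
  obtain ⟨q, hq, hq'⟩ := rn_pos hyh (φ := fun s => max (0 - s) 0) (by fun_prop)
    (fun s => le_max_right _ _) ξ
  set p := cfc (fun s : ℝ => max (s - 0) 0) h
  set n := cfc (fun s : ℝ => max (0 - s) 0) h
  have h3 : h = p - n := by
    rw [← cfc_sub _ _ h]
    refine (cfc_id ℝ h).symm.trans (cfc_congr fun s _ => ?_)
    rcases le_total s 0 with hs | hs <;> simp [hs]
  have h4 : h * (E - (1 - E)) = p + n := by
    have e1 : p * E = p := by rw [mul_sub, mul_one, sub_eq_zero] at h2; exact h2.symm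
    have : (p - n) * (E - (1 - E)) = p * E - p * (1 - E) - n * E + n - n * E := by noncomm_ring
    rw [h3, this, h1, h2, e1]; abel
  have hEM : E ∈ M := mem_of_commute M fun s hs =>
    hc s (commute_of_mem M hs hM) (commute_of_mem M (star_mem hs) hM)
  have hsa : IsSelfAdjoint (E - (1 - E)) :=
    hE.isSelfAdjoint.sub ((IsSelfAdjoint.one _).sub hE.isSelfAdjoint)
  refine ⟨E - (1 - E), sub_mem hEM (sub_mem (one_mem _) hEM), hsa, ?_, r + q, ?_, ?_⟩
  · have e1 : star (E - (1 - E)) * (E - (1 - E)) = 1 := by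
      have : (E - (1 - E)) * (E - (1 - E)) = 1 + (E * E - E) * 4 := by noncomm_ring
      rw [hsa.star_eq, this, hE.isIdempotentElem.eq, sub_self, zero_mul, add_zero]
    refine ContinuousLinearMap.opNorm_le_bound _ zero_le_one fun η => ?_
    rw [one_mul, norm_apply_congr (y := 1) (by rw [e1, star_one, one_mul])]
    rfl
  · rw [← inner_star_right, hh.star_eq, ← mul_apply_eq_comp, h4, add_apply,
      inner_add_right, hr, hq, Complex.ofReal_add]
  · rw [← inner_star_right, hh.star_eq, h3, sub_apply, inner_sub_right,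
      Complex.sub_re]
    linarith [le_abs_self (⟪ξ, p (y ξ)⟫_ℂ).re, neg_abs_le (⟪ξ, n (y ξ)⟫_ℂ).re]

end Vale.Agent.P132
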