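import Vale.Agent.P132.Rt
import Vale.Agent.P132.RNAux

/-! Linear Radon-Nikodym theorem and the basic identity. -/

open scoped InnerProductSpace Topology ComplexConjugate
open Filter MeasureTheory

namespace Vale.Agent.P132

open Vale.Agent.P104

variable {H : Type*} [NormedAddCommGroup H] [InnerProductSpace ℂ H] [CompleteSpace H]
  {M : VonNeumannAlgebra H} {J : H →L⋆[ℂ] H} {P : Set H} {ξ : H} {F : FC H}

theorem rn_sa (M : VonNeumannAlgebra H) (ξ : H) {y : H →L[ℂ] H} (hy : y ∈ M.commutant)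
    {l : ℂ} (hl : 0 < l.re) : ∃ x ∈ M, IsSelfAdjoint x ∧ ∀ c ∈ M, IsSelfAdjoint c →
      (⟪c ξ, y ξ - l • x ξ⟫_ℂ).re = 0 := by
  let _ : InnerProductSpace ℝ H := InnerProductSpace.complexToReal
  have hin : ∀ a b : H, ⟪a, b⟫_ℝ = (⟪a, b⟫_ℂ).re := fun a b => rfl
  have hsm : ∀ (a : ℝ) (x : H →L[ℂ] H), x ∈ M → IsSelfAdjoint x →
      (a : ℂ) • x ∈ M ∧ IsSelfAdjoint ((a : ℂ) • x) := fun a x h1 h2 =>
    ⟨rn_smul_mem _ h1, by simp [IsSelfAdjoint, h2.star_eq]⟩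
  let K : Submodule ℝ H :=
    { carrier := {η | ∃ c ∈ M, IsSelfAdjoint c ∧ η = c ξ}
      add_mem' := by
        rintro _ _ ⟨c, hc, hc', rfl⟩ ⟨d, hd, hd', rfl⟩
        exact ⟨c + d, add_mem hc hd, hc'.add hd', rfl⟩
      zero_mem' := ⟨0, zero_mem _, IsSelfAdjoint.zero _, rfl⟩
      smul_mem' := by
        rintro a _ ⟨c, hc, hc', rfl⟩
        exact ⟨(a : ℂ) • c, (hsm a c hc hc').1, (hsm a c hc hc').2, rfl⟩ }
  have hK : ∀ ζ, ζ ∈ Kᗮ ↔ ∀ c ∈ M, IsSelfAdjoint c → (⟪c ξ, ζ⟫_ℂ).re = 0 := fun ζ =>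
    ⟨fun h c hc hc' => h _ ⟨c, hc, hc', rfl⟩, by
      rintro h _ ⟨c, hc, hc', rfl⟩
      exact h c hc hc'⟩
  set R := ‖y‖ / l.re with hR
  have hR0 : 0 ≤ R := by positivity
  obtain ⟨_, ⟨x, hx, hx', -, rfl⟩, h⟩ := rn_sep K
    (C := {η | ∃ x ∈ M, IsSelfAdjoint x ∧ ‖x‖ ≤ R ∧ η = l • x ξ}) (R := ‖l‖ * (R * ‖ξ‖))
    (by
      rintro _ ⟨c, hc, hc', h1, rfl⟩ _ ⟨d, hd, hd', h2, rfl⟩ a b ha hb hab
      refine ⟨(a : ℂ) • c + (b : ℂ) • d, add_mem (hsm a c hc hc').1 (hsm b d hd hd').1,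
        (hsm a c hc hc').2.add (hsm b d hd hd').2, (norm_add_le _ _).trans ?_, ?_⟩
      · rw [norm_smul, norm_smul, Complex.norm_of_nonneg ha, Complex.norm_of_nonneg hb]
        calc a * ‖c‖ + b * ‖d‖ ≤ a * R + b * R := by gcongr
          _ = R := by rw [← add_mul, hab, one_mul]
      · change (a : ℂ) • l • c ξ + (b : ℂ) • l • d ξ = l • ((a : ℂ) • c ξ + (b : ℂ) • d ξ)
        module)
    ⟨0, zero_mem _, IsSelfAdjoint.zero _, by simpa using hR0, by simp⟩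
    (by
      refine IsSeqClosed.isClosed fun z ζ hz hlim => ?_
      choose c hc hzc using hz
      choose x hx hx' hxR hcx using hc
      obtain ⟨a, ha, ha', haR, hw⟩ := rn_wl M (Filter.hyperfilter ℕ) hx hx' hR0 hxR
      refine ⟨_, ⟨a, ha, ha', haR, rfl⟩, (hK _).2 fun d hd hd' => ?_⟩
      have h1 : Tendsto (fun n => (⟪d ξ, z n⟫_ℂ - l * ⟪d ξ, x n ξ⟫_ℂ).re) (Filter.hyperfilter ℕ)
          (𝓝 (⟪d ξ, ζ⟫_ℂ - l * ⟪d ξ, a ξ⟫_ℂ).re) :=
        (Complex.continuous_re.tendsto _).comp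
          (((tendsto_const_nhds.inner hlim).mono_left Nat.hyperfilter_le_atTop).sub
            ((hw _ _).const_mul l))
      rw [inner_sub_right, inner_smul_right]
      refine tendsto_nhds_unique h1 (tendsto_const_nhds.congr fun n => ?_)
      have h2 := (hK _).1 (hzc n) d hd hd'
      rw [hcx, inner_sub_right, inner_smul_right] at h2
      exact h2.symm)
    (by
      rintro _ ⟨c, -, -, h1, rfl⟩
      rw [norm_smul]
      exact mul_le_mul_of_nonneg_left (c.le_of_opNorm_le h1 ξ) (norm_nonneg _))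
    (y ξ)
    (by
      rintro _ ⟨c, hc, hc', rfl⟩
      obtain ⟨u, hu, hu', hu1, r, hr, hle⟩ := rn_sign hc hc' hy ξ
      refine ⟨_, ⟨(R : ℂ) • u, (hsm R u hu hu').1, (hsm R u hu hu').2, ?_, rfl⟩, ?_⟩
      · rw [norm_smul, Complex.norm_of_nonneg hR0]
        exact mul_le_of_le_one_right hR0 hu1
      · rw [hin, hin, smul_apply, inner_smul_right, inner_smul_right, hr, ← Complex.ofReal_mul,
          Complex.re_mul_ofReal, ← mul_assoc, hR, mul_div_cancel₀ _ hl.ne']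
        exact hle)
  exact ⟨x, hx, hx', (hK _).1 h⟩

theorem rn (M : VonNeumannAlgebra H) (ξ : H) {y : H →L[ℂ] H} (hy : y ∈ M.commutant)
    (hsa : IsSelfAdjoint y) {l : ℂ} (hl : 0 < l.re) :
    ∃ x ∈ M, IsSelfAdjoint x ∧ ∀ c ∈ M,
      2 * ⟪c ξ, y ξ⟫_ℂ = l * ⟪c ξ, x ξ⟫_ℂ + conj l * ⟪x ξ, star c ξ⟫_ℂ := by
  obtain ⟨x, hx, hx', h⟩ := rn_sa M ξ hy hl
  have h1 : ∀ c ∈ M, IsSelfAdjoint c →
      2 * ⟪c ξ, y ξ⟫_ℂ = l * ⟪c ξ, x ξ⟫_ℂ + conj l * ⟪x ξ, c ξ⟫_ℂ := by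
    intro c hc hc'
    have h2 := h c hc hc'
    have h3 : conj ⟪c ξ, y ξ⟫_ℂ = ⟪c ξ, y ξ⟫_ℂ := by
      rw [inner_conj_symm, ← inner_star_right, hsa.star_eq, ← mul_apply_eq_comp,
        (commute_of_mem M hy hc).eq, mul_apply_eq_comp, ← inner_star_left, hc'.star_eq]
    rw [inner_sub_right, inner_smul_right, Complex.sub_re, sub_eq_zero] at h2
    rw [← inner_conj_symm (x ξ), ← map_mul, Complex.add_conj, ← h2, ← Complex.add_conj, h3,
      two_mul]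
  refine ⟨x, hx, hx', fun c hc => ?_⟩
  obtain ⟨a, ha, b, hb, ha', hb', rfl⟩ := rn_decomp hc
  rw [star_add, star_smul, ha'.star_eq, hb'.star_eq]
  simp only [add_apply, smul_apply, inner_add_left, inner_add_right, inner_smul_left,
    inner_smul_right, Complex.star_def]
  linear_combination h1 a ha ha' + conj Complex.I * h1 b hb hb'

omit [CompleteSpace H] in
theorem IsConj.rn_inner (h : IsConj J) (a b : H) : ⟪a, J b⟫_ℂ = ⟪b, J a⟫_ℂ := by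
  rw [← h.inner, h.inv]

theorem rn_ext {u v : H} {l : ℂ} (e : ∀ c ∈ M, l * ⟪c ξ, u⟫_ℂ = ⟪c ξ, v⟫_ℂ + ⟪v, star c ξ⟫_ℂ)
    {p : H × H} (hp : p ∈ gr M ξ) : l * ⟪p.1, u⟫_ℂ = ⟪p.1, v⟫_ℂ + ⟪v, p.2⟫_ℂ := by
  refine closure_minimal (t := {p : H × H | l * ⟪p.1, u⟫_ℂ = ⟪p.1, v⟫_ℂ + ⟪v, p.2⟫_ℂ}) ?_
    (isClosed_eq (by fun_prop) (by fun_prop)) hp
  rintro _ ⟨c, hc, rfl⟩
  exact e c hc

theorem Pre.rn_JT {G : Set (H × H)} (h : Pre G J F) (η : H) :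
    J (F.f (fun s => fa s * fb s) η) = F.f (fun s => fa s * fb s) (J η) := by
  rw [← F.f_f bc_fa bc_fb, ← F.f_f bc_fa bc_fb, h.J_fa, h.J_fb, F.fa_fb_comm₃]

theorem Pre.exists_T (h : Pre (gr M ξ) J F) {y : H →L[ℂ] H} (hy : y ∈ M.commutant) :
    ∃ c ∈ M, c ξ = F.f (fun s => fa s * fb s) (J (y ξ)) := by
  have key : ∀ y ∈ M.commutant, IsSelfAdjoint y →
      ∃ c ∈ M, c ξ = F.f (fun s => fa s * fb s) (J (y ξ)) := by
    intro y hy hsa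
    obtain ⟨x, hx, hx', e⟩ := rn M ξ hy hsa (l := 1) one_pos
    simp only [one_mul, map_one] at e
    obtain ⟨ρ, h1, h2⟩ := h.exists_rho hx
    rw [hx'.star_eq] at h2
    have h3 : ρ = F.f fa (y ξ) := by
      refine ext_inner_left ℂ fun ζ => mul_left_cancel₀ (two_ne_zero' ℂ) ?_
      have h4 := rn_ext e ((h.graph (F.f fa ζ) (J (F.f fb ζ))).2 ⟨ζ, rfl, h.cj.inv _⟩)
      dsimp only at h4
      rw [h.cj.rn_inner, h2, h1, F.inner_fa₃, F.inner_fa₃, F.inner_fb₃, ← inner_add_right,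
        F.fa_fa_add₃, inner_smul_right] at h4
      exact h4.symm
    refine ⟨x, hx, ?_⟩
    rw [← h.rn_JT, ← F.f_f bc_fa bc_fb, F.fa_fb_comm₃, ← h3, ← h2, h.cj.inv]
  obtain ⟨a, ha, b, hb, ha', hb', rfl⟩ := rn_decomp hy
  obtain ⟨c, hc, e⟩ := key a ha ha'
  obtain ⟨d, hd, e'⟩ := key b hb hb'
  refine ⟨c + conj Complex.I • d, add_mem hc (rn_smul_mem _ hd), ?_⟩
  rw [add_apply, add_apply, smul_apply, smul_apply, map_add, map_add, map_smulₛₗ, map_smul, e, e']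

theorem Pre.rn_star (h : Pre (gr M ξ) J F) {b : H →L[ℂ] H} (hb : b ∈ M) {β : H}
    (e : b ξ = F.f (fun s => fa s * fb s) β) :
    star b ξ = J (F.f (fun s => fb s * fb s) β) := by
  obtain ⟨ρ, h1, h2⟩ := h.exists_rho hb
  have h3 : ρ = F.f fb β := by
    refine sub_eq_zero.1 (F.inj bc_fa fa_ne_zero ?_)
    rw [map_sub, ← h1, e, F.f_f bc_fa bc_fb, sub_self]
  rw [← F.f_f bc_fb bc_fb, ← h3, ← h2, h.cj.inv]

theorem Pre.rn_T (h : Pre (gr M ξ) J F) {c : H →L[ℂ] H} (hc : c ∈ M) (α : H) :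
    ⟪F.f (fun s => fa s * fb s) α, star c ξ⟫_ℂ =
      ⟪c ξ, J (F.f (fun s => fa s * fa s) α)⟫_ℂ := by
  obtain ⟨ρ, h1, h2⟩ := h.exists_rho hc
  rw [← h.cj.inv (star c ξ), h2, h.cj.rn_inner, h.rn_JT, h1, ← F.f_f bc_fa bc_fa, h.J_fa, h.J_fa,
    ← F.f_f bc_fa bc_fb, F.inner_fa₃, F.inner_fb₃, F.fa_fb_comm₃, F.fa_fb_comm₃,
    F.fa_fb_comm₃]

theorem rn_op_ext (hJ : IsConj J) (hc : Cyc M ξ) {S T : H →L[ℂ] H}
    (e : ∀ x ∈ M, ∀ y ∈ M, ⟪J (x ξ), S (J (y ξ))⟫_ℂ = ⟪J (x ξ), T (J (y ξ))⟫_ℂ) : S = T := by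
  ext β
  refine ext_inner_left ℂ fun α => ?_
  rw [← hJ.inv α, ← hJ.inv β]
  refine hc.ext (f := fun a => ⟪J a, S (J (J β))⟫_ℂ) (g := fun a => ⟪J a, T (J (J β))⟫_ℂ)
    (by fun_prop) (by fun_prop) (fun x hx => ?_) (J α)
  exact hc.ext (f := fun b => ⟪J (x ξ), S (J b)⟫_ℂ) (g := fun b => ⟪J (x ξ), T (J b)⟫_ℂ)
    (by fun_prop) (by fun_prop) (e x hx) (J β)

theorem rn_inner_real {g : ℝ → ℂ} (hg : BC g) (e : ∀ s, conj (g s) = g s) (η ζ : H) :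
    ⟪F.f g η, ζ⟫_ℂ = ⟪η, F.f g ζ⟫_ℂ := by
  rw [F.inner_f hg, funext e]

theorem Pre.rn_identity (h : Pre (gr M ξ) J F) (hs : Sep M ξ) {y : H →L[ℂ] H}
    (hy : y ∈ M.commutant) (hsa : IsSelfAdjoint y) {l : ℂ} (hl : 0 < l.re) :
    ∃ x ∈ M, (2 : ℂ) • (F.f (fun s => fa s * fb s) * y * F.f (fun s => fa s * fb s)) =
      l • (F.f (fun s => fa s * fa s) * rt J x * F.f (fun s => fb s * fb s)) +
        conj l • (F.f (fun s => fb s * fb s) * rt J x * F.f (fun s => fa s * fa s)) := by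
  obtain ⟨x, hx, hx', e⟩ := rn M ξ hy hsa hl
  refine ⟨x, hx, ?_⟩
  have hJ := h.cj
  have haa := rn_inner_real (F := F) (bc_fa.mul bc_fa) fun s => by rw [map_mul, conj_fa]
  have hbb := rn_inner_real (F := F) (bc_fb.mul bc_fb) fun s => by rw [map_mul, conj_fb]
  have hab := rn_inner_real (F := F) (bc_fa.mul bc_fb) fun s => by rw [map_mul, conj_fa, conj_fb]
  refine rn_op_ext hJ hs.cyc_comm fun y₁ hy₁ y₂ hy₂ => ?_
  obtain ⟨c, hc, hc'⟩ := h.exists_T hy₁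
  obtain ⟨b, hb, hb'⟩ := h.exists_T hy₂
  generalize J (y₁ ξ) = α at hc' ⊢
  generalize J (y₂ ξ) = β at hb' ⊢
  have e1 := e (star b * c) (mul_mem (star_mem hb) hc)
  have e2 := h.rn_T (mul_mem hx (star_mem hb)) α
  have e3 := congrArg conj (h.rn_T (mul_mem hx (star_mem hc)) β)
  rw [star_mul, star_star, hx'.star_eq, ← hc', mul_apply_eq_comp, mul_apply_eq_comp,
    h.rn_star hb hb'] at e2
  rw [star_mul, star_star, hx'.star_eq, ← hb', mul_apply_eq_comp, mul_apply_eq_comp,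
    h.rn_star hc hc', inner_conj_symm, inner_conj_symm] at e3
  rw [star_mul, star_star, mul_apply_eq_comp, mul_apply_eq_comp, inner_star_left, inner_star_left,
    inner_star_right, e2, e3, ← mul_apply_eq_comp b y, ← (commute_of_mem M hy hb).eq,
    mul_apply_eq_comp, hc', hb', hab, hJ.rn_inner, haa, ← inner_star_left x, hx'.star_eq,
    hJ.rn_inner, hbb] at e1
  simp only [add_apply, smul_apply, mul_apply_eq_comp, inner_add_right, inner_smul_right, rt_apply,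
    hx'.star_eq]
  exact e1

end Vale.Agent.P132
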