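import Vale.Agent.P132.Pre
import Vale.Agent.P132.RN
import Vale.Agent.P132.DOI
import Vale.Agent.P132.Mult

/-! The Tomita-Takesaki theorem. -/

open scoped InnerProductSpace Topology ComplexConjugate
open Filter MeasureTheory

namespace Vale.Agent.P132

open Vale.Agent.P104

variable {H : Type*} [NormedAddCommGroup H] [InnerProductSpace ℂ H] [CompleteSpace H]
  {M : VonNeumannAlgebra H} {J : H →L⋆[ℂ] H} {P : Set H} {ξ : H} {F : FC H}

theorem Pre.tm_rho (h : Pre (gr M ξ) J F) :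
    ∃ ρ, F.Supp ρ {0} ∧ ξ = F.f fa ρ ∧ J ξ = F.f fb ρ := by
  obtain ⟨ρ, h1, h2⟩ := h.exists_rho (one_mem M)
  rw [star_one] at h2
  change ξ = _ at h1
  change J ξ = _ at h2
  have h3 : F.f fa ξ = F.f fb (J ξ) := by
    refine ext_inner_left ℂ fun ζ => ?_
    have h4 := rn_ext (M := M) (ξ := ξ) (u := ξ) (v := ξ) (l := 2)
      (fun c _ => by rw [inner_star_right, two_mul])
      ((h.graph (F.f fa ζ) (J (F.f fb ζ))).2 ⟨ζ, rfl, h.cj.inv _⟩)
    dsimp only at h4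
    rw [h.cj.rn_inner, F.inner_fa₃, F.inner_fb₃, two_mul] at h4
    exact add_left_cancel h4
  have h4 : F.f (fun s => fa s * fa s - fb s * fb s) ρ = 0 := by
    rw [F.f_sub (bc_fa.mul bc_fa) (bc_fb.mul bc_fb), sub_apply, ← F.f_f bc_fa bc_fa,
      ← F.f_f bc_fb bc_fb, ← h1, ← h2, h3, sub_self]
  refine ⟨ρ, (F.supp_of_f_eq_zero ((bc_fa.mul bc_fa).sub (bc_fb.mul bc_fb)) h4).mono
    fun s hs => ?_, h1, h2⟩
  have h5 : fa s * fa s * (1 - ((Real.exp (s / 2) * Real.exp (s / 2) : ℝ) : ℂ)) = 0 := by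
    have h6 : fa s * fa s - fb s * fb s = 0 := hs
    rw [fb_eq] at h6
    rw [← h6, Complex.ofReal_mul]; ring
  rw [mul_eq_zero, mul_self_eq_zero, or_iff_right (fa_ne_zero s), sub_eq_zero, ← Real.exp_add,
    add_halves, eq_comm, Complex.ofReal_eq_one, Real.exp_eq_one_iff] at h5
  exact h5

theorem Pre.fix (h : Pre (gr M ξ) J F) : J ξ = ξ := by
  obtain ⟨ρ, h0, h1, h2⟩ := h.tm_rho
  rw [h2, F.eigen_of_supp bc_fb h0, ← fa_neg, neg_zero, ← F.eigen_of_supp bc_fa h0, ← h1]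

theorem Pre.f_xi (h : Pre (gr M ξ) J F) {g : ℝ → ℂ} (hg : BC g) : F.f g ξ = g 0 • ξ := by
  obtain ⟨ρ, h0, h1, -⟩ := h.tm_rho
  rw [h1, F.eigen_of_supp bc_fa h0, map_smul, F.eigen_of_supp hg h0, smul_comm]

theorem tm_kernel {θ : ℝ} (hθ : |θ| < Real.pi) (s s' : ℝ) :
    (ex (-(θ / 2)) 1 * (fa s * fa s) * (fb s' * fb s') +
      conj (ex (-(θ / 2)) 1) * (fb s * fb s) * (fa s' * fa s')) * ft (sech θ) (s - s') =
      fa s * fb s * (fa s' * fb s') := by
  have h1 := ft_sech hθ (s - s')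
  have h2 : ((Real.exp (s / 2) : ℝ) : ℂ) = (Real.exp ((s - s') / 2) : ℝ) *
      (Real.exp (s' / 2) : ℝ) := by
    rw [← Complex.ofReal_mul, ← Real.exp_add]; congr 2; ring
  have h3 : ((Real.exp (-((s - s') / 2)) : ℝ) : ℂ) * (Real.exp ((s - s') / 2) : ℝ) = 1 := by
    rw [← Complex.ofReal_mul, ← Real.exp_add, neg_add_cancel, Real.exp_zero, Complex.ofReal_one]
  rw [conj_ex, neg_neg, fb_eq, fb_eq, h2]
  linear_combination (fa s * fa s * (fa s' * fa s') * (Real.exp ((s - s') / 2) : ℝ) *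
    (Real.exp (s' / 2) : ℝ) ^ 2) * h1 - fa s * fa s * (fa s' * fa s') * ex (-(θ / 2)) 1 *
      (Real.exp (s' / 2) : ℝ) ^ 2 * ft (sech θ) (s - s') * h3

theorem Pre.tm_sm (h : Pre (gr M ξ) J F) (hs : Sep M ξ) {y : H →L[ℂ] H}
    (hy : y ∈ M.commutant) (hsa : IsSelfAdjoint y) {θ : ℝ} (hθ : |θ| < Real.pi) :
    rt J (F.sm (sech θ) y) ∈ M := by
  have hl : 0 < (ex (-(θ / 2)) 1).re := by
    have : ex (-(θ / 2)) 1 = Complex.exp (((-(θ / 2) : ℝ) : ℂ) * Complex.I) := by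
      rw [ex, Complex.ofReal_one, mul_one, mul_comm]
    rw [this, Complex.exp_ofReal_mul_I_re]
    exact Real.cos_pos_of_mem_Ioo ⟨by linarith [(abs_lt.1 hθ).2], by linarith [(abs_lt.1 hθ).1]⟩
  obtain ⟨x, hx, e⟩ := h.rn_identity hs hy hsa hl
  have hk := integrable_sech hθ
  have haa := bc_fa.mul bc_fa
  have hbb := bc_fb.mul bc_fb
  have hab := bc_fa.mul bc_fb
  have hm : ∀ {g g' : ℝ → ℂ}, BC g → BC g' → ∀ z, F.sm (sech θ) (F.f g * z * F.f g') =
      F.f g * F.sm (sech θ) z * F.f g' := fun hg hg' z =>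
    (F.mul_sm_mul hk (fun t => (F.V_comm t hg).symm) (fun t => (F.V_comm t hg').symm) z).symm
  have e1 := congrArg (F.sm (sech θ)) e
  rw [F.sm_add hk, F.sm_smul hk, F.sm_smul hk, F.sm_smul hk, hm hab hab, hm haa hbb,
    hm hbb haa] at e1
  have e2 := F.doi hk (Finset.univ : Finset Bool) (Finset.univ : Finset Unit)
    (g := fun i s => bif i then ex (-(θ / 2)) 1 * (fa s * fa s)
      else conj (ex (-(θ / 2)) 1) * (fb s * fb s))
    (g' := fun i s => bif i then fb s * fb s else fa s * fa s)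
    (h := fun _ s => fa s * fb s) (h' := fun _ s => fa s * fb s)
    (by rintro (_ | _) -; exacts [hbb.const_mul _, haa.const_mul _])
    (by rintro (_ | _) -; exacts [haa, hbb]) (fun _ _ => hab) (fun _ _ => hab)
    (fun s s' => by simpa only [Fintype.sum_bool, Fintype.sum_unique, cond_true, cond_false]
      using tm_kernel hθ s s') (rt J x)
  simp only [Fintype.sum_bool, Fintype.sum_unique, cond_true, cond_false] at e2
  rw [F.f_const_mul _ haa, F.f_const_mul _ hbb, smul_mul_assoc, smul_mul_assoc, smul_mul_assoc,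
    smul_mul_assoc, ← e1] at e2
  have hne : ∀ s, fa s * fb s ≠ 0 := fun s => mul_ne_zero (fa_ne_zero s) (fb_ne_zero s)
  have e3 : F.sm (sech θ) y = (1 / 2 : ℂ) • rt J x := by
    refine ContinuousLinearMap.ext fun η => (F.denseRange hab hne).induction_on η
      (isClosed_eq (by fun_prop) (by fun_prop)) fun ζ => ?_
    refine sub_eq_zero.1 (F.inj hab hne ?_)
    have e4 := congrArg (fun T : H →L[ℂ] H => T ζ) e2
    simp only [smul_apply, mul_apply_eq_comp] at e4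
    rw [map_sub, smul_apply, map_smul, ← e4, smul_smul]
    simp
  rw [e3, rt_smul, h.cj.rt_rt]
  exact rn_smul_mem _ hx

theorem Pre.rt_σ_mem (h : Pre (gr M ξ) J F) (hs : Sep M ξ) {y : H →L[ℂ] H}
    (hy : y ∈ M.commutant) (t : ℝ) : rt J (F.σ t y) ∈ M := by
  have key : ∀ y ∈ M.commutant, IsSelfAdjoint y → rt J (F.σ t y) ∈ M := by
    intro y hy hsa
    have hσ : SC fun t => star (F.σ t y) := by simpa only [F.σ_star] using F.sc_σ (star y)
    have hsc := h.cj.sc_rt hσ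
    refine mem_of_commute M fun z hz => ContinuousLinearMap.ext fun η =>
      ext_inner_left ℂ fun ζ => sub_eq_zero.1 ?_
    have h1 := (((SC.const z).mul hsc).mul (SC.const 1)).bc ζ η
    have h2 := (((SC.const 1).mul hsc).mul (SC.const z)).bc ζ η
    have h3 := eq_zero_of_sech (h1.sub h2) (fun θ hθ => ?_) t
    · simpa only [mul_one, one_mul] using h3
    have hk := integrable_sech hθ
    have h4 := (commute_of_mem M hz (h.tm_sm hs hy hsa hθ)).eq
    rw [FC.sm, h.cj.rt_opInt (F.sc_σ y) hσ hk] at h4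
    have h5 : ∀ {g : ℝ → ℂ}, BC g → Integrable fun t => sech θ t * g t := fun hg =>
      hk.mul_bdd hg.1.aestronglyMeasurable (Eventually.of_forall hg.2.choose_spec)
    simp only [mul_sub]
    rw [integral_sub (h5 h1) (h5 h2),
      ← inner_opInt (((SC.const z).mul hsc).mul (SC.const 1)) hk,
      ← inner_opInt (((SC.const 1).mul hsc).mul (SC.const z)) hk, ← mul_opInt_mul hsc hk,
      ← mul_opInt_mul hsc hk, mul_one, one_mul, h4, sub_self]
  obtain ⟨a, ha, b, hb, ha', hb', rfl⟩ := rn_decomp hy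
  rw [F.σ_add, F.σ_smul, rt_add, rt_smul]
  exact add_mem (key a ha ha') (rn_smul_mem _ (key b hb hb'))

theorem Pre.mod (h : Pre (gr M ξ) J F) (hc : Cyc M ξ) (hs : Sep M ξ) : Mod M J ξ F := by
  have hJ := h.cj
  have h0 : ∀ y ∈ M.commutant, rt J y ∈ M := fun y hy => by
    simpa only [F.σ_zero] using h.rt_σ_mem hs hy 0
  have h1 : ∀ x ∈ M, ∀ y ∈ M, ⟪x ξ, rt J y ξ⟫_ℂ = ⟪rt J x ξ, y ξ⟫_ℂ := by
    intro x hx y hy
    obtain ⟨ρ, e1, e2⟩ := h.exists_rho hx
    obtain ⟨ρ', e3, e4⟩ := h.exists_rho hy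
    rw [rt_apply, rt_apply, h.fix, e1, e2, e3, e4, F.inner_fa₃, F.inner_fb₃, F.fa_fb_comm₃]
  have h2 : ∀ x ∈ M, ∀ y ∈ M, x (rt J y ξ) = rt J y (x ξ) := by
    intro x hx y hy
    refine ext_inner_left ℂ fun η => hs.cyc_comm.ext (f := fun a => ⟪a, x (rt J y ξ)⟫_ℂ)
      (g := fun a => ⟪a, rt J y (x ξ)⟫_ℂ) (by fun_prop) (by fun_prop) (fun z hz => ?_) η
    have e := h1 _ (star_mem hx) _ (mul_mem hy (h0 _ (star_mem hz)))
    rw [hJ.rt_mul_apply, hJ.rt_rt, inner_star_right, ← mul_apply_eq_comp,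
      (commute_of_mem M hz (star_mem hx)).eq, mul_apply_eq_comp, inner_star_left,
      mul_apply_eq_comp, rt_apply (star z), rt_apply (star x), star_star, star_star, h.fix,
      ← inner_star_left y, hJ.rn_inner] at e
    rw [e, rt_apply]
  have h3 : ∀ y ∈ M, rt J y ∈ M.commutant := fun y hy =>
    VonNeumannAlgebra.mem_commutant_iff.2 fun a ha => ContinuousLinearMap.ext <|
      hc.ext (by fun_prop) (by fun_prop) fun x hx => by
        rw [mul_apply_eq_comp, ← h2 x hx y hy, ← mul_apply_eq_comp, h2 _ (mul_mem ha hx) y hy]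
        rfl
  refine ⟨h, ⟨hJ, h3, fun y hy => ⟨_, h0 y hy, hJ.rt_rt y⟩⟩, hs, hc, h.fix,
    fun g hg => h.f_xi hg, fun t x hx => ?_⟩
  have e := h.rt_σ_mem hs (h3 x hx) t
  rwa [h.σ_rt, hJ.rt_rt] at e

theorem exists_mod (hc : Cyc M ξ) (hs : Sep M ξ) : ∃ J F, Mod M J ξ F := by
  obtain ⟨J, F, h⟩ := exists_pre hc hs
  exact ⟨J, F, h.mod hc hs⟩

end Vale.Agent.P132
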