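import Vale.Agent.P132.Eig
import Vale.Agent.P132.Mult

/-! The bicentralizer is an invariant star algebra. -/

open scoped InnerProductSpace Topology ComplexConjugate
open Filter MeasureTheory

namespace Vale.Agent.P132

open Vale.Agent.P104

variable {H : Type*} [NormedAddCommGroup H] [InnerProductSpace ℂ H] [CompleteSpace H]
  {M : VonNeumannAlgebra H} {J : H →L⋆[ℂ] H} {P : Set H} {ξ : H} {F : FC H}

variable {a b : H →L[ℂ] H}

theorem Bic.mem (ha : a ∈ Bic M J ξ) : a ∈ M := ha.1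

theorem Eig.zero {x : ℕ → (H →L[ℂ] H)} (hx : Eig M J ξ 0 x) :
    Tendsto (fun n => x n ξ - rt J (x n) ξ) atTop (𝓝 0) := by
  simpa using hx.left

theorem BicAux.bc_exp_tri (c : ℝ) {δ : ℝ} (hδ : 0 < δ) :
    BC fun s => ((Real.exp (c * s) : ℝ) : ℂ) * tri 0 δ s := by
  refine ⟨(Complex.continuous_ofReal.comp (by fun_prop)).mul (bc_tri 0 hδ).1,
    Real.exp (|c| * δ), fun s => ?_⟩
  beta_reduce
  rcases le_or_gt δ |s - 0| with hs | hs
  · rw [tri_eq_zero hδ hs, mul_zero, norm_zero]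
    exact (Real.exp_pos _).le
  · rw [sub_zero] at hs
    rw [norm_mul, Complex.norm_real, Real.norm_of_nonneg (Real.exp_pos _).le]
    refine (mul_le_of_le_one_right (Real.exp_pos _).le (norm_tri_le 0 hδ s)).trans
      (Real.exp_le_exp.2 ((le_abs_self _).trans ?_))
    rw [abs_mul]
    exact mul_le_mul_of_nonneg_left hs.le (abs_nonneg _)

/-- In a closed invariant subspace, `a ξ` and `ξ a` appear together. -/
theorem Mod.mem_iff_rt (h : Mod M J ξ F) {L : Submodule ℂ H} (hL : IsClosed (L : Set H))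
    (hf : ∀ g, BC g → ∀ η ∈ L, F.f g η ∈ L) (ha : a ∈ M) : a ξ ∈ L ↔ rt J a ξ ∈ L := by
  have hp : ∀ n : ℕ, (0 : ℝ) < n + 1 := fun n => by positivity
  constructor
  · intro h1
    refine hL.mem_of_tendsto (F.tendsto_tri_atTop _) (Eventually.of_forall fun n => ?_)
    rw [h.f_rt ha (bc_tri 0 (hp n)) (BicAux.bc_exp_tri (1 / 2) (hp n)) fun s => by
      rw [one_div_mul_eq_div]]
    exact hf _ (BicAux.bc_exp_tri _ (hp n)) _ h1
  · intro h1
    refine hL.mem_of_tendsto (F.tendsto_tri_atTop _) (Eventually.of_forall fun n => ?_)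
    rw [← h.f_rt ha (BicAux.bc_exp_tri (-(1 / 2)) (hp n)) (bc_tri 0 (hp n)) fun s => by
      rw [← mul_assoc, ← Complex.ofReal_mul, ← Real.exp_add, neg_mul, one_div_mul_eq_div,
        add_neg_cancel, Real.exp_zero, Complex.ofReal_one, one_mul]]
    exact hf _ (BicAux.bc_exp_tri _ (hp n)) _ h1

theorem Mod.bic_iff (h : Mod M J ξ F) : a ∈ Bic M J ξ ↔ a ∈ M ∧ a ξ ∈ KB M J ξ := by
  refine and_congr_right fun ha => forall₂_congr fun x hx => ?_
  have h1 := (a.continuous.tendsto _).comp hx.zero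
  rw [map_zero] at h1
  have e : ∀ n, (a * x n - x n * a) ξ =
      a (x n ξ - rt J (x n) ξ) - (x n (a ξ) - rt J (x n) (a ξ)) := fun n => by
    rw [map_sub, h.bi.comm_apply ha (hx.1.1 n), sub_sub_sub_cancel_right]
    rfl
  constructor
  · intro h2
    have h3 := h1.sub h2
    rw [sub_zero] at h3
    exact h3.congr fun n => by rw [e, Function.comp_apply, sub_sub_cancel]
  · intro h2
    have h3 := h1.sub h2
    rw [sub_zero] at h3
    exact h3.congr fun n => by rw [e, Function.comp_apply]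

theorem Mod.exists_KB (h : Mod M J ξ F) : ∃ L : Submodule ℂ H, (L : Set H) = KB M J ξ ∧
    IsClosed (L : Set H) ∧ (∀ η ∈ L, J η ∈ L) ∧ ∀ g, BC g → ∀ η ∈ L, F.f g η ∈ L := by
  let L : Submodule ℂ H :=
    { carrier := KB M J ξ
      add_mem' := fun {η ζ} h1 h2 x hx => by
        have h3 := (h1 x hx).add (h2 x hx)
        rw [add_zero] at h3
        exact h3.congr fun n => by rw [map_add, map_add, add_sub_add_comm]
      zero_mem' := fun x hx => by simp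
      smul_mem' := fun c η h1 x hx => by
        have h3 := (h1 x hx).const_smul c
        rw [smul_zero] at h3
        exact h3.congr fun n => by rw [map_smul, map_smul, smul_sub] }
  have hc : IsClosed (L : Set H) := by
    refine isClosed_of_closure_subset fun η hη x hx => ?_
    obtain ⟨C, hC⟩ := hx.1.2
    have hC0 : 0 ≤ C := (norm_nonneg _).trans (hC 0)
    refine Metric.tendsto_nhds.2 fun ε hε => ?_
    obtain ⟨ζ, hζ, hd⟩ := Metric.mem_closure_iff.1 hη (ε / 2 / (2 * C + 1)) (by positivity)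
    filter_upwards [Metric.tendsto_nhds.1 (hζ x hx) (ε / 2) (half_pos hε)] with n hn
    rw [dist_zero_right] at hn ⊢
    rw [dist_eq_norm, lt_div_iff₀ (by positivity)] at hd
    have e : x n η - rt J (x n) η =
        x n ζ - rt J (x n) ζ + (x n (η - ζ) - rt J (x n) (η - ζ)) := by
      rw [map_sub, map_sub]
      abel
    have k1 := (x n).le_of_opNorm_le (hC n) (η - ζ)
    have k2 := (h.cj.norm_rt_le (x n) (η - ζ)).trans
      (mul_le_mul_of_nonneg_right (hC n) (norm_nonneg _))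
    have k3 := norm_add_le (x n ζ - rt J (x n) ζ) (x n (η - ζ) - rt J (x n) (η - ζ))
    have k4 := norm_sub_le (x n (η - ζ)) (rt J (x n) (η - ζ))
    have k5 := norm_nonneg (η - ζ)
    rw [e]
    nlinarith
  refine ⟨L, rfl, hc, fun η hη x hx => ?_, fun g hg η hη => F.mem_of_V hc ?_ hg hη⟩
  · have h1 := hx.star h
    rw [neg_zero] at h1
    have h3 := ((J.continuous.tendsto _).comp (hη _ h1)).neg
    rw [map_zero, neg_zero] at h3
    exact h3.congr fun n => by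
      rw [Function.comp_apply, map_sub, h.cj.J_apply, h.cj.J_rt, star_star, neg_sub]
  · intro t η hη x hx
    have h3 := ((F.V t).continuous.tendsto _).comp (hη _ (hx.σ h (-t)))
    rw [map_zero] at h3
    exact h3.congr fun n => by
      rw [Function.comp_apply, map_sub, h.pre.V_rt, ← F.σ_V, F.σ_σ, add_neg_cancel, F.σ_zero]

theorem Bic.strong (h : Mod M J ξ F) (ha : a ∈ Bic M J ξ) {x : ℕ → (H →L[ℂ] H)}
    (hx : Eig M J ξ 0 x) (η : H) : Tendsto (fun n => (a * x n - x n * a) η) atTop (𝓝 0) :=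
  h.sep.tendsto_zero (((Bd.const ha.1).mul hx.1).sub (hx.1.mul (Bd.const ha.1))) (ha.2 x hx) η

theorem Bic.one : (1 : H →L[ℂ] H) ∈ Bic M J ξ :=
  ⟨one_mem M, fun x _ => by simp⟩

theorem Bic.add (ha : a ∈ Bic M J ξ) (hb : b ∈ Bic M J ξ) : a + b ∈ Bic M J ξ := by
  refine ⟨add_mem ha.1 hb.1, fun x hx => ?_⟩
  have h3 := (ha.2 x hx).add (hb.2 x hx)
  rw [add_zero] at h3
  exact h3.congr fun n => by rw [← add_apply, add_mul, mul_add, add_sub_add_comm]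

theorem Bic.sub (ha : a ∈ Bic M J ξ) (hb : b ∈ Bic M J ξ) : a - b ∈ Bic M J ξ := by
  refine ⟨sub_mem ha.1 hb.1, fun x hx => ?_⟩
  have h3 := (ha.2 x hx).sub (hb.2 x hx)
  rw [sub_zero] at h3
  exact h3.congr fun n => by rw [← sub_apply, sub_mul, mul_sub, sub_sub_sub_comm]

theorem Bic.smul (c : ℂ) (ha : a ∈ Bic M J ξ) : c • a ∈ Bic M J ξ := by
  refine ⟨M.toStarSubalgebra.smul_mem ha.1 c, fun x hx => ?_⟩
  have h3 := (ha.2 x hx).const_smul c
  rw [smul_zero] at h3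
  exact h3.congr fun n => by rw [← smul_apply, smul_mul_assoc, mul_smul_comm, smul_sub]

theorem Bic.mul (h : Mod M J ξ F) (ha : a ∈ Bic M J ξ) (hb : b ∈ Bic M J ξ) :
    a * b ∈ Bic M J ξ := by
  refine ⟨mul_mem ha.1 hb.1, fun x hx => ?_⟩
  have h3 := ((a.continuous.tendsto _).comp (hb.2 x hx)).add (Bic.strong h ha hx (b ξ))
  rw [map_zero, add_zero] at h3
  exact h3.congr fun n => by
    simp only [Function.comp_apply, sub_apply, mul_apply_eq_comp, map_sub, sub_add_sub_cancel]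

theorem Bic.star (h : Mod M J ξ F) (ha : a ∈ Bic M J ξ) : star a ∈ Bic M J ξ := by
  obtain ⟨L, e, hc, hJ, hf⟩ := h.exists_KB
  rw [h.bic_iff, ← e] at ha ⊢
  refine ⟨star_mem ha.1, (h.mem_iff_rt hc hf (star_mem ha.1)).2 ?_⟩
  rw [h.rt_xi, star_star]
  exact hJ _ ha.2

theorem Bic.σ (h : Mod M J ξ F) (ha : a ∈ Bic M J ξ) (t : ℝ) : F.σ t a ∈ Bic M J ξ := by
  obtain ⟨L, e, -, -, hf⟩ := h.exists_KB
  rw [h.bic_iff, ← e] at ha ⊢
  refine ⟨h.sigma_mem t _ ha.1, ?_⟩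
  rw [h.σ_xi]
  exact hf _ (bc_ex t) _ ha.2

theorem Bic.sm (h : Mod M J ξ F) (ha : a ∈ Bic M J ξ) {k : ℝ → ℂ} (hk : Integrable k) :
    F.sm k a ∈ Bic M J ξ := by
  obtain ⟨L, e, -, -, hf⟩ := h.exists_KB
  rw [h.bic_iff, ← e] at ha ⊢
  refine ⟨h.sm_mem hk ha.1, ?_⟩
  rw [h.sm_xi hk]
  exact hf _ (bc_ft hk) _ ha.2

theorem Bic.band (h : Mod M J ξ F) (ha : a ∈ Bic M J ξ) (s : ℝ) {ε : ℝ} (hε : 0 < ε) :
    F.band s ε a ∈ Bic M J ξ :=
  Bic.sm h ha (integrable_fejx hε s)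

theorem Bic.modulus (ha : a ∈ Bic M J ξ) {γ : ℝ} (hγ : 0 < γ) :
    ∃ δ : ℝ, 0 < δ ∧ ∀ x ∈ M, ‖x‖ ≤ 1 → ‖df J 1 x ξ ξ‖ ≤ δ → ‖(a * x - x * a) ξ‖ ≤ γ := by
  by_contra hn
  push Not at hn
  choose x hx h1 h2 h3 using fun n : ℕ => hn (1 / ((n : ℝ) + 1)) (by positivity)
  have hE : Eig M J ξ 0 x := by
    refine ⟨⟨hx, 1, h1⟩, ?_⟩
    rw [zero_div, Real.exp_zero]
    exact squeeze_zero_norm h2 tendsto_one_div_add_atTop_nhds_zero_nat
  have h4 := tendsto_zero_iff_norm_tendsto_zero.1 (ha.2 x hE)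
  exact absurd (ge_of_tendsto' h4 fun n => (h3 n).le) hγ.not_ge

theorem BK.isClosed : IsClosed (BK M J ξ : Set H) :=
  Submodule.isClosed_topologicalClosure _

theorem BK.mem (ha : a ∈ Bic M J ξ) : a ξ ∈ BK M J ξ :=
  Submodule.le_topologicalClosure _ (Submodule.subset_span ⟨a, ha, rfl⟩)

theorem BK.xi : ξ ∈ BK M J ξ :=
  BK.mem Bic.one

theorem BK.approx {η : H} (hη : η ∈ BK M J ξ) {ε : ℝ} (hε : 0 < ε) :
    ∃ a ∈ Bic M J ξ, ‖η - a ξ‖ ≤ ε := by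
  obtain ⟨ζ, hζ, hd⟩ := Metric.mem_closure_iff.1 hη ε hε
  have key : ∃ a ∈ Bic M J ξ, a ξ = ζ := by
    refine Submodule.span_induction (p := fun ζ _ => ∃ a ∈ Bic M J ξ, a ξ = ζ) (fun _ h => h)
      ⟨_, Bic.sub Bic.one Bic.one, by simp⟩ ?_ ?_ hζ
    · rintro _ _ - - ⟨a, ha, rfl⟩ ⟨b, hb, rfl⟩
      exact ⟨_, Bic.add ha hb, rfl⟩
    · rintro c _ - ⟨a, ha, rfl⟩
      exact ⟨_, Bic.smul c ha, rfl⟩
  obtain ⟨a, ha, rfl⟩ := key
  exact ⟨a, ha, by rw [← dist_eq_norm]; exact hd.le⟩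

theorem BK.le {L : Submodule ℂ H} (hL : IsClosed (L : Set H)) (h : ∀ a ∈ Bic M J ξ, a ξ ∈ L) :
    BK M J ξ ≤ L := by
  refine Submodule.topologicalClosure_minimal _ (Submodule.span_le.2 ?_) hL
  rintro _ ⟨a, ha, rfl⟩
  exact h a ha

theorem BK.map_mem (T : H →L[ℂ] H) (hT : ∀ a ∈ Bic M J ξ, T (a ξ) ∈ BK M J ξ) {η : H}
    (hη : η ∈ BK M J ξ) : T η ∈ BK M J ξ :=
  BK.le (L := (BK M J ξ).comap T.toLinearMap) (BK.isClosed.preimage T.continuous) hT hη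

theorem BK.bic (h : Mod M J ξ F) (ha : a ∈ M) (hξ : a ξ ∈ BK M J ξ) : a ∈ Bic M J ξ := by
  obtain ⟨L, e, hc, -, -⟩ := h.exists_KB
  have h1 : a ξ ∈ L := BK.le hc (fun b hb => by
    have := (h.bic_iff.1 hb).2
    rwa [← e] at this) hξ
  refine h.bic_iff.2 ⟨ha, ?_⟩
  rw [← e]
  exact h1

theorem BK.f_mem (h : Mod M J ξ F) {g : ℝ → ℂ} (hg : BC g) {η : H} (hη : η ∈ BK M J ξ) :
    F.f g η ∈ BK M J ξ :=
  F.mem_of_V BK.isClosed (fun t _ hζ => BK.map_mem _ (fun a ha => by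
    rw [← h.σ_xi]
    exact BK.mem (Bic.σ h ha t)) hζ) hg hη

theorem BK.rt_mem (h : Mod M J ξ F) (ha : a ∈ Bic M J ξ) : rt J a ξ ∈ BK M J ξ :=
  (h.mem_iff_rt BK.isClosed (fun _ hg _ hη => BK.f_mem h hg hη) ha.1).1 (BK.mem ha)

/-- Analytic elements are dense, without enlarging the spectral support. -/
theorem Bic.an_dense (h : Mod M J ξ F) (ha : a ∈ Bic M J ξ) {γ : ℝ} (hγ : 0 < γ) :
    ∃ a' ∈ Bic M J ξ, An M J ξ a' ∧ ‖a ξ - a' ξ‖ ≤ γ ∧
      ∀ S : Set ℝ, IsClosed S → F.Supp (a ξ) S → F.Supp (a' ξ) S := by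
  obtain ⟨n, hn⟩ := (Metric.tendsto_nhds.1 (h.gau_tendsto a) γ hγ).exists
  have hp : (0 : ℝ) < n + 1 := by positivity
  refine ⟨_, Bic.sm h ha (integrable_gau hp 0), h.gau_an hp ha.1, ?_, fun S hS h1 => ?_⟩
  · rw [← dist_eq_norm, dist_comm]
    exact hn.le
  · rw [h.sm_xi (integrable_gau hp 0)]
    exact F.supp_f (bc_ft (integrable_gau hp 0)) h1 hS fun s hs hs' => absurd hs hs'

theorem BK.an_band (h : Mod M J ξ F) {η : H} (hη : η ∈ BK M J ξ) {s δ : ℝ} (hδ : 0 < δ)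
    (hS : F.Supp η (Set.Icc (s - δ) (s + δ))) {γ : ℝ} (hγ : 0 < γ) :
    ∃ a ∈ Bic M J ξ, An M J ξ a ∧ ‖η - a ξ‖ ≤ γ ∧
      F.Supp (a ξ) (Set.Icc (s - 2 * δ) (s + 2 * δ)) := by
  obtain ⟨a₀, h0, hd⟩ := BK.approx hη (ε := γ / 6) (by positivity)
  have hδ2 : 0 < 2 * δ := by positivity
  have hb : BC fun u => 2 * tri s (2 * δ) u - tri s δ u :=
    ((bc_tri s hδ2).const_mul 2).sub (bc_tri s hδ)
  have h1 := Bic.sub (Bic.smul 2 (Bic.band h h0 s hδ2)) (Bic.band h h0 s hδ)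
  have e1 : ((2 : ℂ) • F.band s (2 * δ) a₀ - F.band s δ a₀) ξ =
      F.f (fun u => 2 * tri s (2 * δ) u - tri s δ u) (a₀ ξ) := by
    rw [F.f_sub ((bc_tri s hδ2).const_mul 2) (bc_tri s hδ), F.f_const_mul _ (bc_tri s hδ2),
      sub_apply, sub_apply, smul_apply, smul_apply, h.band_xi hδ2, h.band_xi hδ]
  have e2 : F.f (fun u => 2 * tri s (2 * δ) u - tri s δ u) η = η := by
    rw [F.f_congr hb (BC.const 1) hS fun u hu => trap_eq_one hδ (abs_le.2
      ⟨by linarith [hu.1], by linarith [hu.2]⟩), F.one]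
    rfl
  obtain ⟨a, ha, han, hd', hs⟩ := Bic.an_dense h h1 (half_pos hγ)
  refine ⟨a, ha, han, ?_, hs _ isClosed_Icc ?_⟩
  · have k1 : ‖F.f (fun u => 2 * tri s (2 * δ) u - tri s δ u) (η - a₀ ξ)‖ ≤ 3 * ‖η - a₀ ξ‖ := by
      refine F.norm_le hb (F.supp_univ _) (by norm_num) fun u _ => (norm_sub_le _ _).trans ?_
      rw [norm_mul, Complex.norm_two]
      linarith [norm_tri_le s hδ2 u, norm_tri_le s hδ u]
    rw [map_sub, e2, ← e1] at k1
    linarith [norm_sub_le_norm_sub_add_norm_sub η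
      (((2 : ℂ) • F.band s (2 * δ) a₀ - F.band s δ a₀) ξ) (a ξ)]
  · rw [e1]
    refine F.supp_f hb (F.supp_univ _) isClosed_Icc fun u _ hu => ?_
    have k : 2 * δ ≤ |u - s| := by
      by_contra hk
      have := abs_lt.1 (not_le.1 hk)
      exact hu ⟨by linarith [this.1], by linarith [this.2]⟩
    rw [tri_eq_zero hδ2 k, tri_eq_zero hδ (by linarith), mul_zero, sub_zero]

theorem FC.inner_f_aux (F : FC H) {g : ℝ → ℂ} (hg : BC g) (η ζ : H) :
    ⟪F.f (fun s => conj (g s)) η, ζ⟫_ℂ = ⟪η, F.f g ζ⟫_ℂ := by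
  rw [← F.f_star hg, inner_star_left]

/-- A non scalar element gives an analytic element of mean zero. -/
theorem Bic.exists_an (h : Mod M J ξ F) (hn : ‖ξ‖ = 1) (ha : a ∈ Bic M J ξ)
    (hne : ∀ c : ℂ, a ≠ c • (1 : H →L[ℂ] H)) :
    ∃ b ∈ Bic M J ξ, An M J ξ b ∧ ⟪ξ, b ξ⟫_ℂ = 0 ∧ b ξ ≠ 0 := by
  have h0 := Bic.sub ha (Bic.smul ⟪ξ, a ξ⟫_ℂ Bic.one)
  have hk := integrable_gau one_pos 0
  refine ⟨_, Bic.sm h h0 hk, h.gau_an one_pos h0.1, ?_, fun e => hne ⟪ξ, a ξ⟫_ℂ ?_⟩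
  · rw [h.sm_xi hk, ← F.inner_f_aux (bc_ft hk), h.f_xi _ (bc_ft hk).cj, inner_smul_left, sub_apply,
      smul_apply, inner_sub_right, inner_smul_right, one_apply_eq_self, inner_self_eq_norm_sq_to_K,
      hn]
    simp
  · rw [h.sm_xi hk] at e
    refine sub_eq_zero.1 (h.sep _ h0.1 (F.inj (bc_ft hk) (fun s => ?_) e))
    rw [ft_gau one_pos]
    exact Complex.ofReal_ne_zero.2 (Real.exp_pos _).ne'

end Vale.Agent.P132
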