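import Vale.Agent.P132.FC2

/-! The unitary group, intertwiners, eigenvectors and spectrum. -/

open scoped InnerProductSpace Topology ComplexConjugate
open Filter MeasureTheory

namespace Vale.Agent.P132

open Vale.Agent.P104

variable {H : Type*} [NormedAddCommGroup H] [InnerProductSpace ℂ H] [CompleteSpace H]

namespace FC

variable (F : FC H)

theorem V_zero : F.V 0 = 1 := by
  have h : ex 0 = fun _ => (1 : ℂ) := funext ex_zero
  rw [FC.V, h, F.one]

theorem V_add (t t' : ℝ) : F.V (t + t') = F.V t * F.V t' := by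
  have h : ex (t + t') = fun s => ex t s * ex t' s := funext (ex_add t t')
  rw [FC.V, h, F.mul _ _ (bc_ex t) (bc_ex t')]
  rfl

theorem V_star (t : ℝ) : star (F.V t) = F.V (-t) := by
  have h : ex (-t) = fun s => conj (ex t s) := funext fun s => (conj_ex t s).symm
  rw [FC.V, FC.V, h, F.f_star (bc_ex t)]

theorem V_neg_mul₃ (t : ℝ) : F.V (-t) * F.V t = 1 := by
  rw [← F.V_add, neg_add_cancel, F.V_zero]

theorem V_mul_neg₃ (t : ℝ) : F.V t * F.V (-t) = 1 := by
  rw [← F.V_add, add_neg_cancel, F.V_zero]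

theorem V_neg_V (t : ℝ) (η : H) : F.V (-t) (F.V t η) = η := by
  have := congrArg (fun T : H →L[ℂ] H => T η) (F.V_neg_mul₃ t)
  simpa using this

theorem V_V_neg (t : ℝ) (η : H) : F.V t (F.V (-t) η) = η := by
  have := congrArg (fun T : H →L[ℂ] H => T η) (F.V_mul_neg₃ t)
  simpa using this

theorem V_inner (t : ℝ) (η ζ : H) : ⟪F.V t η, F.V t ζ⟫_ℂ = ⟪η, ζ⟫_ℂ := by
  rw [← ContinuousLinearMap.adjoint_inner_right, ← ContinuousLinearMap.star_eq_adjoint, F.V_star,
    F.V_neg_V]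

theorem V_norm (t : ℝ) (η : H) : ‖F.V t η‖ = ‖η‖ := by
  rw [@norm_eq_sqrt_re_inner ℂ, F.V_inner, ← @norm_eq_sqrt_re_inner ℂ]

theorem V_opNorm_le₃ (t : ℝ) : ‖F.V t‖ ≤ 1 :=
  ContinuousLinearMap.opNorm_le_bound _ zero_le_one fun η => by rw [F.V_norm, one_mul]

theorem V_cont (η : H) : Continuous fun t => F.V t η := by
  rw [continuous_iff_continuousAt]
  intro t
  exact F.tendsto (l := 𝓝 t) (g := fun t => ex t) (C := 1) (.of_forall bc_ex) (bc_ex t)
    (.of_forall fun t s => (norm_ex t s).le)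
    (fun s => (continuous_ex.comp (Continuous.prodMk_left s)).continuousAt) η

theorem V_cont₂ {η : ℝ → H} (h : Continuous η) : Continuous fun t => F.V t (η t) := by
  rw [continuous_iff_continuousAt]
  intro t
  have h1 : Tendsto (fun s => F.V s (η s - η t)) (𝓝 t) (𝓝 0) := by
    rw [tendsto_zero_iff_norm_tendsto_zero]
    simp only [F.V_norm]
    rw [← tendsto_iff_norm_sub_tendsto_zero]
    exact h.continuousAt
  have h2 := h1.add (F.V_cont (η t)).continuousAt (x := 𝓝 t)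
  simpa [ContinuousAt] using h2

theorem V_comm (t : ℝ) {g : ℝ → ℂ} (hg : BC g) : F.V t * F.f g = F.f g * F.V t :=
  F.f_comm (bc_ex t) hg

theorem σ_zero (x : H →L[ℂ] H) : F.σ 0 x = x := by
  simp [FC.σ, F.V_zero]

theorem σ_σ (t t' : ℝ) (x : H →L[ℂ] H) : F.σ t (F.σ t' x) = F.σ (t + t') x := by
  rw [FC.σ, FC.σ, FC.σ, neg_add_rev, F.V_add, F.V_add]
  simp only [mul_assoc]

theorem σ_mul (t : ℝ) (x y : H →L[ℂ] H) : F.σ t (x * y) = F.σ t x * F.σ t y := by
  have h : F.V t * x * F.V (-t) * (F.V t * y * F.V (-t)) =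
      F.V t * x * (F.V (-t) * F.V t) * y * F.V (-t) := by simp only [mul_assoc]
  rw [FC.σ, FC.σ, FC.σ, h, F.V_neg_mul₃]
  simp only [mul_assoc, one_mul]

theorem σ_add (t : ℝ) (x y : H →L[ℂ] H) : F.σ t (x + y) = F.σ t x + F.σ t y := by
  simp only [FC.σ, mul_add, add_mul]

theorem σ_sub (t : ℝ) (x y : H →L[ℂ] H) : F.σ t (x - y) = F.σ t x - F.σ t y := by
  simp only [FC.σ, mul_sub, sub_mul]

theorem σ_smul (t : ℝ) (c : ℂ) (x : H →L[ℂ] H) : F.σ t (c • x) = c • F.σ t x := by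
  simp only [FC.σ, mul_smul_comm, smul_mul_assoc]

theorem σ_one (t : ℝ) : F.σ t 1 = 1 := by
  rw [FC.σ, mul_one, F.V_mul_neg₃]

theorem σ_star (t : ℝ) (x : H →L[ℂ] H) : star (F.σ t x) = F.σ t (star x) := by
  simp only [FC.σ, star_mul, F.V_star, neg_neg, mul_assoc]

theorem σ_apply₃ (t : ℝ) (x : H →L[ℂ] H) (η : H) : F.σ t x η = F.V t (x (F.V (-t) η)) := rfl

theorem σ_norm_le₃ (t : ℝ) (x : H →L[ℂ] H) : ‖F.σ t x‖ ≤ ‖x‖ :=
  ContinuousLinearMap.opNorm_le_bound _ (norm_nonneg _) fun η => by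
    rw [F.σ_apply₃, F.V_norm]
    exact (x.le_opNorm _).trans (by rw [F.V_norm])

theorem σ_norm (t : ℝ) (x : H →L[ℂ] H) : ‖F.σ t x‖ = ‖x‖ := by
  refine le_antisymm (F.σ_norm_le₃ t x) ?_
  have h := F.σ_norm_le₃ (-t) (F.σ t x)
  rwa [F.σ_σ, neg_add_cancel, F.σ_zero] at h

theorem σ_V (t : ℝ) (x : H →L[ℂ] H) (η : H) : F.σ t x (F.V t η) = F.V t (x η) := by
  rw [F.σ_apply₃, F.V_neg_V]

theorem sc_σ (x : H →L[ℂ] H) : SC fun t => F.σ t x := by
  refine ⟨fun η => ?_, ‖x‖, fun t => F.σ_norm_le₃ t x⟩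
  exact F.V_cont₂ (x.continuous.comp ((F.V_cont η).comp continuous_neg))

theorem integrable_V₃ {k : ℝ → ℂ} (hk : Integrable k) (η : H) :
    Integrable fun t => k t • F.V t η := by
  refine Integrable.mono' (hk.norm.mul_const ‖η‖)
    (hk.aestronglyMeasurable.smul (F.V_cont η).aestronglyMeasurable) (.of_forall fun t => ?_)
  rw [norm_smul, F.V_norm]

theorem integral_V {k : ℝ → ℂ} (hk : Integrable k) (η : H) :
    ∫ t, k t • F.V t η = F.f (ft k) η := by
  let S : H →ₗ[ℂ] H :=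
    { toFun := fun η => ∫ t, k t • F.V t η
      map_add' := fun a b => by
        simp only [map_add, smul_add]
        exact integral_add (F.integrable_V₃ hk a) (F.integrable_V₃ hk b)
      map_smul' := fun c a => by
        simp only [map_smul, RingHom.id_apply]
        rw [← integral_smul]
        simp only [smul_comm c] }
  have key : S = (F.f (ft k) : H →ₗ[ℂ] H) := by
    rw [← ext_inner_map]
    intro x
    rw [← inner_conj_symm, ← inner_conj_symm ((F.f (ft k) : H →ₗ[ℂ] H) x)]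
    congr 1
    have := F.fin x
    change ⟪x, ∫ t, k t • F.V t x⟫_ℂ = ⟪x, F.f (ft k) x⟫_ℂ
    rw [← integral_inner (F.integrable_V₃ hk x), F.rep _ (bc_ft hk)]
    have e1 : ∀ t, ⟪x, k t • F.V t x⟫_ℂ = ∫ s, k t * ex t s ∂(F.μ x) := fun t => by
      rw [inner_smul_right, FC.V, F.rep _ (bc_ex t), integral_const_mul]
    simp only [e1, ft]
    apply integral_integral_swap
    have hi : Integrable (fun p : ℝ × ℝ => ‖k p.1‖ * 1) (volume.prod (F.μ x)) :=
      hk.norm.mul_prod (integrable_const (1 : ℝ))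
    refine Integrable.mono' hi ?_ (.of_forall fun p => ?_)
    · exact hk.aestronglyMeasurable.comp_fst.mul continuous_ex.aestronglyMeasurable
    · simp [Function.uncurry, norm_ex]
  exact congrArg (fun T : H →ₗ[ℂ] H => T η) key

end FC

theorem measure_eq_of_ex₃ {μ ν : Measure ℝ} [IsFiniteMeasure μ] [IsFiniteMeasure ν]
    (h : ∀ t, ∫ s, ex t s ∂μ = ∫ s, ex t s ∂ν) : μ = ν := by
  apply Measure.ext_of_charFun
  funext t
  have e : ∀ s : ℝ, Complex.exp (t * s * Complex.I) = ex t s := fun s => by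
    rw [ex]; congr 1; ring
  simp only [charFun_apply_real, e, h]

theorem conj_integral_ex₃ (μ : Measure ℝ) (t : ℝ) :
    conj (∫ s, ex t s ∂μ) = ∫ s, ex (-t) s ∂μ := by
  rw [← integral_conj]
  simp only [conj_ex]

/-- Polarised combination of four integrals. -/
noncomputable def pol4₃ (a b c d : Measure ℝ) (g : ℝ → ℂ) : ℂ :=
  ∫ s, g s ∂a - ∫ s, g s ∂b + Complex.I * ∫ s, g s ∂c - Complex.I * ∫ s, g s ∂d

theorem pol4_ext₃ {a b c d a' b' c' d' : Measure ℝ} [IsFiniteMeasure a] [IsFiniteMeasure b]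
    [IsFiniteMeasure c] [IsFiniteMeasure d] [IsFiniteMeasure a'] [IsFiniteMeasure b']
    [IsFiniteMeasure c'] [IsFiniteMeasure d']
    (h : ∀ t, pol4₃ a b c d (ex t) = pol4₃ a' b' c' d' (ex t)) {g : ℝ → ℂ} (hg : BC g) :
    pol4₃ a b c d g = pol4₃ a' b' c' d' g := by
  have h' : ∀ t, ∫ s, ex t s ∂a - ∫ s, ex t s ∂b - Complex.I * ∫ s, ex t s ∂c +
      Complex.I * ∫ s, ex t s ∂d = ∫ s, ex t s ∂a' - ∫ s, ex t s ∂b' -
      Complex.I * ∫ s, ex t s ∂c' + Complex.I * ∫ s, ex t s ∂d' := fun t => by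
    have := congrArg (starRingEnd ℂ) (h (-t))
    simp only [pol4₃, map_sub, map_add, map_mul, conj_integral_ex₃, neg_neg, Complex.conj_I] at this
    linear_combination this
  have e1 : a + b' = a' + b := measure_eq_of_ex₃ fun t => by
    rw [integral_add_measure ((bc_ex t).integrable _) ((bc_ex t).integrable _),
      integral_add_measure ((bc_ex t).integrable _) ((bc_ex t).integrable _)]
    have h1 := h t
    simp only [pol4₃] at h1
    linear_combination (h1 + h' t) / 2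
  have e2 : c + d' = c' + d := measure_eq_of_ex₃ fun t => by
    rw [integral_add_measure ((bc_ex t).integrable _) ((bc_ex t).integrable _),
      integral_add_measure ((bc_ex t).integrable _) ((bc_ex t).integrable _)]
    have h1 := h t
    simp only [pol4₃] at h1
    linear_combination (-Complex.I / 2) * (h1 - h' t) +
      (∫ s, ex t s ∂c + ∫ s, ex t s ∂d' - ∫ s, ex t s ∂c' - ∫ s, ex t s ∂d) * Complex.I_mul_I
  have f1 := congrArg (fun μ : Measure ℝ => ∫ s, g s ∂μ) e1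
  have f2 := congrArg (fun μ : Measure ℝ => ∫ s, g s ∂μ) e2
  simp only [integral_add_measure (hg.integrable _) (hg.integrable _)] at f1 f2
  simp only [pol4₃]
  linear_combination f1 + Complex.I * f2

namespace FC

variable (F : FC H)

theorem inner_f_pol₃ {g : ℝ → ℂ} (hg : BC g) (ζ η : H) :
    4 * ⟪ζ, F.f g η⟫_ℂ = pol4₃ (F.μ (η + ζ)) (F.μ (η - ζ)) (F.μ (η + Complex.I • ζ))
      (F.μ (η - Complex.I • ζ)) g := by
  simp only [pol4₃, ← F.rep g hg, map_add, map_sub, map_smul, inner_add_left, inner_add_right,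
    inner_sub_left, inner_sub_right, inner_smul_left, inner_smul_right, Complex.conj_I]
  linear_combination (2 * ⟪ζ, F.f g η⟫_ℂ - 2 * ⟪η, F.f g ζ⟫_ℂ) * Complex.I_mul_I

section Inter

variable {H' : Type*} [NormedAddCommGroup H'] [InnerProductSpace ℂ H'] [CompleteSpace H']

theorem inter_of_V (F' : FC H') (T : H →L[ℂ] H') (h : ∀ t η, T (F.V t η) = F'.V t (T η))
    {g : ℝ → ℂ} (hg : BC g) (η : H) : T (F.f g η) = F'.f g (T η) := by
  refine ext_inner_left ℂ fun ζ => ?_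
  have := F.fin
  have := F'.fin
  rw [← ContinuousLinearMap.adjoint_inner_left, ← mul_right_inj' (by norm_num : (4 : ℂ) ≠ 0),
    F.inner_f_pol₃ hg, F'.inner_f_pol₃ hg]
  refine pol4_ext₃ (fun t => ?_) hg
  rw [← F.inner_f_pol₃ (bc_ex t), ← F'.inner_f_pol₃ (bc_ex t),
    ContinuousLinearMap.adjoint_inner_left]
  exact congrArg (fun v => 4 * ⟪ζ, v⟫_ℂ) (h t η)

end Inter

end FC

/-- The function `fa ^ 2`. -/
noncomputable def rr₃ (s : ℝ) : ℝ := 2 / (1 + Real.exp s)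

theorem rr_pos₃ (s : ℝ) : 0 < rr₃ s := by unfold rr₃; positivity

theorem rr_lt₃ (s : ℝ) : rr₃ s < 2 := by
  unfold rr₃
  rw [div_lt_iff₀ (by positivity)]
  linarith [Real.exp_pos s]

theorem continuous_rr₃ : Continuous rr₃ :=
  continuous_const.div (by fun_prop) fun s => by positivity

theorem fa_mul_fa₃ (s : ℝ) : fa s * fa s = (rr₃ s : ℝ) := by
  rw [fa, ← Complex.ofReal_mul]
  exact congrArg _ (Real.mul_self_sqrt (rr_pos₃ s).le)

theorem log_rr₃ (s : ℝ) : Real.log ((2 - rr₃ s) / rr₃ s) = s := by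
  have h : (2 - rr₃ s) / rr₃ s = Real.exp s := by
    unfold rr₃
    field_simp
    ring
  rw [h, Real.log_exp]

theorem bc_comp_rr₃ {φ : ℝ → ℝ} (hφ : Continuous φ) : BC fun s => ((φ (rr₃ s) : ℝ) : ℂ) := by
  refine ⟨Complex.continuous_ofReal.comp (hφ.comp continuous_rr₃), ?_⟩
  obtain ⟨C, hC⟩ := (isCompact_Icc (a := (0 : ℝ)) (b := 2)).exists_bound_of_continuousOn
    hφ.continuousOn
  exact ⟨C, fun s => by
    rw [Complex.norm_real]; exact hC _ ⟨(rr_pos₃ s).le, (rr_lt₃ s).le⟩⟩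

/-- Clamp to a compact subinterval of `(0, 2)`. -/
noncomputable def clamp₃ (n : ℕ) (x : ℝ) : ℝ :=
  max (1 / ((n : ℝ) + 1)) (min x (2 - 1 / ((n : ℝ) + 1)))

theorem clamp_pos₃ (n : ℕ) (x : ℝ) : 0 < clamp₃ n x :=
  lt_max_of_lt_left (by positivity)

theorem clamp_lt₃ (n : ℕ) (x : ℝ) : clamp₃ n x < 2 := by
  have h0 : (0 : ℝ) < 1 / ((n : ℝ) + 1) := by positivity
  have h1 : 1 / ((n : ℝ) + 1) ≤ 1 := by
    rw [div_le_one (by positivity)]; linarith [Nat.cast_nonneg (α := ℝ) n]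
  exact max_lt (by linarith) (min_lt_of_right_lt (by linarith))

theorem continuous_clamp₃ (n : ℕ) : Continuous (clamp₃ n) := by
  unfold clamp₃; fun_prop

theorem tendsto_clamp₃ {x : ℝ} (h0 : 0 ≤ x) (h2 : x ≤ 2) :
    Tendsto (fun n => clamp₃ n x) atTop (𝓝 x) := by
  have h := tendsto_one_div_add_atTop_nhds_zero_nat (𝕜 := ℝ)
  have h' := h.max ((tendsto_const_nhds (x := x)).min ((tendsto_const_nhds (x := (2 : ℝ))).sub h))
  rwa [sub_zero, min_eq_left h2, max_eq_right h0] at h'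

theorem continuous_log_clamp₃ (n : ℕ) :
    Continuous fun x => Real.log ((2 - clamp₃ n x) / clamp₃ n x) :=
  ((continuous_const.sub (continuous_clamp₃ n)).div (continuous_clamp₃ n)
    fun x => (clamp_pos₃ n x).ne').log
    fun x => (div_pos (sub_pos.2 (clamp_lt₃ n x)) (clamp_pos₃ n x)).ne'

theorem tendsto_log_clamp₃ (s : ℝ) :
    Tendsto (fun n => Real.log ((2 - clamp₃ n (rr₃ s)) / clamp₃ n (rr₃ s))) atTop (𝓝 s) := by
  have h := tendsto_clamp₃ (rr_pos₃ s).le (rr_lt₃ s).le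
  have h' := (((tendsto_const_nhds (x := (2 : ℝ))).sub h).div h (rr_pos₃ s).ne').log
    (div_pos (sub_pos.2 (rr_lt₃ s)) (rr_pos₃ s)).ne'
  rwa [log_rr₃] at h'

/-- A class of functions closed under the algebra operations and bounded pointwise limits that
contains `rr₃` contains every bounded continuous function. -/
theorem bc_induction₃ {P : (ℝ → ℂ) → Prop} (hc : ∀ c, P fun _ => c)
    (ha : ∀ g k, BC g → BC k → P g → P k → P fun s => g s + k s)
    (hm : ∀ g k, BC g → BC k → P g → P k → P fun s => g s * k s)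
    (hl : ∀ (g : ℕ → ℝ → ℂ) (k : ℝ → ℂ) (C : ℝ), (∀ n, BC (g n)) → BC k → (∀ n s, ‖g n s‖ ≤ C) →
      (∀ s, Tendsto (fun n => g n s) atTop (𝓝 (k s))) → (∀ n, P (g n)) → P k)
    (hr : P fun s => (rr₃ s : ℝ)) {g : ℝ → ℂ} (hg : BC g) : P g := by
  have hpoly : ∀ p : Polynomial ℝ, P fun s => ((p.eval (rr₃ s) : ℝ) : ℂ) := by
    intro p
    induction p using Polynomial.induction_on with
    | C a => simpa using hc a
    | add p q hp hq =>
      simpa using ha _ _ (bc_comp_rr₃ p.continuous) (bc_comp_rr₃ q.continuous) hp hq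
    | monomial n a h =>
      have := hm _ _ (bc_comp_rr₃ (Polynomial.C a * Polynomial.X ^ n).continuous)
        (bc_comp_rr₃ continuous_id) h hr
      simpa [pow_succ, mul_assoc] using this
  have hreal : ∀ φ : ℝ → ℝ, Continuous φ → P fun s => ((φ (rr₃ s) : ℝ) : ℂ) := by
    intro φ hφ
    choose p hp using fun n : ℕ => exists_polynomial_near_of_continuousOn 0 2 φ hφ.continuousOn
      (1 / ((n : ℝ) + 1)) (by positivity)
    obtain ⟨C, hC⟩ := (bc_comp_rr₃ hφ).2
    have hp' : ∀ n s, ‖(((p n).eval (rr₃ s) : ℝ) : ℂ) - ((φ (rr₃ s) : ℝ) : ℂ)‖ ≤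
        1 / ((n : ℝ) + 1) := fun n s => by
      rw [← Complex.ofReal_sub, Complex.norm_real]
      exact (hp n _ ⟨(rr_pos₃ s).le, (rr_lt₃ s).le⟩).le
    refine hl (fun n s => (((p n).eval (rr₃ s) : ℝ) : ℂ)) _ (C + 1)
      (fun n => bc_comp_rr₃ (p n).continuous) (bc_comp_rr₃ hφ) (fun n s => ?_) (fun s => ?_)
      fun n => hpoly _
    · have h1 : 1 / ((n : ℝ) + 1) ≤ 1 := by
        rw [div_le_one (by positivity)]; linarith [Nat.cast_nonneg (α := ℝ) n]
      have h2 := norm_le_norm_add_norm_sub' (((p n).eval (rr₃ s) : ℝ) : ℂ) ((φ (rr₃ s) : ℝ) : ℂ)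
      linarith [hp' n s, hC s]
    · rw [tendsto_iff_norm_sub_tendsto_zero]
      exact squeeze_zero (fun n => norm_nonneg _) (fun n => hp' n s)
        tendsto_one_div_add_atTop_nhds_zero_nat
  have hcx : ∀ φ : ℝ → ℂ, Continuous φ → BC (fun s => φ (rr₃ s)) ∧ P fun s => φ (rr₃ s) := by
    intro φ hφ
    have e : (fun s => φ (rr₃ s)) =
        fun s => (((φ (rr₃ s)).re : ℝ) : ℂ) + (((φ (rr₃ s)).im : ℝ) : ℂ) * Complex.I :=
      funext fun s => (Complex.re_add_im _).symm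
    have b1 := bc_comp_rr₃ (Complex.continuous_re.comp hφ)
    have b2 := bc_comp_rr₃ (Complex.continuous_im.comp hφ)
    rw [e]
    exact ⟨b1.add (b2.mul (BC.const _)), ha _ _ b1 (b2.mul (BC.const _))
      (hreal _ (Complex.continuous_re.comp hφ))
      (hm _ _ b2 (BC.const _) (hreal _ (Complex.continuous_im.comp hφ)) (hc _))⟩
  obtain ⟨C, hC⟩ := hg.2
  exact hl (fun n s => g (Real.log ((2 - clamp₃ n (rr₃ s)) / clamp₃ n (rr₃ s)))) g C
    (fun n => (hcx _ (hg.1.comp (continuous_log_clamp₃ n))).1) hg (fun n s => hC _)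
    (fun s => (hg.1.tendsto s).comp (tendsto_log_clamp₃ s))
    fun n => (hcx _ (hg.1.comp (continuous_log_clamp₃ n))).2

namespace FC

variable (F : FC H)

theorem inner_f_left₃ {g : ℝ → ℂ} (hg : BC g) (ζ η : H) :
    ⟪F.f g ζ, η⟫_ℂ = ⟪ζ, F.f (fun s => conj (g s)) η⟫_ℂ := by
  rw [← F.f_star hg, ContinuousLinearMap.star_eq_adjoint, ContinuousLinearMap.adjoint_inner_right]

theorem inner_fa₃ (ζ η : H) : ⟪F.f fa ζ, η⟫_ℂ = ⟪ζ, F.f fa η⟫_ℂ := by
  simp only [F.inner_f_left₃ bc_fa, conj_fa]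

theorem inner_fb₃ (ζ η : H) : ⟪F.f fb ζ, η⟫_ℂ = ⟪ζ, F.f fb η⟫_ℂ := by
  simp only [F.inner_f_left₃ bc_fb, conj_fb]

theorem fa_fa_add₃ (η : H) : F.f fa (F.f fa η) + F.f fb (F.f fb η) = (2 : ℂ) • η := by
  rw [F.f_f bc_fa bc_fa, F.f_f bc_fb bc_fb, ← add_apply,
    ← F.f_add (bc_fa.mul bc_fa) (bc_fb.mul bc_fb)]
  simp only [fa_sq_add, F.f_const]
  rfl

theorem fa_fb_comm₃ (η : H) : F.f fa (F.f fb η) = F.f fb (F.f fa η) :=
  congrArg (fun T : H →L[ℂ] H => T η) (F.f_comm bc_fa bc_fb)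

section Inter

variable {H' : Type*} [NormedAddCommGroup H'] [InnerProductSpace ℂ H'] [CompleteSpace H']

theorem inter_of_R (F' : FC H') (T : H →L[ℂ] H')
    (h : ∀ η, T (F.f (fun s => fa s * fa s) η) = F'.f (fun s => fa s * fa s) (T η))
    {g : ℝ → ℂ} (hg : BC g) (η : H) : T (F.f g η) = F'.f g (T η) := by
  refine bc_induction₃ (P := fun g => ∀ η, T (F.f g η) = F'.f g (T η)) ?_ ?_ ?_ ?_ ?_ hg η
  · intro c η
    simp [f_const]
  · intro g k hg hk h1 h2 η
    simp [F.f_add hg hk, F'.f_add hg hk, h1, h2]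
  · intro g k hg hk h1 h2 η
    rw [← F.f_f hg hk, ← F'.f_f hg hk, h1, h2]
  · intro g k C hg hk hC hl hP η
    have t1 := (T.continuous.tendsto _).comp
      (F.tendsto (.of_forall hg) hk (.of_forall hC) hl η)
    have t2 := F'.tendsto (.of_forall hg) hk (.of_forall hC) hl (T η)
    exact tendsto_nhds_unique t1 (t2.congr fun n => (hP n η).symm)
  · simpa only [fa_mul_fa₃] using h

/-- Operators that respect the graphs `{(fa ρ, fb ρ)}` together with their adjoints intertwine. -/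
theorem inter_of_graph (F' : FC H') (A A' : H →L[ℂ] H')
    (h1 : ∀ ρ, ∃ ρ', A (F.f fa ρ) = F'.f fa ρ' ∧ A' (F.f fb ρ) = F'.f fb ρ')
    (h2 : ∀ ρ', ∃ ρ, ContinuousLinearMap.adjoint A (F'.f fa ρ') = F.f fa ρ ∧
      ContinuousLinearMap.adjoint A' (F'.f fb ρ') = F.f fb ρ)
    {g : ℝ → ℂ} (hg : BC g) (η : H) : A (F.f g η) = F'.f g (A η) := by
  refine F.inter_of_R F' A (fun η => ?_) hg η
  rw [← F.f_f bc_fa bc_fa, ← F'.f_f bc_fa bc_fa]
  obtain ⟨ρ', e1, e2⟩ := h1 (F.f fa η)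
  have key : F'.f fa (A (F.f fb (F.f fb η))) = F'.f fb (A' (F.f fb (F.f fa η))) := by
    refine ext_inner_left ℂ fun ρ0' => ?_
    obtain ⟨ρ0, e3, e4⟩ := h2 ρ0'
    rw [← F'.inner_fa₃, ← F'.inner_fb₃, ← ContinuousLinearMap.adjoint_inner_left A,
      ← ContinuousLinearMap.adjoint_inner_left A', e3, e4, F.inner_fa₃, F.inner_fb₃, F.fa_fb_comm₃,
      F.fa_fb_comm₃]
  have e5 : F.f fb (F.f fb η) = (2 : ℂ) • η - F.f fa (F.f fa η) := by
    rw [← F.fa_fa_add₃, add_sub_cancel_left]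
  rw [e5, map_sub, map_sub, e1, e2, map_smul, map_smul, sub_eq_iff_eq_add', F'.fa_fa_add₃] at key
  rw [e1, smul_right_injective H' (two_ne_zero (α := ℂ)) key]

end Inter

end FC

theorem tri_self₃ (h δ : ℝ) : tri h δ h = 1 := by
  simp [tri]

theorem eventually_tri_eq_zero₃ {h s : ℝ} (hs : s ≠ h) : ∀ᶠ ε in 𝓝[>] (0 : ℝ), tri h ε s = 0 := by
  have h0 : 0 < |s - h| := abs_pos.2 (sub_ne_zero.2 hs)
  filter_upwards [Ioo_mem_nhdsGT h0] with ε hε using tri_eq_zero hε.1 hε.2.le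

namespace FC

variable (F : FC H)

theorem f_zero₃ (η : H) : F.f (fun _ => 0) η = 0 := by
  simp [F.f_const]

theorem supp_of_eigen {η : H} {h : ℝ} (H0 : ∀ t, F.V t η = ex t h • η) : F.Supp η {h} := by
  have := F.fin η
  have e : F.μ η = (‖η‖₊ ^ 2 : NNReal) • Measure.dirac h := measure_eq_of_ex₃ fun t => by
    rw [← F.rep _ (bc_ex t), integral_smul_nnreal_measure, integral_dirac]
    change ⟪η, F.V t η⟫_ℂ = _
    rw [H0, inner_smul_right, inner_self_eq_norm_sq_to_K, NNReal.smul_def, Complex.real_smul,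
      mul_comm]
    simp
  simp [FC.Supp, e]

/-- A closed subspace invariant under the group is invariant under the calculus. -/
theorem mem_of_V {L : Submodule ℂ H} (hL : IsClosed (L : Set H))
    (hV : ∀ t, ∀ η ∈ L, F.V t η ∈ L) {g : ℝ → ℂ} (hg : BC g) {η : H} (hη : η ∈ L) :
    F.f g η ∈ L := by
  have : CompleteSpace L := hL.completeSpace_coe
  have key : ∀ t ζ, L.starProjection (F.V t ζ) = F.V t (L.starProjection ζ) := fun t ζ => by
    refine Submodule.eq_starProjection_of_mem_orthogonal (hV t _ (L.starProjection_apply_mem ζ)) ?_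
    rw [← map_sub, Submodule.mem_orthogonal]
    intro u hu
    rw [← F.V_V_neg t u, F.V_inner]
    exact (Submodule.mem_orthogonal _ _).1 (L.sub_starProjection_mem_orthogonal ζ) _ (hV _ _ hu)
  have h := F.inter_of_V F L.starProjection key hg η
  rw [Submodule.starProjection_eq_self_iff.2 hη] at h
  exact Submodule.starProjection_eq_self_iff.1 h

/-- Mean ergodic theorem for shrinking triangles. -/
theorem exists_erg (h : ℝ) (η : H) : ∃ η₀, F.Supp η₀ {h} ∧
    Tendsto (fun ε => F.f (tri h ε) η) (𝓝[>] 0) (𝓝 η₀) := by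
  have hpos : ∀ᶠ ε in 𝓝[>] (0 : ℝ), 0 < ε := self_mem_nhdsWithin
  obtain ⟨η₀, h0⟩ : ∃ η₀, Tendsto (fun ε => F.f (tri h ε) η) (𝓝[>] 0) (𝓝 η₀) := by
    rw [← cauchy_map_iff_exists_tendsto, cauchy_map_iff',
      tendsto_uniformity_iff_dist_tendsto_zero]
    have h1 := F.tendsto (l := 𝓝[>] (0 : ℝ) ×ˢ 𝓝[>] (0 : ℝ))
      (g := fun p s => tri h p.1 s - tri h p.2 s) (k := fun _ => 0) (C := 2)
      ((hpos.prod_mk hpos).mono fun p hp => (bc_tri _ hp.1).sub (bc_tri _ hp.2)) (BC.const 0)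
      ?_ ?_ η
    · rw [F.f_zero₃, tendsto_zero_iff_norm_tendsto_zero] at h1
      refine h1.congr' ((hpos.prod_mk hpos).mono fun p hp => ?_)
      dsimp only
      rw [F.f_sub (bc_tri _ hp.1) (bc_tri _ hp.2), dist_eq_norm]
      rfl
    · filter_upwards [hpos.prod_mk hpos] with p hp s
      linarith [norm_sub_le (tri h p.1 s) (tri h p.2 s), norm_tri_le h hp.1 s,
        norm_tri_le h hp.2 s]
    · intro s
      rcases eq_or_ne s h with rfl | hs
      · simp [tri_self₃]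
      · refine tendsto_const_nhds.congr' ?_
        filter_upwards [(eventually_tri_eq_zero₃ hs).prod_mk (eventually_tri_eq_zero₃ hs)] with p hp
        rw [hp.1, hp.2, sub_zero]
  refine ⟨η₀, (F.supp_iff isClosed_singleton).2 fun g hg hg0 => ?_, h0⟩
  obtain ⟨C, hC⟩ := hg.2
  have h1 := F.tendsto (l := 𝓝[>] (0 : ℝ)) (g := fun ε s => g s * tri h ε s) (k := fun _ => 0)
    (C := C) (hpos.mono fun p hp => hg.mul (bc_tri _ hp)) (BC.const 0) ?_ ?_ η
  · rw [F.f_zero₃] at h1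
    refine tendsto_nhds_unique (((F.f g).continuous.tendsto _).comp h0)
      (h1.congr' (hpos.mono fun ε hε => ?_))
    exact (F.f_f hg (bc_tri _ hε) η).symm
  · filter_upwards [hpos] with ε hε s
    rw [norm_mul]
    exact (mul_le_of_le_one_right (norm_nonneg _) (norm_tri_le h hε s)).trans (hC s)
  · intro s
    rcases eq_or_ne s h with rfl | hs
    · simp [hg0 s rfl]
    · refine tendsto_const_nhds.congr' ?_
      filter_upwards [eventually_tri_eq_zero₃ hs] with ε hε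
      rw [hε, mul_zero]

theorem tri_ne_zero_of_mem_support₃ {η : H} {q δ : ℝ} (hq : q ∈ (F.μ η).support) (hδ : 0 < δ) :
    F.f (tri q δ) η ≠ 0 := by
  intro h0
  have h1 := F.supp_of_f_eq_zero (bc_tri q hδ) h0
  have h2 := (Measure.mem_support_iff_forall q).1 hq _ (Metric.ball_mem_nhds q hδ)
  refine h2.ne' (measure_mono_null (fun s hs => ?_) h1)
  exact tri_ne_zero hδ (by rwa [Metric.mem_ball, Real.dist_eq] at hs)

/-- Without eigenvectors the spectrum has close distinct points. -/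
theorem exists_close {L : Submodule ℂ H} (hL : ∀ g, BC g → ∀ η ∈ L, F.f g η ∈ L)
    (hne : ∃ η ∈ L, η ≠ 0) (hno : ∀ h, ∀ η ∈ L, F.Supp η {h} → η = 0) {γ : ℝ} (hγ : 0 < γ) :
    ∃ p ∈ F.Sp L, ∃ q ∈ F.Sp L, p ≠ q ∧ |p - q| < γ := by
  obtain ⟨η, hη, hη0⟩ := hne
  have hsp : ∀ q ∈ (F.μ η).support, q ∈ F.Sp L := fun q hq δ hδ =>
    ⟨η, hη, F.tri_ne_zero_of_mem_support₃ hq hδ⟩
  have hμ : F.μ η ≠ 0 := fun h => hη0 (F.eq_zero_of_supp_empty (by simp [FC.Supp, h]))
  obtain ⟨p, hp⟩ := Measure.nonempty_support hμ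
  by_contra hcon
  push Not at hcon
  refine F.tri_ne_zero_of_mem_support₃ hp hγ (hno p _ (hL _ (bc_tri p hγ) η hη) ?_)
  refine F.supp_f (bc_tri p hγ) (S := (F.μ η).support) Measure.measure_compl_support
    isClosed_singleton fun s hs hs' => ?_
  exact tri_eq_zero hγ (hcon s (hsp s hs) p (hsp p hp) hs')

end FC

end Vale.Agent.P132
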