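import Vale.Agent.P132.Rt

/-! Type III tools: equivalence, Cuntz families, joins, scalar corners. -/

open scoped InnerProductSpace Topology ComplexConjugate
open Filter MeasureTheory

namespace Vale.Agent.P132

open Vale.Agent.P104

variable {H : Type*} [NormedAddCommGroup H] [InnerProductSpace ℂ H] [CompleteSpace H]
  {M : VonNeumannAlgebra H} {J : H →L⋆[ℂ] H} {P : Set H} {ξ : H} {F : FC H}

theorem T3.equiv (h : T3 M) {e f : H →L[ℂ] H} (heM : e ∈ M) (he : IsStarProjection e)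
    (he0 : e ≠ 0) (hfM : f ∈ M) (hf : IsStarProjection f) (hf0 : f ≠ 0) :
    ∃ v ∈ M, star v * v = e ∧ v * star v = f := by
  obtain ⟨v, hv, v1, v2⟩ := h.iso e heM he he0
  obtain ⟨w, hw, w1, w2⟩ := h.iso f hfM hf hf0
  refine ⟨w * star v, mul_mem hw (star_mem hv), ?_, ?_⟩
  · rw [star_mul, star_star, mul_assoc, ← mul_assoc (star w), w1, one_mul, v2]
  · rw [star_mul, star_star, mul_assoc, ← mul_assoc (star v), v1, one_mul, w2]

theorem T3.one_ne (h : T3 M) : (1 : H →L[ℂ] H) ≠ 0 := by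
  obtain ⟨e, -, -, h0, -⟩ := h.nontriv
  intro h1
  exact h0 (by rw [← mul_one e, h1, mul_zero])

theorem join_orth {t₁ t₂ : H →L[ℂ] H} (p₁ : IsPI t₁) (p₂ : IsPI t₂)
    (hs : t₁ * star t₁ + t₂ * star t₂ = 1) : star t₁ * t₂ = 0 := by
  have e : t₂ * star t₂ = 1 - t₁ * star t₁ := by rw [← hs, add_sub_cancel_left]
  have e2 : star t₁ * (t₂ * star t₂) = 0 := by
    rw [e, mul_sub, mul_one, ← mul_assoc, p₁.init_mul, sub_self]
  rw [← (show t₂ * star t₂ * t₂ = t₂ from p₂), ← mul_assoc, e2, zero_mul]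

theorem T3.two (h : T3 M) {e₁ e₂ : H →L[ℂ] H} (m₁ : e₁ ∈ M) (p₁ : IsStarProjection e₁)
    (n₁ : e₁ ≠ 0) (m₂ : e₂ ∈ M) (p₂ : IsStarProjection e₂) (n₂ : e₂ ≠ 0) :
    ∃ t₁ ∈ M, ∃ t₂ ∈ M, star t₁ * t₁ = e₁ ∧ star t₂ * t₂ = e₂ ∧
      t₁ * star t₁ + t₂ * star t₂ = 1 ∧ star t₁ * t₂ = 0 ∧ star t₂ * t₁ = 0 := by
  obtain ⟨p, hpM, hp, p0, p1⟩ := h.nontriv
  obtain ⟨t₁, a₁, b₁, c₁⟩ := h.equiv m₁ p₁ n₁ hpM hp p0
  obtain ⟨t₂, a₂, b₂, c₂⟩ := h.equiv m₂ p₂ n₂ (sub_mem (one_mem M) hpM) hp.one_sub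
    (sub_ne_zero.2 p1.symm)
  have hs : t₁ * star t₁ + t₂ * star t₂ = 1 := by rw [c₁, c₂, add_sub_cancel]
  have q₁ : IsPI t₁ := isPI_of_init (b₁ ▸ p₁)
  have q₂ : IsPI t₂ := isPI_of_init (b₂ ▸ p₂)
  exact ⟨t₁, a₁, t₂, a₂, b₁, b₂, hs, join_orth q₁ q₂ hs, join_orth q₂ q₁ (by rw [add_comm, hs])⟩

theorem T3.cuntz (h : T3 M) (ι : Type) [Fintype ι] [DecidableEq ι] [Nonempty ι] :
    ∃ s : ι → (H →L[ℂ] H), (∀ i, s i ∈ M) ∧
      (∀ i j, star (s i) * s j = if i = j then 1 else 0) ∧ ∑ i, s i * star (s i) = 1 := by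
  have key : ∀ n : ℕ, ∃ s : Fin (n + 1) → (H →L[ℂ] H), (∀ i, s i ∈ M) ∧
      (∀ i j, star (s i) * s j = if i = j then 1 else 0) ∧ ∑ i, s i * star (s i) = 1 := by
    intro n
    induction n with
    | zero => exact ⟨fun _ => 1, fun _ => one_mem _, fun i j => by
        rw [if_pos (Fin.ext (by omega))]; simp,
        by simp⟩
    | succ n ih =>
      obtain ⟨s, s1, s2, s3⟩ := ih
      obtain ⟨t₁, m₁, t₂, m₂, i₁, i₂, hs, o₁, o₂⟩ :=
        h.two (one_mem M) (IsStarProjection.one _) h.one_ne (one_mem M) (IsStarProjection.one _)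
          h.one_ne
      refine ⟨Fin.cons t₁ fun i => t₂ * s i, fun i => ?_, fun i j => ?_, ?_⟩
      · refine Fin.cases m₁ (fun i => mul_mem m₂ (s1 i)) i
      · refine Fin.cases ?_ (fun i => ?_) i <;> refine Fin.cases ?_ (fun j => ?_) j
        · simpa using i₁
        · simp only [Fin.cons_zero, Fin.cons_succ, ← mul_assoc, o₁, zero_mul]
          rw [if_neg (Fin.succ_ne_zero j).symm]
        · simp only [Fin.cons_zero, Fin.cons_succ, star_mul, mul_assoc, o₂, mul_zero]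
          rw [if_neg (Fin.succ_ne_zero i)]
        · simp only [Fin.cons_succ, star_mul, Fin.succ_inj]
          rw [mul_assoc, ← mul_assoc (star t₂), i₂, one_mul, s2]
      · rw [Fin.sum_univ_succ]
        simp only [Fin.cons_zero, Fin.cons_succ, star_mul]
        have : ∑ i, t₂ * s i * (star (s i) * star t₂) = t₂ * (∑ i, s i * star (s i)) * star t₂ := by
          rw [Finset.mul_sum, Finset.sum_mul]
          simp only [mul_assoc]
        rw [this, s3, mul_one, hs]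
  obtain ⟨n, hn⟩ := Nat.exists_eq_succ_of_ne_zero (Fintype.card_ne_zero (α := ι))
  obtain ⟨s, s1, s2, s3⟩ := key n
  let e : ι ≃ Fin (n + 1) := Fintype.equivFinOfCardEq hn
  refine ⟨fun i => s (e i), fun i => s1 _, fun i j => by simp [s2], ?_⟩
  rw [← s3]
  exact e.sum_comp fun i => s i * star (s i)

theorem T3.ne_zero (h : T3 M) (hs : Sep M ξ) : ξ ≠ 0 := by
  rintro rfl
  exact h.one_ne (hs 1 (one_mem M) rfl)

theorem Ctx.cmp_mem (h : Ctx M J P) {ζ : H} (hζ : ζ ∈ P) {f : H →L[ℂ] H} (hfM : f ∈ M)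
    (hf : IsStarProjection f) : cmp J f ζ ∈ P := by
  have := h.sand ζ hζ f hfM
  rwa [hf.isSelfAdjoint.star_eq] at this

theorem Ctx.sum_mem (h : Ctx M J P) {ι : Type*} (t : Finset ι) (ht : t.Nonempty) {ζ : ι → H}
    (hζ : ∀ i ∈ t, ζ i ∈ P) : ∑ i ∈ t, ζ i ∈ P := by
  induction ht using Finset.Nonempty.cons_induction with
  | singleton a => simpa using hζ
  | cons a s ha hs ih =>
    rw [Finset.sum_cons]
    exact h.add _ (hζ a (Finset.mem_cons_self _ _)) _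
      (ih fun i hi => hζ i (Finset.mem_cons_of_mem hi))

theorem Ctx.isSupp_one (h : Ctx M J P) {ζ : H} (hζ : ζ ∈ P) (hs : Sep M ζ) : IsSupp M J 1 ζ := by
  obtain ⟨F, hF, -⟩ := h.md ζ hζ hs
  exact hF.isSupp_one

theorem IsSupp.cmp (hB : Bi M J) {ζ : H} (h : IsSupp M J 1 ζ) {f : H →L[ℂ] H} (hfM : f ∈ M)
    (hf : IsStarProjection f) : IsSupp M J f (cmp J f ζ) := by
  refine ⟨hfM, hf, ?_, fun x hx h0 => ?_⟩
  · rw [P132.cmp, ← mul_apply_eq_comp, hf.isIdempotentElem.eq]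
  · have := h.faith (x * f) (mul_mem hx hfM) (by
      rw [star_mul, hf.isSelfAdjoint.star_eq, hB.cj.rt_mul_apply, mul_apply_eq_comp,
        hB.comm_apply hfM (star_mem hx)]
      exact h0)
    rwa [mul_one] at this

/-- Pulling a vector back along an isometry whose range projection centralizes it. -/
theorem Ctx.pull (h : Ctx M J P) {ζ : H} (hζ : ζ ∈ P) (hs : Sep M ζ) {v : H →L[ℂ] H}
    (hv : v ∈ M) (h1 : star v * v = 1) (hc : rt J (v * star v) ζ = (v * star v) ζ) :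
    star v (rt J v ζ) ∈ P ∧ Sep M (star v (rt J v ζ)) ∧ v (star v (rt J v ζ)) = rt J v ζ ∧
      ‖star v (rt J v ζ)‖ = ‖(v * star v) ζ‖ := by
  have hB := h.bi
  have hvv : v * star v * v = v := by rw [mul_assoc, h1, mul_one]
  have hp : v * star v ∈ M := mul_mem hv (star_mem hv)
  have e3 : v (star v (rt J v ζ)) = rt J v ζ := by
    rw [← mul_apply_eq_comp, hB.comm_apply hp hv, ← hc, ← hB.cj.rt_mul_apply, hvv]
  have hiso : ∀ η, ‖v η‖ = ‖η‖ := fun η =>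
    norm_apply_congr (y := 1) (by rw [h1, star_one, mul_one]) η
  refine ⟨by simpa only [star_star] using h.sand ζ hζ _ (star_mem hv), fun x hx h0 => ?_, e3, ?_⟩
  · have hx' : x * star v ∈ M := mul_mem hx (star_mem hv)
    have h2 : rt J (star v) ((x * star v) (rt J v ζ)) = 0 := by
      rw [mul_apply_eq_comp, h0, map_zero]
    rw [← hB.comm_apply hx' (star_mem hv), ← hB.cj.rt_mul_apply, hc, ← mul_apply_eq_comp,
      mul_assoc, ← mul_assoc (star v), h1, one_mul] at h2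
    rw [← mul_one x, ← h1, ← mul_assoc, hs _ hx' h2, zero_mul]
  · rw [← hiso, e3, hB.cj.norm_rt_fix (h.fix ζ hζ), mul_apply_eq_comp, hiso]

theorem join_half (h : Ctx M J P) {ζ₁ : H} (m₁ : ζ₁ ∈ P) {e₁ t₁ t₂ : H →L[ℂ] H}
    (s₁ : IsSupp M J e₁ ζ₁) (a₁ : t₁ ∈ M) (a₂ : t₂ ∈ M) (i₁ : star t₁ * t₁ = e₁)
    (o₁ : star t₁ * t₂ = 0) (o₂ : star t₂ * t₁ = 0) (ζ₂ : H) :
    (t₁ * star t₁) (t₁ (rt J (star t₁) ζ₁) + t₂ (rt J (star t₂) ζ₂)) = t₁ (rt J (star t₁) ζ₁) ∧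
    rt J (t₁ * star t₁) (t₁ (rt J (star t₁) ζ₁) + t₂ (rt J (star t₂) ζ₂)) =
      t₁ (rt J (star t₁) ζ₁) ∧
    ∀ x ∈ M, x (t₁ (rt J (star t₁) ζ₁) + t₂ (rt J (star t₂) ζ₂)) = 0 → x * t₁ = 0 := by
  have hB := h.bi
  have q₁ : IsPI t₁ := isPI_of_init (i₁ ▸ s₁.proj)
  have hp : t₁ * star t₁ ∈ M := mul_mem a₁ (star_mem a₁)
  refine ⟨?_, ?_, fun x hx h0 => ?_⟩
  · rw [map_add, ← mul_apply_eq_comp, ← mul_apply_eq_comp (t₁ * star t₁) t₂, q₁, mul_assoc, o₁]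
    simp
  · rw [map_add, ← hB.comm_apply a₁ hp, ← hB.comm_apply a₂ hp, ← hB.cj.rt_mul_apply,
      ← hB.cj.rt_mul_apply, ← mul_assoc, ← mul_assoc, q₁.init_mul, o₂, zero_mul, rt_zero]
    simp
  · have h2 := congrArg (rt J t₁) h0
    rw [map_zero, ← hB.comm_apply hx a₁, map_add, ← hB.comm_apply a₁ a₁, ← hB.comm_apply a₂ a₁,
      ← hB.cj.rt_mul_apply, ← hB.cj.rt_mul_apply, o₂, rt_zero, i₁,
      s₁.rt_fix hB.cj (h.fix _ m₁)] at h2
    refine s₁.eq_zero hB (mul_mem hx a₁) (by rw [mul_assoc, ← i₁, q₁.mul_init]) ?_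
    simpa using h2

theorem Ctx.join (h : Ctx M J P) {ζ₁ ζ₂ : H} (m₁ : ζ₁ ∈ P) (m₂ : ζ₂ ∈ P) {e₁ e₂ : H →L[ℂ] H}
    (s₁ : IsSupp M J e₁ ζ₁) (s₂ : IsSupp M J e₂ ζ₂) (n₁ : e₁ ≠ 0) (n₂ : e₂ ≠ 0) :
    ∃ t₁ t₂ ζ, Join M J P e₁ e₂ ζ₁ ζ₂ t₁ t₂ ζ := by
  have hB := h.bi
  obtain ⟨t₁, a₁, t₂, a₂, i₁, i₂, hs, o₁, o₂⟩ :=
    h.t3.two s₁.mem s₁.proj n₁ s₂.mem s₂.proj n₂
  obtain ⟨l₁, r₁, z₁⟩ := join_half h m₁ s₁ a₁ a₂ i₁ o₁ o₂ ζ₂
  obtain ⟨l₂, r₂, z₂⟩ := join_half h m₂ s₂ a₂ a₁ i₂ o₂ o₁ ζ₁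
  rw [add_comm] at l₂ r₂ z₂
  refine ⟨t₁, t₂, _, a₁, a₂, i₁, i₂, hs, h.add _ (h.sand _ m₁ _ a₁) _ (h.sand _ m₂ _ a₂),
    fun x hx h0 => ?_, l₁, r₁, l₂, r₂⟩
  rw [← mul_one x, ← hs, mul_add, ← mul_assoc, ← mul_assoc, z₁ x hx h0, z₂ x hx h0]
  simp

/-- Transport of an off diagonal element back to the two original vectors. -/
theorem Join.back (h : Ctx M J P) {ζ₁ ζ₂ ζ : H} (m₁ : ζ₁ ∈ P) (m₂ : ζ₂ ∈ P)
    {e₁ e₂ t₁ t₂ : H →L[ℂ] H} (s₁ : IsSupp M J e₁ ζ₁) (s₂ : IsSupp M J e₂ ζ₂)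
    (j : Join M J P e₁ e₂ ζ₁ ζ₂ t₁ t₂ ζ) {x : H →L[ℂ] H} (hx : x ∈ M)
    (h₂ : t₂ * star t₂ * x = x) (h₁ : x * (t₁ * star t₁) = x) :
    e₂ * (star t₂ * x * t₁) = star t₂ * x * t₁ ∧ star t₂ * x * t₁ * e₁ = star t₂ * x * t₁ ∧
      (star t₂ * x * t₁) ζ₁ = star t₂ (rt J t₁ (x ζ)) ∧
      ‖(star t₂ * x * t₁) ζ₁‖ = ‖x ζ‖ ∧
      (∀ c : ℝ, ‖df J c (star t₂ * x * t₁) ζ₁ ζ₂‖ = ‖df J c x ζ ζ‖) ∧
      ∀ η, (t₂ * star t₂) η = η → rt J (t₁ * star t₁) η = η → ‖star t₂ (rt J t₁ η)‖ = ‖η‖ := by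
  have _ := m₂
  have hB := h.bi
  have q₁ : IsPI t₁ := isPI_of_init (j.init₁ ▸ s₁.proj)
  have q₂ : IsPI t₂ := isPI_of_init (j.init₂ ▸ s₂.proj)
  have hp₁ : t₁ * star t₁ ∈ M := mul_mem j.mem₁ (star_mem j.mem₁)
  have hp₂ : t₂ * star t₂ ∈ M := mul_mem j.mem₂ (star_mem j.mem₂)
  have hs₂ := star_mem j.mem₂
  have k₁ : rt J t₁ ζ = t₁ ζ₁ := by
    conv_lhs => rw [← (show t₁ * star t₁ * t₁ = t₁ from q₁), hB.cj.rt_mul_apply, j.right₁]
    rw [← hB.comm_apply j.mem₁ j.mem₁, ← hB.cj.rt_mul_apply, j.init₁, s₁.rt_fix hB.cj (h.fix _ m₁)]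
  have k₂ : star t₂ ζ = rt J (star t₂) ζ₂ := by
    conv_lhs => rw [← q₂.init_mul, mul_assoc, mul_apply_eq_comp, j.left₂]
    rw [← mul_apply_eq_comp, j.init₂, hB.comm_apply s₂.mem hs₂, s₂.fix]
  have e3 : (star t₂ * x * t₁) ζ₁ = star t₂ (rt J t₁ (x ζ)) := by
    rw [← hB.comm_apply hx j.mem₁, k₁]; rfl
  have e6 : ∀ η, (t₂ * star t₂) η = η → rt J (t₁ * star t₁) η = η →
      ‖star t₂ (rt J t₁ η)‖ = ‖η‖ := by
    intro η h1 h2
    rw [← q₂.norm_fin, hB.comm_apply hp₂ j.mem₁, h1, hB.cj.norm_rt_apply, ← q₁.norm_fin]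
    conv_rhs => rw [← h2, hB.cj.norm_rt_apply, q₁.fin.isSelfAdjoint.star_eq]
  have f1 : (t₂ * star t₂) (x ζ) = x ζ := by rw [← mul_apply_eq_comp, h₂]
  have f2 : rt J (t₁ * star t₁) (x ζ) = x ζ := by
    rw [← hB.comm_apply hx hp₁, j.right₁, ← j.left₁, ← mul_apply_eq_comp, h₁]
  have f3 : (t₂ * star t₂) (rt J x ζ) = rt J x ζ := by
    rw [hB.comm_apply hp₂ hx, j.left₂, ← j.right₂, ← hB.cj.rt_mul_apply, h₂]
  have f4 : rt J (t₁ * star t₁) (rt J x ζ) = rt J x ζ := by rw [← hB.cj.rt_mul_apply, h₁]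
  refine ⟨?_, ?_, e3, by rw [e3, e6 _ f1 f2], fun c => ?_, e6⟩
  · rw [← j.init₂, ← mul_assoc, ← mul_assoc, q₂.init_mul]
  · rw [← j.init₁, mul_assoc, q₁.mul_init]
  · have : df J c (star t₂ * x * t₁) ζ₁ ζ₂ = star t₂ (rt J t₁ (df J c x ζ ζ)) := by
      rw [df, df, map_sub, map_sub, map_smul, map_smul, e3, hB.comm_apply hs₂ j.mem₁,
        hB.comm_apply hs₂ j.mem₁, hB.comm_apply hs₂ hx, k₂, hB.cj.rt_mul_apply,
        hB.cj.rt_mul_apply]
    rw [this]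
    refine e6 _ ?_ ?_
    · rw [df, map_sub, map_smul, f1, f3]
    · rw [df, map_sub, map_smul, f2, f4]

theorem join_shrink {f g b : H →L[ℂ] H} (hf : IsStarProjection f) (hg : IsStarProjection g)
    (h : f * g = g) {c : ℂ} {γ : ℝ} (hc : ‖f * b * f - c • f‖ ≤ γ) : ‖g * b * g - c • g‖ ≤ γ := by
  have h' : g * f = g := by
    simpa only [star_mul, hf.isSelfAdjoint.star_eq, hg.isSelfAdjoint.star_eq] using congrArg star h
  have e : g * b * g - c • g = g * (f * b * f - c • f) * g := by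
    rw [mul_sub, sub_mul, ← mul_assoc, ← mul_assoc, h', mul_assoc _ f, h, mul_smul_comm, h',
      smul_mul_assoc, hg.isIdempotentElem.eq]
  rw [e]
  refine le_trans ?_ hc
  refine (norm_mul_le _ _).trans ((mul_le_of_le_one_right (norm_nonneg _) hg.norm_le).trans ?_)
  exact (norm_mul_le _ _).trans (mul_le_of_le_one_left (norm_nonneg _) hg.norm_le)

theorem join_comm (M : VonNeumannAlgebra H) {h E : H →L[ℂ] H} (hM : h ∈ M)
    (hE : ∀ y : H →L[ℂ] H, Commute y h → Commute (star y) h → Commute y E) : E ∈ M :=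
  mem_of_commute M fun y hy =>
    hE y (commute_of_mem M hy hM) (commute_of_mem M (star_mem hy) hM)

theorem join_ehe {e h : H →L[ℂ] H} (he : IsStarProjection e) : Commute e (e * h * e) := by
  rw [Commute, SemiconjBy, ← mul_assoc, ← mul_assoc, he.isIdempotentElem.eq, mul_assoc _ e e,
    he.isIdempotentElem.eq]

theorem join_sa_corner (M : VonNeumannAlgebra H) {h : H →L[ℂ] H} (hM : h ∈ M)
    (hsa : IsSelfAdjoint h) {e : H →L[ℂ] H} (heM : e ∈ M)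
    (he : IsStarProjection e) (h0 : e ≠ 0) {γ : ℝ} (hγ : 0 < γ) :
    ∃ f ∈ M, IsStarProjection f ∧ f ≠ 0 ∧ e * f = f ∧ ∃ c : ℂ, ‖f * h * f - c • f‖ ≤ γ := by
  have hsa' : IsSelfAdjoint (e * h * e) := by
    rw [IsSelfAdjoint, star_mul, star_mul, he.isSelfAdjoint.star_eq, hsa.star_eq, mul_assoc]
  obtain ⟨m, f, c, f1, -, f3, f4, f5⟩ := exists_partition hsa' hγ
  have hc : ∀ a, Commute e (f a) := fun a =>
    f4 a e (join_ehe he) (by rw [he.isSelfAdjoint.star_eq]; exact join_ehe he)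
  obtain ⟨a, ha⟩ : ∃ a, e * f a ≠ 0 := by
    by_contra hn
    push Not at hn
    exact h0 (by rw [← mul_one e, ← f3, Finset.mul_sum]; simp [hn])
  have hp : IsStarProjection (e * f a) := he.mul (f1 a) (hc a)
  refine ⟨e * f a, mul_mem heM (join_comm M (mul_mem (mul_mem heM hM) heM) (f4 a)), hp, ha,
    by rw [← mul_assoc, he.isIdempotentElem.eq], c a, ?_⟩
  have e1 : e * f a * h * (e * f a) - (c a : ℂ) • (e * f a) =
      e * f a * (e * h * e * f a - (c a : ℂ) • f a) := by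
    have : e * f a * e = e * f a := by
      rw [mul_assoc, ← (hc a).eq, ← mul_assoc, he.isIdempotentElem.eq]
    rw [mul_sub, mul_smul_comm, mul_assoc e (f a) (f a), (f1 a).isIdempotentElem.eq]
    simp only [← mul_assoc, this]
  rw [e1]
  exact (norm_mul_le _ _).trans ((mul_le_of_le_one_left (norm_nonneg _) hp.norm_le).trans (f5 a))

/-- A corner on which finitely many operators are almost scalar. -/
theorem exists_scalar_corner (M : VonNeumannAlgebra H) {ι : Type*} (t : Finset ι)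
    {b : ι → (H →L[ℂ] H)} (hb : ∀ i ∈ t, b i ∈ M) {e : H →L[ℂ] H} (heM : e ∈ M)
    (he : IsStarProjection e) (h0 : e ≠ 0) {γ : ℝ} (hγ : 0 < γ) :
    ∃ f ∈ M, IsStarProjection f ∧ f ≠ 0 ∧ e * f = f ∧
      ∀ i ∈ t, ∃ c : ℂ, ‖f * b i * f - c • f‖ ≤ γ := by
  classical
  induction t using Finset.induction_on with
  | empty => exact ⟨e, heM, he, h0, he.isIdempotentElem.eq, by simp⟩
  | insert a t ha ih =>
    obtain ⟨f, hfM, hf, hf0, hef, hc⟩ := ih fun i hi => hb i (Finset.mem_insert_of_mem hi)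
    have hbM := hb a (Finset.mem_insert_self _ _)
    obtain ⟨f₁, m₁, p₁, n₁, l₁, c₁, k₁⟩ := join_sa_corner M
      (h := (1 / 2 : ℂ) • (b a + star (b a)))
      (M.toStarSubalgebra.smul_mem (add_mem hbM (star_mem hbM)) _)
      (by simp [IsSelfAdjoint, add_comm]) hfM hf hf0 (half_pos hγ)
    obtain ⟨f₂, m₂, p₂, n₂, l₂, c₂, k₂⟩ := join_sa_corner M
      (h := (-Complex.I / 2 : ℂ) • (b a - star (b a)))
      (M.toStarSubalgebra.smul_mem (sub_mem hbM (star_mem hbM)) _)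
      (by
        rw [IsSelfAdjoint, star_smul, star_sub, star_star, ← neg_sub, smul_neg, ← neg_smul]
        congr 1
        simp [neg_div]) m₁ p₁ n₁ (half_pos hγ)
    have l₃ : f * f₂ = f₂ := by rw [← l₂, ← mul_assoc, l₁]
    refine ⟨f₂, m₂, p₂, n₂, by rw [← l₃, ← mul_assoc, hef], fun i hi => ?_⟩
    rcases Finset.mem_insert.1 hi with rfl | hi
    · refine ⟨c₁ + Complex.I * c₂, ?_⟩
      have k₃ := join_shrink p₁ p₂ l₂ k₁
      have e1 : f₂ * b i * f₂ - (c₁ + Complex.I * c₂) • f₂ =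
          (f₂ * ((1 / 2 : ℂ) • (b i + star (b i))) * f₂ - c₁ • f₂) +
            Complex.I • (f₂ * ((-Complex.I / 2 : ℂ) • (b i - star (b i))) * f₂ - c₂ • f₂) := by
        have hI : Complex.I * (-Complex.I / 2) = 1 / 2 := by
          rw [neg_div, mul_neg, ← mul_div_assoc, Complex.I_mul_I]; ring
        simp only [mul_smul_comm, smul_mul_assoc, smul_sub, smul_smul, hI, mul_add, mul_sub,
          add_mul, sub_mul, add_smul]
        module
      rw [e1]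
      refine (norm_add_le _ _).trans ?_
      rw [norm_smul, Complex.norm_I, one_mul]
      linarith
    · obtain ⟨c, hc⟩ := hc i hi
      exact ⟨c, join_shrink hf p₂ l₃ hc⟩

/-- A corner on which a self adjoint operator is small. -/
theorem exists_small_corner (M : VonNeumannAlgebra H) {h : H →L[ℂ] H} (hM : h ∈ M)
    (hsa : IsSelfAdjoint h) {e : H →L[ℂ] H} (heM : e ∈ M) (he : IsStarProjection e) {η : H}
    (hη : e η = η) {γ : ℝ} (hlt : (⟪η, h η⟫_ℂ).re < γ * ‖η‖ ^ 2) :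
    ∃ f ∈ M, IsStarProjection f ∧ f ≠ 0 ∧ e * f = f ∧
      ∀ ζ, f ζ = ζ → (⟪ζ, h ζ⟫_ℂ).re ≤ γ * ‖ζ‖ ^ 2 := by
  have hsa' : IsSelfAdjoint (e * h * e) := by
    rw [IsSelfAdjoint, star_mul, star_mul, he.isSelfAdjoint.star_eq, hsa.star_eq, mul_assoc]
  obtain ⟨E, E1, E2, E3, E4⟩ := exists_cut (e * h * e) γ
  have hc : Commute e E :=
    E2 e (join_ehe he) (by rw [he.isSelfAdjoint.star_eq]; exact join_ehe he)
  have hc' : Commute e (1 - E) := (Commute.one_right e).sub_right hc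
  set a := cfc (fun s : ℝ => max (s - γ) 0) (e * h * e) with ha
  set b := cfc (fun s : ℝ => max (γ - s) 0) (e * h * e) with hb
  have hab : a - b = e * h * e - algebraMap ℝ _ γ := by
    have : cfc (fun s : ℝ => s - γ) (e * h * e) = e * h * e - algebraMap ℝ _ γ := by
      rw [cfc_sub _ _ (e * h * e), cfc_id' ℝ (e * h * e), cfc_const γ (e * h * e)]
    rw [ha, hb, ← cfc_sub _ _ (e * h * e), ← this]
    refine cfc_congr fun s _ => ?_
    rcases le_total s γ with hs | hs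
    · simp [max_eq_right (sub_nonpos.2 hs), max_eq_left (sub_nonneg.2 hs)]
    · simp [max_eq_right (sub_nonpos.2 hs), max_eq_left (sub_nonneg.2 hs)]
  have pos : ∀ φ : ℝ → ℝ, ∀ ζ : H,
      0 ≤ (⟪ζ, cfc (fun s : ℝ => max (φ s) 0) (e * h * e) ζ⟫_ℂ).re := fun φ ζ =>
    ((ContinuousLinearMap.nonneg_iff_isPositive (cfc (fun s : ℝ => max (φ s) 0) (e * h * e))).1
      (cfc_nonneg fun s _ => le_max_right _ _)).re_inner_nonneg_right ζ
  have key : ∀ ζ, e ζ = ζ → (⟪ζ, h ζ⟫_ℂ).re - γ * ‖ζ‖ ^ 2 = (⟪ζ, a ζ⟫_ℂ).re - (⟪ζ, b ζ⟫_ℂ).re := by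
    intro ζ hζ
    have e1 : ⟪ζ, (e * h * e) ζ⟫_ℂ = ⟪ζ, h ζ⟫_ℂ := by
      rw [mul_apply_eq_comp, mul_apply_eq_comp, hζ, ← inner_star_left, he.isSelfAdjoint.star_eq, hζ]
    rw [← Complex.sub_re, ← inner_sub_right, ← sub_apply, hab, sub_apply, inner_sub_right, e1,
      Complex.sub_re, Algebra.algebraMap_eq_smul_one, smul_apply, one_apply_eq_self,
      ← Complex.coe_smul, inner_smul_right, Complex.re_ofReal_mul,
      ← inner_self_eq_norm_sq (𝕜 := ℂ)]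
    rfl
  refine ⟨e * (1 - E), mul_mem heM (sub_mem (one_mem M)
    (join_comm M (mul_mem (mul_mem heM hM) heM) E2)), he.mul E1.one_sub hc', fun h0 => ?_,
    by rw [← mul_assoc, he.isIdempotentElem.eq], fun ζ hζ => ?_⟩
  · have h1 : E η = η := by
      have := congrArg (fun T : H →L[ℂ] H => T η) h0
      simp only [hc'.eq, mul_apply_eq_comp, hη, sub_apply, one_apply_eq_self, zero_apply] at this
      exact (sub_eq_zero.1 this).symm
    have h2 : b η = 0 := by rw [← h1, ← mul_apply_eq_comp, E3, zero_apply]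
    have := key η hη
    rw [h2, inner_zero_right, Complex.zero_re] at this
    linarith [pos (fun s => s - γ) η]
  · have h1 : e ζ = ζ := by
      rw [← hζ, ← mul_apply_eq_comp, ← mul_assoc, he.isIdempotentElem.eq]
    have h2 : a ζ = 0 := by
      rw [← hζ, hc'.eq, ← mul_apply_eq_comp, ← mul_assoc, E4, zero_mul, zero_apply]
    have := key ζ h1
    rw [h2, inner_zero_right, Complex.zero_re] at this
    linarith [pos (fun s => γ - s) ζ]

end Vale.Agent.P132
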