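import Vale.Agent.P132.CutAux

/-! The cutting trick of Connes. -/

open scoped InnerProductSpace Topology ComplexConjugate
open Filter MeasureTheory

namespace Vale.Agent.P132

open Vale.Agent.P104

variable {H : Type*} [NormedAddCommGroup H] [InnerProductSpace ℂ H] [CompleteSpace H]
  {M : VonNeumannAlgebra H} {J : H →L⋆[ℂ] H} {P : Set H} {ξ : H} {F : FC H}

namespace CutAux

theorem norm_part {k : H →L[ℂ] H} {m : ℕ} {f : Fin m → (H →L[ℂ] H)} {c : Fin m → ℝ} {ε : ℝ}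
    (hε : 0 ≤ ε) (hf : ∀ a, IsStarProjection (f a)) (ho : Pairwise fun a b => f a * f b = 0)
    (hs : ∑ a, f a = 1) (hk : ∀ a, Commute k (f a)) (hb : ∀ a, ‖k * f a - (c a : ℂ) • f a‖ ≤ ε) :
    ‖k - ∑ a, (c a : ℂ) • f a‖ ≤ ε := by
  obtain ⟨T, hT⟩ : ∃ T : Fin m → (H →L[ℂ] H), ∀ a, T a = k * f a - (c a : ℂ) • f a :=
    ⟨_, fun _ => rfl⟩
  have e : k - ∑ a, (c a : ℂ) • f a = ∑ a, T a := by
    simp only [hT, Finset.sum_sub_distrib, ← Finset.mul_sum, hs, mul_one]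
  have e1 : ∀ a, f a * T a = T a := fun a => by
    rw [hT, mul_sub, ← mul_assoc, ← (hk a).eq, mul_assoc, mul_smul_comm, (hf a).isIdempotentElem]
  have e2 : ∀ a, T a * f a = T a := fun a => by
    rw [hT, sub_mul, mul_assoc, smul_mul_assoc, (hf a).isIdempotentElem]
  refine ContinuousLinearMap.opNorm_le_bound _ hε fun η => ?_
  refine (abs_le_of_sq_le_sq' ?_ (by positivity)).2
  have p := pyth_family 1 f hf ho hs (fun a => by simp) η
  simp only [one_apply_eq_self] at p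
  rw [e, sum_apply, g_norm_sum_orth _ fun a b hab => by
    beta_reduce
    rw [← e1 a, ← e1 b, mul_apply_eq_comp, ← inner_star_right, (hf a).isSelfAdjoint.star_eq,
      ← mul_apply_eq_comp, ← mul_assoc, ho hab, zero_mul, zero_apply, inner_zero_right], mul_pow,
    ← p, Finset.mul_sum]
  refine Finset.sum_le_sum fun a _ => ?_
  rw [← e2, mul_apply_eq_comp, ← mul_pow]
  exact pow_le_pow_left₀ (norm_nonneg _) ((T a).le_of_opNorm_le (hT a ▸ hb a) _) 2

theorem approx {x : H →L[ℂ] H} (hx : x ∈ M) {δ : ℝ} (hδ : 0 < δ) :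
    ∃ (m : ℕ) (w : Fin m → (H →L[ℂ] H)) (c : Fin m → ℝ), Fam M w ∧ (∀ a, 0 ≤ c a) ∧
      ‖cb c w - x‖ ≤ δ ∧ (∀ a : H →L[ℂ] H, a * x = x → ∀ i, a * w i = w i) ∧
      ∀ b : H →L[ℂ] H, IsStarProjection b → x * b = x → ∀ i, w i * b = w i := by
  obtain ⟨E, r, k, hE, h1, h2, hk, h4, -, h6⟩ := exists_trunc x (t := (δ / 2) ^ 2) (by positivity)
  obtain ⟨m, f, c, hf, ho, hs, hc, hb⟩ := exists_partition hk (half_pos hδ)
  have hh : IsSelfAdjoint (star x * x) := IsSelfAdjoint.star_mul_self x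
  have hhM : star x * x ∈ M := mul_mem (star_mem hx) hx
  have com : ∀ y : H →L[ℂ] H, Commute y (star x * x) → Commute (star y) (star x * x) →
      ∀ a, Commute y (f a) := fun y a1 a2 a =>
    hc a y (h2 y a1 a2).2.2 (h2 (star y) a2 (by rwa [star_star])).2.2
  have hE' : Commute E (star x * x) := (h2 _ (Commute.refl _) (by rw [hh.star_eq])).1.symm
  have hEf := com E hE' (by rwa [hE.isSelfAdjoint.star_eq])
  have hv : IsPI (x * r) := isPI_of_init (h1 ▸ hE)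
  have hrM : r ∈ M := mem_of_commute M fun y hy =>
    (h2 y (commute_of_mem M hy hhM) (commute_of_mem M (star_mem hy) hhM)).2.1
  have hfM : ∀ a, f a ∈ M := fun a => mem_of_commute M fun y hy =>
    com y (commute_of_mem M hy hhM) (commute_of_mem M (star_mem hy) hhM) a
  have i1 : ∀ a b, star (x * r * f a) * (x * r * f b) = E * (f a * f b) := fun a b => by
    rw [star_mul, (hf a).isSelfAdjoint.star_eq, mul_assoc, ← mul_assoc _ (x * r), h1,
      ← mul_assoc, ← (hEf a).eq, mul_assoc]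
  obtain ⟨s, hs0⟩ : ∃ s : Fin m → ℝ, ∀ a, s a = if 0 ≤ c a then 1 else -1 := ⟨_, fun _ => rfl⟩
  have s1 : ∀ a, s a * s a = 1 := fun a => by rw [hs0]; split_ifs <;> simp
  have s2 : ∀ a, |c a| * s a = c a := fun a => by
    rw [hs0]
    split_ifs with h
    · rw [abs_of_nonneg h, mul_one]
    · rw [abs_of_neg (not_le.1 h), mul_neg, mul_one, neg_neg]
  refine ⟨m, fun a => (s a : ℂ) • (x * r * f a), fun a => |c a|, ⟨fun a =>
    M.toStarSubalgebra.smul_mem (mul_mem (mul_mem hx hrM) (hfM a)) _, fun a => isPI_of_init ?_,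
    fun a b hab => ?_, fun a b hab => ?_⟩, fun a => abs_nonneg _, ?_, fun a ha i => ?_,
    fun b hb hxb i => ?_⟩
  · rw [star_smul, smul_mul_smul_comm, i1, Complex.star_def, Complex.conj_ofReal,
      ← Complex.ofReal_mul, s1, Complex.ofReal_one, one_smul, (hf a).isIdempotentElem]
    exact hE.mul (hf a) (hEf a)
  · beta_reduce
    rw [star_smul, smul_mul_smul_comm, i1, ho hab, mul_zero, smul_zero]
  · beta_reduce
    rw [star_smul, smul_mul_smul_comm, star_mul, (hf b).isSelfAdjoint.star_eq, mul_assoc,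
      ← mul_assoc (f a), ho hab, zero_mul, mul_zero, smul_zero]
  · have e1 : x * E = x * r * k := by
      simpa [hE.isSelfAdjoint.star_eq, hk.star_eq] using congrArg star h4
    have e2 : cb (fun a => |c a|) (fun a => (s a : ℂ) • (x * r * f a)) - x =
        -(x * r * (k - ∑ a, (c a : ℂ) • f a) + star ((1 - E) * star x)) := by
      simp only [cb, smul_smul, ← Complex.ofReal_mul, s2, mul_sub, ← e1, Finset.mul_sum,
        mul_smul_comm, star_mul, star_star, hE.one_sub.isSelfAdjoint.star_eq, mul_one]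
      abel
    have b1 := norm_part (half_pos hδ).le hf ho hs
      (fun a => hc a k (Commute.refl _) (by rw [hk.star_eq])) hb
    have b2 : ‖(1 - E) * star x‖ ≤ δ / 2 :=
      ContinuousLinearMap.opNorm_le_bound _ (half_pos hδ).le fun η =>
        (abs_le_of_sq_le_sq' (by rw [mul_pow]; exact h6 η) (by positivity)).2
    have b3 : ‖x * r‖ ≤ 1 :=
      ContinuousLinearMap.opNorm_le_bound _ zero_le_one fun η => by simpa using hv.norm_apply_le η
    have b4 := (norm_mul_le _ _).trans (mul_le_mul b3 b1 (norm_nonneg _) zero_le_one)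
    rw [e2, norm_neg]
    refine (norm_add_le _ _).trans ?_
    rw [norm_star]
    linarith
  · rw [mul_smul_comm, ← mul_assoc, ← mul_assoc, ha]
  · have e1 : star x * x * b = star x * x := by rw [mul_assoc, hxb]
    have e2 : b * (star x * x) = star x * x := by
      simpa [hb.isSelfAdjoint.star_eq] using congrArg star e1
    have c1 : Commute b (star x * x) := e2.trans e1.symm
    have c2 : Commute (star b) (star x * x) := by rwa [hb.isSelfAdjoint.star_eq]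
    rw [smul_mul_assoc, mul_assoc, ← (com b c1 c2 i).eq, ← mul_assoc, mul_assoc x,
      ← (h2 b c1 c2).2.1.eq, ← mul_assoc, hxb]

end CutAux

open CutAux in
theorem Bi.cut (hB : Bi M J) {ζ₁ ζ₂ : H} (h₁ : J ζ₁ = ζ₁) (h₂ : J ζ₂ = ζ₂) (ρ₁ ρ₂ : H)
    {A B : ℝ} (_hA : 0 ≤ A) (hB' : 0 ≤ B) {x : H →L[ℂ] H} (hx : x ∈ M)
    (h : A * ‖x ζ₁‖ ^ 2 + B * (‖df J 1 x ζ₁ ζ₂‖ ^ 2 + 4 * ‖df J 1 x ζ₁ ζ₂‖ * ‖x ζ₁‖) <
      1 / 2 * ‖x ρ₁ - rt J x ρ₂‖ ^ 2) :
    ∃ u ∈ M, IsPI u ∧ (∀ a : H →L[ℂ] H, a * x = x → a * u = u) ∧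
      (∀ b : H →L[ℂ] H, IsStarProjection b → x * b = x → u * b = u) ∧
      A * ‖u ζ₁‖ ^ 2 + B * ‖df J 1 u ζ₁ ζ₂‖ ^ 2 < ‖u ρ₁ - rt J u ρ₂‖ ^ 2 := by
  have c1 : ∀ η : H, Continuous fun y : H →L[ℂ] H => y η := fun η =>
    continuous_id.clm_apply continuous_const
  have c2 : ∀ η : H, Continuous fun y : H →L[ℂ] H => rt J y η := fun η =>
    J.continuous.comp ((c1 (J η)).comp continuous_star)
  have c3 : Continuous fun y : H →L[ℂ] H => ‖df J 1 y ζ₁ ζ₂‖ :=
    (((c1 ζ₁).const_smul _).sub (c2 ζ₂)).norm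
  have ho : IsOpen {y : H →L[ℂ] H |
      A * ‖y ζ₁‖ ^ 2 + B * (‖df J 1 y ζ₁ ζ₂‖ ^ 2 + 4 * ‖df J 1 y ζ₁ ζ₂‖ * ‖y ζ₁‖) <
        1 / 2 * ‖y ρ₁ - rt J y ρ₂‖ ^ 2} :=
    isOpen_lt ((continuous_const.mul ((c1 ζ₁).norm.pow 2)).add (continuous_const.mul
      ((c3.pow 2).add ((continuous_const.mul c3).mul (c1 ζ₁).norm))))
      (continuous_const.mul (((c1 ρ₁).sub (c2 ρ₂)).norm.pow 2))
  obtain ⟨δ, hδ, hb⟩ := Metric.isOpen_iff.1 ho x h
  obtain ⟨m, w, c, hw, hc, hn, l1, l2⟩ := approx hx (half_pos hδ)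
  obtain ⟨r, p, hr⟩ := hw.cut hB hc h₁ h₂ ρ₁ ρ₂ A hB'
    (hb (mem_ball_iff_norm.2 (hn.trans_lt (half_lt_self hδ))))
  refine ⟨cb r w, hw.cb_mem r, p, fun a ha => ?_, fun b hb hxb => ?_, hr⟩
  · simp only [cb, Finset.mul_sum, mul_smul_comm, l1 a ha]
  · simp only [cb, Finset.sum_mul, smul_mul_assoc, l2 b hb hxb]

end Vale.Agent.P132
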