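import Vale.Agent.P132.ZornAux

/-! Exhaustion argument. -/

open scoped InnerProductSpace Topology ComplexConjugate
open Filter MeasureTheory

namespace Vale.Agent.P132

open Vale.Agent.P104

variable {H : Type*} [NormedAddCommGroup H] [InnerProductSpace ℂ H] [CompleteSpace H]
  {M : VonNeumannAlgebra H} {J : H →L⋆[ℂ] H} {P : Set H} {ξ : H} {F : FC H}

namespace ZornAux

/-- The ordering principle of Brezis and Browder. -/
theorem greedy {α : Type*} (r : α → α → Prop) (hr : ∀ a, r a a)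
    (ht : ∀ a b c, r a b → r b c → r a c) (φ : α → ℝ) (hφ : ∀ a b, r a b → φ a ≤ φ b) {C : ℝ}
    (hC : ∀ a, φ a ≤ C) (a₀ : α)
    (lim : ∀ x : ℕ → α, x 0 = a₀ → (∀ n, r (x n) (x (n + 1))) → ∃ a, ∀ n, r (x n) a) :
    ∃ a, ∀ b, r a b → φ b ≤ φ a := by
  have step : ∀ (a : α) (n : ℕ), ∃ b, r a b ∧ ∀ c, r a c → φ c ≤ φ b + 1 / ((n : ℝ) + 1) := by
    intro a n
    have hb : BddAbove (φ '' {b | r a b}) := ⟨C, by rintro _ ⟨b, -, rfl⟩; exact hC b⟩
    obtain ⟨_, ⟨b, hb1, rfl⟩, hb2⟩ := exists_lt_of_lt_csSup (s := φ '' {b | r a b})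
      ⟨φ a, a, hr a, rfl⟩ (sub_lt_self _ (Nat.one_div_pos_of_nat (n := n)))
    exact ⟨b, hb1, fun c hc => by linarith [le_csSup hb ⟨c, hc, rfl⟩]⟩
  choose g hg using step
  let x : ℕ → α := fun n => Nat.rec a₀ (fun n a => g a n) n
  obtain ⟨a, ha⟩ := lim x rfl fun n => (hg (x n) n).1
  refine ⟨a, fun b hb => ?_⟩
  have h1 : Tendsto (fun n : ℕ => φ a + 1 / ((n : ℝ) + 1)) atTop (𝓝 (φ a + 0)) :=
    tendsto_const_nhds.add tendsto_one_div_add_atTop_nhds_zero_nat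
  rw [add_zero] at h1
  refine ge_of_tendsto' h1 fun n => ((hg (x n) n).2 b (ht _ _ _ (ha n) hb)).trans ?_
  exact add_le_add_left (hφ _ _ (ha (n + 1))) _

/-- `w` extends `u`. -/
def Ext (u w : H →L[ℂ] H) : Prop := star u * w = star u * u ∧ w * star u = u * star u

theorem Ext.trans {u w z : H →L[ℂ] H} (hu : IsPI u) (h : Ext u w) (k : Ext w z) : Ext u z := by
  have h1 : u * star w = u * star u := by simpa using congrArg star h.2
  have h2 : star w * u = star u * u := by simpa using congrArg star h.1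
  have e1 : star u = star u * u * star w := by rw [mul_assoc, h1, ← mul_assoc, hu.init_mul]
  have e2 : star u = star w * u * star u := by rw [h2, hu.init_mul]
  constructor
  · calc star u * z = star u * u * (star w * z) := by rw [← mul_assoc, ← e1]
      _ = star u * u := by rw [k.1, ← mul_assoc, ← e1, h.1]
  · calc z * star u = z * star w * (u * star u) := by rw [mul_assoc, ← mul_assoc _ u, ← e2]
      _ = u * star u := by rw [k.2, mul_assoc, ← mul_assoc _ u, ← e2, h.2]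

theorem Ext.sub {u w : H →L[ℂ] H} (hu : IsPI u) (hw : IsPI w) (h : Ext u w) : IsPI (w - u) := by
  have h1 : u * star w = u * star u := by simpa using congrArg star h.2
  have h2 : star w * u = star u * u := by simpa using congrArg star h.1
  have e : (w - u) * star (w - u) * (w - u) = w * star w * w - w * (star w * u) -
      w * star u * (w - u) - u * star w * (w - u) + u * star u * (w - u) := by
    rw [star_sub]; noncomm_ring
  have e0 : u * star u * (w - u) = 0 := by rw [mul_assoc, mul_sub, h.1, sub_self, mul_zero]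
  rw [IsPI, e, h1, h2, h.2, e0, hw, ← mul_assoc, h.2, hu]
  simp

theorem pi_add {u v : H →L[ℂ] H} (hu : IsPI u) (hv : IsPI v) (uv : star u * v = 0)
    (vu : v * star u = 0) : IsPI (u + v) ∧ Ext u (u + v) := by
  have uv' : star v * u = 0 := by simpa using congrArg star uv
  refine ⟨?_, by rw [mul_add, uv, add_zero], by rw [add_mul, vu, add_zero]⟩
  rw [IsPI, fin_add vu, add_mul, mul_add, mul_add, hu, hv, mul_assoc, mul_assoc, uv, uv']
  simp

theorem norm_add_sq' {u v : H →L[ℂ] H} (uv : star u * v = 0) (η : H) :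
    ‖(u + v) η‖ ^ 2 = ‖u η‖ ^ 2 + ‖v η‖ ^ 2 := by
  rw [norm_sq_apply, norm_sq_apply, norm_sq_apply, init_add uv, add_apply, inner_add_right,
    Complex.add_re]

omit [CompleteSpace H] in
theorem tendsto_app {T : ℕ → (H →L[ℂ] H)} {S : H →L[ℂ] H} (hb : ∀ n, ‖T n‖ ≤ 1)
    (hT : ∀ η, Tendsto (fun n => T n η) atTop (𝓝 (S η))) {y : ℕ → H} {z : H}
    (hy : Tendsto y atTop (𝓝 z)) : Tendsto (fun n => T n (y n)) atTop (𝓝 (S z)) := by
  have h1 : Tendsto (fun n => T n (y n - z)) atTop (𝓝 0) := by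
    refine squeeze_zero_norm (fun n => ?_) (tendsto_iff_norm_sub_tendsto_zero.1 hy)
    simpa using (T n).le_of_opNorm_le (hb n) (y n - z)
  simpa using h1.add (hT z)

theorem pi_norm {u : H →L[ℂ] H} (hu : IsPI u) : ‖u‖ ≤ 1 :=
  ContinuousLinearMap.opNorm_le_bound _ zero_le_one fun η => by simpa using hu.norm_apply_le η

theorem exists_lim {t : ℕ → (H →L[ℂ] H)} (hM : ∀ n, t n ∈ M) (hp : ∀ n, IsPI (t n))
    (h0 : t 0 = 0) (hs : ∀ n, Ext (t n) (t (n + 1))) :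
    ∃ V ∈ M, IsPI V ∧ (∀ n, Ext (t n) V) ∧ (∀ η, Tendsto (fun n => t n η) atTop (𝓝 (V η))) ∧
      ∀ η, Tendsto (fun n => star (t n) η) atTop (𝓝 (star V η)) := by
  have he : ∀ m n, m ≤ n → Ext (t m) (t n) := fun m n h => by
    induction h with
    | refl => exact ⟨rfl, rfl⟩
    | step _ ih => exact ih.trans (hp m) (hs _)
  have o1 : ∀ i j, i < j → star (t (i + 1) - t i) * (t (j + 1) - t j) = 0 := fun i j h => by
    rw [star_sub, sub_mul, mul_sub, mul_sub, (he _ _ (Nat.succ_le_succ h.le)).1, (he _ _ h).1,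
      (he i (j + 1) (by omega)).1, (he _ _ h.le).1]
    simp
  have o2 : ∀ i j, i < j → (t (j + 1) - t j) * star (t (i + 1) - t i) = 0 := fun i j h => by
    rw [star_sub, sub_mul, mul_sub, mul_sub, (he _ _ (Nat.succ_le_succ h.le)).2, (he _ _ h).2,
      (he i (j + 1) (by omega)).2, (he _ _ h.le).2]
    simp
  obtain ⟨V, hV, hpi, s1, s2, -⟩ := exists_sum M (fun n => t (n + 1) - t n)
    (fun n => sub_mem (hM _) (hM _)) (fun n => (hs n).sub (hp _) (hp _))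
    (fun i j hij => by
      rcases lt_or_gt_of_ne hij with h | h
      · exact o1 i j h
      · simpa using congrArg star (o1 j i h))
    (fun i j hij => by
      rcases lt_or_gt_of_ne hij with h | h
      · simpa using congrArg star (o2 i j h)
      · exact o2 j i h)
  have l1 : ∀ η, Tendsto (fun n => t n η) atTop (𝓝 (V η)) := fun η => by
    have := (s1 η).tendsto_sum_nat
    simp only [sub_apply, Finset.sum_range_sub (fun n => t n η), h0] at this
    simpa using this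
  have l2 : ∀ η, Tendsto (fun n => star (t n) η) atTop (𝓝 (star V η)) := fun η => by
    have := (s2 η).tendsto_sum_nat
    simp only [star_sub, sub_apply, Finset.sum_range_sub (fun n => star (t n) η), h0] at this
    simpa using this
  refine ⟨V, hV, hpi, fun n => ⟨?_, ?_⟩, l1, l2⟩
  · ext η
    refine tendsto_nhds_unique (((star (t n)).continuous.tendsto _).comp (l1 η))
      (tendsto_const_nhds.congr' ((eventually_ge_atTop n).mono fun m hm => ?_))
    exact (congrArg (fun T : H →L[ℂ] H => T η) (he n m hm).1).symm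
  · ext η
    refine tendsto_nhds_unique (l1 (star (t n) η))
      (tendsto_const_nhds.congr' ((eventually_ge_atTop n).mono fun m hm => ?_))
    exact (congrArg (fun T : H →L[ℂ] H => T η) (he n m hm).2).symm

theorem tendsto_psi (hJ : IsConj J) {t : ℕ → (H →L[ℂ] H)} {V : H →L[ℂ] H} (hp : ∀ n, IsPI (t n))
    (l1 : ∀ η, Tendsto (fun n => t n η) atTop (𝓝 (V η)))
    (l2 : ∀ η, Tendsto (fun n => star (t n) η) atTop (𝓝 (star V η))) (X Y : H) :
    Tendsto (fun n => Psi J (t n) X Y) atTop (𝓝 (Psi J V X Y)) := by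
  have d : Tendsto (fun n => df J 1 (t n) X Y) atTop (𝓝 (df J 1 V X Y)) :=
    ((l1 X).const_smul _).sub (hJ.tendsto_rt l2 Y)
  have p1 : ∀ η, Tendsto (fun n => (1 - star (t n) * t n) η) atTop (𝓝 ((1 - star V * V) η)) :=
    fun η => tendsto_const_nhds.sub (tendsto_app (fun n => pi_norm (hp n).star) l2 (l1 η))
  have p2 : ∀ η, Tendsto (fun n => (1 - t n * star (t n)) η) atTop (𝓝 ((1 - V * star V) η)) :=
    fun η => tendsto_const_nhds.sub (tendsto_app (fun n => pi_norm (hp n)) l1 (l2 η))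
  have p3 := hJ.tendsto_rt (x := fun n => 1 - star (t n) * t n) (a := 1 - star V * V)
    (l := atTop) (by simpa using p1)
  exact ((d.norm.pow 2).add (((tendsto_app (fun n => (hJ.rt_proj (hp n).init.one_sub).norm_le) p3
    d).norm.pow 2).const_mul 4)).add
    (((tendsto_app (fun n => (hp n).fin.one_sub.norm_le) p2 d).norm.pow 2).const_mul 4)

end ZornAux

open ZornAux in
theorem Bi.exhaust (hB : Bi M J) {ξ₁ ξ₂ : H} (h₁ : J ξ₁ = ξ₁) (h₂ : J ξ₂ = ξ₂) (hs : Sep M ξ₁)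
    (ρ₁ ρ₂ : H) (c₁ : ℝ) {c₂ : ℝ} (hc : 0 ≤ c₂) (Stop : (H →L[ℂ] H) → Prop)
    (loc : ∀ u ∈ M, IsPI u →
      c₁ * ‖u ξ₁‖ ^ 2 + c₂ * Psi J u ξ₁ ξ₂ ≤ ‖u ρ₁ - rt J u ρ₂‖ ^ 2 → ¬ Stop u →
      ∃ v ∈ M, IsPI v ∧ v ≠ 0 ∧ star u * v = 0 ∧ v * star u = 0 ∧
        c₁ * ‖v ξ₁‖ ^ 2 +
          c₂ * (5 * ‖df J 1 v (cmp J (1 - star u * u) ξ₁) (cmp J (1 - u * star u) ξ₂)‖ ^ 2 -
            ‖(star u * u) (rt J (star v * v) ξ₁)‖ ^ 2 -
            ‖(u * star u) (rt J (v * star v) ξ₂)‖ ^ 2) ≤ ‖v ρ₁ - rt J v ρ₂‖ ^ 2) :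
    ∃ u ∈ M, IsPI u ∧ c₁ * ‖u ξ₁‖ ^ 2 + c₂ * Psi J u ξ₁ ξ₂ ≤ ‖u ρ₁ - rt J u ρ₂‖ ^ 2 ∧ Stop u := by
  have z : IsPI (0 : H →L[ℂ] H) := by simp [IsPI]
  obtain ⟨⟨u, mu, hu, hi⟩, hmax⟩ := greedy
    (α := {u : H →L[ℂ] H // u ∈ M ∧ IsPI u ∧
      c₁ * ‖u ξ₁‖ ^ 2 + c₂ * Psi J u ξ₁ ξ₂ ≤ ‖u ρ₁ - rt J u ρ₂‖ ^ 2})
    (fun a b => Ext a.1 b.1) (fun a => ⟨rfl, rfl⟩) (fun a b c h k => h.trans a.2.2.1 k)
    (fun a => ‖a.1 ξ₁‖ ^ 2) (fun a b h => by
      have := norm_add_sq' (u := a.1) (v := b.1 - a.1) (by rw [mul_sub, h.1, sub_self]) ξ₁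
      rw [add_sub_cancel] at this
      rw [this]
      exact le_add_of_nonneg_right (sq_nonneg _))
    (C := ‖ξ₁‖ ^ 2) (fun a => pow_le_pow_left₀ (norm_nonneg _) (a.2.2.1.norm_apply_le _) 2)
    ⟨0, zero_mem _, z, by simp [Psi, df, rt_zero]⟩ (fun x h0 hx => by
      obtain ⟨V, mV, pV, e, l1, l2⟩ := exists_lim (t := fun n => (x n).1) (fun n => (x n).2.1)
        (fun n => (x n).2.2.1) (by rw [h0]) hx
      refine ⟨⟨V, mV, pV, ?_⟩, e⟩
      exact le_of_tendsto_of_tendsto' ((((l1 ξ₁).norm.pow 2).const_mul c₁).add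
        ((tendsto_psi hB.cj (fun n => (x n).2.2.1) l1 l2 ξ₁ ξ₂).const_mul c₂))
        (((l1 ρ₁).sub (hB.cj.tendsto_rt l2 ρ₂)).norm.pow 2) fun n => (x n).2.2.2)
  refine ⟨u, mu, hu, hi, by_contra fun hS => ?_⟩
  obtain ⟨v, mv, hv, v0, uv, vu, hl⟩ := loc u mu hu hi hS
  have key : ∀ w ∈ M, IsPI w → star u * w = 0 → w * star u = 0 → ‖w ξ₁‖ = ‖v ξ₁‖ →
      Psi J (u + w) ξ₁ ξ₂ ≤ Psi J u ξ₁ ξ₂ +
        (5 * ‖df J 1 v (cmp J (1 - star u * u) ξ₁) (cmp J (1 - u * star u) ξ₂)‖ ^ 2 -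
            ‖(star u * u) (rt J (star v * v) ξ₁)‖ ^ 2 -
            ‖(u * star u) (rt J (v * star v) ξ₂)‖ ^ 2) →
      ‖(u + w) ρ₁ - rt J (u + w) ρ₂‖ ^ 2 < ‖u ρ₁ - rt J u ρ₂‖ ^ 2 + ‖v ρ₁ - rt J v ρ₂‖ ^ 2 := by
    intro w mw hw uw wu e hP
    by_contra hlt
    have a1 := norm_add_sq' uw ξ₁
    have a2 := hmax ⟨u + w, add_mem mu mw, (pi_add hu hw uw wu).1, by
      rw [a1, e]
      nlinarith [mul_le_mul_of_nonneg_left hP hc]⟩ (pi_add hu hw uw wu).2
    simp only [a1, e] at a2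
    exact v0 (hs v mv (norm_eq_zero.1 (pow_eq_zero_iff two_ne_zero |>.1
      (le_antisymm (by linarith) (sq_nonneg _)))))
  have hv' : IsPI (-v) := by simpa [IsPI] using hv
  have k1 := key v mv hv uv vu rfl (psi_add hB h₁ h₂ mu mv hu hv uv vu)
  have k2 := key (-v) (neg_mem mv) hv' (by rw [mul_neg, uv, neg_zero])
    (by rw [neg_mul, vu, neg_zero]) (by simp) (by
      have := psi_add hB h₁ h₂ mu (neg_mem mv) hu hv' (by rw [mul_neg, uv, neg_zero])
        (by rw [neg_mul, vu, neg_zero])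
      have e : ∀ X Y, ‖df J 1 (-v) X Y‖ = ‖df J 1 v X Y‖ := fun X Y => by
        rw [← norm_neg, df, df, rt_neg]
        congr 1
        simp [neg_add_eq_sub]
      simpa [e] using this)
  have e1 : (u + v) ρ₁ - rt J (u + v) ρ₂ = (u ρ₁ - rt J u ρ₂) + (v ρ₁ - rt J v ρ₂) := by
    rw [rt_add, add_apply, add_apply]; abel
  have e2 : (u + -v) ρ₁ - rt J (u + -v) ρ₂ = (u ρ₁ - rt J u ρ₂) - (v ρ₁ - rt J v ρ₂) := by
    rw [rt_add, rt_neg, add_apply, add_apply, neg_apply, neg_apply]; abel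
  rw [e1] at k1
  rw [e2] at k2
  have := parallelogram_law_with_norm ℂ (u ρ₁ - rt J u ρ₂) (v ρ₁ - rt J v ρ₂)
  nlinarith

end Vale.Agent.P132
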