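import Vale.Agent.P132.Comp
import Vale.Agent.P132.Cut
import Vale.Agent.P132.Zorn
import Vale.Agent.P132.Join
import Vale.Agent.P132.Bic

/-! The contradiction for a trivial flow. -/

open scoped InnerProductSpace Topology ComplexConjugate
open Filter MeasureTheory

namespace Vale.Agent.P132

open Vale.Agent.P104

variable {H : Type*} [NormedAddCommGroup H] [InnerProductSpace ℂ H] [CompleteSpace H]
  {M : VonNeumannAlgebra H} {J : H →L⋆[ℂ] H} {P : Set H} {ξ : H} {F : FC H}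

theorem Bi.geo (hB : Bi M J) (hξ : J ξ = ξ) {a a' p : H →L[ℂ] H} (ha : a ∈ M) (ha' : a' ∈ M)
    (e : a ξ = rt J a' ξ) (hpM : p ∈ M) (hp : IsStarProjection p) :
    ‖ξ - cmp J (1 - p) ξ‖ ≤ 2 * ‖p ξ‖ ∧
    ‖cmp J (1 - p) (a ξ) - rt J ((1 - p) * a' * (1 - p)) (cmp J (1 - p) ξ)‖ ≤ ‖a'‖ * ‖p ξ‖ ∧
    ‖a ξ - cmp J (1 - p) (a ξ)‖ ≤ (‖a'‖ + ‖a‖) * ‖p ξ‖ := by
  have hJ := hB.cj
  have hp' := hp.one_sub
  have hp'M : 1 - p ∈ M := sub_mem (one_mem M) hpM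
  have n1 : ‖rt J p ξ‖ = ‖p ξ‖ := by rw [hJ.norm_rt_fix hξ, hp.isSelfAdjoint.star_eq]
  have dec : ∀ η, η - cmp J (1 - p) η = p η + (1 - p) (rt J p η) := fun η => by
    simp only [cmp, rt_sub, hJ.rt_one, sub_apply, one_apply_eq_self, map_sub]
    abel
  refine ⟨?_, ?_, ?_⟩
  · rw [dec]
    linarith [norm_add_le (p ξ) ((1 - p) (rt J p ξ)), proj_norm_apply_le hp' (rt J p ξ)]
  · have e1 : cmp J (1 - p) (a ξ) - rt J ((1 - p) * a' * (1 - p)) (cmp J (1 - p) ξ) =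
        (1 - p) (rt J (1 - p) (rt J a' (rt J p ξ))) := by
      have e2 : rt J (1 - p) (rt J (1 - p) ξ) = ξ - rt J p ξ := by
        rw [← hJ.rt_mul_apply, hp'.isIdempotentElem, rt_sub, hJ.rt_one]; rfl
      rw [cmp, cmp, ← hB.comm_apply hp'M (mul_mem (mul_mem hp'M ha') hp'M), hJ.rt_mul_apply,
        hJ.rt_mul_apply, e2, e]
      simp only [map_sub (rt J a'), map_sub (rt J (1 - p)), map_sub (1 - p)]
      abel
    rw [e1]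
    exact (proj_norm_apply_le hp' _).trans ((proj_norm_apply_le (hJ.rt_proj hp') _).trans
      (n1 ▸ hJ.norm_rt_le _ _))
  · rw [dec]
    have h1 : ‖p (a ξ)‖ ≤ ‖a'‖ * ‖p ξ‖ := by
      rw [e, hB.comm_apply hpM ha']; exact hJ.norm_rt_le _ _
    have h2 : ‖rt J p (a ξ)‖ ≤ ‖a‖ * ‖p ξ‖ := by
      rw [← hB.comm_apply ha hpM, ← n1]; exact a.le_opNorm _
    linarith [norm_add_le (p (a ξ)) ((1 - p) (rt J p (a ξ))),
      proj_norm_apply_le hp' (rt J p (a ξ))]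

theorem pyth_proj {p : H →L[ℂ] H} (hp : IsStarProjection p) (η : H) :
    ‖η‖ ^ 2 = ‖(1 - p) η‖ ^ 2 + ‖p η‖ ^ 2 := by
  have := pyth_two 1 hp (by simp) η
  simp only [one_apply_eq_self] at this
  linarith

/-- From the corner inequality to the inequality needed by the exhaustion. -/
theorem Bi.loc_out (hB : Bi M J) (hξ : J ξ = ξ) {a p q v : H →L[ℂ] H} (ha : a ∈ M) (hpM : p ∈ M)
    (hp : IsStarProjection p) (hqM : q ∈ M) (hq : IsStarProjection q) (hv : v ∈ M) (hpi : IsPI v)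
    (hqv : (1 - q) * v = v) (hvp : v * (1 - p) = v) {c₁ c₂ D : ℝ} (h1 : c₁ ≤ c₂)
    (h2 : ‖a‖ ^ 2 ≤ c₂)
    (h : 2 * c₁ * ‖v (cmp J (1 - p) ξ)‖ ^ 2 + 10 * c₂ * D <
      ‖v (cmp J (1 - p) (a ξ)) - rt J v ((1 - q) (a (cmp J (1 - q) ξ)))‖ ^ 2) :
    c₁ * ‖v ξ‖ ^ 2 + c₂ * (5 * D - ‖p (rt J (star v * v) ξ)‖ ^ 2 -
      ‖q (rt J (v * star v) ξ)‖ ^ 2) ≤ ‖v (a ξ) - rt J v (a ξ)‖ ^ 2 := by
  have hJ := hB.cj
  have hp'M : 1 - p ∈ M := sub_mem (one_mem M) hpM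
  have hq'M : 1 - q ∈ M := sub_mem (one_mem M) hqM
  have vc : ∀ η, v (cmp J (1 - p) η) = rt J (1 - p) (v η) := fun η => by
    rw [cmp, ← mul_apply_eq_comp v, hvp, hB.comm_apply hv hp'M]
  have e1 : ‖v ξ‖ ^ 2 = ‖v (cmp J (1 - p) ξ)‖ ^ 2 + ‖p (rt J (star v * v) ξ)‖ ^ 2 := by
    rw [pyth_proj (hJ.rt_proj hp) (v ξ), vc, rt_sub, hJ.rt_one, ← hB.comm_apply hv hpM,
      ← hpi.norm_init, hB.norm_flip hξ (mul_mem (star_mem hv) hv) hpM,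
      hp.isSelfAdjoint.star_eq, hpi.init.isSelfAdjoint.star_eq]
  have e2 : ‖q (rt J v ξ)‖ = ‖q (rt J (v * star v) ξ)‖ := by
    rw [hB.norm_flip hξ hqM hv, hB.norm_flip hξ hqM (mul_mem hv (star_mem hv)),
      hpi.fin.isSelfAdjoint.star_eq, hpi.norm_fin]
  have e3 : rt J v (cmp J (1 - q) ξ) = rt J v ξ - q (rt J v ξ) := by
    rw [cmp, ← hB.comm_apply hq'M hv, ← hJ.rt_mul_apply, hqv]; rfl
  have e4 : v (cmp J (1 - p) (a ξ)) - rt J v ((1 - q) (a (cmp J (1 - q) ξ))) =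
      (1 - q) (rt J (1 - p) (v (a ξ) - rt J v (a ξ))) + (1 - q) (a (q (rt J v ξ))) := by
    rw [map_sub (rt J (1 - p)), ← hJ.rt_mul_apply, hvp, ← vc, map_sub (1 - q),
      ← mul_apply_eq_comp (1 - q) v, hqv, ← hB.comm_apply hq'M hv, ← hB.comm_apply ha hv,
      ← hB.comm_apply ha hv, e3, map_sub a, map_sub (1 - q)]
    abel
  have b1 := (proj_norm_apply_le hq.one_sub (rt J (1 - p) (v (a ξ) - rt J v (a ξ)))).trans
    (proj_norm_apply_le (hJ.rt_proj hp.one_sub) _)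
  have b2 := (proj_norm_apply_le hq.one_sub (a (q (rt J v ξ)))).trans (a.le_opNorm _)
  rw [e4] at h
  rw [e2] at b2
  set X := ‖v (a ξ) - rt J v (a ξ)‖
  set B := ‖q (rt J (v * star v) ξ)‖
  have b3 := pow_le_pow_left₀ (norm_nonneg _) ((norm_add_le _ _).trans (add_le_add b1 b2)) 2
  rw [e1]
  nlinarith [sq_nonneg (X - ‖a‖ * B), mul_le_mul_of_nonneg_right h2 (sq_nonneg B),
    mul_le_mul_of_nonneg_right h1 (sq_nonneg ‖p (rt J (star v * v) ξ)‖)]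

omit [CompleteSpace H] in
theorem far_aux {η ρ τ ζ : H} {θ : ℝ} (hn : ‖ξ‖ = 1) (h0 : ⟪ξ, η⟫_ℂ = 0) (g1 : ‖ξ - ζ‖ ≤ 2 * θ)
    (t1 : θ ≤ 1 / 10) (g2 : ‖ρ - τ‖ ≤ ‖η‖ / 40) (g3 : ‖η - ρ‖ ≤ ‖η‖ / 40) (z1 : ‖ζ‖ ≤ 1)
    (k : ℂ) : ‖η‖ / 2 * ‖ζ‖ ≤ ‖τ - k • ζ‖ := by
  have e1 : ‖η - k • ξ‖ ^ 2 = ‖η‖ ^ 2 + ‖k‖ ^ 2 := by
    rw [@norm_sub_sq ℂ, inner_smul_right, ← inner_conj_symm, h0, norm_smul, hn]
    simp
  have e2 : 7 / 10 * (‖η‖ + ‖k‖) ≤ ‖η - k • ξ‖ :=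
    (abs_le_of_sq_le_sq' (by rw [e1]; nlinarith [sq_nonneg (‖η‖ - ‖k‖)]) (norm_nonneg _)).2
  have e3 : η - k • ξ = (η - ρ) + (ρ - τ) + (τ - k • ζ) - k • (ξ - ζ) := by
    rw [smul_sub]; abel
  have e4 := (congrArg (fun t : H => ‖t‖) e3).le.trans ((norm_sub_le _ _).trans
    (add_le_add_left (norm_add₃_le) _))
  rw [norm_smul] at e4
  have e5 := mul_le_mul_of_nonneg_left (g1.trans (by linarith : 2 * θ ≤ 1 / 5)) (norm_nonneg k)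
  have e6 := mul_le_mul_of_nonneg_left z1 (norm_nonneg η)
  linarith [norm_nonneg k, norm_nonneg η]

theorem cut_aux {α c B A X Y D N : ℝ} (hc : c = α / 2 / 4) (hc0 : 0 < c)
    (b2 : Y ^ 2 ≤ (X + A * D) ^ 2)
    (zR : c ^ 2 / 2 * N ^ 2 + 4 * (B + A ^ 2 / 2 + 64 * B ^ 2 / c ^ 2) * D ^ 2 < Y ^ 2) :
    2 * (α / 48) ^ 2 * N ^ 2 + B * (D ^ 2 + 4 * D * N) < 1 / 2 * X ^ 2 := by
  have b3 : 4 * B * D * N ≤ c ^ 2 / 16 * N ^ 2 + 64 * B ^ 2 / c ^ 2 * D ^ 2 := by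
    have : c ^ 2 / 16 * N ^ 2 + 64 * B ^ 2 / c ^ 2 * D ^ 2 - 4 * B * D * N =
        (c / 4 * N - 8 * B / c * D) ^ 2 := by field_simp; ring
    nlinarith [sq_nonneg (c / 4 * N - 8 * B / c * D)]
  have b4 : 2 * (α / 48) ^ 2 * N ^ 2 ≤ c ^ 2 / 16 * N ^ 2 :=
    mul_le_mul_of_nonneg_right (by rw [hc]; nlinarith [sq_nonneg α]) (sq_nonneg _)
  nlinarith [sq_nonneg (X - A * D)]

theorem kappa_aux {κ c : ℝ} (hκ : 0 ≤ κ) : κ * (c / (2 * (κ + 1))) ^ 2 ≤ c ^ 2 / 2 := by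
  rw [div_pow, ← mul_div_assoc, div_le_div_iff₀ (by positivity) (by positivity)]
  nlinarith [mul_nonneg (sq_nonneg c) hκ, mul_nonneg (sq_nonneg c) (sq_nonneg κ), sq_nonneg c]

theorem Base.loc_step (h : Base M J P ξ F) (hL : Loc M J P) (hY : MixAll M J ξ F)
    {a a' : H →L[ℂ] H} (ha : a ∈ M) (ha' : a' ∈ M) (e : a ξ = rt J a' ξ)
    (h0 : ⟪ξ, a ξ⟫_ℂ = 0) (hne : 0 < ‖a ξ‖) {p q : H →L[ℂ] H} (hpM : p ∈ M)
    (hp : IsStarProjection p) (hqM : q ∈ M) (hq : IsStarProjection q) (hq1 : q ≠ 1)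
    (t1 : ‖p ξ‖ ≤ 1 / 10) (t2 : (‖a'‖ + ‖a‖) * ‖p ξ‖ ≤ ‖a ξ‖ / 40) {B : ℝ} (hB0 : 0 ≤ B) :
    ∃ v ∈ M, IsPI v ∧ (1 - q) * v = v ∧ v * (1 - p) = v ∧
      2 * (‖a ξ‖ / 48) ^ 2 * ‖v (cmp J (1 - p) ξ)‖ ^ 2 +
        B * ‖df J 1 v (cmp J (1 - p) ξ) (cmp J (1 - q) ξ)‖ ^ 2 <
      ‖v (cmp J (1 - p) (a ξ)) - rt J v ((1 - q) (a (cmp J (1 - q) ξ)))‖ ^ 2 := by
  have hm := h.md
  have hB := hm.bi
  have hJ := hB.cj
  have hp' := hp.one_sub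
  have hq' := hq.one_sub
  have hp'M : 1 - p ∈ M := sub_mem (one_mem M) hpM
  have hq'M : 1 - q ∈ M := sub_mem (one_mem M) hqM
  obtain ⟨g1, g2, g3⟩ := hB.geo hm.fix ha ha' e hpM hp
  have m₁ := h.ctx.cmp_mem h.mem hp'M hp'
  have m₂ := h.ctx.cmp_mem h.mem hq'M hq'
  have z1 : ‖cmp J (1 - p) ξ‖ ≤ 1 := h.norm ▸ (proj_norm_apply_le hp' _).trans
    (proj_norm_apply_le (hJ.rt_proj hp') _)
  have z2 : 4 / 5 ≤ ‖cmp J (1 - p) ξ‖ := by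
    linarith [norm_sub_norm_le ξ (cmp J (1 - p) ξ), h.norm]
  have t3 := g2.trans (le_trans (mul_le_mul_of_nonneg_right (le_add_of_nonneg_right
    (norm_nonneg a)) (norm_nonneg _)) t2)
  have hc0 : 0 < ‖a ξ‖ / 2 / 4 := by positivity
  have hκ0 : 0 ≤ 4 * (B + ‖a‖ ^ 2 / 2 + 64 * B ^ 2 / (‖a ξ‖ / 2 / 4) ^ 2) := by positivity
  obtain ⟨s, x, hx, x2, x1, xd, xR⟩ := hL _ m₁ _ m₂ (1 - p) (1 - q)
    (hm.isSupp_one.cmp hB hp'M hp') (hm.isSupp_one.cmp hB hq'M hq')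
    (fun h1 => by
      rw [← sub_eq_zero.1 h1, one_apply_eq_self, h.norm] at t1
      norm_num at t1) (fun h1 => hq1 (sub_eq_zero.1 h1).symm)
    _ (mul_mem (mul_mem hp'M ha') hp'M) (by rw [mul_assoc, hp'.isIdempotentElem]) a ha
    (cmp J (1 - p) (a ξ))
    (by rw [cmp, ← hB.comm_apply hp'M hp'M, ← hJ.rt_mul_apply, hp'.isIdempotentElem])
    (‖a ξ‖ / 2) (by positivity)
    (t3.trans (by linarith [mul_le_mul_of_nonneg_left z2 hne.le]))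
    (far_aux h.norm h0 g1 t1 t3 (g3.trans t2) z1) _
    (div_pos hc0 (mul_pos two_pos (add_pos_of_nonneg_of_pos hκ0 one_pos)))
  obtain ⟨z, hz, y2, y1, zR⟩ := hY.comp hm hp'M hp' hq'M hq' hx x2 x1 (mul_mem hq'M ha)
    (by rw [cmp, ← mul_apply_eq_comp, hp'.isIdempotentElem]) (by positivity) hc0.le hκ0
    (kappa_aux hκ0) xd xR
  obtain ⟨v, hv, hpi, v1, v2, vR⟩ := hB.cut (h.ctx.fix _ m₁) (h.ctx.fix _ m₂)
    (cmp J (1 - p) (a ξ)) ((1 - q) (a (cmp J (1 - q) ξ)))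
    (A := 2 * (‖a ξ‖ / 48) ^ 2) (by positivity) hB0 hz (by
      generalize cmp J (1 - p) ξ = ζ₁, cmp J (1 - q) ξ = ζ₂, cmp J (1 - p) (a ξ) = ρ at zR ⊢
      have e1 : z ρ - ((1 - q) * a) (z ζ₁) =
          (z ρ - rt J z ((1 - q) (a ζ₂))) - (1 - q) (a (df J 1 z ζ₁ ζ₂)) := by
        rw [← hB.comm_apply hq'M hz, ← hB.comm_apply ha hz, df, Complex.ofReal_one, one_smul,
          map_sub a, map_sub (1 - q), mul_apply_eq_comp]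
        abel
      have b1 := (proj_norm_apply_le hq' (a (df J 1 z ζ₁ ζ₂))).trans (a.le_opNorm _)
      exact cut_aux rfl hc0 (pow_le_pow_left₀ (norm_nonneg _)
        ((congrArg (fun t : H => ‖t‖) e1).le.trans
          ((norm_sub_le _ _).trans (add_le_add_right b1 _))) 2) zR)
  exact ⟨v, hv, hpi, v1 _ y2, v2 _ hp' y1, vR⟩

theorem Base.final (h : Base M J P ξ F) (hL : Loc M J P) (hY : MixAll M J ξ F) {a : H →L[ℂ] H}
    (ha : a ∈ Bic M J ξ) (han : An M J ξ a) (h0 : ⟪ξ, a ξ⟫_ℂ = 0) : a ξ = 0 := by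
  by_contra hne
  have hα := norm_pos_iff.2 hne
  obtain ⟨a', ha', e⟩ := han
  have hm := h.md
  have hB := hm.bi
  have hJ := hB.cj
  have haM := Bic.mem ha
  have hαa : ‖a ξ‖ ≤ ‖a‖ := by simpa [h.norm] using a.le_opNorm ξ
  obtain ⟨θ, hθ, θ1, θ2⟩ : ∃ θ : ℝ, 0 < θ ∧ θ ≤ 1 / 10 ∧ (‖a'‖ + ‖a‖) * θ ≤ ‖a ξ‖ / 40 := by
    refine ⟨‖a ξ‖ / (40 * (‖a'‖ + ‖a‖)), by have := hα.trans_le hαa; positivity, ?_, ?_⟩
    · rw [div_le_iff₀ (by have := hα.trans_le hαa; positivity)]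
      linarith [norm_nonneg a']
    · have := hα.trans_le hαa
      exact le_of_eq (by field_simp)
  set g := ‖a ξ‖ / 48 with hg
  have hg0 : 0 < g := by positivity
  obtain ⟨δ, hδ, mo⟩ := Bic.modulus ha (γ := g * θ / 4) (by positivity)
  obtain ⟨μ, hμ, μ1, μ2, μ3⟩ : ∃ μ : ℝ, 0 < μ ∧ μ ≤ δ ∧ μ ≤ 1 / 2 ∧ ‖a‖ * μ ≤ g * θ / 4 := by
    have := hα.trans_le hαa
    refine ⟨min (min δ (1 / 2)) (g * θ / 4 / ‖a‖), by positivity,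
      (min_le_left _ _).trans (min_le_left _ _), (min_le_left _ _).trans (min_le_right _ _), ?_⟩
    exact (mul_le_mul_of_nonneg_left (min_le_right _ _) this.le).trans (le_of_eq (by field_simp))
  set c₂ := 4 * ‖a‖ ^ 2 / μ ^ 2 with hc₂
  have k1 : ‖a‖ ^ 2 ≤ c₂ := by
    rw [hc₂, le_div_iff₀ (by positivity)]
    nlinarith [mul_le_mul_of_nonneg_left (pow_le_pow_left₀ hμ.le μ2 2) (sq_nonneg ‖a‖)]
  have k2 : g ^ 2 ≤ c₂ := le_trans (pow_le_pow_left₀ hg0.le (by linarith) 2) k1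
  have k0 : 0 < c₂ := lt_of_lt_of_le (by positivity) k2
  have dsm : ∀ u : H →L[ℂ] H, IsPI u →
      g ^ 2 * ‖u ξ‖ ^ 2 + c₂ * Psi J u ξ ξ ≤ ‖u (a ξ) - rt J u (a ξ)‖ ^ 2 →
      ‖df J 1 u ξ ξ‖ ≤ μ := fun u hu hI => by
    have b1 : ‖u (a ξ) - rt J u (a ξ)‖ ≤ 2 * ‖a‖ := by
      have := hJ.norm_rt_le u (a ξ)
      nlinarith [norm_sub_le (u (a ξ)) (rt J u (a ξ)), hu.norm_apply_le (a ξ), hu.norm_le]
    have b2 : c₂ * ‖df J 1 u ξ ξ‖ ^ 2 ≤ c₂ * Psi J u ξ ξ :=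
      mul_le_mul_of_nonneg_left (by
        unfold Psi
        nlinarith [sq_nonneg ‖rt J (1 - star u * u) (df J 1 u ξ ξ)‖,
          sq_nonneg ‖(1 - u * star u) (df J 1 u ξ ξ)‖]) k0.le
    have b3 : c₂ * μ ^ 2 = (2 * ‖a‖) ^ 2 := by rw [hc₂]; field_simp; ring
    have b4 : c₂ * ‖df J 1 u ξ ξ‖ ^ 2 ≤ c₂ * μ ^ 2 := by
      nlinarith [pow_le_pow_left₀ (norm_nonneg _) b1 2, mul_nonneg (sq_nonneg g) (sq_nonneg ‖u ξ‖)]
    exact (abs_le_of_sq_le_sq' (le_of_mul_le_mul_left b4 k0) hμ.le).2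
  obtain ⟨u, hu, hpi, hI, hS⟩ := hB.exhaust hm.fix hm.fix hm.sep (a ξ) (a ξ) (g ^ 2) k0.le
    (fun u => θ < ‖u ξ‖) fun u hu hpi hI hS => by
      have hp := mul_mem (star_mem hu) hu
      have hq := mul_mem hu (star_mem hu)
      have n1 : ‖(star u * u) ξ‖ ≤ θ := by rw [hpi.norm_init]; exact not_lt.1 hS
      obtain ⟨v, hv, hvi, v1, v2, vR⟩ := h.loc_step hL hY haM ha' e h0 hα hp hpi.init hq hpi.fin
        (fun h1 => by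
          have d1 := dsm u hpi hI
          have d2 : ‖rt J u ξ‖ = 1 := by
            rw [hJ.norm_rt_fix hm.fix, ← hpi.norm_fin, h1, one_apply_eq_self, h.norm]
          rw [df, Complex.ofReal_one, one_smul] at d1
          linarith [norm_sub_norm_le (rt J u ξ) (u ξ), norm_sub_rev (rt J u ξ) (u ξ),
            not_lt.1 hS])
        (n1.trans θ1) ((mul_le_mul_of_nonneg_left n1 (by positivity)).trans θ2)
        (B := 10 * c₂) (by positivity)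
      refine ⟨v, hv, hvi, fun h1 => by simp [h1, df, rt_zero] at vR, ?_, ?_,
        hB.loc_out hm.fix haM hp hpi.init hq hpi.fin hv hvi v1 v2 k2 k1 vR⟩
      · rw [← v1, ← mul_assoc, mul_sub, ← mul_assoc, hpi.init_mul, mul_one, sub_self, zero_mul]
      · rw [← v2, mul_assoc, sub_mul, hpi.init_mul, one_mul, sub_self, mul_zero]
  have d1 := dsm u hpi hI
  have d2 := mo u hu hpi.norm_le (d1.trans μ1)
  have e1 : u (a ξ) - rt J u (a ξ) = a (df J 1 u ξ ξ) - (a * u - u * a) ξ := by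
    rw [df, Complex.ofReal_one, one_smul, map_sub, hB.comm_apply haM hu, sub_apply,
      mul_apply_eq_comp, mul_apply_eq_comp]
    abel
  have d3 : ‖u (a ξ) - rt J u (a ξ)‖ ≤ g * θ / 2 := by
    rw [e1]
    nlinarith [norm_sub_le (a (df J 1 u ξ ξ)) ((a * u - u * a) ξ), a.le_opNorm (df J 1 u ξ ξ),
      mul_le_mul_of_nonneg_left d1 (norm_nonneg a)]
  have d4 : 0 ≤ c₂ * Psi J u ξ ξ := mul_nonneg k0.le (by unfold Psi; positivity)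
  have d5 := mul_le_mul_of_nonneg_left (pow_le_pow_left₀ hθ.le hS.le 2) (sq_nonneg g)
  nlinarith [pow_le_pow_left₀ (norm_nonneg _) d3 2, mul_pos hg0 hθ]

end Vale.Agent.P132
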