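import Vale.Agent.P132.Rt

/-! From the resolvent set to the functional calculus. -/

open scoped InnerProductSpace Topology ComplexConjugate
open Filter MeasureTheory

namespace Vale.Agent.P132

open Vale.Agent.P104

universe u

variable {H : Type u} [NormedAddCommGroup H] [InnerProductSpace ℂ H] [CompleteSpace H]
  {M : VonNeumannAlgebra H} {J : H →L⋆[ℂ] H} {P : Set H} {ξ : H} {F : FC H}

theorem SpAux.fa_fb_fb (F : FC H) (η : H) :
    F.f fa (F.f fb (F.f fb η)) = F.f fb (F.f fb (F.f fa η)) := by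
  rw [F.fa_fb_comm₃, F.fa_fb_comm₃]

theorem SpAux.mem_delta {G : Set (H × H)} (h : Pre G J F) (η ζ : H) :
    (η, ζ) ∈ graphDelta G ↔ F.f fa (F.f fa ζ) = F.f fb (F.f fb η) := by
  constructor
  · rintro ⟨η', h1, h2⟩
    obtain ⟨ρ, e1, e2⟩ := (h.graph _ _).1 h1
    have e3 : F.f fa ζ = F.f fb (F.f fb ρ) := by
      refine ext_inner_left ℂ fun ρ0 => ?_
      have := h2 (F.f fa ρ0, J (F.f fb ρ0)) ((h.graph _ _).2 ⟨ρ0, rfl, h.cj.inv _⟩)
      dsimp only at this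
      rw [← F.inner_fa₃, this, ← F.inner_fb₃, ← e2, ← h.cj.inner (J (F.f fb ρ0)), h.cj.inv]
    dsimp only at e1
    rw [e3, e1, SpAux.fa_fb_fb]
  · intro e
    have e1 : F.f fa ((1 / 2 : ℂ) • (F.f fa η + F.f fa ζ)) = η := by
      rw [map_smul, map_add, e, F.fa_fa_add₃, smul_smul]
      norm_num
    have e2 : F.f fb (F.f fb ((1 / 2 : ℂ) • (F.f fa η + F.f fa ζ))) = F.f fa ζ := by
      rw [map_smul, map_smul, map_add, map_add, ← SpAux.fa_fb_fb, ← e, F.fa_fa_add₃, smul_smul]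
      norm_num
    refine ⟨J (F.f fb ((1 / 2 : ℂ) • (F.f fa η + F.f fa ζ))),
      (h.graph _ _).2 ⟨_, e1.symm, h.cj.inv _⟩, fun q hq => ?_⟩
    obtain ⟨ρ0, e3, e4⟩ := (h.graph q.1 q.2).1 hq
    dsimp only
    rw [h.cj.inner_left, e3, e4, F.inner_fa₃, F.inner_fb₃, e2]

theorem SpAux.exp_gap (s : ℝ) {δ : ℝ} (hδ : 0 < δ) :
    ∃ m : ℝ, 0 < m ∧ ∀ t, δ ≤ |t - s| → m ≤ |Real.exp t - Real.exp s| := by
  refine ⟨min (Real.exp (s + δ) - Real.exp s) (Real.exp s - Real.exp (s - δ)),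
    lt_min (sub_pos.2 (Real.exp_lt_exp.2 (by linarith)))
      (sub_pos.2 (Real.exp_lt_exp.2 (by linarith))), fun t ht => ?_⟩
  rcases le_abs.1 ht with h | h
  · have := Real.exp_le_exp.2 (show s + δ ≤ t by linarith)
    exact (min_le_left _ _).trans ((by linarith : _ ≤ _).trans (le_abs_self _))
  · have := Real.exp_le_exp.2 (show t ≤ s - δ by linarith)
    exact (min_le_right _ _).trans ((by linarith : _ ≤ _).trans (neg_le_abs _))

theorem SpAux.fb_sq (t : ℝ) : fb t * fb t = (Real.exp t : ℝ) * (fa t * fa t) := by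
  have : Real.exp t = Real.exp (t / 2) * Real.exp (t / 2) := by rw [← Real.exp_add, add_halves]
  rw [fb_eq, this, Complex.ofReal_mul]
  ring

theorem Pre.inRes_of_gap {G : Set (H × H)} (h : Pre G J F) {s δ : ℝ} (hδ : 0 < δ)
    (h0 : F.f (tri s δ) = 0) : InResolvent (graphDelta G) (Real.exp s : ℝ) := by
  obtain ⟨m, hm, hgap⟩ := SpAux.exp_gap s hδ
  have hS : ∀ η, F.Supp η {t | δ ≤ |t - s|} := fun η =>
    (F.supp_of_f_eq_zero (bc_tri s hδ) (by rw [h0]; rfl)).mono fun t ht =>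
      not_lt.1 fun h' => tri_ne_zero hδ h' ht
  let g : ℝ → ℂ := fun t =>
    (((Real.exp t - Real.exp s) / max ((Real.exp t - Real.exp s) ^ 2) (m ^ 2) : ℝ) : ℂ)
  have hpos : ∀ u : ℝ, 0 < max (u ^ 2) (m ^ 2) := fun u => lt_max_of_lt_right (by positivity)
  have hg : BC g := by
    refine ⟨Complex.continuous_ofReal.comp (Continuous.div (by fun_prop) (by fun_prop)
      fun t => (hpos _).ne'), 1 / m, fun t => ?_⟩
    rw [Complex.norm_real, norm_div, Real.norm_of_nonneg (hpos _).le, Real.norm_eq_abs,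
      div_le_div_iff₀ (hpos _) hm, one_mul, ← sq_abs (Real.exp t - Real.exp s)]
    rcases le_total |Real.exp t - Real.exp s| m with h1 | h1
    · exact le_max_of_le_right (by nlinarith)
    · exact le_max_of_le_left (by nlinarith)
  let d : ℝ → ℂ := fun t => fb t * fb t - (Real.exp s : ℝ) * (fa t * fa t)
  have hd : BC d := (bc_fb.mul bc_fb).sub ((bc_fa.mul bc_fa).const_mul _)
  have hgd : ∀ t ∈ {t | δ ≤ |t - s|}, g t * d t = fa t * fa t := fun t ht => by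
    have h1 := hgap t ht
    have h2 : m ^ 2 ≤ (Real.exp t - Real.exp s) ^ 2 := by
      rw [← sq_abs (Real.exp t - Real.exp s)]; nlinarith
    have h3 : Real.exp t - Real.exp s ≠ 0 := abs_pos.1 (hm.trans_le h1)
    have h4 : (Real.exp t - Real.exp s) / max ((Real.exp t - Real.exp s) ^ 2) (m ^ 2) *
        (Real.exp t - Real.exp s) = 1 := by
      rw [max_eq_left h2]; field_simp
    simp only [g, d, SpAux.fb_sq]
    rw [← sub_mul, ← mul_assoc, ← Complex.ofReal_sub, ← Complex.ofReal_mul, h4]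
    simp
  have hdf : ∀ η, F.f d η = F.f fb (F.f fb η) - ((Real.exp s : ℝ) : ℂ) • F.f fa (F.f fa η) :=
    fun η => by
      rw [F.f_sub (bc_fb.mul bc_fb) ((bc_fa.mul bc_fa).const_mul _),
        F.f_const_mul _ (bc_fa.mul bc_fa), F.f_f bc_fa bc_fa, F.f_f bc_fb bc_fb]
      rfl
  refine ⟨F.f g, fun η ζ => ?_⟩
  rw [SpAux.mem_delta h, map_add, map_add, map_smul, map_smul, ← eq_sub_iff_add_eq, ← hdf,
    F.f_f bc_fa bc_fa]
  have hab := bc_fa.mul bc_fa
  constructor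
  · intro e
    have e1 := congrArg (F.f g) e
    have e2 : F.f g (F.f (fun t => fa t * fa t) ζ) = F.f (fun t => fa t * fa t) (F.f g ζ) :=
      congrArg (fun T : H →L[ℂ] H => T ζ) (F.f_comm hg hab)
    rw [F.f_f hg hd, F.f_congr (hg.mul hd) hab (hS η) hgd, e2, ← sub_eq_zero, ← map_sub] at e1
    exact (sub_eq_zero.1 (F.inj hab (fun t => mul_ne_zero (fa_ne_zero t) (fa_ne_zero t)) e1)).symm
  · rintro rfl
    rw [F.f_f hd hg]
    exact (F.f_congr (hd.mul hg) hab (hS ζ) fun t ht => by rw [mul_comm, hgd t ht]).symm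

section Transfer

variable {K K' : Type*} [NormedAddCommGroup K] [InnerProductSpace ℂ K]
  [NormedAddCommGroup K'] [InnerProductSpace ℂ K']

theorem SpAux.exists_iso [CompleteSpace K] [CompleteSpace K'] {ι : Type*} {v : ι → K}
    {v' : ι → K'} (hv : DenseRange v) (hv' : DenseRange v')
    (h : ∀ i j, ⟪v i, v j⟫_ℂ = ⟪v' i, v' j⟫_ℂ) : ∃ U : K ≃ₗᵢ[ℂ] K', ∀ i, U (v i) = v' i := by
  have d1 : DenseRange (Finsupp.linearCombination ℂ v) :=
    hv.mono (by rintro _ ⟨i, rfl⟩; exact ⟨Finsupp.single i 1, by simp⟩)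
  have d2 : DenseRange (Finsupp.linearCombination ℂ v') :=
    hv'.mono (by rintro _ ⟨i, rfl⟩; exact ⟨Finsupp.single i 1, by simp⟩)
  have hn : ∀ a : ι →₀ ℂ, ‖Finsupp.linearCombination ℂ v' (LinearEquiv.refl ℂ _ a)‖ =
      ‖Finsupp.linearCombination ℂ v a‖ := fun a => by
    rw [@norm_eq_sqrt_re_inner ℂ, @norm_eq_sqrt_re_inner ℂ]
    simp only [LinearEquiv.refl_apply, Finsupp.linearCombination_apply, Finsupp.sum, sum_inner,
      inner_sum, inner_smul_left, inner_smul_right, h]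
  refine ⟨(LinearEquiv.refl ℂ (ι →₀ ℂ)).extendOfIsometry _ _ d1 d2 hn, fun i => ?_⟩
  simpa using (LinearEquiv.refl ℂ (ι →₀ ℂ)).extendOfIsometry_eq _ _ d1 d2 hn (Finsupp.single i 1)

theorem SpAux.delta_map (U : K ≃ₗᵢ[ℂ] K') {G : Set (K × K)} {G' : Set (K' × K')}
    (h1 : ∀ p ∈ G, (U p.1, U p.2) ∈ G') (h2 : ∀ p ∈ G', (U.symm p.1, U.symm p.2) ∈ G)
    {a b : K} (h : (a, b) ∈ graphDelta G) : (U a, U b) ∈ graphDelta G' := by
  obtain ⟨η', e1, e2⟩ := h
  refine ⟨U η', h1 _ e1, fun q hq => ?_⟩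
  have := e2 _ (h2 q hq)
  dsimp only at this ⊢
  rw [← U.inner_map_map, ← U.inner_map_map η'] at this
  simpa using this

theorem SpAux.graph_map (U : K ≃ₗᵢ[ℂ] K') {Λ : (H →L[ℂ] H) → K} {Λ' : (H →L[ℂ] H) → K'}
    (h : ∀ x ∈ M, U (Λ x) = Λ' x) : ∀ p ∈ graphS M Λ, (U p.1, U p.2) ∈ graphS M Λ' := by
  intro p hp
  refine map_mem_closure (f := fun p : K × K => (U p.1, U p.2)) (by fun_prop) hp ?_
  rintro _ ⟨x, hx, rfl⟩
  exact ⟨x, hx, by simp only [h x hx, h _ (star_mem hx)]⟩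

end Transfer

theorem IsGNS.res_transfer {K K' : Type*} [NormedAddCommGroup K] [InnerProductSpace ℂ K]
    [CompleteSpace K] [NormedAddCommGroup K'] [InnerProductSpace ℂ K'] [CompleteSpace K']
    {φ : (H →L[ℂ] H) → ℂ} {Λ : (H →L[ℂ] H) → K} {Λ' : (H →L[ℂ] H) → K'} (h : IsGNS M φ Λ)
    (h' : IsGNS M φ Λ') {l : ℂ} (hl : InResolvent (graphDelta (graphS M Λ)) l) :
    InResolvent (graphDelta (graphS M Λ')) l := by
  obtain ⟨U, hU⟩ := SpAux.exists_iso (v := fun x : M => Λ x) (v' := fun x : M => Λ' x)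
    (h.1.mono (by rintro _ ⟨x, hx, rfl⟩; exact ⟨⟨x, hx⟩, rfl⟩))
    (h'.1.mono (by rintro _ ⟨x, hx, rfl⟩; exact ⟨⟨x, hx⟩, rfl⟩))
    fun x y => by rw [h.2 _ x.2 _ y.2, h'.2 _ x.2 _ y.2]
  have g1 := SpAux.graph_map (M := M) U (Λ := Λ) (Λ' := Λ') fun x hx => hU ⟨x, hx⟩
  have g2 := SpAux.graph_map (M := M) U.symm (Λ := Λ') (Λ' := Λ) fun x hx => by
    rw [← hU ⟨x, hx⟩, U.symm_apply_apply]
  obtain ⟨T, hT⟩ := hl
  refine ⟨(U.toContinuousLinearEquiv : K →L[ℂ] K') ∘L T ∘L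
    (U.symm.toContinuousLinearEquiv : K' →L[ℂ] K), fun η ζ => ?_⟩
  have e : η = U (T (U.symm ζ)) ↔ U.symm η = T (U.symm ζ) := U.symm_apply_eq.symm
  refine Iff.trans ?_ ((hT _ _).trans e.symm)
  constructor
  · intro hh
    simpa using SpAux.delta_map U.symm g2 g1 hh
  · intro hh
    simpa using SpAux.delta_map U g1 g2 hh

theorem FullSpec.tri_ne_zero (hF : FullSpec M) (hc : Cyc M ξ) (hs : Sep M ξ) (h0 : ξ ≠ 0)
    (h : Pre (gr M ξ) J F) (s : ℝ) {δ : ℝ} (hδ : 0 < δ) : F.f (tri s δ) ≠ 0 := by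
  intro hz
  have hn : (‖ξ‖ : ℂ) ≠ 0 := by exact_mod_cast norm_ne_zero_iff.2 h0
  set c : ℂ := ((‖ξ‖⁻¹ : ℝ) : ℂ) with hc'
  have hc0 : c ≠ 0 := by rw [hc', Complex.ofReal_inv]; exact inv_ne_zero hn
  have hcc : star c = c := Complex.conj_ofReal _
  have hnorm : ‖c • ξ‖ = 1 := by
    rw [norm_smul, hc', Complex.norm_real, norm_inv, norm_norm,
      inv_mul_cancel₀ (norm_ne_zero_iff.2 h0)]
  have hgns : IsGNS M (fun x => ⟪c • ξ, x (c • ξ)⟫_ℂ) fun x => x (c • ξ) := by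
    refine ⟨Metric.dense_iff.2 fun η r hr => ?_, fun x _ y _ => ?_⟩
    · obtain ⟨x, hx, hx'⟩ := hc η (r / 2) (half_pos hr)
      refine ⟨x ξ, ?_, c⁻¹ • x, M.toStarSubalgebra.smul_mem hx _, ?_⟩
      · rw [Metric.mem_ball, dist_comm, dist_eq_norm]
        linarith
      · simp [smul_smul, hc0]
    · exact inner_star_right x _ _ |>.symm
  have hgr : graphS M (fun x => x (c • ξ)) = gr M ξ := by
    rw [gr, graphS, graphS]
    congr 1
    ext p
    constructor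
    · rintro ⟨x, hx, rfl⟩
      exact ⟨c • x, M.toStarSubalgebra.smul_mem hx _, by simp [hcc]⟩
    · rintro ⟨x, hx, rfl⟩
      exact ⟨c⁻¹ • x, M.toStarSubalgebra.smul_mem hx _, by simp [hcc, smul_smul, hc0]⟩
  have key := fun h1 h2 => hF (fun x => ⟪c • ξ, x (c • ξ)⟫_ℂ) h1 h2 (Real.exp s) (Real.exp_pos s)
  refine (key ?_ ?_).elim fun K hK => ?_
  rotate_right
  · obtain ⟨_, _, _, Λ, hΛ, hres⟩ := hK
    exact hres (hgns.res_transfer hΛ (hgr ▸ h.inRes_of_gap hδ hz))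
  · refine ⟨Pi.single 0 (c • ξ), ?_, fun x _ => ?_⟩
    · convert hasSum_single (f := fun n => ‖(Pi.single 0 (c • ξ) : ℕ → H) n‖ ^ 2) 0
        fun n hn => by simp [hn]
      simp [hnorm]
    · have := hasSum_single (f := fun n => ⟪(Pi.single 0 (c • ξ) : ℕ → H) n,
        x ((Pi.single 0 (c • ξ) : ℕ → H) n)⟫_ℂ) 0 fun n hn => by simp [hn]
      rwa [Pi.single_eq_same] at this
  · intro x hx hx0
    refine hs x hx ?_
    change ⟪c • ξ, star x (x (c • ξ))⟫_ℂ = 0 at hx0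
    rw [inner_star_right, inner_self_eq_zero, map_smul, smul_eq_zero] at hx0
    exact hx0.resolve_left hc0

end Vale.Agent.P132
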