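import Vale.Agent.P132.Tomita
import Vale.Agent.P132.Spec

/-! Vectors of the natural cone share the modular conjugation. -/

open scoped InnerProductSpace Topology ComplexConjugate
open Filter MeasureTheory

namespace Vale.Agent.P132

open Vale.Agent.P104

universe u

variable {H : Type u} [NormedAddCommGroup H] [InnerProductSpace ℂ H] [CompleteSpace H]
  {M : VonNeumannAlgebra H} {J : H →L⋆[ℂ] H} {P : Set H} {ξ : H} {F : FC H}

theorem GdAux.flip {J' : H →L⋆[ℂ] H} (hB : Bi M J) (hB' : Bi M J') (hξ : J ξ = ξ)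
    (hξ' : J' ξ = ξ) {x : H →L[ℂ] H} (hx : x ∈ M) :
    ∃ x' ∈ M, J (J' (x ξ)) = x' ξ ∧ star x' ξ = J (J' (star x ξ)) := by
  refine ⟨rt J (rt J' x), hB.rt_mem' (hB'.rt_mem x hx), ?_, ?_⟩
  · rw [rt_apply, hξ, hB'.cj.rt_star, rt_apply, star_star, hξ']
  · rw [hB.cj.rt_star, rt_apply, star_star, hξ, rt_apply, hξ']

theorem GdAux.star_comp {J' : H →L⋆[ℂ] H} (h : IsConj J) (h' : IsConj J') :
    star (J.comp J' : H →L[ℂ] H) = (J'.comp J : H →L[ℂ] H) := by
  ext η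
  refine ext_inner_left ℂ fun ζ => ?_
  rw [inner_star_right]
  change ⟪J (J' ζ), η⟫_ℂ = ⟪ζ, J' (J η)⟫_ℂ
  rw [h.inner_left, ← h'.inner, h'.inv]

theorem GdAux.real (hB : Bi M J) (hξ : J ξ = ξ) {x : H →L[ℂ] H} (hx : x ∈ M) :
    (⟪x ξ, J (star x ξ)⟫_ℂ).im = 0 := by
  rw [← Complex.conj_eq_iff_im, inner_conj_symm, hB.cj.inner_left, hB.cj.J_apply x,
    hB.cj.J_apply (star x), star_star, hξ, inner_star_right, hB.cj.inner_rt_right,
    hB.comm_apply hx (star_mem hx)]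

theorem Bi.mod_of_good (hB : Bi M J) (hξ : J ξ = ξ) (hs : Sep M ξ)
    (hp : ∀ w ∈ M, 0 ≤ (⟪ξ, w (rt J (star w) ξ)⟫_ℂ).re) : ∃ F, Mod M J ξ F := by
  obtain ⟨J', F, hM⟩ := exists_mod (hB.cyc_of_sep hξ hs) hs
  let u : H →L[ℂ] H := J.comp J'
  have hu : ∀ η, u η = J (J' η) := fun _ => rfl
  have hsu : ∀ η, star u η = J' (J η) := fun η => by
    rw [GdAux.star_comp hB.cj hM.cj]; rfl
  have hcomm : ∀ g, BC g → ∀ η, u (F.f g η) = F.f g (u η) := fun g hg η => by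
    refine hM.pre.inter hM.pre u (star u) (fun x hx => ?_) (fun x hx => ?_) hg η
    · obtain ⟨x', hx', e1, e2⟩ := GdAux.flip hB hM.bi hξ hM.fix hx
      exact ⟨x', hx', e1, by rw [hsu, e2]⟩
    · obtain ⟨x', hx', e1, e2⟩ := GdAux.flip hM.bi hB hM.fix hξ hx
      exact ⟨x', hx', by rw [hsu, e1], by rw [star_star, hu, e2, hM.cj.inv, hM.cj.inv]⟩
  have hcl : IsClosed {z : ℂ | 0 ≤ z.re ∧ z.im = 0} :=
    (isClosed_le continuous_const Complex.continuous_re).inter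
      (isClosed_eq Complex.continuous_im continuous_const)
  have h1 : ∀ p ∈ gr M ξ, ⟪p.1, J p.2⟫_ℂ ∈ {z : ℂ | 0 ≤ z.re ∧ z.im = 0} := by
    refine closure_minimal (t := {p : H × H | ⟪p.1, J p.2⟫_ℂ ∈ {z : ℂ | 0 ≤ z.re ∧ z.im = 0}}) ?_
      (hcl.preimage (by fun_prop))
    rintro _ ⟨x, hx, rfl⟩
    refine ⟨?_, GdAux.real hB hξ hx⟩
    have := hp (star x) (star_mem hx)
    rwa [inner_star_right, star_star, rt_apply, hξ] at this
  have h2 : ∀ η, ⟪η, u η⟫_ℂ ∈ {z : ℂ | 0 ≤ z.re ∧ z.im = 0} := by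
    refine (F.denseRange RtAux.bc_gm RtAux.gm_ne).induction ?_ (hcl.preimage (by fun_prop))
    rintro _ ⟨ρ, rfl⟩
    have h3 := h1 (F.f fa ρ, J' (F.f fb ρ)) ((hM.pre.graph _ _).2 ⟨ρ, rfl, hM.cj.inv _⟩)
    dsimp only at h3
    rw [← hu, F.inner_f bc_fa, hcomm _ bc_fb, F.f_f bc_fa.cj bc_fb] at h3
    rw [F.inner_f RtAux.bc_gm, hcomm _ RtAux.bc_gm, F.f_f RtAux.bc_gm.cj RtAux.bc_gm]
    simpa only [RtAux.gm_sq] using h3
  have h3 : star u = u := ext_quad fun η => by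
    rw [inner_star_right, ← inner_conj_symm, Complex.conj_eq_iff_im.2 (h2 η).2]
  have h4 : ∀ η, u (u η) = η := fun η => by
    rw [← h3, hsu, h3, hu, hB.cj.inv, hM.cj.inv]
  have h5 : ∀ η, u η = η := fun η => by
    have h6 := (h2 (u η - η)).1
    rw [map_sub, h4, ← neg_sub (u η), inner_neg_right, Complex.neg_re, ← RCLike.re_to_complex,
      inner_self_eq_norm_sq] at h6
    exact sub_eq_zero.1 (norm_eq_zero.1 (pow_eq_zero_iff two_ne_zero |>.1
      (le_antisymm (by linarith) (sq_nonneg _))))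
  have e : J = J' := by
    ext η
    exact hB.cj.inj ((hB.cj.inv η).trans (h5 η).symm)
  exact ⟨F, e ▸ hM⟩

theorem exists_ctx (hT : T3 M) (hF : FullSpec M) (hc : Cyc M ξ) (hs : Sep M ξ) :
    ∃ J P F, Ctx M J P ∧ ξ ∈ P ∧ Mod M J ξ F := by
  obtain ⟨J, F, hM⟩ := exists_mod hc hs
  have hJ := hM.cj
  have hB := hM.bi
  let P : AddSubmonoid H := AddSubmonoid.closure {ζ | ∃ y ∈ M, ζ = y (rt J (star y) ξ)}
  have hfix : ∀ ζ ∈ P, J ζ = ζ := fun ζ hζ => by
    induction hζ using AddSubmonoid.closure_induction with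
    | mem ζ hζ =>
      obtain ⟨y, hy, rfl⟩ := hζ
      rw [hJ.J_apply, hJ.J_rt, star_star, hM.fix, hB.comm_apply hy (star_mem hy)]
    | zero => exact map_zero J
    | add a b _ _ ha hb => rw [map_add, ha, hb]
  have hpos : ∀ ζ ∈ P, ∀ ζ' ∈ P, 0 ≤ (⟪ζ, ζ'⟫_ℂ).re := fun ζ hζ ζ' hζ' => by
    induction hζ using AddSubmonoid.closure_induction with
    | mem ζ hζ =>
      obtain ⟨y, hy, rfl⟩ := hζ
      induction hζ' using AddSubmonoid.closure_induction with
      | mem ζ' hζ' =>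
        obtain ⟨z, hz, rfl⟩ := hζ'
        have := hM.good (mul_mem (star_mem hy) hz)
        rw [star_mul, star_star, hJ.rt_mul_apply,
          hB.comm_apply (mul_mem (star_mem hy) hz) hy, hJ.inner_rt_right] at this
        rwa [← inner_star_right]
      | zero => simp
      | add a b _ _ ha hb => rw [inner_add_right, Complex.add_re]; positivity
    | zero => simp
    | add a b _ _ ha hb => rw [inner_add_left, Complex.add_re]; positivity
  have hsand : ∀ ζ ∈ P, ∀ w ∈ M, w (rt J (star w) ζ) ∈ P := fun ζ hζ w hw => by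
    induction hζ using AddSubmonoid.closure_induction with
    | mem ζ hζ =>
      obtain ⟨y, hy, rfl⟩ := hζ
      refine AddSubmonoid.subset_closure ⟨w * y, mul_mem hw hy, ?_⟩
      rw [star_mul, hJ.rt_mul_apply, ← hB.comm_apply hy (star_mem hw)]
      rfl
    | zero => simp
    | add a b _ _ ha hb => simpa using add_mem ha hb
  refine ⟨J, P, F, ⟨hB, hT, hfix, hpos, hsand, fun a ha b hb => add_mem ha hb,
    fun ζ hζ c hc => ?_, fun ζ hζ hsep => ?_⟩, AddSubmonoid.subset_closure ⟨1, one_mem _, ?_⟩, hM⟩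
  · have h1 := hsand ζ hζ (((√c : ℝ) : ℂ) • 1) (M.toStarSubalgebra.smul_mem (one_mem _) _)
    rw [star_smul, star_one, rt_smul, hJ.rt_one] at h1
    simpa [smul_smul, ← Complex.ofReal_mul, Real.mul_self_sqrt hc] using h1
  · obtain ⟨F', hF'⟩ := hB.mod_of_good (hfix ζ hζ) hsep fun w hw =>
      hpos ζ hζ _ (hsand ζ hζ w hw)
    refine ⟨F', hF', fun h δ hδ => hF.tri_ne_zero hF'.cyc hsep ?_ hF'.pre h hδ⟩
    obtain ⟨e, he, -, he0, -⟩ := hT.nontriv
    rintro rfl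
    exact he0 (hsep e he (map_zero e))
  · rw [star_one, hJ.rt_one]
    rfl

end Vale.Agent.P132
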