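import Vale.Agent.P132.Basic
import Vale.Agent.P104.GoodVNAux

/-! Internal notions for P132: cone of vectors, supports, bicentralizer flow. -/

open scoped InnerProductSpace Topology ComplexConjugate
open Filter MeasureTheory

namespace Vale.Agent.P132

variable {H : Type*} [NormedAddCommGroup H] [InnerProductSpace ℂ H] [CompleteSpace H]

/-- Standard form with a cone `P` of vectors, type III structure and full spectra. -/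
structure Ctx (M : VonNeumannAlgebra H) (J : H →L⋆[ℂ] H) (P : Set H) : Prop where
  bi : Bi M J
  t3 : T3 M
  fix : ∀ ζ ∈ P, J ζ = ζ
  pos : ∀ ζ ∈ P, ∀ ζ' ∈ P, 0 ≤ (⟪ζ, ζ'⟫_ℂ).re
  sand : ∀ ζ ∈ P, ∀ w ∈ M, w (rt J (star w) ζ) ∈ P
  add : ∀ ζ ∈ P, ∀ ζ' ∈ P, ζ + ζ' ∈ P
  smul : ∀ ζ ∈ P, ∀ c : ℝ, 0 ≤ c → (c : ℂ) • ζ ∈ P
  md : ∀ ζ ∈ P, Sep M ζ → ∃ F, Mod M J ζ F ∧ ∀ h δ : ℝ, 0 < δ → F.f (tri h δ) ≠ 0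

/-- `e` is the support of `ζ`. -/
structure IsSupp (M : VonNeumannAlgebra H) (J : H →L⋆[ℂ] H) (e : H →L[ℂ] H) (ζ : H) : Prop where
  mem : e ∈ M
  proj : IsStarProjection e
  fix : e ζ = ζ
  faith : ∀ x ∈ M, x (rt J (star x) ζ) = 0 → x * e = 0

/-- The compression `e ζ e`. -/
noncomputable def cmp (J : H →L⋆[ℂ] H) (e : H →L[ℂ] H) (ζ : H) : H := e (rt J e ζ)

/-- The defect `c x ζ₁ - ζ₂ x`. -/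
noncomputable def df (J : H →L⋆[ℂ] H) (c : ℝ) (x : H →L[ℂ] H) (ζ₁ ζ₂ : H) : H :=
  (c : ℂ) • x ζ₁ - rt J x ζ₂

/-- Bounded sequences in `M`. -/
def Bd (M : VonNeumannAlgebra H) (x : ℕ → (H →L[ℂ] H)) : Prop :=
  (∀ n, x n ∈ M) ∧ ∃ C : ℝ, ∀ n, ‖x n‖ ≤ C

/-- Approximate eigensequences of frequency `s`: `ξ x ≈ exp (s / 2) x ξ`. -/
def Eig (M : VonNeumannAlgebra H) (J : H →L⋆[ℂ] H) (ξ : H) (s : ℝ) (x : ℕ → (H →L[ℂ] H)) : Prop :=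
  Bd M x ∧ Tendsto (fun n => df J (Real.exp (s / 2)) (x n) ξ ξ) atTop (𝓝 0)

/-- The bicentralizer in Hilbert space form. -/
def Bic (M : VonNeumannAlgebra H) (J : H →L⋆[ℂ] H) (ξ : H) : Set (H →L[ℂ] H) :=
  {a | a ∈ M ∧ ∀ x, Eig M J ξ 0 x → Tendsto (fun n => (a * x n - x n * a) ξ) atTop (𝓝 0)}

/-- The closure of `B ξ`. -/
noncomputable def BK (M : VonNeumannAlgebra H) (J : H →L⋆[ℂ] H) (ξ : H) : Submodule ℂ H :=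
  (Submodule.span ℂ ((fun a : H →L[ℂ] H => a ξ) '' Bic M J ξ)).topologicalClosure

/-- Vectors on which left and right multiplication by asymptotically central sequences agree. -/
def KB (M : VonNeumannAlgebra H) (J : H →L⋆[ℂ] H) (ξ : H) : Set H :=
  {η | ∀ x, Eig M J ξ 0 x → Tendsto (fun n => x n η - rt J (x n) η) atTop (𝓝 0)}

/-- Connes-Stormer transitivity for the faithful unit vectors of the cone. -/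
def CS (M : VonNeumannAlgebra H) (J : H →L⋆[ℂ] H) (P : Set H) : Prop :=
  ∀ ζ₁ ∈ P, ∀ ζ₂ ∈ P, Sep M ζ₁ → Sep M ζ₂ → ‖ζ₁‖ = 1 → ‖ζ₂‖ = 1 → ∀ ε : ℝ, 0 < ε →
    ∃ u ∈ M, ‖u‖ ≤ 1 ∧ ‖df J 1 u ζ₁ ζ₂‖ ≤ ε ∧ ‖(1 - star u * u) ζ₁‖ ≤ ε ∧
      ‖(1 - u * star u) ζ₂‖ ≤ ε

/-- Asymptotic Cuntz families with frequencies `l i`. -/
structure Tr (M : VonNeumannAlgebra H) (J : H →L⋆[ℂ] H) (ξ : H) {ι : Type} [Fintype ι]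
    [DecidableEq ι] (l : ι → ℝ) (w : ι → ℕ → (H →L[ℂ] H)) : Prop where
  eig : ∀ i, Eig M J ξ (l i) (w i)
  row : ∀ n, P104.GRow 1 fun i => w i n
  orth : ∀ i j η, Tendsto (fun n => (star (w i n) * w j n) η) atTop (𝓝 (if i = j then η else 0))
  sum : ∀ η, Tendsto (fun n => (∑ i, w i n * star (w i n)) η) atTop (𝓝 η)

/-- Everything about the fixed unit vector `ξ`. -/
structure Base (M : VonNeumannAlgebra H) (J : H →L⋆[ℂ] H) (P : Set H) (ξ : H) (F : FC H) :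
    Prop where
  ctx : Ctx M J P
  cs : CS M J P
  mem : ξ ∈ P
  md : Mod M J ξ F
  norm : ‖ξ‖ = 1
  tr : ∀ (ι : Type) [Fintype ι] [DecidableEq ι] (l : ι → ℝ), ∑ i, Real.exp (l i) = 1 →
    ∃ w, Tr M J ξ l w

/-- Two vectors with supports placed side by side in one faithful vector `ζ`. -/
structure Join (M : VonNeumannAlgebra H) (J : H →L⋆[ℂ] H) (P : Set H) (e₁ e₂ : H →L[ℂ] H)
    (ζ₁ ζ₂ : H) (t₁ t₂ : H →L[ℂ] H) (ζ : H) : Prop where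
  mem₁ : t₁ ∈ M
  mem₂ : t₂ ∈ M
  init₁ : star t₁ * t₁ = e₁
  init₂ : star t₂ * t₂ = e₂
  sum : t₁ * star t₁ + t₂ * star t₂ = 1
  cone : ζ ∈ P
  sep : Sep M ζ
  left₁ : (t₁ * star t₁) ζ = t₁ (rt J (star t₁) ζ₁)
  right₁ : rt J (t₁ * star t₁) ζ = t₁ (rt J (star t₁) ζ₁)
  left₂ : (t₂ * star t₂) ζ = t₂ (rt J (star t₂) ζ₂)
  right₂ : rt J (t₂ * star t₂) ζ = t₂ (rt J (star t₂) ζ₂)

/-- `σ t y` is central and independent in the time mean. -/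
structure Mix (M : VonNeumannAlgebra H) (J : H →L⋆[ℂ] H) (ξ : H) (F : FC H) (y : H →L[ℂ] H) :
    Prop where
  mem : y ∈ M
  cl : ∀ b ∈ M, ∀ η, Tendsto (fun ε => mn ε fun t => ‖(F.σ t y * b - b * F.σ t y) η‖ ^ 2)
    (𝓝[>] 0) (𝓝 0)
  cr : ∀ b ∈ M, ∀ η, Tendsto (fun ε => mn ε fun t => ‖rt J (F.σ t y * b - b * F.σ t y) η‖ ^ 2)
    (𝓝[>] 0) (𝓝 0)
  nl : ∀ η, Tendsto (fun ε => mn ε fun t => ‖F.σ t y η‖ ^ 2) (𝓝[>] 0) (𝓝 (‖y ξ‖ ^ 2 * ‖η‖ ^ 2))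
  nr : ∀ η, Tendsto (fun ε => mn ε fun t => ‖rt J (F.σ t y) η‖ ^ 2) (𝓝[>] 0)
    (𝓝 (‖rt J y ξ‖ ^ 2 * ‖η‖ ^ 2))

/-- Ergodicity of the modular flow on the bicentralizer. -/
def Erg (M : VonNeumannAlgebra H) (J : H →L⋆[ℂ] H) (ξ : H) (F : FC H) : Prop :=
  ∀ w ∈ Bic M J ξ, ∀ ζ η : H, Tendsto (fun ε => mc ε fun t => ⟪ζ, F.σ t w η⟫_ℂ) (𝓝[>] 0)
    (𝓝 (⟪ξ, w ξ⟫_ℂ * ⟪ζ, η⟫_ℂ))

/-- The braiding inequality on a subspace. -/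
def Braid (F : FC H) (U : ℝ → (H →L[ℂ] H)) (L : Submodule ℂ H) : Prop :=
  ∀ α ∈ L, ∀ β ∈ L, ∀ h h' δ ω₁ ω₂ : ℝ, 0 < δ → F.Supp α (Set.Icc (h - δ) (h + δ)) →
    F.Supp β (Set.Icc (h' - δ) (h' + δ)) → (∀ s, |s| ≤ 6 * δ → ‖U s α - α‖ ≤ ω₁) →
    (∀ s, |s| ≤ 6 * δ → ‖U s β - β‖ ≤ ω₂) →
    ‖α‖ ^ 2 * ‖β‖ ^ 2 - (⟪U (-h) β, β⟫_ℂ * ⟪U (-h') α, α⟫_ℂ).re ≤
      18 * (ω₁ ^ 2 * ‖β‖ ^ 2 + ω₂ ^ 2 * ‖α‖ ^ 2)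

/-- Local existence of bands that see the operator `b`. -/
def Loc (M : VonNeumannAlgebra H) (J : H →L⋆[ℂ] H) (P : Set H) : Prop :=
  ∀ ζ₁ ∈ P, ∀ ζ₂ ∈ P, ∀ e₁ e₂, IsSupp M J e₁ ζ₁ → IsSupp M J e₂ ζ₂ → e₁ ≠ 0 → e₂ ≠ 0 →
    ∀ y ∈ M, y * e₁ = y → ∀ b ∈ M, ∀ ρ, rt J e₁ ρ = ρ → ∀ d : ℝ, 0 < d →
    ‖ρ - rt J y ζ₁‖ ≤ d / 10 * ‖ζ₁‖ → (∀ c : ℂ, d * ‖ζ₁‖ ≤ ‖rt J y ζ₁ - c • ζ₁‖) →
    ∀ δ : ℝ, 0 < δ → ∃ s : ℝ, ∃ x ∈ M, e₂ * x = x ∧ x * e₁ = x ∧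
      ‖df J (Real.exp (s / 2)) x ζ₁ ζ₂‖ ≤ δ * Real.exp (s / 2) * ‖x ζ₁‖ ∧
      d / 4 * ‖x ζ₁‖ < ‖x ρ - e₂ (b (x ζ₁))‖

/-- Mixing elements at every frequency. -/
def MixAll (M : VonNeumannAlgebra H) (J : H →L⋆[ℂ] H) (ξ : H) (F : FC H) : Prop :=
  ∀ s δ : ℝ, 0 < δ → ∃ y, Mix M J ξ F y ∧ ‖y ξ‖ = 1 ∧ ‖df J (Real.exp (s / 2)) y ξ ξ‖ ≤ δ

/-- `a ξ = ξ a'` for some `a'` in `M`. -/
def An (M : VonNeumannAlgebra H) (J : H →L⋆[ℂ] H) (ξ : H) (a : H →L[ℂ] H) : Prop :=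
  ∃ a' ∈ M, a ξ = rt J a' ξ

/-- The bicentralizer flow and its unitary implementation. -/
structure Flow (M : VonNeumannAlgebra H) (J : H →L⋆[ℂ] H) (ξ : H) (F : FC H)
    (β : ℝ → (H →L[ℂ] H) → (H →L[ℂ] H)) (U : ℝ → (H →L[ℂ] H)) : Prop where
  mem : ∀ s, ∀ a ∈ Bic M J ξ, β s a ∈ Bic M J ξ
  char : ∀ s, ∀ a ∈ Bic M J ξ, ∀ x, Eig M J ξ s x →
    Tendsto (fun n => (a * x n - x n * β s a) ξ) atTop (𝓝 0)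
  mul : ∀ s, ∀ a ∈ Bic M J ξ, ∀ b ∈ Bic M J ξ, β s (a * b) = β s a * β s b
  add : ∀ s t, ∀ a ∈ Bic M J ξ, β (s + t) a = β s (β t a)
  star : ∀ s, ∀ a ∈ Bic M J ξ, β s (star a) = star (β s a)
  mbdd : ∀ s (ι : Type) [Fintype ι] (X : ι → ι → (H →L[ℂ] H)), (∀ i j, X i j ∈ Bic M J ξ) →
    P104.MBdd 1 X → P104.MBdd 1 fun i j => β s (X i j)
  U_apply : ∀ s, ∀ a ∈ Bic M J ξ, U s (a ξ) = β s a ξ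
  U_xi : ∀ s, U s ξ = ξ
  U_zero : U 0 = 1
  U_add : ∀ s t, U (s + t) = U s * U t
  U_norm : ∀ s η, ‖U s η‖ = ‖η‖
  U_cont : ∀ η, Continuous fun s => U s η
  U_comm : ∀ s g, BC g → U s * F.f g = F.f g * U s
  U_rt : ∀ s, ∀ a ∈ Bic M J ξ, rt J (β s a) ξ = U s (rt J a ξ)

/-- The quantity controlled along the exhaustion argument. -/
noncomputable def Psi (J : H →L⋆[ℂ] H) (u : H →L[ℂ] H) (ξ₁ ξ₂ : H) : ℝ :=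
  ‖df J 1 u ξ₁ ξ₂‖ ^ 2 + 4 * ‖rt J (1 - star u * u) (df J 1 u ξ₁ ξ₂)‖ ^ 2 +
    4 * ‖(1 - u * star u) (df J 1 u ξ₁ ξ₂)‖ ^ 2

/-- `π` identifies `(M, φ)` with `(N, ω_ξ)`, and vector functionals of `N` are normal on `M`. -/
structure Rep {K : Type*} [NormedAddCommGroup K] [InnerProductSpace ℂ K] [CompleteSpace K]
    (M : VonNeumannAlgebra H) (φ : (H →L[ℂ] H) → ℂ) (N : VonNeumannAlgebra K) (ξ : K)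
    (π : (H →L[ℂ] H) → (K →L[ℂ] K)) : Prop where
  cyc : Cyc N ξ
  sep : Sep N ξ
  norm : ‖ξ‖ = 1
  mem : ∀ x ∈ M, π x ∈ N
  surj : ∀ y ∈ N, ∃ x ∈ M, π x = y
  add : ∀ x ∈ M, ∀ y ∈ M, π (x + y) = π x + π y
  smul : ∀ c : ℂ, ∀ x ∈ M, π (c • x) = c • π x
  mul : ∀ x ∈ M, ∀ y ∈ M, π (x * y) = π x * π y
  star : ∀ x ∈ M, π (star x) = star (π x)
  one : π 1 = 1
  norm_map : ∀ x ∈ M, ‖π x‖ = ‖x‖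
  state : ∀ x ∈ M, ⟪ξ, π x ξ⟫_ℂ = φ x
  vec : ∀ ζ : K, ∃ z : ℕ → H, HasSum (fun n => ‖z n‖ ^ 2) (‖ζ‖ ^ 2) ∧
    ∀ x ∈ M, HasSum (fun n => ⟪z n, x (z n)⟫_ℂ) ⟪ζ, π x ζ⟫_ℂ

end Vale.Agent.P132
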