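import Vale.Agent.P132.DOI
import Vale.Agent.P132.Mult
import Vale.Agent.P132.Join

/-! Bands that see a given operator. -/

open scoped InnerProductSpace Topology ComplexConjugate
open Filter MeasureTheory

namespace Vale.Agent.P132

open Vale.Agent.P104

variable {H : Type*} [NormedAddCommGroup H] [InnerProductSpace ℂ H] [CompleteSpace H]
  {M : VonNeumannAlgebra H} {J : H →L⋆[ℂ] H} {P : Set H} {ξ : H} {F : FC H}

theorem loc_br (F : FC H) (D : H →L[ℂ] H) (a : H) : BR fun r => ‖D (F.V r a)‖ ^ 2 :=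
  ((SC.const D).mul ⟨F.V_cont, 1, F.V_opNorm_le₃⟩).br a

theorem loc_mean (F : FC H) {ε : ℝ} (hε : 0 < ε) (w : H →L[ℂ] H) (a : H) :
    mn ε (fun r => ‖w (F.V r a)‖ ^ 2) = (⟪a, F.band 0 ε (star w * w) a⟫_ℂ).re := by
  have e : ∀ r, ‖w (F.V r a)‖ ^ 2 = (⟪a, F.σ (-r) (star w * w) a⟫_ℂ).re := fun r => by
    rw [← F.inner_D_V₆, ← inner_self_eq_norm_sq (𝕜 := ℂ)]
    rfl
  simp only [e]
  rw [mn_re hε ((F.sc_σ (star w * w)).comp_neg.bc a a),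
    mc_comp_neg ε fun r => ⟪a, F.σ r (star w * w) a⟫_ℂ, mc_inner (F.sc_σ _) hε, F.band_zero]

theorem loc_lim (F : FC H) {ε : ℝ} (hε : 0 < ε) (D : H →L[ℂ] H) {a : ℕ → H} {η : H}
    (ha : Tendsto a atTop (𝓝 η)) {K : ℝ} (hK : ∀ n, mn ε (fun r => ‖D (F.V r (a n))‖ ^ 2) ≤ K) :
    mn ε (fun r => ‖D (F.V r η)‖ ^ 2) ≤ K := by
  have h1 : Tendsto (fun n => K + ‖D‖ * ‖η - a n‖ * (‖D‖ * ‖η‖ + ‖D‖ * ‖a n‖)) atTop
      (𝓝 (K + ‖D‖ * ‖η - η‖ * (‖D‖ * ‖η‖ + ‖D‖ * ‖η‖))) :=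
    (((ha.const_sub η).norm.const_mul _).mul ((ha.norm.const_mul _).const_add _)).const_add K
  rw [sub_self, norm_zero, mul_zero, zero_mul, add_zero] at h1
  refine ge_of_tendsto' h1 fun n => ?_
  refine le_trans ?_ (add_le_add (hK n) le_rfl)
  rw [← mn_const hε (‖D‖ * ‖η - a n‖ * (‖D‖ * ‖η‖ + ‖D‖ * ‖a n‖)),
    ← mn_add hε (loc_br F D _) (BR.const _)]
  refine mn_mono hε (loc_br F D _) ((loc_br F D _).add (BR.const _)) fun r => ?_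
  have hb : ∀ z, ‖D (F.V r z)‖ ≤ ‖D‖ * ‖z‖ := fun z => by
    simpa only [F.V_norm] using D.le_opNorm (F.V r z)
  have h2 : ‖D (F.V r η)‖ - ‖D (F.V r (a n))‖ ≤ ‖D‖ * ‖η - a n‖ := by
    refine (norm_sub_norm_le _ _).trans ?_
    rw [← map_sub, ← map_sub]
    exact hb _
  have h3 := mul_le_mul h2 (add_le_add (hb η) (hb (a n))) (by positivity) (by positivity)
  linarith

theorem Mod.loc_V (h : Mod M J ξ F) {f : H →L[ℂ] H} (m : f ∈ M) (c : rt J f ξ = f ξ) (r : ℝ) :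
    F.V r (f ξ) = f ξ := by
  rw [← h.σ_xi, h.σ_of_cen m c]

theorem Mod.loc_upper (h : Mod M J ξ F) {f₁ f₂ : H →L[ℂ] H} (m₁ : f₁ ∈ M)
    (c₁ : rt J f₁ ξ = f₁ ξ) (m₂ : f₂ ∈ M) (c₂ : rt J f₂ ξ = f₂ ξ) {y b : H →L[ℂ] H}
    (hy : y ∈ M) {ρ : H} {d : ℝ} (hd : 0 < d)
    (hρ : ‖ρ - rt J y (f₁ ξ)‖ ≤ d / 10 * ‖f₁ ξ‖) {ε : ℝ} (hε : 0 < ε)
    (hno : ∀ s : ℝ, ∀ x ∈ M, f₂ * x = x → x * f₁ = x → F.Supp (x ξ) (Set.Icc (s - ε) (s + ε)) →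
      ‖x ρ - b (x ξ)‖ ≤ d / 4 * ‖x ξ‖) {v : H →L[ℂ] H} (hv : v ∈ M) (v₂ : f₂ * v = v)
    (v₁ : v * f₁ = v) (vn : ‖v‖ ≤ 1) (vx : ‖v ξ‖ = ‖f₁ ξ‖) :
    mn ε (fun r => ‖(rt J y - b) (F.V r (v ξ))‖ ^ 2) ≤ 87 / 200 * (d * ‖f₁ ξ‖) ^ 2 := by
  refine loc_lim F hε _ (F.tendsto_sum_tri hε (v ξ)) fun n => ?_
  refine (F.band_lemma hε le_rfl _ _ _).trans ?_
  generalize Finset.Icc (-(n : ℤ)) n = t
  rw [← mn_sum hε t fun k _ => loc_br F _ _]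
  have key : mn ε (fun r => ∑ k ∈ t, ‖(rt J y - b) (F.V r (F.f (tri (k * ε) ε) (v ξ)))‖ ^ 2) ≤
      mn ε fun _ => 29 / 200 * (d * ‖f₁ ξ‖) ^ 2 := by
    refine mn_mono hε (BR.sum t fun k _ => loc_br F _ _) (BR.const _) fun r => ?_
    have hvr := h.sigma_mem r v hv
    have e1 : f₂ * F.σ r v * f₁ = F.σ r v := by
      rw [← h.σ_of_cen m₂ c₂ r, ← h.σ_of_cen m₁ c₁ r, ← F.σ_mul, ← F.σ_mul, v₂, v₁]
    have hk : ∀ k ∈ t, ‖(rt J y - b) (F.V r (F.f (tri (k * ε) ε) (v ξ)))‖ ^ 2 ≤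
        2 * ‖F.band (k * ε) ε (F.σ r v) (ρ - rt J y (f₁ ξ))‖ ^ 2 +
          d ^ 2 / 8 * ‖F.f (tri (k * ε) ε) (v ξ)‖ ^ 2 := by
      intro k _
      obtain ⟨x, hx⟩ : ∃ x, x = F.band (k * ε) ε (F.σ r v) := ⟨_, rfl⟩
      have xM : x ∈ M := hx ▸ h.band_mem hε _ hvr
      have e2 : f₂ * x * 1 = x := by
        rw [hx, h.band_corner hε _ m₂ c₂ (one_mem M) (by rw [h.cj.rt_one]), mul_one,
          ← h.σ_of_cen m₂ c₂ r, ← F.σ_mul, v₂]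
      have e3 : 1 * x * f₁ = x := by
        rw [hx, h.band_corner hε _ (one_mem M) (by rw [h.cj.rt_one]) m₁ c₁, one_mul,
          ← h.σ_of_cen m₁ c₁ r, ← F.σ_mul, v₁]
      rw [mul_one] at e2
      rw [one_mul] at e3
      have e4 : x ξ = F.V r (F.f (tri (k * ε) ε) (v ξ)) := by
        rw [hx, ← F.σ_band hε, h.σ_xi, h.band_xi hε]
      have e5 := hno (k * ε) x xM e2 e3 (hx ▸ h.band_supp hε _ _)
      have e6 : (rt J y - b) (x ξ) = (x ρ - b (x ξ)) - x (ρ - rt J y (f₁ ξ)) := by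
        rw [sub_apply, map_sub, h.bi.comm_apply xM hy, ← mul_apply_eq_comp x f₁, e3]
        abel
      have e7 : ‖F.f (tri (k * ε) ε) (v ξ)‖ = ‖x ξ‖ := by rw [e4, F.V_norm]
      rw [← e4, ← hx, e7, e6]
      have e8 := pow_le_pow_left₀ (norm_nonneg _) ((norm_sub_le (x ρ - b (x ξ))
        (x (ρ - rt J y (f₁ ξ)))).trans (add_le_add e5 le_rfl)) 2
      linarith [sq_nonneg (d / 4 * ‖x ξ‖ - ‖x (ρ - rt J y (f₁ ξ))‖)]
    refine (Finset.sum_le_sum hk).trans ?_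
    rw [Finset.sum_add_distrib, ← Finset.mul_sum, ← Finset.mul_sum]
    have s1 := F.sum_band_le hε (F.σ r v) t (ρ - rt J y (f₁ ξ))
    have s2 := mul_le_mul_of_nonneg_left (F.sum_tri_norm_sq_le hε (v ξ) t)
      (show 0 ≤ d ^ 2 / 8 by positivity)
    have s3 : ‖F.σ r v‖ ^ 2 * ‖ρ - rt J y (f₁ ξ)‖ ^ 2 ≤ 1 ^ 2 * (d / 10 * ‖f₁ ξ‖) ^ 2 :=
      mul_le_mul (pow_le_pow_left₀ (norm_nonneg _) ((F.σ_norm_le₃ r v).trans vn) 2)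
        (pow_le_pow_left₀ (norm_nonneg _) hρ 2) (by positivity) (by positivity)
    rw [vx] at s2
    linarith
  rw [mn_const hε] at key
  linarith

theorem Mod.loc_lower (h : Mod M J ξ F) {f₁ f : H →L[ℂ] H} (m₁ : f₁ ∈ M)
    (c₁ : rt J f₁ ξ = f₁ ξ) {y b b₀ : H →L[ℂ] H} (hy : y ∈ M) {d γ : ℝ}
    (hc : ∀ c : ℂ, d * ‖f₁ ξ‖ ≤ ‖rt J y (f₁ ξ) - c • f₁ ξ‖) {v : H →L[ℂ] H} (hv : v ∈ M)
    (pv : IsPI v) (v₁ : star v * v = f₁) (v₂ : v * star v = f) (r : ℝ) {c : ℂ}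
    (hb : ‖f * F.σ (-r) b₀ * f - c • f‖ ≤ γ) :
    (d - γ) * ‖f₁ ξ‖ ≤ ‖(rt J y - b) (F.V r (v ξ))‖ + ‖(b - b₀) (F.V r (v ξ))‖ := by
  have hyr := h.sigma_mem (-r) y hy
  have vx : ‖v ξ‖ = ‖f₁ ξ‖ := by rw [← v₁, pv.norm_init]
  have a1 : f (v ξ) = v ξ := by rw [← mul_apply_eq_comp, ← v₂, pv]
  have a2 : ∀ z, star v (f z) = star v z := fun z => by
    rw [← mul_apply_eq_comp, ← v₂, ← mul_assoc, pv.init_mul]
  have a3 : star v (v ξ) = f₁ ξ := by rw [← mul_apply_eq_comp, v₁]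
  have a4 : F.V (-r) (rt J y (f₁ ξ) - c • f₁ ξ) =
      star v (F.V (-r) ((rt J y - b₀) (F.V r (v ξ)))) +
        star v ((f * F.σ (-r) b₀ * f - c • f) (v ξ)) := by
    have a5 : F.V (-r) (b₀ (F.V r (v ξ))) = F.σ (-r) b₀ (v ξ) := by rw [F.σ_apply₃, neg_neg]
    simp only [sub_apply, map_sub, map_smul, smul_apply, mul_apply_eq_comp, h.pre.V_rt, F.V_neg_V,
      h.loc_V m₁ c₁, a1, a2, a3, a5, h.bi.comm_apply (star_mem hv) hyr]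
    abel
  have a6 := hc c
  rw [← F.V_norm (-r) (rt J y (f₁ ξ) - c • f₁ ξ), a4] at a6
  have a7 := pv.star.norm_apply_le (F.V (-r) ((rt J y - b₀) (F.V r (v ξ))))
  have a8 := (pv.star.norm_apply_le ((f * F.σ (-r) b₀ * f - c • f) (v ξ))).trans
    (((f * F.σ (-r) b₀ * f - c • f).le_opNorm _).trans
      (mul_le_mul_of_nonneg_right hb (norm_nonneg _)))
  have a9 : ‖(rt J y - b₀) (F.V r (v ξ))‖ ≤
      ‖(rt J y - b) (F.V r (v ξ))‖ + ‖(b - b₀) (F.V r (v ξ))‖ := by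
    refine le_trans (le_of_eq ?_) (norm_add_le _ _)
    rw [← add_apply, sub_add_sub_cancel]
  rw [F.V_norm] at a7
  rw [vx] at a8
  linarith [norm_add_le (star v (F.V (-r) ((rt J y - b₀) (F.V r (v ξ)))))
    (star v ((f * F.σ (-r) b₀ * f - c • f) (v ξ)))]

theorem Mod.loc_net (h : Mod M J ξ F) {b₀ : H →L[ℂ] H} (hb : b₀ ∈ M)
    (hcont : Continuous fun r => F.σ r b₀) (T : ℝ) {e : H →L[ℂ] H} (heM : e ∈ M)
    (he : IsStarProjection e) (h0 : e ≠ 0) {γ : ℝ} (hγ : 0 < γ) :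
    ∃ f ∈ M, IsStarProjection f ∧ f ≠ 0 ∧ e * f = f ∧
      ∀ r, |r| ≤ T → ∃ c : ℂ, ‖f * F.σ r b₀ * f - c • f‖ ≤ γ := by
  obtain ⟨t, ht, hfin, hcov⟩ := finite_cover_balls_of_compact
    ((isCompact_Icc (a := -T) (b := T)).image hcont) (half_pos hγ)
  obtain ⟨f, fM, fp, f0, fe, hf⟩ := exists_scalar_corner M hfin.toFinset (b := fun a => a) (by
    intro a ha
    obtain ⟨r, -, rfl⟩ := ht (hfin.mem_toFinset.1 ha)
    exact h.sigma_mem r b₀ hb) heM he h0 (half_pos hγ)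
  refine ⟨f, fM, fp, f0, fe, fun r hr => ?_⟩
  obtain ⟨a, ha, har⟩ := Set.mem_iUnion₂.1 (hcov ⟨r, abs_le.1 hr, rfl⟩)
  obtain ⟨c, hc⟩ := hf a (hfin.mem_toFinset.2 ha)
  refine ⟨c, ?_⟩
  have e1 : f * F.σ r b₀ * f - c • f = f * (F.σ r b₀ - a) * f + (f * a * f - c • f) := by
    rw [mul_sub, sub_mul, sub_add_sub_cancel]
  have e2 : ‖f * (F.σ r b₀ - a) * f‖ ≤ ‖F.σ r b₀ - a‖ :=
    (norm_mul_le _ _).trans ((mul_le_of_le_one_right (norm_nonneg _) fp.norm_le).trans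
      ((norm_mul_le _ _).trans (mul_le_of_le_one_left (norm_nonneg _) fp.norm_le)))
  rw [Metric.mem_ball, dist_eq_norm] at har
  rw [e1]
  linarith [norm_add_le (f * (F.σ r b₀ - a) * f) (f * a * f - c • f)]

theorem Mod.local_band (h : Mod M J ξ F) (hT : T3 M) {f₁ f₂ : H →L[ℂ] H} (m₁ : f₁ ∈ M)
    (p₁ : IsStarProjection f₁) (n₁ : f₁ ≠ 0) (c₁ : rt J f₁ ξ = f₁ ξ) (m₂ : f₂ ∈ M)
    (p₂ : IsStarProjection f₂) (n₂ : f₂ ≠ 0) (c₂ : rt J f₂ ξ = f₂ ξ) {y b : H →L[ℂ] H}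
    (hy : y ∈ M) (hb : b ∈ M) {ρ : H} {d : ℝ} (hd : 0 < d)
    (hρ : ‖ρ - rt J y (f₁ ξ)‖ ≤ d / 10 * ‖f₁ ξ‖)
    (hc : ∀ c : ℂ, d * ‖f₁ ξ‖ ≤ ‖rt J y (f₁ ξ) - c • f₁ ξ‖) {ε : ℝ} (hε : 0 < ε) :
    ∃ s : ℝ, ∃ x ∈ M, f₂ * x = x ∧ x * f₁ = x ∧ F.Supp (x ξ) (Set.Icc (s - ε) (s + ε)) ∧
      d / 4 * ‖x ξ‖ < ‖x ρ - b (x ξ)‖ := by
  by_contra hcon
  have hno : ∀ s : ℝ, ∀ x ∈ M, f₂ * x = x → x * f₁ = x →
      F.Supp (x ξ) (Set.Icc (s - ε) (s + ε)) → ‖x ρ - b (x ξ)‖ ≤ d / 4 * ‖x ξ‖ :=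
    fun s x a1 a2 a3 a4 => not_lt.1 fun a5 => hcon ⟨s, x, a1, a2, a3, a4, a5⟩
  have N₁ : 0 < ‖f₁ ξ‖ := norm_pos_iff.2 fun e => n₁ (h.sep f₁ m₁ e)
  have N₂ : 0 < ‖f₂ ξ‖ := norm_pos_iff.2 fun e => n₂ (h.sep f₂ m₂ e)
  obtain ⟨n, hn⟩ := (Metric.tendsto_atTop.1 (F.tendsto_tri_atTop (b (f₂ ξ))) (d / 10 * ‖f₂ ξ‖)
    (by positivity))
  have hn0 : (0 : ℝ) < n + 1 := by positivity
  obtain ⟨b₀, hb₀⟩ : ∃ b₀, b₀ = F.band 0 (n + 1) b := ⟨_, rfl⟩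
  have b₀M : b₀ ∈ M := hb₀ ▸ h.band_mem hn0 0 hb
  have hcont : Continuous fun r => F.σ r b₀ := hb₀ ▸ F.continuous_σ_sm (integrable_fejx hn0 0) b
  have hw : ‖(b - b₀) (f₂ ξ)‖ < d / 10 * ‖f₂ ξ‖ := by
    have := hn n le_rfl
    rw [dist_eq_norm, norm_sub_rev] at this
    rwa [sub_apply, hb₀, FC.band, F.sm_apply_fixed (integrable_fejx hn0 0) b (h.loc_V m₂ c₂),
      ft_fejx hn0]
  have wM : b - b₀ ∈ M := sub_mem hb b₀M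
  obtain ⟨f', m', p', n', l', hf'⟩ := exists_small_corner M
    (h.band_mem hε 0 (mul_mem (star_mem wM) wM))
    (by rw [IsSelfAdjoint, F.star_band hε, neg_zero, star_mul, star_star]) m₂ p₂
    (η := f₂ ξ) (by rw [← mul_apply_eq_comp, p₂.isIdempotentElem.eq]) (γ := (d / 10) ^ 2) (by
      rw [← loc_mean F hε]
      simp only [h.loc_V m₂ c₂]
      rw [mn_const hε, ← mul_pow]
      exact pow_lt_pow_left₀ hw (norm_nonneg _) two_ne_zero)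
  obtain ⟨T, -, hT'⟩ := le_mn_of_window hε (show (0 : ℝ) < 1 / 100 by norm_num)
  obtain ⟨f, fM, fp, f0, fe, hf⟩ := h.loc_net b₀M hcont T m' p' n' (show 0 < d / 100 by positivity)
  obtain ⟨v, hv, v₁, v₂⟩ := hT.equiv m₁ p₁ n₁ fM fp f0
  have pv : IsPI v := isPI_of_init (v₁ ▸ p₁)
  have fv : f * v = v := by rw [← v₂, pv]
  have vx : ‖v ξ‖ = ‖f₁ ξ‖ := by rw [← v₁, pv.norm_init]
  have hup := h.loc_upper m₁ c₁ m₂ c₂ hy hd hρ hε hno hv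
    (by rw [← fv, ← fe, ← mul_assoc, ← mul_assoc, l']) (by rw [← v₁, pv.mul_init])
    (v.opNorm_le_bound zero_le_one fun z => by rw [one_mul]; exact pv.norm_apply_le z) vx
  have hsm := hf' (v ξ) (by rw [← mul_apply_eq_comp, ← fv, ← mul_assoc, fe])
  rw [← loc_mean F hε, vx] at hsm
  have hwin := hT' (fun r => 2 * (‖(rt J y - b) (F.V r (v ξ))‖ ^ 2 + ‖(b - b₀) (F.V r (v ξ))‖ ^ 2))
    (fun _ => (99 / 100 * (d * ‖f₁ ξ‖)) ^ 2) (((loc_br F _ _).add (loc_br F _ _)).const_mul 2)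
    (BR.const _) ((d * ‖f₁ ξ‖) ^ 2) (fun r => by
      linarith [sq_nonneg ‖(rt J y - b) (F.V r (v ξ))‖, sq_nonneg ‖(b - b₀) (F.V r (v ξ))‖,
        sq_nonneg (d * ‖f₁ ξ‖)]) (by positivity) (fun r hr => by
      obtain ⟨c, hc'⟩ := hf (-r) (by rwa [abs_neg])
      have a1 := h.loc_lower (b := b) m₁ c₁ hy hc hv pv v₁ v₂ r hc'
      have a2 := pow_le_pow_left₀ (by positivity) (show 99 / 100 * (d * ‖f₁ ξ‖) ≤ _ from
        le_trans (le_of_eq (by ring)) a1) 2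
      linarith [sq_nonneg (‖(rt J y - b) (F.V r (v ξ))‖ - ‖(b - b₀) (F.V r (v ξ))‖)])
  rw [mn_const hε, mn_const_mul, mn_add hε (loc_br F _ _) (loc_br F _ _)] at hwin
  have : 0 < (d * ‖f₁ ξ‖) ^ 2 := by positivity
  linarith

theorem loc_norm (hB : Bi M J) {t e : H →L[ℂ] H} (tM : t ∈ M) (pt : IsPI t) (i : star t * t = e)
    {η : H} (h1 : e η = η) (h2 : rt J e η = η) : ‖t (rt J (star t) η)‖ = ‖η‖ := by
  rw [← pt.norm_init, i, hB.comm_apply (i ▸ mul_mem (star_mem tM) tM) (star_mem tM), h1,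
    hB.cj.norm_rt_apply, star_star, ← pt.norm_init, i]
  conv_rhs => rw [← h2, hB.cj.norm_rt_apply, (i ▸ pt.init : IsStarProjection e).isSelfAdjoint.star_eq]

theorem Ctx.loc (h : Ctx M J P) : Loc M J P := by
  intro ζ₁ m₁ ζ₂ m₂ e₁ e₂ s₁ s₂ n₁ n₂ y hy ye b hb ρ hρe d hd hρ hc δ hδ
  have hB := h.bi
  have hJ := hB.cj
  obtain ⟨t₁, t₂, ζ, j⟩ := h.join m₁ m₂ s₁ s₂ n₁ n₂
  obtain ⟨F, hF, -⟩ := h.md ζ j.cone j.sep
  have q₁ : IsPI t₁ := isPI_of_init (j.init₁ ▸ s₁.proj)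
  have q₂ : IsPI t₂ := isPI_of_init (j.init₂ ▸ s₂.proj)
  have a₁ := star_mem j.mem₁
  have a₂ := star_mem j.mem₂
  have hp₁ : t₁ * star t₁ ∈ M := mul_mem j.mem₁ a₁
  have hp₂ : t₂ * star t₂ ∈ M := mul_mem j.mem₂ a₂
  have hne : ∀ {t e : H →L[ℂ] H}, IsPI t → star t * t = e → e ≠ 0 → t * star t ≠ 0 := by
    intro t e q i n h0
    exact n (by rw [← i, ← (show t * star t * t = t from q), h0, zero_mul, mul_zero])
  have r₁ := s₁.rt_fix hJ (h.fix _ m₁)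
  have hyM : t₁ * y * star t₁ ∈ M := mul_mem (mul_mem j.mem₁ hy) a₁
  have e0 : ‖(t₁ * star t₁) ζ‖ = ‖ζ₁‖ := by
    rw [j.left₁]
    exact loc_norm hB j.mem₁ q₁ j.init₁ s₁.fix r₁
  have e1 : rt J (t₁ * y * star t₁) ((t₁ * star t₁) ζ) = t₁ (rt J (star t₁) (rt J y ζ₁)) := by
    rw [j.left₁, ← hB.comm_apply j.mem₁ hyM, ← hJ.rt_mul_apply, ← mul_assoc, ← mul_assoc, j.init₁,
      mul_assoc, hJ.rt_mul_apply, r₁, hJ.rt_mul_apply]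
  obtain ⟨s, x, xM, x₂, x₁, xS, xR⟩ := hF.local_band h.t3 hp₁ q₁.fin (hne q₁ j.init₁ n₁)
    (j.right₁.trans j.left₁.symm) hp₂ q₂.fin (hne q₂ j.init₂ n₂) (j.right₂.trans j.left₂.symm) hyM
    (mul_mem (mul_mem j.mem₂ hb) a₂) (ρ := t₁ (rt J (star t₁) ρ)) hd (by
      rw [e0, e1, ← map_sub, ← map_sub]
      refine (q₁.norm_apply_le _).trans (le_trans ?_ hρ)
      rw [hJ.norm_rt_apply, star_star]
      exact (q₁.norm_apply_le _).trans (hJ.norm _).le) (by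
      intro c
      rw [e0, e1, j.left₁, ← map_smul, ← map_smul, ← map_sub, ← map_sub,
        loc_norm hB j.mem₁ q₁ j.init₁]
      · exact hc c
      · rw [map_sub, map_smul, hB.comm_apply s₁.mem hy, s₁.fix]
      · rw [map_sub, map_smul, ← hJ.rt_mul_apply, ye, r₁]) (lt_min hδ one_pos)
  obtain ⟨k1, k2, k3, k4, k5, k6⟩ := j.back h m₁ m₂ s₁ s₂ xM x₂ x₁
  refine ⟨s, _, mul_mem (mul_mem a₂ xM) j.mem₁, k1, k2, ?_, ?_⟩
  · rw [k5, k4]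
    refine (hF.df_le_of_supp xM (lt_min hδ one_pos).le (min_le_right _ _) xS).trans ?_
    exact mul_le_mul_of_nonneg_right (mul_le_mul_of_nonneg_right (min_le_left _ _)
      (Real.exp_pos _).le) (norm_nonneg _)
  · rw [k4]
    refine xR.trans_le (le_of_eq ?_)
    have bM : t₂ * b * star t₂ ∈ M := mul_mem (mul_mem j.mem₂ hb) a₂
    rw [← k6]
    · refine congrArg _ ?_
      rw [map_sub, map_sub, k3, ← hB.comm_apply xM j.mem₁, ← hB.comm_apply j.mem₁ j.mem₁,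
        ← hJ.rt_mul_apply, j.init₁, hρe, ← hB.comm_apply bM j.mem₁, ← j.init₂]
      rfl
    · rw [map_sub, ← mul_apply_eq_comp (t₂ * star t₂) x, x₂,
        ← mul_apply_eq_comp (t₂ * star t₂) (t₂ * b * star t₂), ← mul_assoc, ← mul_assoc, q₂]
    · rw [map_sub, ← hB.comm_apply xM hp₁, ← hB.comm_apply j.mem₁ hp₁, ← hJ.rt_mul_apply,
        ← mul_assoc, q₁.init_mul, ← hB.comm_apply bM hp₁, ← hB.comm_apply xM hp₁, j.right₁,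
        ← j.left₁, ← mul_apply_eq_comp x (t₁ * star t₁), x₁]

end Vale.Agent.P132
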