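import Vale.Agent.P132.DOI
import Vale.Agent.P132.Mult

/-! Spectral supports add under multiplication. -/

open scoped InnerProductSpace Topology ComplexConjugate
open Filter MeasureTheory

namespace Vale.Agent.P132

open Vale.Agent.P104

variable {H : Type*} [NormedAddCommGroup H] [InnerProductSpace ℂ H] [CompleteSpace H]
  {M : VonNeumannAlgebra H} {J : H →L⋆[ℂ] H} {P : Set H} {ξ : H} {F : FC H}

theorem FC.supp_of_forall₈ (F : FC H) {η : H} {a b : ℝ}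
    (h : ∀ γ : ℝ, 0 < γ → F.Supp η (Set.Icc (a - γ) (b + γ))) : F.Supp η (Set.Icc a b) := by
  have h1 : ∀ᵐ s ∂(F.μ η), ∀ n : ℕ, s ∈ Set.Icc (a - 1 / ((n : ℝ) + 1)) (b + 1 / ((n : ℝ) + 1)) :=
    ae_all_iff.2 fun n => (h _ Nat.one_div_pos_of_nat).ae
  have h2 : ∀ᵐ s ∂(F.μ η), s ∈ Set.Icc a b := h1.mono fun s hs => by
    constructor
    · refine le_of_forall_pos_le_add fun γ hγ => ?_
      obtain ⟨n, hn⟩ := exists_nat_one_div_lt hγ
      linarith [(hs n).1]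
    · refine le_of_forall_pos_le_add fun γ hγ => ?_
      obtain ⟨n, hn⟩ := exists_nat_one_div_lt hγ
      linarith [(hs n).2]
  exact h2

theorem FC.supp_sum₈ (F : FC H) {ι : Type*} (t : Finset ι) {η : ι → H} {S : Set ℝ}
    (hS : IsClosed S) (h : ∀ i ∈ t, F.Supp (η i) S) : F.Supp (∑ i ∈ t, η i) S := by
  rw [F.supp_iff hS]
  intro g hg h0
  rw [map_sum]
  exact Finset.sum_eq_zero fun i hi => (F.supp_iff hS).1 (h i hi) g hg h0

theorem exists_trap₈ (a b : ℝ) {γ : ℝ} (hγ : 0 < γ) : ∃ g : ℝ → ℂ, BC g ∧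
    (∀ s ∈ Set.Icc a b, g s = 1) ∧ ∀ s, g s ≠ 0 → a - γ < s ∧ s < b + γ := by
  refine ⟨fun s => tri 0 γ (max (max (a - s) (s - b)) 0),
    ⟨(bc_tri 0 hγ).1.comp (by fun_prop), 1, fun s => norm_tri_le 0 hγ _⟩, fun s hs => ?_,
    fun s hs => ?_⟩
  · beta_reduce
    rw [max_eq_right (max_le (sub_nonpos.2 hs.1) (sub_nonpos.2 hs.2))]
    simp [tri]
  · have h1 : |max (max (a - s) (s - b)) 0 - 0| < γ :=
      lt_of_not_ge fun h => hs (tri_eq_zero hγ h)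
    rw [sub_zero, abs_of_nonneg (le_max_right _ _), max_lt_iff, max_lt_iff] at h1
    constructor <;> linarith [h1.1.1, h1.1.2]

theorem FC.supp_band (F : FC H) {ε : ℝ} (hε : 0 < ε) (h : ℝ) (x : H →L[ℂ] H) {η : H} {a b : ℝ}
    (hη : F.Supp η (Set.Icc a b)) :
    F.Supp (F.band h ε x η) (Set.Icc (a + h - ε) (b + h + ε)) := by
  refine F.supp_of_forall₈ fun γ hγ => (F.supp_iff isClosed_Icc).2 fun g hg h0 => ?_
  obtain ⟨g', hg', h1, h2⟩ := exists_trap₈ a b hγ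
  have e1 : F.f g' η = η := by
    rw [F.f_congr hg' (BC.const 1) hη h1, F.one]
    rfl
  have e2 := F.doi (integrable_fejx hε h) ({()} : Finset Unit) (∅ : Finset Unit)
    (g := fun _ => g) (g' := fun _ => g') (h := fun _ => g) (h' := fun _ => g)
    (fun _ _ => hg) (fun _ _ => hg') (fun _ _ => hg) (fun _ _ => hg) (fun s s' => ?_) x
  · rw [Finset.sum_singleton, Finset.sum_empty] at e2
    rw [← e1]
    exact congrArg (fun T : H →L[ℂ] H => T η) e2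
  · rw [Finset.sum_singleton, Finset.sum_empty, ft_fejx hε]
    by_cases c1 : g' s' = 0
    · rw [c1, mul_zero, zero_mul]
    by_cases c2 : ε ≤ |s - s' - h|
    · rw [tri_eq_zero hε c2, mul_zero]
    obtain ⟨c3, c4⟩ := abs_lt.1 (lt_of_not_ge c2)
    obtain ⟨c5, c6⟩ := h2 s' c1
    rw [h0 s ⟨by linarith, by linarith⟩, zero_mul, zero_mul]

theorem Mod.supp_mul (h : Mod M J ξ F) {x : H →L[ℂ] H} (hx : x ∈ M) {η : H} {a b c d : ℝ}
    (hx' : F.Supp (x ξ) (Set.Icc c d)) (hη : F.Supp η (Set.Icc a b)) :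
    F.Supp (x η) (Set.Icc (a + c) (b + d)) := by
  refine F.supp_of_forall₈ fun δ hδ => ?_
  obtain ⟨γ, hγ, rfl⟩ : ∃ γ : ℝ, 0 < γ ∧ δ = 2 * γ := ⟨δ / 2, half_pos hδ, by ring⟩
  let t : Finset ℤ := Finset.Icc ⌈(c - γ) / γ⌉ ⌊(d + γ) / γ⌋
  have ht : ∀ k : ℤ, k ∈ t ↔ c - γ ≤ k * γ ∧ k * γ ≤ d + γ := fun k => by
    rw [Finset.mem_Icc, Int.ceil_le, Int.le_floor, div_le_iff₀ hγ, le_div_iff₀ hγ]
  have e : x = ∑ k ∈ t, F.band (k * γ) γ x := by
    refine h.sep.ext hx (sum_mem fun k _ => h.band_mem hγ _ hx) ?_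
    rw [sum_apply]
    simp only [h.band_xi hγ]
    refine (F.sum_tri_of_supp hγ hx' t fun s hs k hk => (ht k).2 ?_).symm
    obtain ⟨c3, c4⟩ := abs_lt.1 hk
    constructor <;> linarith [hs.1, hs.2]
  rw [e, sum_apply]
  refine F.supp_sum₈ t isClosed_Icc fun k hk => (F.supp_band hγ _ x hη).mono ?_
  obtain ⟨c3, c4⟩ := (ht k).1 hk
  exact Set.Icc_subset_Icc (by linarith) (by linarith)

theorem Mod.supp_star (h : Mod M J ξ F) {x : H →L[ℂ] H} (hx : x ∈ M) {c d : ℝ}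
    (hx' : F.Supp (x ξ) (Set.Icc c d)) : F.Supp (star x ξ) (Set.Icc (-d) (-c)) := by
  obtain ⟨ρ, e1, e2⟩ := h.pre.exists_rho hx
  have e3 : star x ξ = F.f fa (J ρ) := by rw [← h.pre.J_fb, ← e2, h.cj.inv]
  rw [e3]
  refine (F.supp_iff isClosed_Icc).2 fun g hg h0 => ?_
  have hg' : BC fun s => conj (g (-s)) := hg.comp_neg.cj
  have e4 : F.f (fun s => conj (g (-s))) ρ = 0 := by
    refine F.inj bc_fa fa_ne_zero ?_
    have := (F.supp_iff isClosed_Icc).1 hx' _ hg' fun s hs => by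
      rw [h0 (-s) ⟨neg_le_neg hs.2, neg_le_neg hs.1⟩, map_zero]
    rw [e1] at this
    exact (congrArg (fun T : H →L[ℂ] H => T ρ) (F.f_comm bc_fa hg')).trans this
  have e5 := h.pre.refl _ hg' ρ
  simp only [neg_neg, Complex.conj_conj, e4, map_zero] at e5
  refine (congrArg (fun T : H →L[ℂ] H => T (J ρ)) (F.f_comm hg bc_fa)).trans ?_
  change F.f fa (F.f g (J ρ)) = 0
  rw [← e5, map_zero]

end Vale.Agent.P132
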