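import Vale.Agent.P132.Defs
import Vale.Agent.P104.Trich

/-! Internal notions for P132: functional calculus on the line, standard form, kernels. -/

open scoped InnerProductSpace Topology ComplexConjugate
open Filter MeasureTheory

namespace Vale.Agent.P132

/-- Bounded continuous complex function on the line. -/
def BC (g : ℝ → ℂ) : Prop := Continuous g ∧ ∃ C : ℝ, ∀ s, ‖g s‖ ≤ C

/-- The character `s ↦ exp (i t s)`. -/
noncomputable def ex (t : ℝ) (s : ℝ) : ℂ := Complex.exp (Complex.I * (t : ℂ) * (s : ℂ))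

/-- `R ^ (1 / 2)` as a function of `s = log Δ`. -/
noncomputable def fa (s : ℝ) : ℂ := ((√(2 / (1 + Real.exp s)) : ℝ) : ℂ)

/-- `(2 - R) ^ (1 / 2)` as a function of `s = log Δ`. -/
noncomputable def fb (s : ℝ) : ℂ := ((√(2 * Real.exp s / (1 + Real.exp s)) : ℝ) : ℂ)

/-- Triangle of height one, centre `h` and half width `δ`. -/
noncomputable def tri (h δ : ℝ) (s : ℝ) : ℂ := ((max (1 - |s - h| / δ) 0 : ℝ) : ℂ)

/-- Fourier transform with kernel `exp (i t s)`. -/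
noncomputable def ft (k : ℝ → ℂ) (s : ℝ) : ℂ := ∫ t, k t * ex t s

/-- Fejer kernel with transform `tri 0 ε`. -/
noncomputable def fej (ε t : ℝ) : ℝ := ε / (2 * Real.pi) * Real.sinc (ε * t / 2) ^ 2

/-- Fejer mean. -/
noncomputable def mn (ε : ℝ) (g : ℝ → ℝ) : ℝ := ∫ t, fej ε t * g t

/-- Complex Fejer mean. -/
noncomputable def mc (ε : ℝ) (g : ℝ → ℂ) : ℂ := ∫ t, (fej ε t : ℂ) * g t

/-- Bounded continuous real function. -/
def BR (g : ℝ → ℝ) : Prop := Continuous g ∧ ∃ C : ℝ, ∀ s, |g s| ≤ C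

/-- The kernel `exp (-θ t) / (2 cosh (π t))`. -/
noncomputable def sech (θ t : ℝ) : ℂ :=
  ((Real.exp (-(θ * t)) / (2 * Real.cosh (Real.pi * t)) : ℝ) : ℂ)

/-- Normalised Gaussian kernel. -/
noncomputable def gau (n t : ℝ) : ℂ := ((√(n / Real.pi) * Real.exp (-(n * t ^ 2)) : ℝ) : ℂ)

variable {H : Type*} [NormedAddCommGroup H] [InnerProductSpace ℂ H] [CompleteSpace H]

/-- Functional calculus of a self-adjoint operator, with its spectral measures. -/
structure FC (H : Type*) [NormedAddCommGroup H] [InnerProductSpace ℂ H] [CompleteSpace H] where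
  f : (ℝ → ℂ) → (H →L[ℂ] H)
  μ : H → Measure ℝ
  fin : ∀ η, IsFiniteMeasure (μ η)
  rep : ∀ g, BC g → ∀ η, ⟪η, f g η⟫_ℂ = ∫ s, g s ∂(μ η)
  one : f (fun _ => 1) = 1
  mul : ∀ g k, BC g → BC k → f (fun s => g s * k s) = f g * f k

/-- The unitary group. -/
noncomputable def FC.V (F : FC H) (t : ℝ) : H →L[ℂ] H := F.f (ex t)

/-- The spectral measure of `η` lives on `S`. -/
def FC.Supp (F : FC H) (η : H) (S : Set ℝ) : Prop := F.μ η Sᶜ = 0

/-- Conjugation by the unitary group. -/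
noncomputable def FC.σ (F : FC H) (t : ℝ) (x : H →L[ℂ] H) : H →L[ℂ] H := F.V t * x * F.V (-t)

/-- Approximate point spectrum on a subspace. -/
def FC.Sp (F : FC H) (L : Submodule ℂ H) : Set ℝ :=
  {h | ∀ δ : ℝ, 0 < δ → ∃ η ∈ L, F.f (tri h δ) η ≠ 0}

/-- Bounded strongly continuous family of operators. -/
def SC (g : ℝ → (H →L[ℂ] H)) : Prop :=
  (∀ η, Continuous fun t => g t η) ∧ ∃ C : ℝ, ∀ t, ‖g t‖ ≤ C

open Classical in
/-- Strong integral of a family of operators against a kernel. -/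
noncomputable def opInt (k : ℝ → ℂ) (g : ℝ → (H →L[ℂ] H)) : H →L[ℂ] H :=
  if h : ∃ T : H →L[ℂ] H, ∀ η, T η = ∫ t, k t • g t η then h.choose else 0

/-- Smearing along the flow. -/
noncomputable def FC.sm (F : FC H) (k : ℝ → ℂ) (x : H →L[ℂ] H) : H →L[ℂ] H :=
  opInt k fun t => F.σ t x

/-- Fejer band of `x` at frequency `h` and width `ε`. -/
noncomputable def FC.band (F : FC H) (h ε : ℝ) (x : H →L[ℂ] H) : H →L[ℂ] H :=
  F.sm (fun t => (fej ε t : ℂ) * ex t (-h)) x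

/-- Antiunitary involution. -/
structure IsConj (J : H →L⋆[ℂ] H) : Prop where
  inv : ∀ η, J (J η) = η
  inner : ∀ η ζ, ⟪J η, J ζ⟫_ℂ = ⟪ζ, η⟫_ℂ

/-- Right multiplication by `x`: `rt J x η` is `η x = J x* J η`. -/
noncomputable def rt (J : H →L⋆[ℂ] H) (x : H →L[ℂ] H) : H →L[ℂ] H :=
  J.comp ((star x).comp J)

/-- Polar decomposition data of the conjugate linear operator with graph `G`. -/
structure Pre (G : Set (H × H)) (J : H →L⋆[ℂ] H) (F : FC H) : Prop where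
  cj : IsConj J
  refl : ∀ g, BC g → ∀ η, J (F.f g η) = F.f (fun s => conj (g (-s))) (J η)
  graph : ∀ η η', (η, η') ∈ G ↔ ∃ ρ, η = F.f fa ρ ∧ J η' = F.f fb ρ

/-- Separating vector. -/
def Sep (M : VonNeumannAlgebra H) (ξ : H) : Prop := ∀ x ∈ M, x ξ = 0 → x = 0

/-- Cyclic vector. -/
def Cyc (M : VonNeumannAlgebra H) (ξ : H) : Prop :=
  ∀ η : H, ∀ ε : ℝ, 0 < ε → ∃ x ∈ M, ‖η - x ξ‖ ≤ ε

/-- Graph of the Tomita operator of a vector. -/
def gr (M : VonNeumannAlgebra H) (ξ : H) : Set (H × H) := graphS M fun x => x ξ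

/-- `J` exchanges `M` and its commutant. -/
structure Bi (M : VonNeumannAlgebra H) (J : H →L⋆[ℂ] H) : Prop where
  cj : IsConj J
  rt_mem : ∀ x ∈ M, rt J x ∈ M.commutant
  rt_surj : ∀ y ∈ M.commutant, ∃ x ∈ M, rt J x = y

/-- Modular data of the cyclic separating vector `ξ`. -/
structure Mod (M : VonNeumannAlgebra H) (J : H →L⋆[ℂ] H) (ξ : H) (F : FC H) : Prop where
  pre : Pre (gr M ξ) J F
  bi : Bi M J
  sep : Sep M ξ
  cyc : Cyc M ξ
  fix : J ξ = ξ
  f_xi : ∀ g, BC g → F.f g ξ = g 0 • ξ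
  sigma_mem : ∀ t, ∀ x ∈ M, F.σ t x ∈ M

/-- All nonzero projections are equivalent to `1`, and there is a nontrivial one. -/
structure T3 (M : VonNeumannAlgebra H) : Prop where
  iso : ∀ e ∈ M, IsStarProjection e → e ≠ 0 → ∃ v ∈ M, star v * v = 1 ∧ v * star v = e
  nontriv : ∃ e ∈ M, IsStarProjection e ∧ e ≠ 0 ∧ e ≠ 1

end Vale.Agent.P132
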