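import Vale.Agent.P132.BetaA

/-! Construction of the bicentralizer flow. -/

open scoped InnerProductSpace Topology ComplexConjugate
open Filter MeasureTheory

namespace Vale.Agent.P132

open Vale.Agent.P104

variable {H : Type*} [NormedAddCommGroup H] [InnerProductSpace ℂ H] [CompleteSpace H]
  {M : VonNeumannAlgebra H} {J : H →L⋆[ℂ] H} {P : Set H} {ξ : H} {F : FC H}

namespace BetaAux

variable {β : ℝ → (H →L[ℂ] H) → (H →L[ℂ] H)} {a : H →L[ℂ] H}

theorem add (h : Base M J P ξ F) (hβ : ∀ s, ∀ a ∈ Bic M J ξ, IsB M J ξ s a (β s a)) (s t : ℝ)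
    (ha : a ∈ Bic M J ξ) : β (s + t) a = β s (β t a) :=
  IsB.trans h (hβ t a ha) (hβ s _ ((hβ t a ha).bic h)) (hβ _ a ha)

theorem state (h : Base M J P ξ F) (hβ : ∀ s, ∀ a ∈ Bic M J ξ, IsB M J ξ s a (β s a)) (s : ℝ)
    (ha : a ∈ Bic M J ξ) : ⟪ξ, β s a ξ⟫_ℂ = ⟪ξ, a ξ⟫_ℂ := by
  have key : ∀ t : ℝ, 0 < t → (t : ℂ) * (⟪ξ, β (Real.log t) a ξ⟫_ℂ - ⟪ξ, a ξ⟫_ℂ) = 0 := by
    intro t ht
    refine add_lin (g := fun t => (t : ℂ) * (⟪ξ, β (Real.log t) a ξ⟫_ℂ - ⟪ξ, a ξ⟫_ℂ))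
      (C := ‖a‖ + ‖a‖) (fun t u ht hu => ?_) (fun t ht h1 => ?_) ?_ ht
    · have htu : 0 < t + u := add_pos ht hu
      have hc := (hβ (Real.log (t + u)) a ha).bic h
      obtain ⟨w, hw⟩ := h.tr Bool (fun b => Real.log (cond b t u) - Real.log (t + u)) (by
        simp only [Fintype.sum_bool, cond_true, cond_false, Real.exp_sub, Real.exp_log ht,
          Real.exp_log hu, Real.exp_log htu]
        rw [← add_div, div_self htu.ne'])
      have h1 := IsB.state_sum h.md hw hc.1 fun i => hβ _ _ hc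
      simp only [← add h hβ _ _ ha, sub_add_cancel, Fintype.sum_bool, cond_true, cond_false,
        Real.exp_sub, Real.exp_log ht, Real.exp_log hu, Real.exp_log htu] at h1
      have h2 : ((t + u : ℝ) : ℂ) ≠ 0 := Complex.ofReal_ne_zero.2 htu.ne'
      rw [h1]
      push_cast at h2 ⊢
      field_simp
      ring
    · have k : ∀ b : H →L[ℂ] H, ‖⟪ξ, b ξ⟫_ℂ‖ ≤ ‖b‖ := fun b => by
        simpa [h.norm] using (norm_inner_le_norm (𝕜 := ℂ) ξ (b ξ)).trans
          (mul_le_mul_of_nonneg_left (b.le_opNorm ξ) (norm_nonneg _))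
      rw [norm_mul, Complex.norm_real, Real.norm_of_nonneg ht.le]
      exact (mul_le_of_le_one_left (norm_nonneg _) h1).trans ((norm_sub_le _ _).trans
        (add_le_add ((k _).trans ((hβ _ a ha).norm_le h)) (k a)))
    · rw [Real.log_one, (hβ 0 a ha).unique h (IsB.zero ha), sub_self, mul_zero]
  have := key _ (Real.exp_pos s)
  rwa [Real.log_exp, mul_eq_zero, or_iff_right (Complex.ofReal_ne_zero.2 (Real.exp_pos s).ne'),
    sub_eq_zero] at this

theorem norm_eq (h : Base M J P ξ F) (hβ : ∀ s, ∀ a ∈ Bic M J ξ, IsB M J ξ s a (β s a)) (s : ℝ)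
    (ha : a ∈ Bic M J ξ) : ‖β s a ξ‖ = ‖a ξ‖ := by
  have hs := Bic.star h.md ha
  have h1 := state h hβ s (Bic.mul h.md hs ha)
  rw [(hβ s _ (Bic.mul h.md hs ha)).unique h ((hβ s _ hs).mul h.md hs.1 (hβ s a ha)),
    (hβ s a ha).star_eq h (hβ s _ hs)] at h1
  rw [← sq_eq_sq₀ (norm_nonneg _) (norm_nonneg _), norm_sq_apply, norm_sq_apply, h1]

variable (M J ξ) in
theorem dense (η : H) {ε : ℝ} (hε : 0 < ε) :
    ∃ a ∈ Bic M J ξ, ∃ ζ ∈ (BK M J ξ)ᗮ, ‖η - (a ξ + ζ)‖ ≤ ε := by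
  have : CompleteSpace (BK M J ξ) := BK.isClosed.completeSpace_coe
  obtain ⟨u, hu, z, hz, rfl⟩ := (BK M J ξ).exists_add_mem_mem_orthogonal η
  obtain ⟨a, ha, hd⟩ := BK.approx hu hε
  exact ⟨a, ha, z, hz, by rwa [add_sub_add_right_eq_sub]⟩

variable (M J ξ) in
theorem ext {E : Type*} [TopologicalSpace E] [T2Space E] {f g : H → E} (hf : Continuous f)
    (hg : Continuous g) (e : ∀ a ∈ Bic M J ξ, ∀ ζ ∈ (BK M J ξ)ᗮ, f (a ξ + ζ) = g (a ξ + ζ))
    (η : H) : f η = g η := by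
  refine (isClosed_eq hf hg).closure_subset (Metric.mem_closure_iff.2 fun ε hε => ?_)
  obtain ⟨a, ha, ζ, hζ, hd⟩ := dense M J ξ η (half_pos hε)
  exact ⟨_, e a ha ζ hζ, by rw [dist_eq_norm]; linarith⟩

theorem norm_add (h : Base M J P ξ F) (hβ : ∀ s, ∀ a ∈ Bic M J ξ, IsB M J ξ s a (β s a)) (s : ℝ)
    (ha : a ∈ Bic M J ξ) {ζ : H} (hζ : ζ ∈ (BK M J ξ)ᗮ) : ‖β s a ξ + ζ‖ = ‖a ξ + ζ‖ := by
  rw [← mul_self_inj_of_nonneg (norm_nonneg _) (norm_nonneg _),
    norm_add_sq_eq_norm_sq_add_norm_sq_of_inner_eq_zero (𝕜 := ℂ) _ _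
      (Submodule.inner_right_of_mem_orthogonal (BK.mem ha) hζ),
    norm_add_sq_eq_norm_sq_add_norm_sq_of_inner_eq_zero (𝕜 := ℂ) _ _
      (Submodule.inner_right_of_mem_orthogonal (BK.mem ((hβ s a ha).bic h)) hζ),
    norm_eq h hβ s ha]

theorem exists_U (h : Base M J P ξ F) (hβ : ∀ s, ∀ a ∈ Bic M J ξ, IsB M J ξ s a (β s a))
    (s : ℝ) : ∃ U : H →L[ℂ] H, ∀ a ∈ Bic M J ξ, ∀ ζ ∈ (BK M J ξ)ᗮ, U (a ξ + ζ) = β s a ξ + ζ := by
  let B : Submodule ℂ (H →L[ℂ] H) :=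
    { carrier := Bic M J ξ
      add_mem' := Bic.add
      zero_mem' := by simpa using Bic.sub (Bic.one (M := M) (J := J) (ξ := ξ)) Bic.one
      smul_mem' := fun c _ ha => Bic.smul c ha }
  let e : B × (BK M J ξ)ᗮ →ₗ[ℂ] H :=
    { toFun := fun p => p.1.1 ξ + p.2
      map_add' := fun p q => by
        simp only [Prod.fst_add, Prod.snd_add, Submodule.coe_add, add_apply]
        abel
      map_smul' := fun c p => by
        simp only [Prod.smul_fst, Prod.smul_snd, Submodule.coe_smul, smul_apply, smul_add,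
          RingHom.id_apply] }
  let f : B × (BK M J ξ)ᗮ →ₗ[ℂ] H :=
    { toFun := fun p => β s p.1.1 ξ + p.2
      map_add' := fun p q => by
        rw [Prod.fst_add, Prod.snd_add, Submodule.coe_add, Submodule.coe_add,
          (hβ s _ (Bic.add p.1.2 q.1.2)).unique h ((hβ s _ p.1.2).add (hβ s _ q.1.2)), add_apply]
        abel
      map_smul' := fun c p => by
        rw [Prod.smul_fst, Prod.smul_snd, Submodule.coe_smul, Submodule.coe_smul,
          (hβ s _ (Bic.smul c p.1.2)).unique h ((hβ s _ p.1.2).smul c), smul_apply, smul_add,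
          RingHom.id_apply] }
  have hd : DenseRange e := fun η => Metric.mem_closure_iff.2 fun ε hε => by
    obtain ⟨a, ha, ζ, hζ, hd⟩ := dense M J ξ η (half_pos hε)
    exact ⟨_, ⟨(⟨a, ha⟩, ⟨ζ, hζ⟩), rfl⟩, by
      rw [dist_eq_norm]
      exact hd.trans_lt (half_lt_self hε)⟩
  exact ⟨f.extendOfNorm e, fun a ha ζ hζ => LinearMap.extendOfNorm_eq hd
    ⟨1, fun p => ((norm_add h hβ s p.1.2 p.2.2).trans (one_mul _).symm).le⟩ (⟨a, ha⟩, ⟨ζ, hζ⟩)⟩

omit [CompleteSpace H] in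
/-- A group of isometries that is continuous from the left at zero on a dense set. -/
theorem cont {U : ℝ → (H →L[ℂ] H)} (hadd : ∀ s t, U (s + t) = U s * U t)
    (hn : ∀ s η, ‖U s η‖ = ‖η‖) {η : H}
    (h : ∀ γ : ℝ, 0 < γ → ∃ δ : ℝ, 0 < δ ∧ ∀ r, -δ < r → r < 0 → ‖U r η - η‖ ≤ γ) :
    Continuous fun s => U s η := by
  have e : ∀ s t, ‖U s η - U t η‖ = ‖U (s - t) η - η‖ := fun s t => by
    rw [← hn t (U (s - t) η - η), map_sub, ← mul_apply_eq_comp, ← hadd, add_sub_cancel]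
  refine Metric.continuous_iff.2 fun t ε hε => ?_
  obtain ⟨δ, hδ, h1⟩ := h _ (half_pos hε)
  refine ⟨δ, hδ, fun s hs => lt_of_le_of_lt ?_ (half_lt_self hε)⟩
  rw [Real.dist_eq, abs_lt] at hs
  rw [dist_eq_norm]
  rcases lt_trichotomy s t with k | k | k
  · rw [e]
    exact h1 _ hs.1 (sub_neg.2 k)
  · rw [k, sub_self, norm_zero]
    exact (half_pos hε).le
  · rw [norm_sub_rev, e]
    exact h1 _ (by linarith [hs.2]) (sub_neg.2 k)

end BetaAux

theorem Base.exists_flow (h : Base M J P ξ F) : ∃ β U, Flow M J ξ F β U := by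
  choose! β hβ using fun (s : ℝ) (a : H →L[ℂ] H) (ha : a ∈ Bic M J ξ) => h.exists_isB s ha
  choose U hU using BetaAux.exists_U h hβ
  have hap : ∀ s, ∀ a ∈ Bic M J ξ, U s (a ξ) = β s a ξ := fun s a ha => by
    simpa using hU s a ha 0 (zero_mem _)
  have hmem : ∀ s, ∀ a ∈ Bic M J ξ, β s a ∈ Bic M J ξ := fun s a ha => (hβ s a ha).bic h
  have h0 : U 0 = 1 := by
    ext η
    refine BetaAux.ext M J ξ (U 0).continuous continuous_id (fun a ha ζ hζ => ?_) η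
    rw [hU 0 a ha ζ hζ, (hβ 0 a ha).unique h (IsB.zero ha)]
    rfl
  have hadd : ∀ s t, U (s + t) = U s * U t := fun s t => by
    ext η
    refine BetaAux.ext M J ξ (U _).continuous (U s * U t).continuous (fun a ha ζ hζ => ?_) η
    rw [mul_apply_eq_comp, hU _ a ha ζ hζ, hU _ a ha ζ hζ, hU _ _ (hmem t a ha) ζ hζ,
      BetaAux.add h hβ s t ha]
  have hn : ∀ s η, ‖U s η‖ = ‖η‖ := fun s η =>
    BetaAux.ext M J ξ (U s).continuous.norm continuous_norm (fun a ha ζ hζ => by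
      rw [hU s a ha ζ hζ, BetaAux.norm_add h hβ s ha hζ]) η
  have hcomm : ∀ s g, BC g → U s * F.f g = F.f g * U s := fun s g hg => by
    ext η
    refine F.inter_of_V F (U s) (fun t η => BetaAux.ext M J ξ
      ((U s).continuous.comp (F.V t).continuous) ((F.V t).continuous.comp (U s).continuous)
      (fun a ha ζ hζ => ?_) η) hg η
    have h1 : F.V t ζ ∈ (BK M J ξ)ᗮ := fun u hu => by
      rw [← inner_star_left, F.V_star]
      exact hζ _ (BK.f_mem h.md (bc_ex _) hu)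
    rw [Function.comp_apply, Function.comp_apply, map_add, ← h.md.σ_xi,
      hU s _ (Bic.σ h.md ha t) _ h1, hU s a ha ζ hζ, map_add, ← h.md.σ_xi,
      (hβ s _ (Bic.σ h.md ha t)).unique h ((hβ s a ha).σ h.md ha.1 t)]
  refine ⟨β, U, hmem, fun s a ha x hx => ((hβ s a ha).2 x hx).2, fun s a ha b hb =>
    (hβ s _ (Bic.mul h.md ha hb)).unique h ((hβ s a ha).mul h.md ha.1 (hβ s b hb)),
    fun s t a ha => BetaAux.add h hβ s t ha,
    fun s a ha => (hβ s a ha).star_eq h (hβ s _ (Bic.star h.md ha)),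
    fun s ι _ X hX hb => IsB.mbdd h (fun i j => hβ s _ (hX i j)) hb, hap, fun s => ?_, h0, hadd,
    hn, fun η => BetaAux.cont hadd hn fun γ hγ => ?_, hcomm, fun s a ha => ?_⟩
  · have := hap s 1 Bic.one
    rwa [(hβ s 1 Bic.one).unique h IsB.one] at this
  · obtain ⟨a, ha, ζ, hζ, hd⟩ := BetaAux.dense M J ξ η
      (ε := γ / 3) (by positivity)
    obtain ⟨δ, hδ, h1⟩ := IsB.close h ha (γ := γ / 3) (by positivity)
    refine ⟨δ, hδ, fun r h2 h3 => ?_⟩
    have e : U r η - η = U r (η - (a ξ + ζ)) - (η - (a ξ + ζ)) + (β r a ξ - a ξ) := by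
      rw [map_sub, hU r a ha ζ hζ]
      abel
    have k1 := norm_sub_le (U r (η - (a ξ + ζ))) (η - (a ξ + ζ))
    rw [hn] at k1
    rw [e]
    linarith [norm_add_le (U r (η - (a ξ + ζ)) - (η - (a ξ + ζ))) (β r a ξ - a ξ),
      h1 r h2 h3 _ (hβ r a ha)]
  · obtain ⟨ρ, e1, e2⟩ := h.md.exists_rho ha.1
    obtain ⟨ρ', e3, e4⟩ := h.md.exists_rho (hβ s a ha).1
    have k : ∀ g, BC g → ∀ η, U s (F.f g η) = F.f g (U s η) := fun g hg η =>
      congrArg (fun T : H →L[ℂ] H => T η) (hcomm s g hg)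
    have h1 : ρ' - U s ρ = 0 := F.inj bc_fa fa_ne_zero (by
      rw [map_sub, ← e3, ← k _ bc_fa, ← e1, hap s a ha, sub_self])
    rw [e4, e2, k _ bc_fb, sub_eq_zero.1 h1]

end Vale.Agent.P132
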