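import Vale.Agent.P132.Bic

/-! The relation `b = β s a` and its algebraic properties. -/

open scoped InnerProductSpace Topology ComplexConjugate
open Filter MeasureTheory

namespace Vale.Agent.P132

open Vale.Agent.P104

variable {H : Type*} [NormedAddCommGroup H] [InnerProductSpace ℂ H] [CompleteSpace H]
  {M : VonNeumannAlgebra H} {J : H →L⋆[ℂ] H} {P : Set H} {ξ : H} {F : FC H}

/-- Column contractive systems of frequency `s` with `∑ y* y → 1`. -/
structure Sys (M : VonNeumannAlgebra H) (J : H →L⋆[ℂ] H) (ξ : H) (s : ℝ) {m : ℕ}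
    (y : Fin m → ℕ → (H →L[ℂ] H)) : Prop where
  eig : ∀ i, Eig M J ξ s (y i)
  col : ∀ n, GCol 1 fun i => y i n
  sum : Nul M ξ fun n => ∑ i, star (y i n) * y i n - 1

/-- `a x ≈ x b` for all approximate eigensequences `x` of frequency `s`. -/
def IsB (M : VonNeumannAlgebra H) (J : H →L⋆[ℂ] H) (ξ : H) (s : ℝ) (a b : H →L[ℂ] H) : Prop :=
  b ∈ M ∧ ∀ x, Eig M J ξ s x → Nul M ξ fun n => a * x n - x n * b

variable {a b c a' b' : H →L[ℂ] H} {s t : ℝ} {m m' : ℕ} {y : Fin m → ℕ → (H →L[ℂ] H)}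
  {y' : Fin m' → ℕ → (H →L[ℂ] H)} {x : ℕ → (H →L[ℂ] H)}

theorem IsB.of_tendsto (ha : a ∈ M) (hb : b ∈ M) (h : ∀ x, Eig M J ξ s x →
    Tendsto (fun n => (a * x n - x n * b) ξ) atTop (𝓝 0)) : IsB M J ξ s a b :=
  ⟨hb, fun x hx => ⟨((Bd.const ha).mul hx.1).sub (hx.1.mul (Bd.const hb)), h x hx⟩⟩

theorem IsB.zero (ha : a ∈ Bic M J ξ) : IsB M J ξ 0 a a := IsB.of_tendsto ha.1 ha.1 ha.2

omit [CompleteSpace H] in
theorem BetaAux.norm_le {κ : Type*} [Fintype κ] {A : κ → (H →L[ℂ] H)} (h : GRow 1 A) (i : κ) :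
    ‖A i‖ ≤ 1 := by
  classical
  refine ContinuousLinearMap.opNorm_le_bound _ zero_le_one fun z => ?_
  have := h (Pi.single i z)
  rw [Finset.sum_eq_single i (fun j _ hj => by rw [Pi.single_eq_of_ne hj, map_zero]) (by simp),
    Finset.sum_eq_single i (fun j _ hj => by simp [Pi.single_eq_of_ne hj]) (by simp),
    Pi.single_eq_same, one_pow, one_mul] at this
  rw [one_mul]
  exact (sq_le_sq₀ (norm_nonneg _) (norm_nonneg _)).1 this

theorem Tr.nul_orth {ι : Type} [Fintype ι] [DecidableEq ι] {l : ι → ℝ}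
    {w : ι → ℕ → (H →L[ℂ] H)} (h : Tr M J ξ l w) (i : ι) :
    Nul M ξ fun n => star (w i n) * w i n - 1 :=
  Nul.of_tendsto ((h.eig i).1.star.mul (h.eig i).1) (one_mem M) (by simpa using h.orth i i ξ)

theorem Tr.nul_sum {ι : Type} [Fintype ι] [DecidableEq ι] {l : ι → ℝ}
    {w : ι → ℕ → (H →L[ℂ] H)} (h : Tr M J ξ l w) :
    Nul M ξ fun n => ∑ i, w i n * star (w i n) - 1 :=
  Nul.of_tendsto (Bd.sum _ fun i _ => (h.eig i).1.mul (h.eig i).1.star) (one_mem M) (h.sum ξ)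

theorem Base.exists_iso (h : Base M J P ξ F) (hs : s < 0) :
    ∃ w, Eig M J ξ s w ∧ (∀ n, ‖w n‖ ≤ 1) ∧ Nul M ξ fun n => star (w n) * w n - 1 := by
  have h1 : 0 < 1 - Real.exp s := sub_pos.2 (Real.exp_lt_one_iff.2 hs)
  obtain ⟨w, hw⟩ := h.tr Bool (fun b => cond b s (Real.log (1 - Real.exp s))) (by
    simp [Real.exp_log h1])
  exact ⟨w true, hw.eig true, fun n => BetaAux.norm_le (hw.row n) true, hw.nul_orth true⟩

theorem Base.exists_sys (h : Base M J P ξ F) (s : ℝ) :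
    ∃ m, ∃ y : Fin m → ℕ → (H →L[ℂ] H), Sys M J ξ s y := by
  obtain ⟨m, hm⟩ := exists_nat_gt (Real.exp s)
  have hm0 : (0 : ℝ) < m := (Real.exp_pos s).trans hm
  obtain ⟨w, h1, h2, h3⟩ := h.exists_iso (s := s - Real.log m)
    (sub_neg.2 ((Real.lt_log_iff_exp_lt hm0).2 hm))
  obtain ⟨r, hr⟩ := h.tr (Fin m) (fun _ => -Real.log m) (by
    simp [Real.exp_neg, Real.exp_log hm0, hm0.ne'])
  refine ⟨m, fun i n => w n * star (r i n), fun i => ?_, fun n η => ?_, ?_⟩
  · have := h1.mul h.md ((hr.eig i).star h.md)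
    rwa [neg_neg, sub_add_cancel] at this
  · refine le_trans (Finset.sum_le_sum fun i _ => ?_) ((hr.row n).col η)
    refine pow_le_pow_left₀ (norm_nonneg _) ?_ 2
    simpa using (w n).le_of_opNorm_le (h2 n) (star (r i n) η)
  · refine ((Nul.sum Finset.univ fun i _ =>
      (h3.left (hr.eig i).1).eig h.md ((hr.eig i).star h.md)).add hr.nul_sum).congr fun n => ?_
    simp only [star_mul, star_star, mul_sub, sub_mul, mul_one, Finset.sum_sub_distrib, mul_assoc]
    abel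

theorem Sys.comp (hy : Sys M J ξ s y) {φ : ℕ → ℕ} (hφ : Tendsto φ atTop atTop) :
    Sys M J ξ s fun i n => y i (φ n) :=
  ⟨fun i => (hy.eig i).comp hφ, fun _ => hy.col _, hy.sum.1.comp φ, hy.sum.2.comp hφ⟩

theorem Sys.bd (hy : Sys M J ξ s y) (ha : a ∈ M) :
    Bd M fun n => ∑ i, star (y i n) * a * y i n :=
  Bd.sum _ fun i _ => ((hy.eig i).1.star.mul (Bd.const ha)).mul (hy.eig i).1

theorem Sys.norm_le (hy : Sys M J ξ s y) (a : H →L[ℂ] H) (n : ℕ) :
    ‖∑ i, star (y i n) * a * y i n‖ ≤ ‖a‖ := by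
  refine ContinuousLinearMap.opNorm_le_bound _ (norm_nonneg _) fun η => ?_
  refine (sq_le_sq₀ (norm_nonneg _) (by positivity)).1 ?_
  have h1 := (hy.col n).row fun i => a (y i n η)
  have h2 := mul_le_mul_of_nonneg_left (hy.col n η) (sq_nonneg ‖a‖)
  rw [one_pow, one_mul] at h1 h2
  rw [sum_apply, mul_pow]
  refine h1.trans (le_trans ?_ h2)
  rw [Finset.mul_sum]
  refine Finset.sum_le_sum fun i _ => ?_
  rw [← mul_pow]
  exact pow_le_pow_left₀ (norm_nonneg _) (a.le_opNorm _) 2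

theorem Sys.cancel (hy : Sys M J ξ s y) {d : ℕ → (H →L[ℂ] H)}
    (h1 : Nul M ξ fun n => (∑ i, star (y i n) * y i n - 1) * d n)
    (h2 : ∀ i, Nul M ξ fun n => y i n * d n) : Nul M ξ d := by
  refine ((Nul.sum Finset.univ fun i _ => (h2 i).left (hy.eig i).1.star).sub h1).congr fun n => ?_
  simp only [sub_mul, Finset.sum_mul, one_mul, mul_assoc, sub_sub_cancel]

theorem Sys.key (hy : Sys M J ξ s y) (h : Mod M J ξ F) (ha : a ∈ Bic M J ξ)
    (hx : Eig M J ξ s x) : Nul M ξ fun n => a * x n - x n * ∑ i, star (y i n) * a * y i n := by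
  have h1 : ∀ i, Eig M J ξ 0 fun n => x n * star (y i n) := fun i => by
    simpa using hx.mul h ((hy.eig i).star h)
  refine ((Nul.sum Finset.univ fun i _ => (((IsB.zero ha).2 _ (h1 i)).eig h (hy.eig i))).sub
    (hy.sum.left ((Bd.const ha.1).mul hx.1))).congr fun n => ?_
  simp only [sub_mul, mul_sub, Finset.mul_sum, mul_one, mul_assoc, Finset.sum_sub_distrib]
  abel

theorem Sys.diff (hy : Sys M J ξ s y) (hy' : Sys M J ξ s y') (h : Mod M J ξ F)
    (ha : a ∈ Bic M J ξ) :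
    Nul M ξ fun n => ∑ i, star (y' i n) * a * y' i n - ∑ i, star (y i n) * a * y i n := by
  refine ((Nul.sum Finset.univ fun i _ => (hy.key h ha (hy'.eig i)).left (hy'.eig i).1.star).add
    (Nul.sum Finset.univ fun i _ => ((hy'.sum.eig h ((hy.eig i).star h)).const h ha.1).eig h
      (hy.eig i))).congr fun n => ?_
  simp only [mul_assoc, ← Finset.mul_sum]
  simp only [sub_mul, mul_sub, Finset.sum_mul, one_mul, mul_assoc, Finset.sum_sub_distrib]
  abel

theorem Sys.lim (hy : Sys M J ξ s y) (h : Mod M J ξ F) (hb : IsB M J ξ s a b) :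
    Nul M ξ fun n => ∑ i, star (y i n) * a * y i n - b := by
  refine ((Nul.sum Finset.univ fun i _ => (hb.2 _ (hy.eig i)).left (hy.eig i).1.star).add
    (hy.sum.const h hb.1)).congr fun n => ?_
  simp only [sub_mul, mul_sub, Finset.sum_mul, one_mul, mul_assoc, Finset.sum_sub_distrib]
  abel

theorem Sys.tendsto (hy : Sys M J ξ s y) (h : Mod M J ξ F) (hb : IsB M J ξ s a b) (η : H) :
    Tendsto (fun n => (∑ i, star (y i n) * a * y i n) η) atTop (𝓝 (b η)) :=
  tendsto_sub_nhds_zero_iff.1 ((hy.lim h hb).strong h η)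

theorem Base.exists_isB (h : Base M J P ξ F) (s : ℝ) (ha : a ∈ Bic M J ξ) :
    ∃ b, IsB M J ξ s a b := by
  obtain ⟨m, y, hy⟩ := h.exists_sys s
  have hc : CauchySeq fun n => (∑ i, star (y i n) * a * y i n) ξ := by
    by_contra hn
    rw [Metric.cauchySeq_iff] at hn
    push Not at hn
    obtain ⟨ε, hε, hn⟩ := hn
    choose φ hφ ψ hψ hd using hn
    have h1 := ((hy.comp (tendsto_atTop_mono hψ tendsto_id)).diff
      (hy.comp (tendsto_atTop_mono hφ tendsto_id)) h.md ha).2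
    refine absurd (ge_of_tendsto' (tendsto_zero_iff_norm_tendsto_zero.1 h1) fun n => ?_) hε.not_ge
    rw [sub_apply, ← dist_eq_norm]
    exact hd n
  obtain ⟨η, hη⟩ := cauchySeq_tendsto_of_complete hc
  obtain ⟨b, hb, -, rfl, -⟩ := h.md.sep.exists_lim
    (Eventually.of_forall fun n => ⟨(hy.bd ha.1).1 n, hy.norm_le a n⟩) hη
  refine ⟨b, hb, fun x hx => ((hy.key h.md ha hx).add
    ((Nul.of_tendsto (hy.bd ha.1) hb hη).left hx.1)).congr fun n => ?_⟩
  rw [mul_sub, sub_add_sub_cancel]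

namespace IsB

theorem unique (h : Base M J P ξ F) (h1 : IsB M J ξ s a b) (h2 : IsB M J ξ s a c) : b = c := by
  obtain ⟨m, y, hy⟩ := h.exists_sys s
  exact h.md.sep.ext h1.1 h2.1
    (tendsto_nhds_unique (hy.tendsto h.md h1 ξ) (hy.tendsto h.md h2 ξ))

theorem norm_le (h : Base M J P ξ F) (h1 : IsB M J ξ s a b) : ‖b‖ ≤ ‖a‖ := by
  obtain ⟨m, y, hy⟩ := h.exists_sys s
  exact ContinuousLinearMap.opNorm_le_bound _ (norm_nonneg _) fun η =>
    le_of_tendsto' (hy.tendsto h.md h1 η).norm fun n =>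
      ContinuousLinearMap.le_of_opNorm_le _ (hy.norm_le a n) η

theorem bic (h : Base M J P ξ F) (h1 : IsB M J ξ s a b) : b ∈ Bic M J ξ := by
  obtain ⟨m, y, hy⟩ := h.exists_sys s
  refine ⟨h1.1, fun z hz => (hy.cancel (d := fun n => b * z n - z n * b) ?_ fun i => ?_).2⟩
  · refine (((hy.sum.const h.md h1.1).eig h.md hz).sub
      ((hy.sum.eig h.md hz).const h.md h1.1)).congr fun n => ?_
    simp only [mul_sub, mul_assoc]
  · have h2 := (hy.eig i).mul h.md hz
    rw [add_zero] at h2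
    refine ((h1.2 _ h2).sub ((h1.2 _ (hy.eig i)).eig h.md hz)).congr fun n => ?_
    simp only [mul_sub, sub_mul, mul_assoc]
    abel

theorem one : IsB M J ξ s 1 1 :=
  ⟨one_mem M, fun x _ => Nul.zero.congr fun n => by simp⟩

theorem add (h1 : IsB M J ξ s a b) (h2 : IsB M J ξ s a' b') : IsB M J ξ s (a + a') (b + b') :=
  ⟨add_mem h1.1 h2.1, fun x hx => ((h1.2 x hx).add (h2.2 x hx)).congr fun n => by
    rw [add_mul, mul_add, add_sub_add_comm]⟩

theorem mul (h : Mod M J ξ F) (ha : a ∈ M) (h1 : IsB M J ξ s a b) (h2 : IsB M J ξ s a' b') :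
    IsB M J ξ s (a * a') (b * b') :=
  ⟨mul_mem h1.1 h2.1, fun x hx => (((h2.2 x hx).left (Bd.const ha)).add
    ((h1.2 x hx).const h h2.1)).congr fun n => by
      simp only [mul_sub, sub_mul, mul_assoc, sub_add_sub_cancel]⟩

theorem smul (z : ℂ) (h1 : IsB M J ξ s a b) : IsB M J ξ s (z • a) (z • b) :=
  ⟨M.toStarSubalgebra.smul_mem h1.1 z, fun x hx => ((h1.2 x hx).left
    (Bd.const (M.toStarSubalgebra.smul_mem (one_mem M) z))).congr fun n => by
      rw [smul_mul_assoc, one_mul, smul_sub, smul_mul_assoc, mul_smul_comm]⟩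

theorem trans (h : Base M J P ξ F) {d : H →L[ℂ] H} (h1 : IsB M J ξ t a b) (h2 : IsB M J ξ s b c)
    (h3 : IsB M J ξ (s + t) a d) : d = c := by
  obtain ⟨m, y, hy⟩ := h.exists_sys t
  obtain ⟨m', y', hy'⟩ := h.exists_sys s
  have hm := sub_mem h3.1 h2.1
  refine sub_eq_zero.1 (Nul.eq_zero h.md (hy'.cancel (hy'.sum.const h.md hm) fun j =>
    hy.cancel (((hy.sum.eig h.md (hy'.eig j)).const h.md hm).congr fun n => mul_assoc _ _ _)
      fun i => ?_))
  have h4 := (hy.eig i).mul h.md (hy'.eig j)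
  rw [add_comm] at h4
  refine ((((h1.2 _ (hy.eig i)).eig h.md (hy'.eig j)).add
    ((h2.2 _ (hy'.eig j)).left (hy.eig i).1)).sub (h3.2 _ h4)).congr fun n => ?_
  simp only [mul_sub, sub_mul, mul_assoc]
  abel

theorem star_eq (h : Base M J P ξ F) (h1 : IsB M J ξ s a b) (h2 : IsB M J ξ s (star a) c) :
    c = star b := by
  obtain ⟨m, y, hy⟩ := h.exists_sys s
  ext ζ
  refine ext_inner_left ℂ fun η => ?_
  rw [inner_star_right]
  refine tendsto_nhds_unique (tendsto_const_nhds.inner (hy.tendsto h.md h2 ζ))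
    (((hy.tendsto h.md h1 η).inner tendsto_const_nhds).congr fun n => ?_)
  rw [← inner_star_right, star_sum]
  simp only [star_mul, star_star, mul_assoc]

theorem σ (h : Mod M J ξ F) (ha : a ∈ M) (h1 : IsB M J ξ s a b) (t : ℝ) :
    IsB M J ξ s (F.σ t a) (F.σ t b) := by
  refine IsB.of_tendsto (h.sigma_mem t a ha) (h.sigma_mem t b h1.1) fun x hx => ?_
  have h3 := ((F.V t).continuous.tendsto _).comp (h1.2 _ (hx.σ h (-t))).2
  rw [map_zero] at h3
  exact h3.congr fun n => by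
    rw [Function.comp_apply, ← h.σ_xi, F.σ_sub, F.σ_mul, F.σ_mul, F.σ_σ, add_neg_cancel, F.σ_zero]

theorem mbdd (h : Base M J P ξ F) {ι : Type} [Fintype ι] {X Y : ι → ι → (H →L[ℂ] H)}
    (h1 : ∀ i j, IsB M J ξ s (X i j) (Y i j)) (hX : MBdd 1 X) : MBdd 1 Y := by
  obtain ⟨m, y, hy⟩ := h.exists_sys s
  intro ζ
  refine le_of_tendsto' (tendsto_finsetSum _ fun i _ => (tendsto_finsetSum _ fun j _ =>
    hy.tendsto h.md (h1 i j) (ζ j)).norm.pow 2) fun n => ?_
  have := mbdd_diag (hy.col n).row (hy.col n) (W := fun _ => X) (fun _ => hX) ζ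
  rwa [one_pow, one_mul (1 : ℝ)] at this

/-- Decomposition of the state along a Cuntz family. -/
theorem state_sum (h : Mod M J ξ F) {ι : Type} [Fintype ι] [DecidableEq ι] {l : ι → ℝ}
    {w : ι → ℕ → (H →L[ℂ] H)} (hw : Tr M J ξ l w) (ha : a ∈ M) {b : ι → (H →L[ℂ] H)}
    (hb : ∀ i, IsB M J ξ (l i) a (b i)) :
    ⟪ξ, a ξ⟫_ℂ = ∑ i, ((Real.exp (l i) : ℝ) : ℂ) * ⟪ξ, b i ξ⟫_ℂ := by
  have h1 : Nul M ξ fun n => ∑ i, w i n * b i * star (w i n) - a := by
    refine ((hw.nul_sum.left (Bd.const ha)).sub (Nul.sum Finset.univ fun i _ =>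
      ((hb i).2 _ (hw.eig i)).eig h ((hw.eig i).star h))).congr fun n => ?_
    simp only [sub_mul, mul_sub, Finset.mul_sum, mul_one, mul_assoc, Finset.sum_sub_distrib]
    abel
  have h2 : Tendsto (fun n => (∑ i, w i n * b i * star (w i n)) ξ) atTop (𝓝 (a ξ)) :=
    tendsto_sub_nhds_zero_iff.1 h1.2
  refine tendsto_nhds_unique (tendsto_const_nhds.inner h2) ?_
  simp only [sum_apply, inner_sum]
  refine tendsto_finsetSum _ fun i _ => ?_
  have h3 : Tendsto (fun n => (star (w i n) * w i n) ξ) atTop (𝓝 ξ) := by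
    simpa using hw.orth i i ξ
  have h4 := ((J.continuous.tendsto _).comp h3).inner (𝕜 := ℂ)
    (tendsto_const_nhds (x := b i ξ))
  rw [h.fix] at h4
  have h5 := (h4.sub (((hw.eig i).star h).norm_sub h (Bd.const (hb i).1))).const_mul
    ((Real.exp (l i) : ℝ) : ℂ)
  rw [sub_zero] at h5
  refine h5.congr fun n => ?_
  rw [h.bi.comm_apply (hb i).1 (star_mem ((hw.eig i).1.1 n)), h.cj.inner_rt_right, star_star,
    ← h.cj.rt_mul_apply, h.rt_xi, star_mul, star_star, Function.comp_apply, sub_sub_cancel,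
    ← mul_assoc, ← Complex.ofReal_mul, ← Real.exp_add, add_neg_cancel, Real.exp_zero,
    Complex.ofReal_one, one_mul, inner_star_left]
  rfl

/-- Continuity at the origin from the left. -/
theorem close (h : Base M J P ξ F) (ha : a ∈ Bic M J ξ) {γ : ℝ} (hγ : 0 < γ) :
    ∃ δ : ℝ, 0 < δ ∧ ∀ r, -δ < r → r < 0 → ∀ b, IsB M J ξ r a b → ‖b ξ - a ξ‖ ≤ γ := by
  obtain ⟨δ, hδ, hm⟩ := Bic.modulus ha hγ
  refine ⟨δ, hδ, fun r h1 h2 b hb => ?_⟩
  obtain ⟨w, hw, hn, hi⟩ := h.exists_iso h2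
  have h3 : Nul M ξ fun n => star (w n) * (a * w n - w n * a) - (b - a) := by
    refine (((hb.2 w hw).left hw.1.star).add (hi.const h.md (sub_mem hb.1 ha.1))).congr
      fun n => ?_
    simp only [sub_mul, mul_sub, one_mul, mul_assoc]
    abel
  have h4 : Tendsto (fun n => (star (w n) * (a * w n - w n * a)) ξ) atTop (𝓝 ((b - a) ξ)) :=
    tendsto_sub_nhds_zero_iff.1 h3.2
  refine le_of_tendsto h4.norm ?_
  filter_upwards [Metric.tendsto_nhds.1 hw.2 _ (half_pos hδ)] with n h5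
  rw [dist_zero_right] at h5
  refine ((star (w n)).le_of_opNorm_le ((norm_star _).trans_le (hn n)) _).trans ?_
  rw [one_mul]
  refine hm _ (hw.1.1 n) (hn n) ?_
  have e : df J 1 (w n) ξ ξ =
      df J (Real.exp (r / 2)) (w n) ξ ξ + ((1 - Real.exp (r / 2) : ℝ) : ℂ) • w n ξ := by
    rw [df, df, Complex.ofReal_sub, sub_smul]
    abel
  have h6 : ‖w n ξ‖ ≤ 1 := by simpa [h.norm] using (w n).le_of_opNorm_le (hn n) ξ
  have h7 := Real.add_one_le_exp (r / 2)
  have h8 : 0 ≤ 1 - Real.exp (r / 2) := sub_nonneg.2 (Real.exp_le_one_iff.2 (by linarith))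
  rw [e]
  refine (norm_add_le _ _).trans ?_
  rw [norm_smul, Complex.norm_real, Real.norm_of_nonneg h8]
  nlinarith [mul_le_of_le_one_right h8 h6]

end IsB

/-- A bounded additive function on the half line that vanishes at one vanishes. -/
theorem BetaAux.add_lin {g : ℝ → ℂ} {C : ℝ} (hadd : ∀ t u, 0 < t → 0 < u → g (t + u) = g t + g u)
    (hb : ∀ t, 0 < t → t ≤ 1 → ‖g t‖ ≤ C) (h1 : g 1 = 0) {t : ℝ} (ht : 0 < t) : g t = 0 := by
  have hn : ∀ n : ℕ, g ((n + 1) * t) = (n + 1) * g t := fun n => by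
    induction n with
    | zero => simp
    | succ n ih =>
      rw [Nat.cast_succ, add_mul ((n : ℝ) + 1), one_mul, hadd _ _ (by positivity) ht, ih]
      push_cast
      ring
  have hk : ∀ k : ℕ, ∀ u, 0 < u → g (u + k) = g u := fun k u hu => by
    induction k with
    | zero => simp
    | succ k ih => rw [Nat.cast_succ, ← add_assoc, hadd _ _ (by positivity) one_pos, ih, h1, add_zero]
  have h2 : ∀ n : ℕ, ((n : ℝ) + 1) * ‖g t‖ ≤ C := fun n => by
    have hv : 0 < ((n : ℝ) + 1) * t := by positivity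
    obtain ⟨k, hk'⟩ := Nat.exists_eq_succ_of_ne_zero (Nat.ceil_pos.2 hv).ne'
    obtain ⟨k1, k2⟩ := (Nat.ceil_eq_iff k.succ_ne_zero).1 hk'
    rw [Nat.succ_sub_one] at k1
    rw [Nat.cast_succ] at k2
    have h3 := hk k _ (sub_pos.2 k1)
    have h4 := hb _ (sub_pos.2 k1) (by linarith)
    rw [← h3, sub_add_cancel, hn, norm_mul] at h4
    rwa [← Nat.cast_succ, Complex.norm_natCast, Nat.cast_succ] at h4
  by_contra h0
  have hp := norm_pos_iff.2 h0
  obtain ⟨n, hn'⟩ := exists_nat_gt (C / ‖g t‖)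
  rw [div_lt_iff₀ hp] at hn'
  nlinarith [h2 n]

end Vale.Agent.P132
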