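import Vale.Agent.P132.Join

/-! Asymptotic Cuntz families from transitivity. -/

open scoped InnerProductSpace Topology ComplexConjugate
open Filter MeasureTheory

namespace Vale.Agent.P132

open Vale.Agent.P104

variable {H : Type*} [NormedAddCommGroup H] [InnerProductSpace ℂ H] [CompleteSpace H]
  {M : VonNeumannAlgebra H} {J : H →L⋆[ℂ] H} {P : Set H} {ξ : H} {F : FC H}

theorem CS.seq (h : CS M J P) (hc : Ctx M J P) {ζ₁ ζ₂ : H} (m₁ : ζ₁ ∈ P) (m₂ : ζ₂ ∈ P)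
    (s₁ : Sep M ζ₁) (s₂ : Sep M ζ₂) (n₁ : ‖ζ₁‖ = 1) (n₂ : ‖ζ₂‖ = 1) :
    ∃ u : ℕ → (H →L[ℂ] H), (∀ n, u n ∈ M ∧ ‖u n‖ ≤ 1) ∧
      Tendsto (fun n => df J 1 (u n) ζ₁ ζ₂) atTop (𝓝 0) ∧
      (∀ η, Tendsto (fun n => (star (u n) * u n) η) atTop (𝓝 η)) ∧
      ∀ η, Tendsto (fun n => (u n * star (u n)) η) atTop (𝓝 η) := by
  have _ := hc
  choose u hu h1 h2 h3 h4 using fun n : ℕ =>
    h ζ₁ m₁ ζ₂ m₂ s₁ s₂ n₁ n₂ (1 / ((n : ℝ) + 1)) Nat.one_div_pos_of_nat
  have lim : ∀ {g : ℕ → H}, (∀ n, ‖g n‖ ≤ 1 / ((n : ℝ) + 1)) → Tendsto g atTop (𝓝 0) :=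
    fun hg => squeeze_zero_norm hg tendsto_one_div_add_atTop_nhds_zero_nat
  have one : ∀ {ζ : H} {g : ℕ → (H →L[ℂ] H)}, Sep M ζ → (∀ n, g n ∈ M ∧ ‖g n‖ ≤ 1) →
      (∀ n, ‖(1 - g n) ζ‖ ≤ 1 / ((n : ℝ) + 1)) → ∀ η, Tendsto (fun n => g n η) atTop (𝓝 η) := by
    intro ζ g hs hg hb η
    refine hs.tendsto (a := 1) (Eventually.of_forall hg) (one_mem M) ?_ η
    simpa using (lim hb).const_sub ζ
  have b : ∀ n, ‖star (u n)‖ ≤ 1 := fun n => (norm_star _).trans_le (h1 n)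
  refine ⟨u, fun n => ⟨hu n, h1 n⟩, lim h2,
    one s₁ (fun n => ⟨mul_mem (star_mem (hu n)) (hu n), ?_⟩) h3,
    one s₂ (fun n => ⟨mul_mem (hu n) (star_mem (hu n)), ?_⟩) h4⟩
  · exact (norm_mul_le _ _).trans (mul_le_one₀ (b n) (norm_nonneg _) (h1 n))
  · exact (norm_mul_le _ _).trans (mul_le_one₀ (h1 n) (norm_nonneg _) (b n))

theorem CS.exists_tr (h : CS M J P) (hc : Ctx M J P) (hξ : ξ ∈ P) (hs : Sep M ξ) (hn : ‖ξ‖ = 1)
    (ι : Type) [Fintype ι] [DecidableEq ι] (l : ι → ℝ) (hl : ∑ i, Real.exp (l i) = 1) :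
    ∃ w, Tr M J ξ l w := by
  have hB := hc.bi
  have : Nonempty ι := by
    by_contra h0
    rw [not_nonempty_iff] at h0
    simp at hl
  obtain ⟨s, s1, s2, s3⟩ := hc.t3.cuntz ι
  have s4 : ∀ i, star (s i) * s i = 1 := fun i => by rw [s2, if_pos rfl]
  have s5 : ∀ i, ‖s i‖ ≤ 1 := fun i =>
    (isPI_of_init (by rw [s4]; exact IsStarProjection.one _)).norm_le
  set ζ := ∑ i, ((Real.exp (l i / 2) : ℝ) : ℂ) • s i (rt J (star (s i)) ξ) with hζ
  have hm : ζ ∈ P := hc.sum_mem _ Finset.univ_nonempty fun i _ =>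
    hc.smul _ (hc.sand _ hξ _ (s1 i)) _ (Real.exp_pos _).le
  have k : ∀ j, rt J (s j) ζ = ((Real.exp (l j / 2) : ℝ) : ℂ) • s j ξ := by
    intro j
    rw [hζ, map_sum, Finset.sum_eq_single j]
    · rw [map_smul, ← hB.comm_apply (s1 j) (s1 j), ← hB.cj.rt_mul_apply, s4, hB.cj.rt_one]
      rfl
    · intro i _ hi
      rw [map_smul, ← hB.comm_apply (s1 i) (s1 j), ← hB.cj.rt_mul_apply, s2, if_neg hi, rt_zero]
      simp
    · simp
  have hsep : Sep M ζ := by
    intro x hx h0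
    have : ∀ j, x * s j = 0 := fun j => by
      refine hs _ (mul_mem hx (s1 j)) ?_
      have h1 := hB.comm_apply hx (s1 j) ζ
      rw [k, h0, map_zero, map_smul, smul_eq_zero] at h1
      exact h1.resolve_left (by exact_mod_cast (Real.exp_pos _).ne')
    rw [← mul_one x, ← s3, Finset.mul_sum]
    simp [← mul_assoc, this]
  have hnorm : ‖ζ‖ = 1 := by
    have e1 : ⟪ζ, ζ⟫_ℂ = ∑ i, ((Real.exp (l i) : ℝ) : ℂ) := by
      conv_lhs => enter [2]; rw [hζ]
      rw [sum_inner]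
      refine Finset.sum_congr rfl fun i _ => ?_
      rw [inner_smul_left, hB.comm_apply (s1 i) (star_mem (s1 i)), hB.cj.inner_rt_left, star_star,
        k, inner_smul_right, ← inner_star_right, ← mul_apply_eq_comp, s4, one_apply_eq_self,
        inner_self_eq_norm_sq_to_K, hn, Complex.conj_ofReal, ← mul_assoc, ← Complex.ofReal_mul,
        ← Real.exp_add, add_halves]
      simp
    rw [← Complex.ofReal_sum, hl] at e1
    have e2 : ‖ζ‖ ^ 2 = 1 := by
      rw [← inner_self_eq_norm_sq (𝕜 := ℂ), e1]; rfl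
    exact (pow_eq_one_iff_of_nonneg (norm_nonneg _) two_ne_zero).1 e2
  obtain ⟨u, u1, u2, u3, u4⟩ := h.seq hc hm hξ hsep hs hnorm hn
  refine ⟨fun i n => u n * s i, fun i => ⟨⟨fun n => mul_mem (u1 n).1 (s1 i), 1, fun n =>
    (norm_mul_le _ _).trans (mul_le_one₀ (u1 n).2 (norm_nonneg _) (s5 i))⟩, ?_⟩, fun n z => ?_,
    fun i j η => ?_, fun η => ?_⟩
  · have := ((rt J (s i)).continuous.tendsto 0).comp u2
    rw [map_zero] at this
    refine this.congr fun n => ?_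
    simp only [Function.comp, df]
    rw [map_sub, map_smul, ← hB.comm_apply (u1 n).1 (s1 i), k, hB.cj.rt_mul_apply, map_smul]
    simp
  · refine le_trans ?_ (grow_of_orth s5 (fun a b hab => (s2 a b).trans (if_neg hab)) z)
    simp only [mul_apply_eq_comp, ← map_sum]
    exact pow_le_pow_left₀ (norm_nonneg _) (((u n).le_opNorm _).trans
      (mul_le_of_le_one_left (norm_nonneg _) (u1 n).2)) 2
  · have := ((star (s i)).continuous.tendsto _).comp (u3 (s j η))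
    have e : star (s i) (s j η) = if i = j then η else 0 := by
      rw [← mul_apply_eq_comp, s2]
      split_ifs <;> rfl
    rw [e] at this
    refine this.congr fun n => ?_
    simp only [Function.comp, star_mul]
    rfl
  · refine (u4 η).congr fun n => ?_
    have : ∑ i, u n * s i * star (u n * s i) = u n * (∑ i, s i * star (s i)) * star (u n) := by
      rw [Finset.mul_sum, Finset.sum_mul]
      simp only [star_mul, mul_assoc]
    rw [this, s3, mul_one]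

theorem CS.base (h : CS M J P) (hc : Ctx M J P) (hξ : ξ ∈ P) (hm : Mod M J ξ F) (hn : ‖ξ‖ = 1) :
    Base M J P ξ F := by
  exact ⟨hc, h, hξ, hm, hn, fun ι _ _ l hl => h.exists_tr hc hξ hm.sep hn ι l hl⟩

/-- An approximate eigensequence with prescribed range in the centralizer. -/
theorem Base.exists_range (h : Base M J P ξ F) {p : H →L[ℂ] H} (hpM : p ∈ M)
    (hp : IsStarProjection p) (h0 : p ≠ 0) (hc : rt J p ξ = p ξ) :
    ∃ x, Eig M J ξ (Real.log (‖p ξ‖ ^ 2)) x ∧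
      (∀ η, Tendsto (fun n => (star (x n) * x n) η) atTop (𝓝 η)) ∧
      ∀ η, Tendsto (fun n => (x n * star (x n)) η) atTop (𝓝 (p η)) := by
  have hB := h.ctx.bi
  obtain ⟨v, hv, v1, v2⟩ := h.ctx.t3.iso p hpM hp h0
  obtain ⟨a1, a2, a3, a4⟩ := h.ctx.pull h.mem h.md.sep hv v1 (by rw [v2, hc])
  rw [v2] at a4
  have hr : 0 < ‖p ξ‖ := norm_pos_iff.2 fun e => h0 (h.md.sep p hpM e)
  have hr' : ((‖p ξ‖ : ℝ) : ℂ) ≠ 0 := by exact_mod_cast hr.ne'
  have hv1 : ‖v‖ ≤ 1 := (isPI_of_init (by rw [v1]; exact IsStarProjection.one _)).norm_le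
  obtain ⟨u, u1, u2, u3, u4⟩ := h.cs.seq h.ctx h.mem
    (h.ctx.smul _ a1 ‖p ξ‖⁻¹ (inv_nonneg.2 hr.le)) h.md.sep
    (fun x hx e => a2 x hx (by
      rw [map_smul, smul_eq_zero] at e
      exact e.resolve_left (by exact_mod_cast (inv_pos.2 hr).ne'))) h.norm
    (by rw [norm_smul, a4, Complex.norm_real, Real.norm_of_nonneg (inv_nonneg.2 hr.le),
      inv_mul_cancel₀ hr.ne'])
  have he : Real.exp (Real.log (‖p ξ‖ ^ 2) / 2) = ‖p ξ‖ := by
    rw [Real.log_pow, Nat.cast_ofNat, mul_div_cancel_left₀ _ two_ne_zero, Real.exp_log hr]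
  refine ⟨fun n => v * u n, ⟨⟨fun n => mul_mem hv (u1 n).1, 1, fun n =>
    (norm_mul_le _ _).trans (mul_le_one₀ hv1 (norm_nonneg _) (u1 n).2)⟩, ?_⟩, fun η => ?_,
    fun η => ?_⟩
  · have := ((v.continuous.tendsto 0).comp u2).const_smul ((‖p ξ‖ : ℝ) : ℂ)
    rw [map_zero, smul_zero] at this
    refine this.congr fun n => ?_
    simp only [Function.comp, df]
    rw [he, map_sub, map_smul, hB.comm_apply hv (u1 n).1, map_smul, map_smul, a3,
      hB.cj.rt_mul_apply, smul_sub, smul_smul, smul_smul]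
    simp [hr']
  · refine (u3 η).congr fun n => ?_
    rw [star_mul, mul_assoc, ← mul_assoc (star v), v1, one_mul]
  · have := (v.continuous.tendsto _).comp (u4 (star v η))
    rw [← mul_apply_eq_comp, v2] at this
    refine this.congr fun n => ?_
    simp only [Function.comp, star_mul]
    rfl

end Vale.Agent.P132
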