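import Vale.Agent.P132.Bic
import Vale.Agent.P132.Trans

/-! Ergodicity of the modular flow on the bicentralizer. -/

open scoped InnerProductSpace Topology ComplexConjugate
open Filter MeasureTheory

namespace Vale.Agent.P132

open Vale.Agent.P104

variable {H : Type*} [NormedAddCommGroup H] [InnerProductSpace ℂ H] [CompleteSpace H]
  {M : VonNeumannAlgebra H} {J : H →L⋆[ℂ] H} {P : Set H} {ξ : H} {F : FC H}

variable {β : ℝ → (H →L[ℂ] H) → (H →L[ℂ] H)} {U : ℝ → (H →L[ℂ] H)}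

theorem Flow.zero (fl : Flow M J ξ F β U) (h : Mod M J ξ F) {a : H →L[ℂ] H}
    (ha : a ∈ Bic M J ξ) : β 0 a = a := by
  refine h.sep.ext (Bic.mem (fl.mem 0 a ha)) (Bic.mem ha) ?_
  rw [← fl.U_apply 0 a ha, fl.U_zero]
  rfl

theorem Flow.inner (fl : Flow M J ξ F β U) (s : ℝ) (η ζ : H) : ⟪U s η, U s ζ⟫_ℂ = ⟪η, ζ⟫_ℂ :=
  LinearIsometry.inner_map_map ⟨(U s).toLinearMap, fl.U_norm s⟩ η ζ

theorem Flow.state (fl : Flow M J ξ F β U) (s : ℝ) {a : H →L[ℂ] H} (ha : a ∈ Bic M J ξ) :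
    ⟪ξ, β s a ξ⟫_ℂ = ⟪ξ, a ξ⟫_ℂ := by
  rw [← fl.inner s ξ (a ξ), fl.U_xi, fl.U_apply s a ha]

theorem Flow.U_mem (fl : Flow M J ξ F β U) (s : ℝ) {η : H} (hη : η ∈ BK M J ξ) :
    U s η ∈ BK M J ξ := by
  refine BK.isClosed.closure_subset (Metric.mem_closure_iff.2 fun ε hε => ?_)
  obtain ⟨a, ha, h⟩ := BK.approx hη (half_pos hε)
  refine ⟨β s a ξ, BK.mem (fl.mem s a ha), ?_⟩
  rw [dist_eq_norm, ← fl.U_apply s a ha, ← map_sub, fl.U_norm]
  linarith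

theorem inner_proj₉ {p : H →L[ℂ] H} (hp : IsStarProjection p) (η : H) :
    ⟪η, p η⟫_ℂ = ((‖p η‖ ^ 2 : ℝ) : ℂ) := by
  have e : star p * p = p := by rw [hp.isSelfAdjoint.star_eq, hp.isIdempotentElem.eq]
  calc ⟪η, p η⟫_ℂ = ⟪η, star p (p η)⟫_ℂ := by
        rw [← mul_apply_eq_comp, e]
    _ = _ := by rw [inner_star_right, inner_self_eq_norm_sq_to_K]; simp

theorem Flow.indep_proj (fl : Flow M J ξ F β U) (h : Base M J P ξ F) {a p : H →L[ℂ] H}
    (ha : a ∈ Bic M J ξ) (hpM : p ∈ M) (hp : IsStarProjection p) (hc : rt J p ξ = p ξ) :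
    ⟪ξ, a (p ξ)⟫_ℂ = ⟪ξ, a ξ⟫_ℂ * ⟪ξ, p ξ⟫_ℂ := by
  by_cases h0 : p = 0
  · simp [h0]
  have hm : 0 < ‖p ξ‖ ^ 2 := pow_pos (norm_pos_iff.2 fun e => h0 (h.md.sep p hpM e)) 2
  obtain ⟨x, hx, h1, h2⟩ := h.exists_range hpM hp h0 hc
  set s := Real.log (‖p ξ‖ ^ 2) with hs
  have t1 : Tendsto (fun n => ⟪ξ, (Star.star (x n) * x n) (β s a ξ)⟫_ℂ) atTop (𝓝 ⟪ξ, a ξ⟫_ℂ) := by
    rw [← fl.state s ha]
    exact tendsto_const_nhds.inner (h1 _)
  have t2 : Tendsto (fun n => ⟪ξ, Star.star (x n) ((a * x n - x n * β s a) ξ)⟫_ℂ) atTop (𝓝 0) := by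
    have := (tendsto_const_nhds (x := ξ)).inner (𝕜 := ℂ)
      (hx.1.star.apply_zero (fl.char s a ha x hx))
    rwa [inner_zero_right] at this
  have t3 : Tendsto (fun n => ⟪x n ξ, a (x n ξ)⟫_ℂ) atTop (𝓝 ⟪ξ, a ξ⟫_ℂ) := by
    have := t2.add t1
    rw [zero_add] at this
    refine this.congr fun n => ?_
    simp only [mul_apply_eq_comp, sub_apply, inner_star_right, inner_sub_right,
      sub_add_cancel]
  have t4 := (hx.norm_sub h.md (Bd.const (Bic.mem ha))).add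
    (t3.const_mul ((Real.exp s : ℝ) : ℂ))
  simp only [sub_add_cancel, zero_add] at t4
  have t5 : Tendsto (fun n => ⟪ξ, a (rt J (x n * Star.star (x n)) ξ)⟫_ℂ) atTop
      (𝓝 ⟪ξ, a (rt J p ξ)⟫_ℂ) := by
    refine tendsto_const_nhds.inner ((a.continuous.tendsto _).comp (h.md.cj.tendsto_rt
      (fun η => ?_) ξ))
    simpa only [star_mul, star_star, hp.isSelfAdjoint.star_eq] using h2 η
  have t6 := tendsto_nhds_unique (t5.congr fun n => ?_) t4
  · rw [← hc, t6, hc, hs, Real.exp_log hm, inner_proj₉ hp, mul_comm]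
  · rw [h.md.cj.inner_rt_left, h.md.cj.rt_mul_apply,
      h.md.bi.comm_apply (Bic.mem ha) (star_mem (hx.1.1 n))]

theorem cfc_mem₉ {b : H →L[ℂ] H} (hb : b ∈ M) (φ : ℝ → ℝ) : cfc φ b ∈ M :=
  mem_of_commute M fun _ hy => ((commute_of_mem M hy hb).symm.cfc_real φ).symm

theorem Sep.cfc_eq_zero₉ (h : Sep M ξ) {b : H →L[ℂ] H} (hb : b ∈ M) {φ : ℝ → ℝ}
    (hφ : Continuous φ) (h0 : ∀ s, 0 ≤ φ s) (e : ⟪ξ, cfc φ b ξ⟫_ℂ = 0) : cfc φ b = 0 := by
  have hc : Continuous fun s => √(φ s) := hφ.sqrt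
  have e1 : star (cfc (fun s => √(φ s)) b) * cfc (fun s => √(φ s)) b = cfc φ b := by
    rw [(cfc_predicate (fun s => √(φ s)) b).star_eq, ← cfc_mul _ _ b]
    simp only [Real.mul_self_sqrt (h0 _)]
  have e2 := norm_sq_apply (cfc (fun s => √(φ s)) b) ξ
  rw [e1, e, Complex.zero_re, pow_eq_zero_iff two_ne_zero, norm_eq_zero] at e2
  rw [← e1, h _ (cfc_mem₉ hb _) e2, mul_zero]

theorem Flow.central_sa₉ (fl : Flow M J ξ F β U) (h : Base M J P ξ F) {b : H →L[ℂ] H}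
    (hb : b ∈ Bic M J ξ) (hsa : IsSelfAdjoint b) (hc : ∀ t, F.σ t b = b) :
    ∃ c : ℂ, b = c • (1 : H →L[ℂ] H) := by
  have hbM := Bic.mem hb
  set t : ℝ := (⟪ξ, b ξ⟫_ℂ).re with ht
  have et : ⟪ξ, b ξ⟫_ℂ = (t : ℂ) := by
    refine (Complex.conj_eq_iff_re.1 ?_).symm
    rw [inner_conj_symm, ← inner_star_right, hsa.star_eq]
  obtain ⟨E, hE, c1, c2, c3⟩ := exists_cut b t
  have hEM : E ∈ M := mem_of_commute M fun y hy =>
    c1 y (commute_of_mem M hy hbM) (commute_of_mem M (star_mem hy) hbM)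
  have hV : ∀ r, Commute (F.V r) b := fun r =>
    (h.md.comm_of_cen hbM (h.md.cen_of_σ hbM hc) (bc_ex r)).symm
  have hE' : rt J E ξ = E ξ := h.md.cen_of_σ hEM fun r => by
    have := c1 (F.V r) (hV r) (by rw [F.V_star]; exact hV _)
    rw [FC.σ, this.eq, mul_assoc, F.V_mul_neg₃, mul_one]
  have hi := fl.indep_proj h hb hEM hE hE'
  have e0 : cfc (fun s : ℝ => max (s - t) 0) b - cfc (fun s : ℝ => max (t - s) 0) b =
      b - (t : ℂ) • (1 : H →L[ℂ] H) := by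
    have e : (fun s : ℝ => max (s - t) 0 - max (t - s) 0) = fun s => s - t := funext fun s => by
      rcases le_total s t with h' | h'
      · rw [max_eq_right (sub_nonpos.2 h'), max_eq_left (sub_nonneg.2 h')]; ring
      · rw [max_eq_left (sub_nonneg.2 h'), max_eq_right (sub_nonpos.2 h')]; ring
    rw [← cfc_sub _ _ b, e, cfc_sub _ _ b, cfc_id' ℝ b, cfc_const t b,
      Algebra.algebraMap_eq_smul_one, Complex.coe_smul]
  have e1 : cfc (fun s : ℝ => max (s - t) 0) b = (b - (t : ℂ) • (1 : H →L[ℂ] H)) * E := by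
    rw [mul_sub, mul_one, sub_eq_zero] at c3
    rw [← e0, sub_mul, c2, sub_zero, ← c3]
  have e2 : cfc (fun s : ℝ => max (s - t) 0) b = 0 := by
    refine h.md.sep.cfc_eq_zero₉ hbM (by fun_prop) (fun s => le_max_right _ _) ?_
    rw [e1]
    simp only [mul_apply_eq_comp, sub_apply, smul_apply,
      one_apply_eq_self, inner_sub_right, inner_smul_right, hi, et, sub_self]
  have e3 : cfc (fun s : ℝ => max (t - s) 0) b = 0 := by
    refine h.md.sep.cfc_eq_zero₉ hbM (by fun_prop) (fun s => le_max_right _ _) ?_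
    rw [e2, zero_sub, neg_eq_iff_eq_neg] at e0
    rw [e0]
    simp only [neg_apply, sub_apply, smul_apply, one_apply_eq_self, inner_neg_right,
      inner_sub_right, inner_smul_right, et, inner_self_eq_norm_sq_to_K, h.norm]
    simp
  rw [e2, e3, sub_zero, eq_comm, sub_eq_zero] at e0
  exact ⟨t, e0⟩

theorem Base.inner_smul_one₉ (h : Base M J P ξ F) (c : ℂ) :
    ⟪ξ, (c • (1 : H →L[ℂ] H)) ξ⟫_ℂ = c := by
  simp [inner_self_eq_norm_sq_to_K, h.norm]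

theorem Flow.central (fl : Flow M J ξ F β U) (h : Base M J P ξ F) {a : H →L[ℂ] H}
    (ha : a ∈ Bic M J ξ) (hc : rt J a ξ = a ξ) : a = ⟪ξ, a ξ⟫_ℂ • (1 : H →L[ℂ] H) := by
  have h1 := h.md.σ_of_cen (Bic.mem ha) hc
  have h2 : ∀ t, F.σ t (Star.star a) = Star.star a := fun t => by rw [← F.σ_star, h1]
  have ha' := Bic.star h.md ha
  obtain ⟨c, ec⟩ := fl.central_sa₉ h (Bic.add ha ha') (.add_star_self a) fun t => by
    rw [F.σ_add, h1, h2]
  obtain ⟨d, ed⟩ := fl.central_sa₉ h (Bic.smul Complex.I (Bic.sub ha ha'))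
    (by rw [IsSelfAdjoint, star_smul, star_sub, star_star, Complex.star_def, Complex.conj_I,
      neg_smul, ← smul_neg, neg_sub]) fun t => by rw [F.σ_smul, F.σ_sub, h1, h2]
  have e : a = ((c - Complex.I * d) / 2) • (1 : H →L[ℂ] H) := by
    rw [div_eq_inv_mul, mul_smul, sub_smul, mul_smul, ← ec, ← ed, smul_smul, Complex.I_mul_I]
    module
  have e' : ⟪ξ, a ξ⟫_ℂ = (c - Complex.I * d) / 2 := by rw [e, h.inner_smul_one₉]
  rw [e', ← e]

theorem Bic.exists_comp₉ (h : Mod M J ξ F) (s : ℝ) {a : H →L[ℂ] H} (ha : a ∈ Bic M J ξ) :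
    ∃ c ∈ Bic M J ξ, F.Supp (c ξ) {s} ∧
      ∀ η, Tendsto (fun ε => F.band s ε a η) (𝓝[>] 0) (𝓝 (c η)) := by
  obtain ⟨c, hc, hS, hT⟩ := h.exists_comp s (Bic.mem ha)
  refine ⟨c, BK.bic h hc (BK.isClosed.mem_of_tendsto (hT ξ) ?_), hS, hT⟩
  filter_upwards [self_mem_nhdsWithin] with ε hε
  exact BK.mem (Bic.band h ha s hε)

theorem Flow.comp_zero₉ (fl : Flow M J ξ F β U) (h : Base M J P ξ F) {c : H →L[ℂ] H}
    (hc : c ∈ Bic M J ξ) (hS : F.Supp (c ξ) {0}) : c = ⟪ξ, c ξ⟫_ℂ • (1 : H →L[ℂ] H) :=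
  fl.central h hc (by simpa using h.md.rt_of_supp (Bic.mem hc) hS)

theorem Flow.comp_ne₉ (fl : Flow M J ξ F β U) (h : Base M J P ξ F) {c : H →L[ℂ] H}
    (hc : c ∈ Bic M J ξ) {s : ℝ} (hs : s ≠ 0) (hS : F.Supp (c ξ) {s}) : c ξ = 0 := by
  have hM := Bic.mem hc
  have hc' := Bic.star h.md hc
  have h1 := h.md.σ_of_supp hM hS
  have h2 : ∀ t, F.σ t (Star.star c) = conj (ex t s) • Star.star c := fun t => by
    rw [← F.σ_star, h1, star_smul, Complex.star_def]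
  have h3 : ∀ t, ex t s * conj (ex t s) = 1 := fun t => by
    rw [conj_ex, ← ex_add, add_neg_cancel, ex_zero]
  have e1 := fl.central h (Bic.mul h.md hc' hc) (h.md.cen_of_σ (mul_mem (star_mem hM) hM)
    fun t => by rw [F.σ_mul, h1, h2, smul_mul_smul_comm, mul_comm, h3, one_smul])
  have e2 := fl.central h (Bic.mul h.md hc hc') (h.md.cen_of_σ (mul_mem hM (star_mem hM))
    fun t => by rw [F.σ_mul, h1, h2, smul_mul_smul_comm, h3, one_smul])
  have e3 : (⟪ξ, (Star.star c * c) ξ⟫_ℂ - ⟪ξ, (c * Star.star c) ξ⟫_ℂ) • c = 0 := by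
    have : c * (Star.star c * c) = c * Star.star c * c := (mul_assoc _ _ _).symm
    rw [e1, e2, mul_smul_comm, smul_mul_assoc, mul_one, one_mul] at this
    rw [sub_smul, this, sub_self]
  rcases smul_eq_zero.1 e3 with e4 | e4
  · have e5 : ‖c ξ‖ ^ 2 = ‖Star.star c ξ‖ ^ 2 := by
      rw [norm_sq_apply, norm_sq_apply, star_star, sub_eq_zero.1 e4]
    rw [← h.md.cj.norm_rt_fix h.md.fix, h.md.rt_of_supp hM hS, norm_smul, mul_pow,
      Real.norm_eq_abs, sq_abs, ← Real.exp_nat_mul] at e5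
    have e6 : Real.exp ((2 : ℕ) * (s / 2)) ≠ 1 := fun e => hs (by
      have := (Real.exp_eq_one_iff _).1 e
      push_cast at this
      linarith)
    have e7 : (Real.exp ((2 : ℕ) * (s / 2)) - 1) * ‖c ξ‖ ^ 2 = 0 := by linarith
    exact norm_eq_zero.1 (pow_eq_zero_iff two_ne_zero |>.1
      ((mul_eq_zero.1 e7).resolve_left (sub_ne_zero.2 e6)))
  · rw [e4]; rfl

theorem Flow.noeig (fl : Flow M J ξ F β U) (h : Base M J P ξ F) {η : H} (hη : η ∈ BK M J ξ)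
    (h0 : ⟪ξ, η⟫_ℂ = 0) {s : ℝ} (hS : F.Supp η {s}) : η = 0 := by
  refine norm_le_zero_iff.1 (le_of_forall_pos_le_add fun γ hγ => ?_)
  rw [zero_add]
  obtain ⟨a, ha, h1⟩ := BK.approx hη hγ
  obtain ⟨c, hc, hS', hT⟩ := Bic.exists_comp₉ h.md s ha
  have h2 : ‖η - c ξ‖ ≤ γ := by
    refine le_of_tendsto ((hT ξ).const_sub η).norm ?_
    filter_upwards [self_mem_nhdsWithin] with ε hε
    have e : F.f (tri s ε) η = η := by
      rw [F.eigen_of_supp (bc_tri s hε) hS, tri_self₃, one_smul]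
    rw [h.md.band_xi hε, ← e, ← map_sub]
    refine (F.norm_le (bc_tri s hε) (F.supp_univ _) zero_le_one
      fun r _ => norm_tri_le s hε r).trans ?_
    rwa [one_mul]
  have h3 : ⟪c ξ, η⟫_ℂ = 0 := by
    by_cases hs : s = 0
    · rw [fl.comp_zero₉ h hc (hs ▸ hS'), smul_apply, inner_smul_left,
        one_apply_eq_self, h0, mul_zero]
    · rw [fl.comp_ne₉ h hc hs hS', inner_zero_left]
  refine g_cancel (norm_nonneg _) hγ.le ?_
  have h4 := norm_inner_le_norm (𝕜 := ℂ) (η - c ξ) η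
  rw [inner_sub_left, h3, sub_zero, ← g_norm_sq] at h4
  nlinarith [norm_nonneg η]

theorem Flow.erg (fl : Flow M J ξ F β U) (h : Base M J P ξ F) : Erg M J ξ F := by
  intro w hw ζ η
  obtain ⟨c, hc, hS, hT⟩ := Bic.exists_comp₉ h.md 0 hw
  have e : ⟪ξ, c ξ⟫_ℂ = ⟪ξ, w ξ⟫_ℂ := by
    refine tendsto_nhds_unique (tendsto_const_nhds.inner (hT ξ)) (tendsto_const_nhds.congr' ?_)
    filter_upwards [self_mem_nhdsWithin] with ε hε
    have := F.inner_f (bc_tri 0 hε) ξ (w ξ)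
    simp only [conj_tri] at this
    rw [h.md.band_xi hε, ← this, h.md.f_xi _ (bc_tri 0 hε), tri_self₃, one_smul]
  have t := (tendsto_const_nhds (x := ζ)).inner (𝕜 := ℂ) (hT η)
  rw [fl.comp_zero₉ h hc hS, e, smul_apply, inner_smul_right, one_apply_eq_self] at t
  refine t.congr' ?_
  filter_upwards [self_mem_nhdsWithin] with ε hε
  rw [mc_inner (F.sc_σ w) hε, F.band_zero]

theorem Erg.norm_sq (e : Erg M J ξ F) (h : Mod M J ξ F) {y : H →L[ℂ] H} (hy : y ∈ Bic M J ξ)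
    (η : H) : Tendsto (fun ε => mn ε fun t => ‖F.σ t y η‖ ^ 2) (𝓝[>] 0)
      (𝓝 (‖y ξ‖ ^ 2 * ‖η‖ ^ 2)) := by
  have t := (Complex.continuous_re.tendsto _).comp (e _ (Bic.mul h (Bic.star h hy) hy) η η)
  have e1 : (⟪ξ, (star y * y) ξ⟫_ℂ * ⟪η, η⟫_ℂ).re = ‖y ξ‖ ^ 2 * ‖η‖ ^ 2 := by
    rw [norm_sq_apply, ← Complex.re_mul_ofReal, inner_self_eq_norm_sq_to_K]
    simp
  rw [e1] at t
  refine t.congr' ?_
  filter_upwards [self_mem_nhdsWithin] with ε hε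
  rw [Function.comp_apply, ← mn_re hε ((F.sc_σ _).bc η η)]
  simp only [norm_sq_apply, F.σ_star, F.σ_mul]

theorem Erg.norm_sq' (e : Erg M J ξ F) (h : Mod M J ξ F) {c : H →L[ℂ] H} (hc : c ∈ Bic M J ξ)
    (η : H) : Tendsto (fun ε => mn ε fun t => ‖c (F.V t η)‖ ^ 2) (𝓝[>] 0)
      (𝓝 (‖c ξ‖ ^ 2 * ‖η‖ ^ 2)) := by
  refine (e.norm_sq h hc η).congr fun ε => ?_
  rw [← mn_comp_neg]
  simp only [F.σ_apply₃, F.V_norm, neg_neg]

end Vale.Agent.P132
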