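import Vale.Agent.P132.MM
import Vale.Agent.P132.Erg
import Vale.Agent.P132.DOI

/-! Asymptotic braiding and mixing. -/

open scoped InnerProductSpace Topology ComplexConjugate
open Filter MeasureTheory

namespace Vale.Agent.P132

open Vale.Agent.P104

variable {H : Type*} [NormedAddCommGroup H] [InnerProductSpace ℂ H] [CompleteSpace H]
  {M : VonNeumannAlgebra H} {J : H →L⋆[ℂ] H} {P : Set H} {ξ : H} {F : FC H}

variable {β : ℝ → (H →L[ℂ] H) → (H →L[ℂ] H)} {U : ℝ → (H →L[ℂ] H)}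

omit [InnerProductSpace ℂ H] [CompleteSpace H] in
theorem br_two (x y : H) : ‖x + y‖ ^ 2 ≤ 2 * (‖x‖ ^ 2 + ‖y‖ ^ 2) := by
  have h := pow_le_pow_left₀ (norm_nonneg _) (norm_add_le x y) 2
  nlinarith [sq_nonneg (‖x‖ - ‖y‖)]

omit [InnerProductSpace ℂ H] [CompleteSpace H] in
theorem br_three (x y z : H) : ‖x + y + z‖ ^ 2 ≤ 3 * (‖x‖ ^ 2 + ‖y‖ ^ 2 + ‖z‖ ^ 2) := by
  have h := pow_le_pow_left₀ (norm_nonneg _) (norm_add₃_le (a := x) (b := y) (c := z)) 2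
  nlinarith [sq_nonneg (‖x‖ - ‖y‖), sq_nonneg (‖x‖ - ‖z‖), sq_nonneg (‖y‖ - ‖z‖)]

theorem br_sc_V (F : FC H) : SC F.V := ⟨F.V_cont, 1, F.V_opNorm_le₃⟩

theorem br_pos : ∀ᶠ ε in 𝓝[>] (0 : ℝ), 0 < ε := self_mem_nhdsWithin

theorem br_flip (h : Mod M J ξ F) (x y z : H →L[ℂ] H) (t : ℝ) :
    ‖(F.σ (-t) x * y - z * F.σ (-t) x) ξ‖ = ‖(x * F.σ t y - F.σ t z * x) ξ‖ := by
  rw [← F.V_norm t, ← h.σ_xi, F.σ_sub, F.σ_mul, F.σ_mul, F.σ_σ, add_neg_cancel, F.σ_zero]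

theorem Flow.asym (fl : Flow M J ξ F β U) (h : Base M J P ξ F) {a b : H →L[ℂ] H}
    (ha : a ∈ Bic M J ξ) (han : An M J ξ a) (hb : b ∈ M)
    (hor : b ∈ Bic M J ξ ∨ ∀ s, ∀ b ∈ Bic M J ξ, β s b = b) {s δ ω : ℝ} (hδ : 0 < δ)
    (hS : F.Supp (b ξ) (Set.Icc (s - δ) (s + δ)))
    (hω : ∀ r, |r| ≤ 3 * δ → ‖U r (a ξ) - a ξ‖ ≤ ω) {γ : ℝ} (hγ : 0 < γ) :
    ∀ᶠ ε in 𝓝[>] (0 : ℝ), (mn ε fun t => ‖(F.σ t b * a - β (-s) a * F.σ t b) ξ‖ ^ 2) ≤
      18 * ω ^ 2 * ‖b ξ‖ ^ 2 + γ := by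
  have md := h.md
  have er := fl.erg h
  have hγ' : 0 < γ / 18 := by positivity
  have hle : ∀ᶠ ε in 𝓝[>] (0 : ℝ), ε ≤ δ := mem_nhdsWithin_of_mem_nhds (Iic_mem_nhds hδ)
  obtain ⟨e, ⟨he, heδ⟩, hT⟩ :=
    ((br_pos.and hle).and (fl.toeplitz h ha ‖b‖ (|s| + 2 * δ) δ hδ hγ')).exists
  let t : Finset ℤ := Finset.Icc ⌈(s - δ - e) / e⌉ ⌊(s + δ + e) / e⌋
  have ht : ∀ k : ℤ, k ∈ t ↔ s - δ - e ≤ k * e ∧ k * e ≤ s + δ + e := fun k => by
    rw [Finset.mem_Icc, Int.ceil_le, Int.le_floor, div_le_iff₀ he, le_div_iff₀ he]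
  have hsum : ∑ k ∈ t, F.f (tri (k * e) e) (b ξ) = b ξ :=
    F.sum_tri_of_supp he hS t fun r hr k hk => (ht k).2 (by
      obtain ⟨c3, c4⟩ := abs_lt.1 hk
      constructor <;> linarith [hr.1, hr.2])
  obtain ⟨a', ha', haa⟩ := han
  obtain ⟨D, hD⟩ : ∃ D, D = rt J a' - β (-s) a := ⟨_, rfl⟩
  have hDV : ∀ x ∈ M, ∀ r, D (F.V r (x ξ)) = (F.σ r x * a - β (-s) a * F.σ r x) ξ := by
    intro x hx r
    rw [hD, sub_apply, sub_apply, mul_apply_eq_comp, mul_apply_eq_comp, haa,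
      md.bi.comm_apply (md.sigma_mem r x hx) ha', md.σ_xi]
  obtain ⟨m, hm⟩ : ∃ m, m = ⌊δ / e⌋₊ := ⟨_, rfl⟩
  rw [← hm] at hT
  have hj : ∀ j ∈ Finset.range (m + 1), 0 ≤ (j : ℝ) * e ∧ (j : ℝ) * e ≤ δ := by
    intro j hj
    refine ⟨by positivity, ?_⟩
    rw [← le_div_iff₀ he, ← Nat.le_floor_iff (by positivity), ← hm]
    exact Nat.lt_succ_iff.1 (Finset.mem_range.1 hj)
  let B : ℤ → H →L[ℂ] H := fun k => F.band (k * e) e b
  have hB : ∀ k, B k ∈ M := fun k => md.band_mem he _ hb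
  let g1 : ℕ → ℤ → ℝ → ℝ := fun j k r => ‖F.σ r (B k) ((a - β (j * e) a) ξ)‖ ^ 2
  let g2 : ℕ → ℤ → ℝ → ℝ := fun j k r =>
    ‖(F.σ r (B k) * β (j * e) a - β (((j : ℝ) - k) * e) a * F.σ r (B k)) ξ‖ ^ 2
  let g3 : ℕ → ℤ → ℝ → ℝ := fun j k r =>
    ‖(β (((j : ℝ) - k) * e) a - β (-s) a) (F.V r (B k ξ))‖ ^ 2
  let g0 : ℤ → ℝ → ℝ := fun k r => ‖D (F.V r (B k ξ))‖ ^ 2
  have b1 : ∀ j k, BR (g1 j k) := fun j k => (F.sc_σ _).br _
  have b2 : ∀ j k, BR (g2 j k) := fun j k =>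
    (((F.sc_σ _).mul (SC.const _)).sub ((SC.const _).mul (F.sc_σ _))).br _
  have b3 : ∀ j k, BR (g3 j k) := fun j k =>
    ((SC.const (β (((j : ℝ) - k) * e) a - β (-s) a)).mul (br_sc_V F)).br (B k ξ)
  have b0 : ∀ k, BR (g0 k) := fun k => ((SC.const _).mul (br_sc_V F)).br _
  have hpt : ∀ j k r, g0 k r ≤ 3 * (g1 j k r + g2 j k r + g3 j k r) := by
    intro j k r
    simp only [g0, g1, g2, g3]
    rw [hDV _ (hB k), ← md.σ_xi]
    refine le_trans (le_of_eq ?_) (br_three _ _ _)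
    congr 2
    simp only [sub_apply, mul_apply_eq_comp, map_sub]
    abel
  have h2 : ∀ r, ∑ j ∈ Finset.range (m + 1), ∑ k ∈ t, g2 j k r ≤ γ / 18 * (m + 1) := by
    intro r
    have := hT (F.σ r b) (md.sigma_mem r b hb) (F.σ_norm r b).le
      (hor.imp_left fun hb' => Bic.σ md hb' r) t (fun k hk => by
        obtain ⟨c1, c2⟩ := (ht k).1 hk
        rw [abs_le]
        constructor <;> linarith [le_abs_self s, neg_abs_le s])
    simpa only [g2, B, F.σ_band he] using this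
  have l1 : ∀ j k, Tendsto (fun ε => mn ε (g1 j k)) (𝓝[>] 0)
      (𝓝 (‖B k ξ‖ ^ 2 * ‖(a - β (j * e) a) ξ‖ ^ 2)) := by
    intro j k
    rcases hor with hb' | triv
    · exact er.norm_sq md (Bic.band md hb' _ he) _
    · simp only [g1, triv _ a ha, sub_self, zero_apply, map_zero, norm_zero, mn]
      simp
  have l3 : ∀ j k, Tendsto (fun ε => mn ε (g3 j k)) (𝓝[>] 0)
      (𝓝 (‖(β (((j : ℝ) - k) * e) a - β (-s) a) ξ‖ ^ 2 * ‖B k ξ‖ ^ 2)) := fun j k =>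
    er.norm_sq' md (Bic.sub (fl.mem _ a ha) (fl.mem _ a ha)) _
  have hlim := tendsto_finsetSum (Finset.range (m + 1)) fun j _ =>
    tendsto_finsetSum t fun k _ => (l1 j k).add (l3 j k)
  have hbd : ∑ j ∈ Finset.range (m + 1), ∑ k ∈ t,
      (‖B k ξ‖ ^ 2 * ‖(a - β (j * e) a) ξ‖ ^ 2 +
        ‖(β (((j : ℝ) - k) * e) a - β (-s) a) ξ‖ ^ 2 * ‖B k ξ‖ ^ 2) <
      (2 * ω ^ 2 * ‖b ξ‖ ^ 2 + γ / 18) * (m + 1) := by
    have hs := F.sum_tri_norm_sq_le he (b ξ) t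
    have : ∀ j ∈ Finset.range (m + 1), ∑ k ∈ t,
        (‖B k ξ‖ ^ 2 * ‖(a - β (j * e) a) ξ‖ ^ 2 +
          ‖(β (((j : ℝ) - k) * e) a - β (-s) a) ξ‖ ^ 2 * ‖B k ξ‖ ^ 2) ≤
        2 * ω ^ 2 * ‖b ξ‖ ^ 2 := by
      intro j hj'
      obtain ⟨j0, j1⟩ := hj j hj'
      refine le_trans (Finset.sum_le_sum (g := fun k => 2 * ω ^ 2 * ‖B k ξ‖ ^ 2) fun k hk => ?_) ?_
      · obtain ⟨c1, c2⟩ := (ht k).1 hk
        have e1 : ‖(a - β (j * e) a) ξ‖ ≤ ω := by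
          rw [sub_apply, ← fl.U_apply _ a ha, norm_sub_rev]
          exact hω _ (by rw [abs_le]; constructor <;> linarith)
        have e2 : ‖(β (((j : ℝ) - k) * e) a - β (-s) a) ξ‖ ≤ ω := by
          have e3 : ((j : ℝ) - k) * e = -s + (((j : ℝ) - k) * e + s) := by ring
          rw [sub_apply, ← fl.U_apply _ a ha, ← fl.U_apply _ a ha, e3, fl.U_add,
            mul_apply_eq_comp, ← map_sub, fl.U_norm]
          exact hω _ (by rw [abs_le]; constructor <;> nlinarith)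
        have f1 := pow_le_pow_left₀ (norm_nonneg _) e1 2
        have f2 := pow_le_pow_left₀ (norm_nonneg _) e2 2
        nlinarith [sq_nonneg ‖B k ξ‖]
      · rw [← Finset.mul_sum]
        simp only [B, md.band_xi he]
        gcongr
    refine (Finset.sum_le_sum this).trans_lt ?_
    rw [Finset.sum_const, Finset.card_range, nsmul_eq_mul]
    push_cast
    nlinarith [Nat.cast_nonneg (α := ℝ) m]
  have hle' : ∀ᶠ ε in 𝓝[>] (0 : ℝ), ε ≤ e := mem_nhdsWithin_of_mem_nhds (Iic_mem_nhds he)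
  filter_upwards [br_pos, hle', hlim.eventually (gt_mem_nhds hbd)] with ε hε hεe hE
  have k1 := F.band_lemma hε hεe D t (b ξ)
  rw [hsum] at k1
  simp only [hDV b hb, ← md.band_xi he] at k1
  have k2 : ∑ _j ∈ Finset.range (m + 1), ∑ k ∈ t, mn ε (g0 k) ≤
      ∑ j ∈ Finset.range (m + 1), ∑ k ∈ t,
        3 * ((mn ε (g1 j k) + mn ε (g3 j k)) + mn ε (g2 j k)) :=
    Finset.sum_le_sum fun j _ => Finset.sum_le_sum fun k _ => by
      have := mn_mono hε (b0 k) ((((b1 j k).add (b2 j k)).add (b3 j k)).const_mul 3) (hpt j k)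
      rw [mn_const_mul, mn_add hε ((b1 j k).add (b2 j k)) (b3 j k), mn_add hε (b1 j k) (b2 j k)]
        at this
      linarith
  have k3 : ∑ j ∈ Finset.range (m + 1), ∑ k ∈ t, mn ε (g2 j k) ≤ γ / 18 * (m + 1) := by
    have := mn_mono hε (BR.sum _ fun j _ => BR.sum t fun k _ => b2 j k) (BR.const _) h2
    rw [mn_const hε, mn_sum hε _ fun j _ => BR.sum t fun k _ => b2 j k] at this
    simpa only [mn_sum hε t fun k _ => b2 _ k] using this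
  simp only [← Finset.mul_sum, Finset.sum_add_distrib (f := fun k => mn ε (g1 _ k) + mn ε (g3 _ k)),
    Finset.sum_const, Finset.card_range, nsmul_eq_mul] at k2
  rw [Finset.sum_add_distrib] at k2
  push_cast at k2
  have k4 : ∑ k ∈ t, mn ε (g0 k) ≤ 3 * (2 * ω ^ 2 * ‖b ξ‖ ^ 2 + γ / 18 + γ / 18) := by
    refine le_of_mul_le_mul_left ?_ (show (0 : ℝ) < m + 1 by positivity)
    nlinarith
  change _ ≤ 3 * ∑ k ∈ t, mn ε (g0 k) at k1
  linarith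

theorem Flow.braid_core (fl : Flow M J ξ F β U) (h : Base M J P ξ F) {a b : H →L[ℂ] H}
    (ha : a ∈ Bic M J ξ) (hb : b ∈ Bic M J ξ) (han : An M J ξ a) (hbn : An M J ξ b)
    {s s' δ ω₁ ω₂ : ℝ} (hδ : 0 < δ) (hS : F.Supp (a ξ) (Set.Icc (s - δ) (s + δ)))
    (hS' : F.Supp (b ξ) (Set.Icc (s' - δ) (s' + δ)))
    (h1 : ∀ r, |r| ≤ 3 * δ → ‖U r (a ξ) - a ξ‖ ≤ ω₁)
    (h2 : ∀ r, |r| ≤ 3 * δ → ‖U r (b ξ) - b ξ‖ ≤ ω₂) :
    ‖a ξ‖ ^ 2 * ‖b ξ‖ ^ 2 - (⟪U (-s) (b ξ), b ξ⟫_ℂ * ⟪U (-s') (a ξ), a ξ⟫_ℂ).re ≤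
      18 * (ω₁ ^ 2 * ‖b ξ‖ ^ 2 + ω₂ ^ 2 * ‖a ξ‖ ^ 2) := by
  have md := h.md
  have er := fl.erg h
  have ha1 := fl.mem (-s') a ha
  have hb1 := fl.mem (-s) b hb
  have ea := fl.U_apply (-s') a ha
  have eb := fl.U_apply (-s) b hb
  have na : ‖β (-s') a ξ‖ = ‖a ξ‖ := by rw [← ea, fl.U_norm]
  have nb : ‖β (-s) b ξ‖ = ‖b ξ‖ := by rw [← eb, fl.U_norm]
  refine le_of_forall_pos_le_add fun γ hγ => ?_
  have A1 := fl.asym h ha han hb.1 (Or.inl hb) hδ hS' h1 (half_pos hγ)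
  have A2 := fl.asym h hb hbn ha1.1 (Or.inl ha1) hδ
    (ea ▸ F.supp_map (fl.U_comm (-s')) isClosed_Icc hS) h2 (half_pos hγ)
  have L1 := er.norm_sq md hb (a ξ)
  have L2 := er.norm_sq md hb1 (β (-s') a ξ)
  have L3 := (Complex.continuous_re.tendsto _).comp
    (er _ (Bic.mul md (Bic.star md hb1) hb) (β (-s') a ξ) (a ξ))
  have L := (L1.add L2).sub (L3.const_mul 2)
  have e0 : ⟪ξ, (Star.star (β (-s) b) * b) ξ⟫_ℂ = ⟪β (-s) b ξ, b ξ⟫_ℂ := by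
    rw [mul_apply_eq_comp, ContinuousLinearMap.star_eq_adjoint,
      ContinuousLinearMap.adjoint_inner_right]
  rw [na, nb, e0] at L
  have := le_of_tendsto L (b := 2 * ((18 * ω₁ ^ 2 * ‖b ξ‖ ^ 2 + γ / 2) +
      (18 * ω₂ ^ 2 * ‖a ξ‖ ^ 2 + γ / 2))) (by
    filter_upwards [br_pos, A1, A2] with ε hε k1 k2
    rw [← mn_comp_neg, na] at k2
    simp only [br_flip md] at k2
    have c1 : BR fun t => ‖(F.σ t b * a - β (-s') a * F.σ t b) ξ‖ ^ 2 :=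
      (((F.sc_σ _).mul (SC.const _)).sub ((SC.const _).mul (F.sc_σ _))).br _
    have c2 : BR fun t => ‖(β (-s') a * F.σ t b - F.σ t (β (-s) b) * β (-s') a) ξ‖ ^ 2 :=
      (((SC.const _).mul (F.sc_σ _)).sub ((F.sc_σ _).mul (SC.const _))).br _
    have d1 := (F.sc_σ b).br (a ξ)
    have d2 := (F.sc_σ (β (-s) b)).br (β (-s') a ξ)
    have d3 := (F.sc_σ (Star.star (β (-s) b) * b)).bc (β (-s') a ξ) (a ξ)
    have k3 := mn_mono hε ((d1.add d2).sub (d3.re.const_mul 2)) ((c1.add c2).const_mul 2)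
      fun t => by
        refine le_trans (le_of_eq ?_) (br_two _ _)
        have e1 : (F.σ t b * a - β (-s') a * F.σ t b) ξ +
            (β (-s') a * F.σ t b - F.σ t (β (-s) b) * β (-s') a) ξ =
            F.σ t b (a ξ) - F.σ t (β (-s) b) (β (-s') a ξ) := by
          simp only [sub_apply, mul_apply_eq_comp]
          abel
        rw [e1, norm_sub_rev, norm_sub_sq (𝕜 := ℂ), F.σ_mul, ← F.σ_star, mul_apply_eq_comp,
          ContinuousLinearMap.star_eq_adjoint, ContinuousLinearMap.adjoint_inner_right]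
        simp only [RCLike.re_to_complex]
        ring
    rw [mn_sub hε (d1.add d2) (d3.re.const_mul 2), mn_add hε d1 d2, mn_const_mul, mn_re hε d3,
      mn_const_mul, mn_add hε c1 c2] at k3
    simp only [Function.comp_apply]
    linarith)
  rw [ea, eb]
  linarith

theorem Flow.braid (fl : Flow M J ξ F β U) (h : Base M J P ξ F) : Braid F U (BK M J ξ) := by
  intro α hα α' hα' s s' δ ω₁ ω₂ hδ hS hS' h1 h2
  have hp : ∀ n : ℕ, (0 : ℝ) < 1 / ((n : ℝ) + 1) := fun n => by positivity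
  choose a ha han hd hs using fun n : ℕ => BK.an_band h.md hα hδ hS (hp n)
  choose b hb hbn hd' hs' using fun n : ℕ => BK.an_band h.md hα' hδ hS' (hp n)
  have t0 := tendsto_one_div_add_atTop_nhds_zero_nat (𝕜 := ℝ)
  have ta : Tendsto (fun n => a n ξ) atTop (𝓝 α) := tendsto_iff_norm_sub_tendsto_zero.2
    (squeeze_zero (fun _ => norm_nonneg _) (fun n => by rw [norm_sub_rev]; exact hd n) t0)
  have tb : Tendsto (fun n => b n ξ) atTop (𝓝 α') := tendsto_iff_norm_sub_tendsto_zero.2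
    (squeeze_zero (fun _ => norm_nonneg _) (fun n => by rw [norm_sub_rev]; exact hd' n) t0)
  have key : ∀ (η ζ : H) (γ ω r : ℝ), ‖η - ζ‖ ≤ γ → ‖U r η - η‖ ≤ ω →
      ‖U r ζ - ζ‖ ≤ ω + 2 * γ := by
    intro η ζ γ ω r e1 e2
    have e : U r ζ - ζ = U r η - η + (η - ζ) - U r (η - ζ) := by
      rw [map_sub]
      abel
    have e3 := fl.U_norm r (η - ζ)
    rw [e]
    refine (norm_sub_le _ _).trans ?_
    linarith [norm_add_le (U r η - η) (η - ζ)]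
  have hn := fun n => fl.braid_core h (ha n) (hb n) (han n) (hbn n) (by positivity) (hs n) (hs' n)
    (fun r hr => key _ _ _ _ r (hd n) (h1 r (by linarith)))
    (fun r hr => key _ _ _ _ r (hd' n) (h2 r (by linarith)))
  have l1 := ((ta.norm.pow 2).mul (tb.norm.pow 2)).sub ((Complex.continuous_re.tendsto _).comp
    (((((U (-s)).continuous.tendsto _).comp tb).inner (𝕜 := ℂ) tb).mul
      ((((U (-s')).continuous.tendsto _).comp ta).inner (𝕜 := ℂ) ta)))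
  have l2 := (((((t0.const_mul 2).const_add ω₁).pow 2).mul (tb.norm.pow 2)).add
    ((((t0.const_mul 2).const_add ω₂).pow 2).mul (ta.norm.pow 2))).const_mul 18
  simpa only [mul_zero, add_zero] using le_of_tendsto_of_tendsto' l1 l2 hn

theorem br_nul {g : ℝ → ℝ} (hg : BR g) (h0 : ∀ t, 0 ≤ g t)
    (h : ∀ γ : ℝ, 0 < γ → ∃ k, BR k ∧ (∀ t, g t ≤ k t) ∧ ∃ L, L ≤ γ ∧
      Tendsto (fun ε => mn ε k) (𝓝[>] 0) (𝓝 L)) :
    Tendsto (fun ε => mn ε g) (𝓝[>] 0) (𝓝 0) := by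
  refine tendsto_order.2 ⟨fun c hc => br_pos.mono fun ε hε => hc.trans_le (mn_nonneg hε h0),
    fun c hc => ?_⟩
  obtain ⟨k, hk, hgk, L, hL, hT⟩ := h (c / 2) (half_pos hc)
  filter_upwards [br_pos, hT.eventually (gt_mem_nhds (hL.trans_lt (half_lt_self hc)))] with ε hε hE
  exact (mn_mono hε hg hk hgk).trans_lt hE

theorem br_small (C : ℝ) {γ : ℝ} (hγ : 0 < γ) : ∃ d : ℝ, 0 < d ∧ d ^ 2 * C ≤ γ := by
  refine ⟨√(γ / (|C| + 1)), by positivity, ?_⟩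
  rw [Real.sq_sqrt (by positivity), div_mul_eq_mul_div, div_le_iff₀ (by positivity)]
  nlinarith [le_abs_self C]

omit [CompleteSpace H] in
theorem br_closed {T : ℝ → H →L[ℂ] H} (hT : SC T) {η : H}
    (h : ∀ γ : ℝ, 0 < γ → ∃ ζ, ‖η - ζ‖ ≤ γ ∧
      Tendsto (fun ε => mn ε fun t => ‖T t ζ‖ ^ 2) (𝓝[>] 0) (𝓝 0)) :
    Tendsto (fun ε => mn ε fun t => ‖T t η‖ ^ 2) (𝓝[>] 0) (𝓝 0) := by
  refine br_nul (hT.br η) (fun _ => sq_nonneg _) fun γ hγ => ?_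
  obtain ⟨C, hC⟩ := hT.2
  obtain ⟨d, hd, hdγ⟩ := br_small (2 * C ^ 2) hγ
  obtain ⟨ζ, h1, h2⟩ := h d hd
  refine ⟨fun t => 2 * ‖T t ζ‖ ^ 2 + γ, ((hT.br ζ).const_mul 2).add (BR.const γ), fun t => ?_,
    γ, le_rfl, ?_⟩
  · have e : T t η = T t ζ + T t (η - ζ) := by rw [map_sub, add_sub_cancel]
    have e1 : ‖T t (η - ζ)‖ ≤ C * d := ((T t).le_opNorm _).trans
      (mul_le_mul (hC t) h1 (norm_nonneg _) ((norm_nonneg _).trans (hC t)))
    have e2 := pow_le_pow_left₀ (norm_nonneg _) e1 2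
    have e3 := br_two (T t ζ) (T t (η - ζ))
    rw [e]
    nlinarith
  · have := (h2.const_mul 2).add_const γ
    rw [mul_zero, zero_add] at this
    refine this.congr' (br_pos.mono fun ε hε => ?_)
    beta_reduce
    rw [mn_add hε ((hT.br ζ).const_mul 2) (BR.const γ), mn_const_mul, mn_const hε]

theorem Flow.mix_an (fl : Flow M J ξ F β U) (h : Base M J P ξ F)
    (triv : ∀ s, ∀ b ∈ Bic M J ξ, β s b = b) {y : H →L[ℂ] H} (hy : y ∈ Bic M J ξ)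
    (han : An M J ξ y) {b : H →L[ℂ] H} (hb : b ∈ M) (η : H) :
    Tendsto (fun ε => mn ε fun t => ‖(F.σ t y * b - b * F.σ t y) η‖ ^ 2) (𝓝[>] 0) (𝓝 0) := by
  have md := h.md
  have sc : ∀ b : H →L[ℂ] H, SC fun t => F.σ t y * b - b * F.σ t y := fun b =>
    ((F.sc_σ _).mul (SC.const _)).sub ((SC.const _).mul (F.sc_σ _))
  have s1 : ∀ b ∈ M, ∀ δ : ℝ, 0 < δ → F.Supp (b ξ) (Set.Icc (0 - δ) (0 + δ)) →
      Tendsto (fun ε => mn ε fun t => ‖(F.σ t y * b - b * F.σ t y) ξ‖ ^ 2) (𝓝[>] 0) (𝓝 0) := by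
    intro b hb δ hδ hS
    refine tendsto_order.2 ⟨fun c hc => br_pos.mono fun ε hε =>
      hc.trans_le (mn_nonneg hε fun _ => sq_nonneg _), fun c hc => ?_⟩
    filter_upwards [fl.asym h hy han hb (Or.inr triv) (ω := 0) hδ hS
      (fun r _ => by rw [fl.U_apply r y hy, triv r y hy, sub_self, norm_zero]) (half_pos hc)]
      with ε hε
    rw [← mn_comp_neg, triv _ y hy] at hε
    simp only [br_flip md] at hε
    have e : ∀ t, ‖(F.σ t y * b - b * F.σ t y) ξ‖ = ‖(b * F.σ t y - F.σ t y * b) ξ‖ := fun t => by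
      rw [sub_apply, sub_apply, norm_sub_rev]
    simp only [e]
    linarith
  obtain ⟨y', hy', hyy⟩ := han
  have e1 : ∀ b ∈ M, ∀ t, (F.σ t y * b - b * F.σ t y) ξ = (F.σ t y - F.σ t (rt J y')) (b ξ) := by
    intro b hb t
    rw [sub_apply, sub_apply, mul_apply_eq_comp, mul_apply_eq_comp, md.pre.σ_rt,
      ← md.bi.comm_apply hb (md.sigma_mem t y' hy'), md.rt_σ_xi, ← hyy, md.σ_xi]
  have s2 : Tendsto (fun ε => mn ε fun t => ‖(F.σ t y * b - b * F.σ t y) ξ‖ ^ 2)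
      (𝓝[>] 0) (𝓝 0) := by
    simp only [e1 b hb]
    refine br_closed ((F.sc_σ y).sub (F.sc_σ _)) fun γ hγ => ?_
    obtain ⟨n, hn⟩ := ((tendsto_iff_norm_sub_tendsto_zero.1
      (F.tendsto_tri_atTop (b ξ))).eventually (ge_mem_nhds hγ)).exists
    have hp : (0 : ℝ) < n + 1 := by positivity
    refine ⟨F.band 0 (n + 1) b ξ, by rwa [md.band_xi hp, norm_sub_rev], ?_⟩
    simpa only [e1 _ (md.band_mem hp 0 hb)] using
      s1 _ (md.band_mem hp 0 hb) _ hp (md.band_supp hp 0 b)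
  refine br_closed (sc b) fun γ hγ => ?_
  obtain ⟨x, hx, hd⟩ := md.sep.cyc_comm η γ hγ
  refine ⟨x ξ, hd, br_nul ((sc b).br _) (fun _ => sq_nonneg _) fun γ' hγ' => ?_⟩
  refine ⟨_, ((sc b).br ξ).const_mul (‖x‖ ^ 2), fun t => ?_, 0, hγ'.le, ?_⟩
  · have m := md.sigma_mem t y hy.1
    rw [← mul_apply_eq_comp, VonNeumannAlgebra.mem_commutant_iff.1 hx _
      (sub_mem (mul_mem m hb) (mul_mem hb m)), mul_apply_eq_comp, ← mul_pow]
    exact pow_le_pow_left₀ (norm_nonneg _) (x.le_opNorm _) 2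
  · simpa only [mn_const_mul, mul_zero] using s2.const_mul (‖x‖ ^ 2)

theorem Flow.mix_cl (fl : Flow M J ξ F β U) (h : Base M J P ξ F)
    (triv : ∀ s, ∀ b ∈ Bic M J ξ, β s b = b) {y : H →L[ℂ] H} (hy : y ∈ Bic M J ξ)
    {b : H →L[ℂ] H} (hb : b ∈ M) (η : H) :
    Tendsto (fun ε => mn ε fun t => ‖(F.σ t y * b - b * F.σ t y) η‖ ^ 2) (𝓝[>] 0) (𝓝 0) := by
  have md := h.md
  have er := fl.erg h
  have sc : ∀ y : H →L[ℂ] H, SC fun t => F.σ t y * b - b * F.σ t y := fun y =>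
    ((F.sc_σ _).mul (SC.const _)).sub ((SC.const _).mul (F.sc_σ _))
  refine br_nul ((sc y).br η) (fun _ => sq_nonneg _) fun γ hγ => ?_
  obtain ⟨d, hd, hdγ⟩ := br_small (3 * (‖b η‖ ^ 2 + ‖b‖ ^ 2 * ‖η‖ ^ 2)) hγ
  obtain ⟨y', hy', han, hyy, -⟩ := Bic.an_dense md hy hd
  have hc := Bic.sub hy hy'
  have c1 := (sc y').br η
  have c2 := (F.sc_σ (y - y')).br (b η)
  have c3 := ((F.sc_σ (y - y')).br η).const_mul (‖b‖ ^ 2)
  refine ⟨_, ((c1.add c2).add c3).const_mul 3, fun t => ?_,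
    3 * (0 + ‖(y - y') ξ‖ ^ 2 * ‖b η‖ ^ 2 + ‖b‖ ^ 2 * (‖(y - y') ξ‖ ^ 2 * ‖η‖ ^ 2)), ?_, ?_⟩
  · have e : (F.σ t y * b - b * F.σ t y) η = (F.σ t y' * b - b * F.σ t y') η +
        F.σ t (y - y') (b η) + -(b (F.σ t (y - y') η)) := by
      simp only [F.σ_sub, sub_apply, mul_apply_eq_comp, map_sub]
      abel
    have e1 := br_three ((F.σ t y' * b - b * F.σ t y') η) (F.σ t (y - y') (b η))
      (-(b (F.σ t (y - y') η)))
    have e2 := pow_le_pow_left₀ (norm_nonneg _) (b.le_opNorm (F.σ t (y - y') η)) 2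
    rw [norm_neg] at e1
    rw [mul_pow] at e2
    rw [e]
    linarith
  · have e1 : ‖(y - y') ξ‖ ^ 2 ≤ d ^ 2 := pow_le_pow_left₀ (norm_nonneg _) hyy 2
    refine le_trans ?_ hdγ
    nlinarith [mul_le_mul_of_nonneg_right e1 (sq_nonneg ‖b η‖),
      mul_le_mul_of_nonneg_right e1 (mul_nonneg (sq_nonneg ‖b‖) (sq_nonneg ‖η‖))]
  · refine ((((fl.mix_an h triv hy' han hb η).add (er.norm_sq md hc (b η))).add
      ((er.norm_sq md hc η).const_mul (‖b‖ ^ 2))).const_mul 3).congr' (br_pos.mono fun ε hε => ?_)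
    beta_reduce
    rw [mn_const_mul, mn_add hε (c1.add c2) c3, mn_add hε c1 c2, mn_const_mul]

theorem Flow.mix (fl : Flow M J ξ F β U) (h : Base M J P ξ F)
    (triv : ∀ s, ∀ b ∈ Bic M J ξ, β s b = b) {y : H →L[ℂ] H} (hy : y ∈ Bic M J ξ) :
    Mix M J ξ F y := by
  have md := h.md
  have er := fl.erg h
  refine ⟨hy.1, fun b hb η => fl.mix_cl h triv hy hb η, fun b hb η => ?_,
    fun η => er.norm_sq md hy η, fun η => ?_⟩
  · have e : ∀ t, ‖rt J (F.σ t y * b - b * F.σ t y) η‖ =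
        ‖(F.σ t (Star.star y) * Star.star b - Star.star b * F.σ t (Star.star y)) (J η)‖ := fun t => by
      rw [md.cj.norm_rt_apply, star_sub, star_mul, star_mul, F.σ_star, sub_apply, sub_apply,
        norm_sub_rev]
    simpa only [e] using fl.mix_cl h triv (Bic.star md hy) (star_mem hb) (J η)
  · simpa only [md.cj.norm_rt_apply, F.σ_star, md.cj.norm, md.fix] using
      er.norm_sq md (Bic.star md hy) (J η)

end Vale.Agent.P132
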