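import Vale.Agent.P132.Gamma
import Vale.Agent.P132.Cut
import Vale.Agent.P132.Zorn

/-! Connes-Stormer transitivity. -/

open scoped InnerProductSpace Topology ComplexConjugate
open Filter MeasureTheory

namespace Vale.Agent.P132

open Vale.Agent.P104

variable {H : Type*} [NormedAddCommGroup H] [InnerProductSpace ℂ H] [CompleteSpace H]
  {M : VonNeumannAlgebra H} {J : H →L⋆[ℂ] H} {P : Set H} {ξ : H} {F : FC H}

theorem cs_num {B d n : ℝ} (hB : 0 < B) (hd : 0 ≤ d) (hn : 0 < n)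
    (h : d ≤ 1 / (20 * B + 1) * n) : B * (d ^ 2 + 4 * d * n) < 1 / 2 * n ^ 2 := by
  rw [one_div, le_inv_mul_iff₀ (by positivity)] at h
  have h1 : d ≤ n := by nlinarith
  have h2 : 20 * B * d ≤ n := by nlinarith
  have h3 : B * d ^ 2 ≤ B * d * n := by nlinarith [mul_nonneg hB.le hd]
  nlinarith [mul_le_mul_of_nonneg_right h2 hn.le]

theorem cs_proj {p : H →L[ℂ] H} (hp : IsStarProjection p) {ζ : H} (hζ : ‖ζ‖ = 1) {ε η : ℝ}
    (hε : 0 < ε) (h2 : 2 * η ≤ ε ^ 2) (h3 : η ≤ 1) (h : 1 - η ≤ ‖p ζ‖) : ‖(1 - p) ζ‖ ≤ ε := by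
  have o : ⟪p ζ, (1 - p) ζ⟫_ℂ = 0 := by
    rw [← inner_star_right, hp.isSelfAdjoint.star_eq, ← mul_apply_eq_comp, mul_sub, mul_one,
      hp.isIdempotentElem.eq, sub_self, zero_apply, inner_zero_right]
  have e := norm_add_sq_eq_norm_sq_add_norm_sq_of_inner_eq_zero _ _ o
  rw [← add_apply, add_sub_cancel, one_apply_eq_self, hζ] at e
  refine (pow_le_pow_iff_left₀ (norm_nonneg _) hε.le two_ne_zero).1 ?_
  nlinarith [mul_self_le_mul_self (sub_nonneg.2 h3) h, sq_nonneg η]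

theorem Ctx.cs (h : Ctx M J P) : CS M J P := by
  intro ζ₁ m₁ ζ₂ m₂ s₁ s₂ n₁ n₂ ε hε
  have hB := h.bi
  obtain ⟨η, hη, η1, η2, η3⟩ : ∃ η : ℝ, 0 < η ∧ η ≤ ε ∧ 2 * η ≤ ε ^ 2 ∧ η ≤ 1 :=
    ⟨min (min ε (ε ^ 2 / 2)) 1, by positivity, (min_le_left _ _).trans (min_le_left _ _), by
      linarith [(min_le_left (min ε (ε ^ 2 / 2)) 1).trans (min_le_right ε (ε ^ 2 / 2))],
      min_le_right _ _⟩
  have hc : 0 < 1 / η ^ 2 := by positivity
  obtain ⟨u, hu, q, hle, hS⟩ := hB.exhaust (h.fix _ m₁) (h.fix _ m₂) s₁ ζ₁ 0 0 hc.le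
    (fun u => star u * u = 1 ∨ u * star u = 1) (by
      intro u hu q _ hS
      rw [not_or] at hS
      have M₁ : 1 - star u * u ∈ M := sub_mem (one_mem M) (mul_mem (star_mem hu) hu)
      have M₂ : 1 - u * star u ∈ M := sub_mem (one_mem M) (mul_mem hu (star_mem hu))
      have k₁ := h.cmp_mem m₁ M₁ q.init.one_sub
      have k₂ := h.cmp_mem m₂ M₂ q.fin.one_sub
      have hδ : 0 < 1 / (20 * (5 * (1 / η ^ 2)) + 1) := by positivity
      obtain ⟨x, hx, x1, x2, x3, x4⟩ := h.gamma k₁ k₂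
        ((h.isSupp_one m₁ s₁).cmp hB M₁ q.init.one_sub)
        ((h.isSupp_one m₂ s₂).cmp hB M₂ q.fin.one_sub) (sub_ne_zero.2 (Ne.symm hS.1))
        (sub_ne_zero.2 (Ne.symm hS.2)) hδ
      obtain ⟨v, hv, qv, v1, v2, v3⟩ := hB.cut (h.fix _ k₁) (h.fix _ k₂)
        (cmp J (1 - star u * u) ζ₁) 0 (A := 0) (B := 5 * (1 / η ^ 2)) le_rfl (by positivity) hx
        (by
          rw [map_zero, sub_zero, zero_mul, zero_add]
          exact cs_num (by positivity) (norm_nonneg _) (norm_pos_iff.2 x3) x4)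
      have v1' := v1 _ x1
      have v2' := v2 _ q.init.one_sub x2
      rw [map_zero, sub_zero, zero_mul, zero_add] at v3
      have v4 : ‖v (cmp J (1 - star u * u) ζ₁)‖ ≤ ‖v ζ₁‖ := by
        rw [cmp, ← mul_apply_eq_comp, v2', hB.comm_apply hv M₁]
        exact proj_norm_apply_le (hB.cj.rt_proj q.init.one_sub) _
      refine ⟨v, hv, qv, fun h0 => ?_, ?_, ?_, ?_⟩
      · rw [h0, zero_apply, norm_zero, zero_pow two_ne_zero] at v3
        exact absurd v3 (not_lt.2 (by positivity))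
      · rw [← v1', ← mul_assoc, mul_sub, mul_one, ← mul_assoc, q.init_mul, sub_self, zero_mul]
      · rw [← v2', mul_assoc, sub_mul, one_mul, q.init_mul, sub_self, mul_zero]
      · rw [map_zero, sub_zero, zero_mul, zero_add]
        have := pow_le_pow_left₀ (norm_nonneg _) v4 2
        nlinarith [mul_nonneg hc.le (sq_nonneg ‖(star u * u) (rt J (star v * v) ζ₁)‖),
          mul_nonneg hc.le (sq_nonneg ‖(u * star u) (rt J (v * star v) ζ₂)‖)])
  have hu1 : ‖u ζ₁‖ ≤ 1 := (q.norm_apply_le _).trans n₁.le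
  have hd : ‖df J 1 u ζ₁ ζ₂‖ ≤ η := by
    rw [map_zero, sub_zero, zero_mul, zero_add, one_div, inv_mul_le_iff₀ (by positivity)] at hle
    refine (pow_le_pow_iff_left₀ (norm_nonneg _) hη.le two_ne_zero).1 ?_
    have h1 : ‖u ζ₁‖ ^ 2 ≤ 1 := pow_le_one₀ (norm_nonneg _) hu1
    have h2 : ‖df J 1 u ζ₁ ζ₂‖ ^ 2 ≤ Psi J u ζ₁ ζ₂ := by
      unfold Psi
      nlinarith [sq_nonneg ‖rt J (1 - star u * u) (df J 1 u ζ₁ ζ₂)‖,
        sq_nonneg ‖(1 - u * star u) (df J 1 u ζ₁ ζ₂)‖]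
    nlinarith [sq_nonneg η]
  have hd' : |‖u ζ₁‖ - ‖star u ζ₂‖| ≤ η := by
    rw [← hB.cj.norm_rt_fix (h.fix _ m₂)]
    refine (abs_norm_sub_norm_le _ _).trans (le_trans (le_of_eq ?_) hd)
    simp [df]
  rw [abs_le] at hd'
  refine ⟨u, hu, q.norm_le, hd.trans η1, ?_⟩
  rcases hS with hS | hS
  · have e1 : ‖u ζ₁‖ = 1 := by rw [← q.norm_init, hS, one_apply_eq_self, n₁]
    refine ⟨by simp [hS, hε.le], cs_proj q.fin n₂ hε η2 η3 ?_⟩
    rw [q.norm_fin]; linarith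
  · have e1 : ‖star u ζ₂‖ = 1 := by rw [← q.norm_fin, hS, one_apply_eq_self, n₂]
    refine ⟨cs_proj q.init n₁ hε η2 η3 ?_, by simp [hS, hε.le]⟩
    rw [q.norm_init]; linarith

end Vale.Agent.P132
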