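import Vale.Agent.P132.OpInt
import Vale.Agent.P132.Rt

/-! Compensation of the frequency. -/

open scoped InnerProductSpace Topology ComplexConjugate
open Filter MeasureTheory

namespace Vale.Agent.P132

open Vale.Agent.P104

variable {H : Type*} [NormedAddCommGroup H] [InnerProductSpace ℂ H] [CompleteSpace H]
  {M : VonNeumannAlgebra H} {J : H →L⋆[ℂ] H} {P : Set H} {ξ : H} {F : FC H}

/-- Long time mean of a bounded continuous function. -/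
def CmpML (g : ℝ → ℝ) (L : ℝ) : Prop := BR g ∧ Tendsto (fun ε => mn ε g) (𝓝[>] 0) (𝓝 L)

theorem CmpML.add {g k : ℝ → ℝ} {a b : ℝ} (hg : CmpML g a) (hk : CmpML k b) :
    CmpML (fun t => g t + k t) (a + b) :=
  ⟨hg.1.add hk.1, (hg.2.add hk.2).congr'
    (eventually_mem_nhdsWithin.mono fun _ hε => (mn_add hε hg.1 hk.1).symm)⟩

theorem CmpML.sub {g k : ℝ → ℝ} {a b : ℝ} (hg : CmpML g a) (hk : CmpML k b) :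
    CmpML (fun t => g t - k t) (a - b) :=
  ⟨hg.1.sub hk.1, (hg.2.sub hk.2).congr'
    (eventually_mem_nhdsWithin.mono fun _ hε => (mn_sub hε hg.1 hk.1).symm)⟩

theorem CmpML.const_mul {g : ℝ → ℝ} {a : ℝ} (c : ℝ) (hg : CmpML g a) :
    CmpML (fun t => c * g t) (c * a) :=
  ⟨hg.1.const_mul c, (hg.2.const_mul c).congr fun ε => (mn_const_mul ε c g).symm⟩

theorem CmpML.const (c : ℝ) : CmpML (fun _ => c) c :=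
  ⟨BR.const c, tendsto_const_nhds.congr'
    (eventually_mem_nhdsWithin.mono fun _ hε => (mn_const hε c).symm)⟩

theorem CmpML.exists_pos {g : ℝ → ℝ} {a : ℝ} (hg : CmpML g a) (ha : 0 < a) : ∃ t, 0 < g t := by
  obtain ⟨ε, h1, h2⟩ := ((hg.2.eventually (lt_mem_nhds ha)).and
    (eventually_mem_nhdsWithin (a := (0 : ℝ)) (s := Set.Ioi 0))).exists
  exact exists_pos_of_mn h2 h1

theorem cmp_sc_star (F : FC H) (y : H →L[ℂ] H) : SC fun t => star (F.σ t y) := by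
  simp only [F.σ_star]
  exact F.sc_σ _

theorem cmp_sc_comm (F : FC H) (y b : H →L[ℂ] H) : SC fun t => F.σ t y * b - b * F.σ t y :=
  ((F.sc_σ y).mul (SC.const b)).sub ((SC.const b).mul (F.sc_σ y))

theorem Mix.cmp_cl {y : H →L[ℂ] H} (hy : Mix M J ξ F y) {b : H →L[ℂ] H} (hb : b ∈ M) (η : H) :
    CmpML (fun t => ‖(F.σ t y * b - b * F.σ t y) η‖ ^ 2) 0 :=
  ⟨(cmp_sc_comm F y b).br η, hy.cl b hb η⟩

theorem Mix.cmp_cr {y : H →L[ℂ] H} (hy : Mix M J ξ F y) (hJ : IsConj J) {b : H →L[ℂ] H}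
    (hb : b ∈ M) (η : H) : CmpML (fun t => ‖rt J (F.σ t y * b - b * F.σ t y) η‖ ^ 2) 0 := by
  refine ⟨(hJ.sc_rt (g := fun t => F.σ t y * b - b * F.σ t y) ?_).br η, hy.cr b hb η⟩
  simp only [star_sub, star_mul]
  exact ((SC.const _).mul (cmp_sc_star F y)).sub ((cmp_sc_star F y).mul (SC.const _))

theorem Mix.cmp_nl {y : H →L[ℂ] H} (hy : Mix M J ξ F y) (η : H) :
    CmpML (fun t => ‖F.σ t y η‖ ^ 2) (‖y ξ‖ ^ 2 * ‖η‖ ^ 2) :=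
  ⟨(F.sc_σ y).br η, hy.nl η⟩

theorem Mix.cmp_nr {y : H →L[ℂ] H} (hy : Mix M J ξ F y) (hJ : IsConj J) (η : H) :
    CmpML (fun t => ‖rt J (F.σ t y) η‖ ^ 2) (‖rt J y ξ‖ ^ 2 * ‖η‖ ^ 2) :=
  ⟨(hJ.sc_rt (cmp_sc_star F y)).br η, hy.nr η⟩

theorem cmp_sq {τ p a b : ℝ} (hτ : 0 < τ) (hp : 0 ≤ p) (h : p ≤ a + b) :
    p ^ 2 ≤ (1 + τ) * a ^ 2 + (1 + τ⁻¹) * b ^ 2 := by
  have h1 : p ^ 2 ≤ (a + b) ^ 2 := pow_le_pow_left₀ hp h 2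
  have h2 : 0 ≤ τ⁻¹ * (τ * a - b) ^ 2 := by positivity
  have h3 : τ⁻¹ * (τ * a - b) ^ 2 = τ * a ^ 2 - 2 * a * b + τ⁻¹ * b ^ 2 := by
    field_simp
    ring
  linarith

theorem cmp_small {φ : ℝ → ℝ} (hφ : Continuous φ) (h0 : 0 < φ 0) : ∃ τ, 0 < τ ∧ 0 < φ τ := by
  have h1 : ∀ᶠ τ in 𝓝[>] (0 : ℝ), 0 < φ τ :=
    nhdsWithin_le_nhds (hφ.continuousAt.eventually (lt_mem_nhds h0))
  obtain ⟨τ, h2, h3⟩ := (h1.and (eventually_mem_nhdsWithin (a := (0 : ℝ)) (s := Set.Ioi 0))).exists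
  exact ⟨τ, h3, h2⟩

theorem cmp_df (hB : Bi M J) {f₁ x Y : H →L[ℂ] H} (m₁ : f₁ ∈ M) (p₁ : IsStarProjection f₁)
    (hx : x ∈ M) (h₁ : x * f₁ = x) (hY : Y ∈ M) {e e' : ℝ} (he : e * e' = 1) (z₂ : H) :
    df J 1 (x * Y * f₁) (cmp J f₁ ξ) z₂ =
      rt J f₁ (rt J Y (df J e x (cmp J f₁ ξ) z₂)) + x ((Y * f₁ - f₁ * Y) (rt J f₁ ξ)) +
        (e : ℂ) • x (rt J f₁ (df J e' Y ξ ξ)) +
        (e : ℂ) • x (rt J f₁ (rt J (Y * f₁ - f₁ * Y) ξ)) := by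
  have hJ := hB.cj
  have a1 : ∀ u, x (f₁ u) = x u := fun u => by rw [← mul_apply_eq_comp, h₁]
  have a2 : ∀ u, f₁ (f₁ u) = f₁ u := fun u => by
    rw [← mul_apply_eq_comp, p₁.isIdempotentElem.eq]
  have a3 : ∀ u, rt J f₁ (rt J f₁ u) = rt J f₁ u := fun u => by
    rw [← hJ.rt_mul_apply, p₁.isIdempotentElem.eq]
  have a4 : rt J f₁ (rt J Y (x (f₁ (rt J f₁ ξ)))) = x (rt J f₁ (rt J Y (rt J f₁ ξ))) := by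
    rw [a1, ← hB.comm_apply hx hY, ← hB.comm_apply hx m₁]
  have a5 : rt J f₁ (Y ξ) = Y (rt J f₁ ξ) := (hB.comm_apply hY m₁ ξ).symm
  have hc : (e : ℂ) * (e' : ℂ) = 1 := by rw [← Complex.ofReal_mul, he, Complex.ofReal_one]
  simp only [df, cmp, rt_sub, hJ.rt_mul_apply, sub_apply, mul_apply_eq_comp,
    map_sub, map_smul, a1, a2, a3, a5, Complex.ofReal_one, one_smul, smul_sub, smul_smul, hc]
  rw [← a1 (rt J f₁ ξ), a4]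
  abel

theorem cmp_two (p q : ℝ) : (p + q) ^ 2 ≤ 2 * (p ^ 2 + q ^ 2) := by
  linarith [sq_nonneg (p - q)]

theorem cmp_three (p q r : ℝ) : (p + q + r) ^ 2 ≤ 3 * (p ^ 2 + q ^ 2 + r ^ 2) := by
  linarith [sq_nonneg (p - q), sq_nonneg (q - r), sq_nonneg (p - r)]

theorem cmp_real {τ K c κ n u e A B C E₀ E₁ E₂ E₃ E₄ a₁ a₂ a₃ : ℝ} (hτ : 0 < τ) (hK0 : 0 ≤ K)
    (hκ : 0 ≤ κ) (b1 : A ^ 2 ≤ (1 + τ) * a₁ ^ 2 + K * E₀ ^ 2)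
    (b2 : a₂ ^ 2 ≤ (1 + τ) * C ^ 2 + K * (E₁ + E₂) ^ 2)
    (b3 : B ^ 2 ≤ (1 + τ) * a₃ ^ 2 + K * (n * E₃ + n * u + e * n * E₄) ^ 2)
    (ht : 0 < a₂ ^ 2 - K * (2 * (E₁ ^ 2 + E₂ ^ 2)) - (1 + τ) *
      (c ^ 2 / 2 * ((1 + τ) * a₁ ^ 2 + K * E₀ ^ 2) + κ * ((1 + τ) * a₃ ^ 2 +
        K * (3 * (n ^ 2 * E₃ ^ 2 + (n * u) ^ 2 + (e * n) ^ 2 * E₄ ^ 2))))) :
    c ^ 2 / 2 * A ^ 2 + κ * B ^ 2 < C ^ 2 := by
  have q1 : K * (E₁ + E₂) ^ 2 ≤ K * (2 * (E₁ ^ 2 + E₂ ^ 2)) :=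
    mul_le_mul_of_nonneg_left (cmp_two E₁ E₂) hK0
  have q2 : K * (n * E₃ + n * u + e * n * E₄) ^ 2 ≤
      K * (3 * (n ^ 2 * E₃ ^ 2 + (n * u) ^ 2 + (e * n) ^ 2 * E₄ ^ 2)) := by
    refine mul_le_mul_of_nonneg_left ?_ hK0
    rw [← mul_pow, ← mul_pow]
    exact cmp_three _ _ _
  have q3 := mul_le_mul_of_nonneg_left b1 (show 0 ≤ c ^ 2 / 2 by positivity)
  have q4 := mul_le_mul_of_nonneg_left (b3.trans (add_le_add le_rfl q2)) hκ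
  have q5 := mul_le_mul_of_nonneg_left (add_le_add q3 q4) (show 0 ≤ 1 + τ by positivity)
  have q6 : (1 + τ) * (c ^ 2 / 2 * A ^ 2 + κ * B ^ 2) < (1 + τ) * C ^ 2 := by linarith
  exact lt_of_mul_lt_mul_left q6 (by positivity)

theorem cmp_point (hB : Bi M J) {f₁ x Y b : H →L[ℂ] H} (m₁ : f₁ ∈ M) (p₁ : IsStarProjection f₁)
    (hx : x ∈ M) (h₁ : x * f₁ = x) (hYM : Y ∈ M) {e e' : ℝ} (hee : e * e' = 1) (he0 : 0 < e)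
    (z₂ : H) {ρ : H} (hρ : f₁ ρ = ρ) {τ c κ u : ℝ} (hτ : 0 < τ) (hκ : 0 ≤ κ)
    (hdY : ‖df J e' Y ξ ξ‖ ≤ u * e') {z₁ : H} (hz₁ : z₁ = cmp J f₁ ξ)
    (ht : 0 < ‖Y (x ρ - b (x z₁))‖ ^ 2 - (1 + τ⁻¹) * (2 * (‖(Y * x - x * Y) ρ‖ ^ 2 +
      ‖(Y * (b * x) - b * x * Y) z₁‖ ^ 2)) - (1 + τ) *
      (c ^ 2 / 2 * ((1 + τ) * ‖Y (x z₁)‖ ^ 2 + (1 + τ⁻¹) * ‖(Y * x - x * Y) z₁‖ ^ 2) +
        κ * ((1 + τ) * ‖rt J Y (df J e x z₁ z₂)‖ ^ 2 + (1 + τ⁻¹) *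
          (3 * (‖x‖ ^ 2 * ‖(Y * f₁ - f₁ * Y) (rt J f₁ ξ)‖ ^ 2 + (‖x‖ * u) ^ 2 +
            (e * ‖x‖) ^ 2 * ‖rt J (Y * f₁ - f₁ * Y) ξ‖ ^ 2))))) :
    c ^ 2 / 2 * ‖(x * Y * f₁) z₁‖ ^ 2 + κ * ‖df J 1 (x * Y * f₁) z₁ z₂‖ ^ 2 <
      ‖(x * Y * f₁) ρ - b ((x * Y * f₁) z₁)‖ ^ 2 := by
  have hJ := hB.cj
  have hf₁z : f₁ z₁ = z₁ := by rw [hz₁, cmp, ← mul_apply_eq_comp, p₁.isIdempotentElem.eq]
  have e3 := cmp_df (ξ := ξ) hB m₁ p₁ hx h₁ hYM hee z₂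
  rw [← hz₁] at e3
  have e1 : (x * Y * f₁) z₁ = Y (x z₁) - (Y * x - x * Y) z₁ := by
    simp only [mul_apply_eq_comp, sub_apply, hf₁z]
    abel
  have e2 : Y (x ρ - b (x z₁)) = ((x * Y * f₁) ρ - b ((x * Y * f₁) z₁)) +
      ((Y * x - x * Y) ρ - (Y * (b * x) - b * x * Y) z₁) := by
    simp only [mul_apply_eq_comp, sub_apply, hf₁z, hρ, map_sub]
    abel
  have hrt : ∀ v, ‖rt J f₁ v‖ ≤ ‖v‖ := fun v => proj_norm_apply_le (hJ.rt_proj p₁) v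
  have hxe : ∀ v, ‖(e : ℂ) • x (rt J f₁ v)‖ ≤ e * ‖x‖ * ‖v‖ := fun v => by
    rw [norm_smul, Complex.norm_real, Real.norm_of_nonneg he0.le, mul_assoc]
    exact mul_le_mul_of_nonneg_left ((x.le_opNorm _).trans
      (mul_le_mul_of_nonneg_left (hrt v) (norm_nonneg _))) he0.le
  refine cmp_real hτ (by positivity) hκ (cmp_sq hτ (norm_nonneg _) ?_)
    (cmp_sq hτ (norm_nonneg _) ?_) (cmp_sq hτ (norm_nonneg _) ?_) ht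
  · rw [e1]
    exact norm_sub_le _ _
  · rw [e2]
    exact (norm_add_le _ _).trans (add_le_add le_rfl (norm_sub_le _ _))
  · rw [e3]
    have c1 := hrt (rt J Y (df J e x z₁ z₂))
    have c2 := x.le_opNorm ((Y * f₁ - f₁ * Y) (rt J f₁ ξ))
    have c3 := hxe (df J e' Y ξ ξ)
    have c4 := hxe (rt J (Y * f₁ - f₁ * Y) ξ)
    have c5 : e * ‖x‖ * ‖df J e' Y ξ ξ‖ ≤ ‖x‖ * u := by
      calc e * ‖x‖ * ‖df J e' Y ξ ξ‖ ≤ e * ‖x‖ * (u * e') :=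
            mul_le_mul_of_nonneg_left hdY (by positivity)
        _ = ‖x‖ * u * (e * e') := by ring
        _ = ‖x‖ * u := by rw [hee, mul_one]
    refine (norm_add_le _ _).trans ?_
    refine (add_le_add ((norm_add_le _ _).trans (add_le_add (norm_add_le _ _) le_rfl))
      le_rfl).trans ?_
    linarith

theorem cmp_choose {c X R κ δ n : ℝ} (hR2 : c ^ 2 * X ^ 2 < R) (hk : κ * δ ^ 2 ≤ c ^ 2 / 2)
    (hκ : 0 ≤ κ) : ∃ τ u : ℝ, 0 < τ ∧ 0 < u ∧ ∀ q, q ≤ ((1 + u) * δ * X) ^ 2 →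
      0 < 1 ^ 2 * R - (1 + τ⁻¹) * (2 * (0 + 0)) - (1 + τ) * (c ^ 2 / 2 *
        ((1 + τ) * (1 ^ 2 * X ^ 2) + (1 + τ⁻¹) * 0) + κ * ((1 + τ) * q + (1 + τ⁻¹) *
          (3 * (n ^ 2 * 0 + (n * u) ^ 2 + 0)))) := by
  obtain ⟨τ, hτ, hτ2⟩ := cmp_small (φ := fun τ => R - (1 + τ) ^ 2 * (c ^ 2 * X ^ 2))
    (by fun_prop) (by simpa using hR2)
  obtain ⟨u, hu, hu2⟩ := cmp_small (φ := fun u => R - (1 + τ) ^ 2 * (c ^ 2 / 2 * X ^ 2 +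
      κ * ((1 + u) * δ * X) ^ 2) - (1 + τ) * κ * (1 + τ⁻¹) * 3 * (n * u) ^ 2) (by fun_prop) (by
    have h1 : κ * δ ^ 2 * X ^ 2 ≤ c ^ 2 / 2 * X ^ 2 := mul_le_mul_of_nonneg_right hk (by positivity)
    have h2 : (1 + τ) ^ 2 * (c ^ 2 / 2 * X ^ 2 + κ * δ ^ 2 * X ^ 2) ≤
        (1 + τ) ^ 2 * (c ^ 2 * X ^ 2) := mul_le_mul_of_nonneg_left (by linarith) (by positivity)
    linarith)
  refine ⟨τ, u, hτ, hu, fun q hq => ?_⟩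
  have h1 : (1 + τ) ^ 2 * κ * q ≤ (1 + τ) ^ 2 * κ * ((1 + u) * δ * X) ^ 2 :=
    mul_le_mul_of_nonneg_left hq (by positivity)
  linarith

theorem MixAll.comp (hY : MixAll M J ξ F) (h : Mod M J ξ F) {f₁ f₂ : H →L[ℂ] H} (m₁ : f₁ ∈ M)
    (p₁ : IsStarProjection f₁) (m₂ : f₂ ∈ M) (p₂ : IsStarProjection f₂) {x b : H →L[ℂ] H}
    (hx : x ∈ M) (h₂ : f₂ * x = x) (h₁ : x * f₁ = x) (hb : b ∈ M) {ρ : H} (hρ : f₁ ρ = ρ)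
    {s δ c κ : ℝ} (hδ : 0 ≤ δ) (hc : 0 ≤ c) (hκ : 0 ≤ κ) (hk : κ * δ ^ 2 ≤ c ^ 2 / 2)
    (hd : ‖df J (Real.exp (s / 2)) x (cmp J f₁ ξ) (cmp J f₂ ξ)‖ ≤
      δ * Real.exp (s / 2) * ‖x (cmp J f₁ ξ)‖)
    (hR : c * ‖x (cmp J f₁ ξ)‖ < ‖x ρ - b (x (cmp J f₁ ξ))‖) :
    ∃ z ∈ M, f₂ * z = z ∧ z * f₁ = z ∧
      c ^ 2 / 2 * ‖z (cmp J f₁ ξ)‖ ^ 2 + κ * ‖df J 1 z (cmp J f₁ ξ) (cmp J f₂ ξ)‖ ^ 2 <
        ‖z ρ - b (z (cmp J f₁ ξ))‖ ^ 2 := by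
  have hJ := h.cj
  obtain ⟨z₁, hz₁⟩ : ∃ z₁, z₁ = cmp J f₁ ξ := ⟨_, rfl⟩
  obtain ⟨z₂, hz₂⟩ : ∃ z₂, z₂ = cmp J f₂ ξ := ⟨_, rfl⟩
  obtain ⟨e, he⟩ : ∃ e, e = Real.exp (s / 2) := ⟨_, rfl⟩
  obtain ⟨e', he'⟩ : ∃ e', e' = Real.exp (-s / 2) := ⟨_, rfl⟩
  have hee : e * e' = 1 := by
    rw [he, he', ← Real.exp_add, show s / 2 + -s / 2 = 0 by ring, Real.exp_zero]
  have he0 : 0 < e := he ▸ Real.exp_pos _
  have he0' : 0 < e' := he' ▸ Real.exp_pos _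
  rw [← hz₁, ← hz₂, ← he] at hd
  rw [← hz₁] at hR
  rw [← hz₁, ← hz₂]
  have hR2 : c ^ 2 * ‖x z₁‖ ^ 2 < ‖x ρ - b (x z₁)‖ ^ 2 := by
    rw [← mul_pow]
    exact pow_lt_pow_left₀ hR (by positivity) two_ne_zero
  obtain ⟨τ, u, hτ, hu, hq⟩ := cmp_choose (n := ‖x‖) hR2 hk hκ
  obtain ⟨y, hy, hy1, hy2⟩ := hY (-s) (u * e') (by positivity)
  rw [← he'] at hy2
  have hry : ‖rt J y ξ‖ ≤ (1 + u) * e' := by
    have e1 : rt J y ξ = (e' : ℂ) • y ξ - df J e' y ξ ξ := by simp [df]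
    rw [e1]
    refine (norm_sub_le _ _).trans ?_
    rw [norm_smul, hy1, Complex.norm_real, Real.norm_of_nonneg he0'.le]
    linarith
  have hlim : ‖rt J y ξ‖ ^ 2 * ‖df J e x z₁ z₂‖ ^ 2 ≤ ((1 + u) * δ * ‖x z₁‖) ^ 2 := by
    rw [← mul_pow]
    refine pow_le_pow_left₀ (by positivity) ?_ 2
    calc ‖rt J y ξ‖ * ‖df J e x z₁ z₂‖ ≤ (1 + u) * e' * (δ * e * ‖x z₁‖) :=
          mul_le_mul hry hd (norm_nonneg _) (by positivity)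
      _ = (1 + u) * δ * ‖x z₁‖ * (e * e') := by ring
      _ = (1 + u) * δ * ‖x z₁‖ := by rw [hee, mul_one]
  have hML := ((hy.cmp_nl (x ρ - b (x z₁))).sub ((((hy.cmp_cl hx ρ).add
    (hy.cmp_cl (mul_mem hb hx) z₁)).const_mul 2).const_mul (1 + τ⁻¹))).sub
    (((((((hy.cmp_nl (x z₁)).const_mul (1 + τ)).add
      ((hy.cmp_cl hx z₁).const_mul (1 + τ⁻¹))).const_mul (c ^ 2 / 2)).add
        ((((hy.cmp_nr hJ (df J e x z₁ z₂)).const_mul (1 + τ)).add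
        ((((((hy.cmp_cl m₁ (rt J f₁ ξ)).const_mul (‖x‖ ^ 2)).add (CmpML.const ((‖x‖ * u) ^ 2))).add
          ((hy.cmp_cr hJ m₁ ξ).const_mul ((e * ‖x‖) ^ 2))).const_mul 3).const_mul
            (1 + τ⁻¹))).const_mul κ))).const_mul (1 + τ))
  obtain ⟨t, ht⟩ := hML.exists_pos (by
    rw [hy1, mul_zero ((e * ‖x‖) ^ 2)]
    exact hq _ hlim)
  have hYM := h.sigma_mem t y hy.mem
  refine ⟨x * F.σ t y * f₁, mul_mem (mul_mem hx hYM) m₁, by rw [← mul_assoc, ← mul_assoc, h₂],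
    by rw [mul_assoc, p₁.isIdempotentElem.eq], ?_⟩
  exact cmp_point h.bi m₁ p₁ hx h₁ hYM hee he0 z₂ hρ hτ hκ
    (by rw [h.df_σ, F.V_norm]; exact hy2) hz₁ ht

end Vale.Agent.P132
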