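import Vale.Agent.P132.RtA

/-! The cutting trick for a finite combination of orthogonal elements satisfying `IsPI`. -/

open scoped InnerProductSpace Topology ComplexConjugate
open Filter MeasureTheory Finset

namespace Vale.Agent.P132

open Vale.Agent.P104

variable {H : Type*} [NormedAddCommGroup H] [InnerProductSpace ℂ H] [CompleteSpace H]
  {M : VonNeumannAlgebra H} {J : H →L⋆[ℂ] H} {ι : Type*} [Fintype ι]

namespace CutAux

/-- Indicator of `l < s`. -/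
noncomputable def ind (s l : ℝ) : ℝ := if l < s then 1 else 0

theorem ind_mul (s t l : ℝ) : ind s l * ind t l = ind (min s t) l := by
  unfold ind
  by_cases h1 : l < s <;> by_cases h2 : l < t <;> simp [h1, h2]

theorem ind_eq (s : ℝ) : ind s = (Set.Iio s).indicator 1 := by
  ext l
  simp [ind, Set.indicator]

theorem ind_int {s : ℝ} (hs : 0 ≤ s) :
    Integrable (ind s) (volume.restrict (Set.Ioi 0)) ∧ ∫ l in Set.Ioi 0, ind s l = s := by
  have e : (volume.restrict (Set.Ioi (0 : ℝ))) (Set.Iio s) = ENNReal.ofReal s := by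
    rw [Measure.restrict_apply measurableSet_Iio, Set.inter_comm, Set.Ioi_inter_Iio, Real.volume_Ioo,
      sub_zero]
  rw [ind_eq]
  constructor
  · rw [integrable_indicator_iff measurableSet_Iio]
    exact integrableOn_const (by rw [e]; exact ENNReal.ofReal_ne_top)
  · rw [integral_indicator_one measurableSet_Iio, measureReal_def, e, ENNReal.toReal_ofReal hs]

theorem avg {t : ι → ℝ} (ht : ∀ a, 0 ≤ t a) (D : ι → ℝ) (K : ι → ι → ℝ)
    (h : ∀ l, 0 ≤ ∑ a, ind (t a) l ^ 2 * D a + ∑ a, ∑ b, ind (t a) l * ind (t b) l * K a b) :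
    0 ≤ ∑ a, t a * D a + ∑ a, ∑ b, min (t a) (t b) * K a b := by
  simp only [sq, ind_mul, min_self] at h
  have i1 := fun a => (ind_int (ht a)).1.mul_const (D a)
  have i2 := fun a b => (ind_int (le_min (ht a) (ht b))).1.mul_const (K a b)
  have h1 : 0 ≤ ∫ l in Set.Ioi (0 : ℝ), (∑ a, ind (t a) l * D a +
      ∑ a, ∑ b, ind (min (t a) (t b)) l * K a b) := integral_nonneg h
  rw [integral_add (integrable_finsetSum _ fun a _ => i1 a)
    (integrable_finsetSum _ fun a _ => integrable_finsetSum _ fun b _ => i2 a b),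
    integral_finsetSum _ fun a _ => i1 a,
    integral_finsetSum _ fun a _ => integrable_finsetSum _ fun b _ => i2 a b] at h1
  simp only [integral_finsetSum _ fun b _ => i2 _ b, integral_mul_const, (ind_int (ht _)).2,
    (ind_int (le_min (ht _) (ht _))).2] at h1
  exact h1

theorem avg3 {t : ι → ℝ} (ht : ∀ a, 0 ≤ t a) (D₁ D₂ D₃ : ι → ℝ) (K₂ K₃ : ι → ι → ℝ) (A B : ℝ)
    (h : ∀ l, ∑ a, ind (t a) l ^ 2 * D₃ a - 2 * ∑ a, ∑ b, ind (t a) l * ind (t b) l * K₃ a b ≤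
      A * ∑ a, ind (t a) l ^ 2 * D₁ a +
      B * (∑ a, ind (t a) l ^ 2 * D₂ a - 2 * ∑ a, ∑ b, ind (t a) l * ind (t b) l * K₂ a b)) :
    ∑ a, t a * D₃ a - 2 * ∑ a, ∑ b, min (t a) (t b) * K₃ a b ≤
      A * ∑ a, t a * D₁ a + B * (∑ a, t a * D₂ a - 2 * ∑ a, ∑ b, min (t a) (t b) * K₂ a b) := by
  have e1 : ∀ r : ι → ℝ, ∑ a, r a * (A * D₁ a + B * D₂ a - D₃ a) =
      A * ∑ a, r a * D₁ a + B * ∑ a, r a * D₂ a - ∑ a, r a * D₃ a := fun r => by
    simp only [mul_sum, ← sum_add_distrib, ← sum_sub_distrib]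
    exact sum_congr rfl fun a _ => by ring
  have e2 : ∀ s : ι → ι → ℝ, ∑ a, ∑ b, s a b * (2 * K₃ a b - B * (2 * K₂ a b)) =
      2 * ∑ a, ∑ b, s a b * K₃ a b - B * (2 * ∑ a, ∑ b, s a b * K₂ a b) := fun s => by
    simp only [mul_sum, ← sum_sub_distrib]
    exact sum_congr rfl fun a _ => sum_congr rfl fun b _ => by ring
  have k := avg ht (fun a => A * D₁ a + B * D₂ a - D₃ a)
    (fun a b => 2 * K₃ a b - B * (2 * K₂ a b)) fun l => by
      rw [e1, e2]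
      linarith [h l]
  rw [e1, e2] at k
  linarith

theorem real_lo {x y p q G : ℝ} (hx : 0 ≤ x) (hy : 0 ≤ y) (h1 : G ≤ p * q) (h2 : -G ≤ p * q) :
    (4 * min (x ^ 2) (y ^ 2) - 2 * (x * y)) * G ≤ x ^ 2 * p ^ 2 + y ^ 2 * q ^ 2 := by
  have a : 0 ≤ min (x ^ 2) (y ^ 2) := le_min (sq_nonneg _) (sq_nonneg _)
  have b : min (x ^ 2) (y ^ 2) ≤ x * y := by
    rcases le_total x y with h | h
    · exact (min_le_left _ _).trans (by nlinarith)
    · exact (min_le_right _ _).trans (by nlinarith)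
  nlinarith [mul_le_mul_of_nonneg_left h1 a, mul_le_mul_of_nonneg_left h2 (sub_nonneg.2 b),
    sq_nonneg (x * p - y * q)]

theorem real_hi {x y p q G d d' : ℝ} (hx : 0 ≤ x) (hy : 0 ≤ y) (hp : 0 ≤ p) (h1 : G ≤ p * q)
    (hd : |x * p - y * q| ≤ d) (hd' : |y * p - x * q| ≤ d') :
    (x * y - min (x ^ 2) (y ^ 2)) * G ≤ x * p * d + y * p * d' := by
  have d0 := (abs_nonneg _).trans hd
  have d1 := (abs_nonneg _).trans hd'
  obtain ⟨a1, a2⟩ := abs_le.1 hd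
  obtain ⟨b1, b2⟩ := abs_le.1 hd'
  rcases le_total x y with h | h
  · rw [min_eq_left (pow_le_pow_left₀ hx h 2)]
    have k : (y - x) * q ≤ d + d' := by nlinarith [mul_nonneg (sub_nonneg.2 h) hp]
    nlinarith [mul_le_mul_of_nonneg_left h1 (mul_nonneg hx (sub_nonneg.2 h)),
      mul_le_mul_of_nonneg_left k (mul_nonneg hx hp),
      mul_nonneg (sub_nonneg.2 h) (mul_nonneg hp d1)]
  · rw [min_eq_right (pow_le_pow_left₀ hy h 2)]
    have k : (x - y) * q ≤ d + d' := by nlinarith [mul_nonneg (sub_nonneg.2 h) hp]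
    nlinarith [mul_le_mul_of_nonneg_left h1 (mul_nonneg hy (sub_nonneg.2 h)),
      mul_le_mul_of_nonneg_left k (mul_nonneg hy hp),
      mul_nonneg (sub_nonneg.2 h) (mul_nonneg hp d0)]

/-- A finite family of orthogonal elements satisfying `IsPI` in `M`. -/
structure Fam (M : VonNeumannAlgebra H) (w : ι → (H →L[ℂ] H)) : Prop where
  mem : ∀ a, w a ∈ M
  pi : ∀ a, IsPI (w a)
  o1 : Pairwise fun a b => star (w a) * w b = 0
  o2 : Pairwise fun a b => w a * star (w b) = 0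

/-- Real combination of the family. -/
noncomputable def cb (r : ι → ℝ) (w : ι → (H →L[ℂ] H)) : H →L[ℂ] H := ∑ a, (r a : ℂ) • w a

omit [CompleteSpace H] in
theorem norm_cb_aux (r : ι → ℝ) {y : ι → H} (h : Pairwise fun a b => ⟪y a, y b⟫_ℂ = 0) :
    ‖∑ a, (r a : ℂ) • y a‖ ^ 2 = ∑ a, r a ^ 2 * ‖y a‖ ^ 2 := by
  rw [g_norm_sum_orth _ fun a b hab => by
    beta_reduce
    rw [inner_smul_left, inner_smul_right, h hab, mul_zero, mul_zero]]
  simp [norm_smul, mul_pow]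

omit [CompleteSpace H] in
theorem cb_apply (r : ι → ℝ) (w : ι → (H →L[ℂ] H)) (η : H) :
    cb r w η = ∑ a, (r a : ℂ) • w a η := by
  simp [cb]

theorem rt_cb (r : ι → ℝ) (w : ι → (H →L[ℂ] H)) (η : H) :
    rt J (cb r w) η = ∑ a, (r a : ℂ) • rt J (w a) η := by
  simp only [cb, rt_sum, rt_smul, _root_.sum_apply, smul_apply]

namespace Fam

variable {w : ι → (H →L[ℂ] H)}

theorem cb_mem (h : Fam M w) (r : ι → ℝ) : cb r w ∈ M :=
  sum_mem fun a _ => M.toStarSubalgebra.smul_mem (h.mem a) _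

theorem norm_cb (h : Fam M w) (r : ι → ℝ) (η : H) :
    ‖cb r w η‖ ^ 2 = ∑ a, r a ^ 2 * ‖w a η‖ ^ 2 := by
  rw [cb_apply, norm_cb_aux]
  intro a b hab
  rw [← inner_star_right, ← mul_apply_eq_comp, h.o1 hab, zero_apply, inner_zero_right]

theorem norm_rt_cb (h : Fam M w) (hJ : IsConj J) (r : ι → ℝ) (η : H) :
    ‖rt J (cb r w) η‖ ^ 2 = ∑ a, r a ^ 2 * ‖rt J (w a) η‖ ^ 2 := by
  rw [rt_cb, norm_cb_aux]
  intro a b hab
  rw [hJ.inner_rt_left, ← hJ.rt_mul_apply, h.o2 hab.symm, rt_zero, zero_apply, inner_zero_right]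

theorem expand (h : Fam M w) (hJ : IsConj J) (r : ι → ℝ) (α β : H) :
    ‖cb r w α - rt J (cb r w) β‖ ^ 2 = ∑ a, r a ^ 2 * (‖w a α‖ ^ 2 + ‖rt J (w a) β‖ ^ 2) -
      2 * ∑ a, ∑ b, r a * r b * (⟪w a α, rt J (w b) β⟫_ℂ).re := by
  rw [norm_sub_sq (𝕜 := ℂ), h.norm_cb, h.norm_rt_cb hJ, cb_apply, rt_cb]
  simp only [sum_inner, inner_sum, inner_smul_left, inner_smul_right, mul_add, sum_add_distrib,
    Complex.conj_ofReal, RCLike.re_to_complex, Complex.re_sum, Complex.re_ofReal_mul, mul_sum]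
  rw [sum_comm]
  simp only [mul_left_comm (r _) (r _), mul_assoc]
  ring

theorem bessel_left (h : Fam M w) (η : H) : ∑ a, ‖(w a * star (w a)) η‖ ^ 2 ≤ ‖η‖ ^ 2 := by
  simpa only [(h.pi _).norm_fin] using bessel_pi (fun a => star (w a)) (fun a => (h.pi a).star)
    (fun a b hab => by simpa using h.o1 hab) η univ

theorem bessel_right (h : Fam M w) (hJ : IsConj J) (η : H) :
    ∑ a, ‖rt J (star (w a) * w a) η‖ ^ 2 ≤ ‖η‖ ^ 2 := by
  rw [← hJ.norm η]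
  simpa only [hJ.norm_rt_apply, star_mul, star_star, (h.pi _).norm_init] using
    bessel_pi w h.pi h.o2 (J η) univ

/-- The block decomposition of the pairing. -/
theorem blocks (h : Fam M w) (hB : Bi M J) (α β : H) :
    ∃ A B : ι → ι → H, (∀ a b, (⟪w a α, rt J (w b) β⟫_ℂ).re ≤ ‖A a b‖ * ‖B a b‖ ∧
        -(⟪w a α, rt J (w b) β⟫_ℂ).re ≤ ‖A a b‖ * ‖B a b‖) ∧
      (∀ a, ∑ b, ‖A a b‖ ^ 2 ≤ ‖w a α‖ ^ 2) ∧ (∀ b, ∑ a, ‖B a b‖ ^ 2 ≤ ‖rt J (w b) β‖ ^ 2) ∧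
      (∀ c : ι → ℝ, ∑ a, ∑ b, ‖(c a : ℂ) • A a b - (c b : ℂ) • B a b‖ ^ 2 ≤
        ‖cb c w α - rt J (cb c w) β‖ ^ 2) ∧
      (J α = α → ∀ a b, ‖A a b‖ = ‖A b a‖) ∧ (J β = β → ∀ a b, ‖B a b‖ = ‖B b a‖) := by
  classical
  have hJ := hB.cj
  have me : ∀ a, star (w a) * w a ∈ M := fun a => mul_mem (star_mem (h.mem a)) (h.mem a)
  have mf : ∀ a, w a * star (w a) ∈ M := fun a => mul_mem (h.mem a) (star_mem (h.mem a))
  refine ⟨fun a b => rt J (star (w b) * w b) (w a α), fun a b => (w a * star (w a)) (rt J (w b) β),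
    fun a b => ?_, fun a => h.bessel_right hJ _, fun b => h.bessel_left _, fun c => ?_,
    fun e a b => ?_, fun e a b => ?_⟩
  · have e : ⟪w a α, rt J (w b) β⟫_ℂ =
        ⟪rt J (star (w b) * w b) (w a α), (w a * star (w a)) (rt J (w b) β)⟫_ℂ := by
      rw [hJ.inner_rt_left, (h.pi b).init.isSelfAdjoint.star_eq, ← hB.comm_apply (mf a) (me b),
        ← hJ.rt_mul_apply, (h.pi b).mul_init, ← (h.pi a).fin.isSelfAdjoint.star_eq,
        inner_star_right, ← mul_apply_eq_comp, h.pi a]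
    rw [e]
    exact (abs_le.1 ((Complex.abs_re_le_norm _).trans (norm_inner_le_norm _ _))).symm.imp id
      fun k => neg_le.1 k
  · have e : ∀ a b, (c a : ℂ) • rt J (star (w b) * w b) (w a α) -
        (c b : ℂ) • (w a * star (w a)) (rt J (w b) β) =
        (w a * star (w a)) (rt J (star (w b) * w b) (cb c w α - rt J (cb c w) β)) := by
      intro a b
      have e1 : w a * star (w a) * cb c w = (c a : ℂ) • w a := by
        rw [cb, mul_sum, sum_eq_single a (fun k _ hk => by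
          rw [mul_smul_comm, mul_assoc, h.o1 hk.symm, mul_zero, smul_zero]) (by simp),
          mul_smul_comm, h.pi a]
      have e2 : cb c w * (star (w b) * w b) = (c b : ℂ) • w b := by
        rw [cb, sum_mul, sum_eq_single b (fun k _ hk => by
          rw [smul_mul_assoc, ← mul_assoc, h.o2 hk, zero_mul, smul_zero]) (by simp),
          smul_mul_assoc, (h.pi b).mul_init]
      rw [map_sub, map_sub, ← hJ.rt_mul_apply, e2, rt_smul, smul_apply, map_smul,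
        hB.comm_apply (mf a) (me b), ← mul_apply_eq_comp _ (cb c w), e1, smul_apply, map_smul]
    simp only [e]
    rw [sum_comm]
    exact (sum_le_sum fun b _ => h.bessel_left _).trans (h.bessel_right hJ _)
  · beta_reduce
    rw [← hB.comm_apply (h.mem a) (me b), ← hB.comm_apply (h.mem b) (me a), ← (h.pi a).norm_init,
      ← (h.pi b).norm_init, hB.norm_flip e (me a) (me b), (h.pi a).init.isSelfAdjoint.star_eq,
      (h.pi b).init.isSelfAdjoint.star_eq]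
  · have k : ∀ a b, ‖(w a * star (w a)) (rt J (w b) β)‖ =
        ‖(w a * star (w a)) (rt J (w b * star (w b)) β)‖ := fun a b => by
      rw [hB.comm_apply (mf a) (h.mem b), hB.comm_apply (mf a) (mf b), hJ.norm_rt_apply,
        hJ.norm_rt_apply, (h.pi b).fin.isSelfAdjoint.star_eq, (h.pi b).norm_fin]
    beta_reduce
    rw [k, k, hB.norm_flip e (mf a) (mf b), (h.pi a).fin.isSelfAdjoint.star_eq,
      (h.pi b).fin.isSelfAdjoint.star_eq]

theorem lower (h : Fam M w) (hB : Bi M J) {c : ι → ℝ} (hc : ∀ a, 0 ≤ c a) (α β : H) :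
    1 / 2 * ‖cb c w α - rt J (cb c w) β‖ ^ 2 ≤
      ∑ a, c a ^ 2 * (‖w a α‖ ^ 2 + ‖rt J (w a) β‖ ^ 2) -
      2 * ∑ a, ∑ b, min (c a ^ 2) (c b ^ 2) * (⟪w a α, rt J (w b) β⟫_ℂ).re := by
  obtain ⟨A, B, h1, h2, h3, -⟩ := h.blocks hB α β
  have k1 := sum_le_sum fun a (_ : a ∈ univ) => sum_le_sum fun b (_ : b ∈ univ) =>
    real_lo (hc a) (hc b) (h1 a b).1 (h1 a b).2
  have k2 := sum_le_sum fun a (_ : a ∈ univ) =>
    mul_le_mul_of_nonneg_left (h2 a) (sq_nonneg (c a))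
  have k3 := sum_le_sum fun a (_ : a ∈ univ) =>
    mul_le_mul_of_nonneg_left (h3 a) (sq_nonneg (c a))
  simp only [mul_sum] at k2 k3
  rw [sum_comm] at k3
  simp only [sub_mul, sum_sub_distrib, sum_add_distrib, mul_assoc (4 : ℝ), mul_assoc (2 : ℝ),
    ← mul_sum] at k1
  rw [h.expand hB.cj]
  simp only [mul_add, sum_add_distrib, ← mul_sum] at k2 ⊢
  linarith

theorem upper (h : Fam M w) (hB : Bi M J) {c : ι → ℝ} (hc : ∀ a, 0 ≤ c a) {α β : H}
    (hα : J α = α) (hβ : J β = β) :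
    ∑ a, c a ^ 2 * (‖w a α‖ ^ 2 + ‖rt J (w a) β‖ ^ 2) -
      2 * ∑ a, ∑ b, min (c a ^ 2) (c b ^ 2) * (⟪w a α, rt J (w b) β⟫_ℂ).re ≤
    ‖cb c w α - rt J (cb c w) β‖ ^ 2 + 4 * ‖cb c w α - rt J (cb c w) β‖ * ‖cb c w α‖ := by
  obtain ⟨A, B, h1, h2, -, h4, h5, h6⟩ := h.blocks hB α β
  obtain ⟨d, hd⟩ : ∃ d : ι → ι → ℝ, ∀ a b, d a b = ‖(c a : ℂ) • A a b - (c b : ℂ) • B a b‖ :=
    ⟨_, fun _ _ => rfl⟩
  have e : ∀ a b, |c a * ‖A a b‖ - c b * ‖B a b‖| ≤ d a b := fun a b => by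
    have := abs_norm_sub_norm_le ((c a : ℂ) • A a b) ((c b : ℂ) • B a b)
    rwa [norm_smul, norm_smul, Complex.norm_real, Complex.norm_real, Real.norm_of_nonneg (hc a),
      Real.norm_of_nonneg (hc b), ← hd] at this
  have k1 : ∑ a, ∑ b, (c a * c b - min (c a ^ 2) (c b ^ 2)) * (⟪w a α, rt J (w b) β⟫_ℂ).re ≤
      ∑ a, ∑ b, (c a * ‖A a b‖ * d a b + c b * ‖A b a‖ * d b a) :=
    sum_le_sum fun a _ => sum_le_sum fun b _ => by
      have := e b a
      rw [h5 hα b a, h6 hβ b a] at this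
      rw [h5 hα b a]
      exact real_hi (hc a) (hc b) (norm_nonneg _) (h1 a b).1 (e a b) this
  simp only [sub_mul, sum_sub_distrib, sum_add_distrib] at k1
  rw [sum_comm (f := fun a b => c b * ‖A b a‖ * d b a)] at k1
  have k2 := sum_mul_sq_le_sq_mul_sq univ (fun t : ι × ι => c t.1 * ‖A t.1 t.2‖)
    (fun t => d t.1 t.2)
  simp only [Fintype.sum_prod_type] at k2
  have k3 : ∑ a, ∑ b, (c a * ‖A a b‖) ^ 2 ≤ ‖cb c w α‖ ^ 2 := by
    rw [h.norm_cb]
    refine sum_le_sum fun a _ => ?_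
    simp only [mul_pow, ← mul_sum]
    exact mul_le_mul_of_nonneg_left (h2 a) (sq_nonneg _)
  have k4 := h4 c
  simp only [← hd] at k4
  have k5 := k2.trans (mul_le_mul k3 k4 (by positivity) (sq_nonneg _))
  rw [← mul_pow] at k5
  have k6 := (abs_le_of_sq_le_sq' k5 (by positivity)).2
  have k7 := h.expand hB.cj c α β
  linarith

theorem cb_ind (h : Fam M w) {r : ι → ℝ} (hr : ∀ a, r a * r a = r a) : IsPI (cb r w) := by
  classical
  have e : cb r w * star (cb r w) = ∑ a, (r a : ℂ) • (w a * star (w a)) := by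
    rw [cb, star_sum, sum_mul]
    refine sum_congr rfl fun a _ => ?_
    rw [mul_sum, sum_eq_single a (fun b _ hb => by
      rw [star_smul, smul_mul_smul_comm, h.o2 hb.symm, smul_zero]) (by simp), star_smul,
      smul_mul_smul_comm, Complex.star_def, Complex.conj_ofReal, ← Complex.ofReal_mul, hr]
  rw [IsPI, e, cb, sum_mul]
  refine sum_congr rfl fun a _ => ?_
  rw [mul_sum, sum_eq_single a (fun b _ hb => by
    rw [smul_mul_smul_comm, mul_assoc, h.o1 hb.symm, mul_zero, smul_zero]) (by simp),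
    smul_mul_smul_comm, h.pi a, ← Complex.ofReal_mul, hr]

theorem cut (h : Fam M w) (hB : Bi M J) {c : ι → ℝ} (hc : ∀ a, 0 ≤ c a) {ζ₁ ζ₂ : H}
    (h₁ : J ζ₁ = ζ₁) (h₂ : J ζ₂ = ζ₂) (ρ₁ ρ₂ : H) (A : ℝ) {B : ℝ} (hB' : 0 ≤ B)
    (hl : A * ‖cb c w ζ₁‖ ^ 2 + B * (‖df J 1 (cb c w) ζ₁ ζ₂‖ ^ 2 +
      4 * ‖df J 1 (cb c w) ζ₁ ζ₂‖ * ‖cb c w ζ₁‖) <
      1 / 2 * ‖cb c w ρ₁ - rt J (cb c w) ρ₂‖ ^ 2) :
    ∃ r : ι → ℝ, IsPI (cb r w) ∧ A * ‖cb r w ζ₁‖ ^ 2 + B * ‖df J 1 (cb r w) ζ₁ ζ₂‖ ^ 2 <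
      ‖cb r w ρ₁ - rt J (cb r w) ρ₂‖ ^ 2 := by
  by_contra hn
  push Not at hn
  simp only [df, Complex.ofReal_one, one_smul] at hl hn
  have k := avg3 (t := fun a => c a ^ 2) (fun a => sq_nonneg _) (fun a => ‖w a ζ₁‖ ^ 2)
    (fun a => ‖w a ζ₁‖ ^ 2 + ‖rt J (w a) ζ₂‖ ^ 2) (fun a => ‖w a ρ₁‖ ^ 2 + ‖rt J (w a) ρ₂‖ ^ 2)
    (fun a b => (⟪w a ζ₁, rt J (w b) ζ₂⟫_ℂ).re) (fun a b => (⟪w a ρ₁, rt J (w b) ρ₂⟫_ℂ).re) A B
    (fun l => by
      have := hn (fun a => ind (c a ^ 2) l) (h.cb_ind fun a => by rw [ind_mul, min_self])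
      rwa [h.expand hB.cj, h.expand hB.cj, h.norm_cb] at this)
  have k1 := h.lower hB hc ρ₁ ρ₂
  have k2 := mul_le_mul_of_nonneg_left (h.upper hB hc h₁ h₂) hB'
  rw [h.norm_cb] at hl
  linarith

end Fam

end CutAux

end Vale.Agent.P132
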