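import Vale.Agent.P132.Rt

/-! Calculus of approximate eigensequences. -/

open scoped InnerProductSpace Topology ComplexConjugate
open Filter MeasureTheory

namespace Vale.Agent.P132

open Vale.Agent.P104

variable {H : Type*} [NormedAddCommGroup H] [InnerProductSpace ℂ H] [CompleteSpace H]
  {M : VonNeumannAlgebra H} {J : H →L⋆[ℂ] H} {P : Set H} {ξ : H} {F : FC H}

variable {x y c : ℕ → (H →L[ℂ] H)} {s t : ℝ}

theorem Bd.const {a : H →L[ℂ] H} (ha : a ∈ M) : Bd M fun _ => a :=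
  ⟨fun _ => ha, ‖a‖, fun _ => le_rfl⟩

theorem Bd.mul (hx : Bd M x) (hy : Bd M y) : Bd M fun n => x n * y n := by
  obtain ⟨h1, C, hC⟩ := hx
  obtain ⟨h2, D, hD⟩ := hy
  exact ⟨fun n => mul_mem (h1 n) (h2 n), C * D, fun n => (norm_mul_le _ _).trans
    (mul_le_mul (hC n) (hD n) (norm_nonneg _) ((norm_nonneg _).trans (hC n)))⟩

theorem Bd.add (hx : Bd M x) (hy : Bd M y) : Bd M fun n => x n + y n := by
  obtain ⟨h1, C, hC⟩ := hx
  obtain ⟨h2, D, hD⟩ := hy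
  exact ⟨fun n => add_mem (h1 n) (h2 n), C + D, fun n => (norm_add_le _ _).trans
    (add_le_add (hC n) (hD n))⟩

theorem Bd.sub (hx : Bd M x) (hy : Bd M y) : Bd M fun n => x n - y n := by
  obtain ⟨h1, C, hC⟩ := hx
  obtain ⟨h2, D, hD⟩ := hy
  exact ⟨fun n => sub_mem (h1 n) (h2 n), C + D, fun n => (norm_sub_le _ _).trans
    (add_le_add (hC n) (hD n))⟩

theorem Bd.star (hx : Bd M x) : Bd M fun n => star (x n) := by
  obtain ⟨h1, C, hC⟩ := hx
  exact ⟨fun n => star_mem (h1 n), C, fun n => (norm_star _).trans_le (hC n)⟩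

theorem Bd.sum {ι : Type*} (t : Finset ι) {x : ι → ℕ → (H →L[ℂ] H)} (hx : ∀ i ∈ t, Bd M (x i)) :
    Bd M fun n => ∑ i ∈ t, x i n := by
  classical
  induction t using Finset.induction_on with
  | empty => simpa using Bd.const (zero_mem M)
  | insert i t hi ih =>
    simp only [Finset.sum_insert hi]
    exact (hx i (Finset.mem_insert_self _ _)).add
      (ih fun j hj => hx j (Finset.mem_insert_of_mem hj))

theorem Bd.comp (hx : Bd M x) (φ : ℕ → ℕ) : Bd M fun n => x (φ n) := by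
  obtain ⟨h1, C, hC⟩ := hx
  exact ⟨fun n => h1 _, C, fun n => hC _⟩

theorem Bd.apply_zero (hx : Bd M x) {η : ℕ → H} (h : Tendsto η atTop (𝓝 0)) :
    Tendsto (fun n => x n (η n)) atTop (𝓝 0) := by
  obtain ⟨-, C, hC⟩ := hx
  refine squeeze_zero_norm (a := fun n => C * ‖η n‖) (fun n => (x n).le_of_opNorm_le (hC n) _) ?_
  simpa using (tendsto_zero_iff_norm_tendsto_zero.1 h).const_mul C

theorem Bd.rt_apply_zero (hJ : IsConj J) (hx : Bd M x) {η : ℕ → H} (h : Tendsto η atTop (𝓝 0)) :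
    Tendsto (fun n => rt J (x n) (η n)) atTop (𝓝 0) := by
  obtain ⟨-, C, hC⟩ := hx
  refine squeeze_zero_norm (a := fun n => C * ‖η n‖) (fun n => (hJ.norm_rt_le _ _).trans
    (mul_le_mul_of_nonneg_right (hC n) (norm_nonneg _))) ?_
  simpa using (tendsto_zero_iff_norm_tendsto_zero.1 h).const_mul C

theorem Eig.one (h : Mod M J ξ F) : Eig M J ξ 0 fun _ => 1 := by
  refine ⟨Bd.const (one_mem M), ?_⟩
  simp [df, h.cj.rt_one]

theorem Eig.mul (h : Mod M J ξ F) (hx : Eig M J ξ s x) (hy : Eig M J ξ t y) :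
    Eig M J ξ (s + t) fun n => x n * y n := by
  refine ⟨hx.1.mul hy.1, ?_⟩
  have h1 := ((hx.1.apply_zero hy.2).const_smul ((Real.exp (s / 2) : ℝ) : ℂ)).add
    (hy.1.rt_apply_zero h.cj hx.2)
  rw [smul_zero, add_zero] at h1
  refine h1.congr fun n => ?_
  simp only [df, map_sub, map_smul, h.cj.rt_mul_apply, mul_apply_eq_comp, smul_sub, smul_smul,
    h.bi.comm_apply (hx.1.1 n) (hy.1.1 n), add_div, Real.exp_add, Complex.ofReal_mul]
  abel

theorem Eig.star (h : Mod M J ξ F) (hx : Eig M J ξ s x) : Eig M J ξ (-s) fun n => star (x n) := by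
  refine ⟨hx.1.star, ?_⟩
  have h1 := ((J.continuous.tendsto _).comp hx.2).const_smul (-((Real.exp (-s / 2) : ℝ) : ℂ))
  rw [map_zero, smul_zero] at h1
  refine h1.congr fun n => ?_
  have e : ((Real.exp (-s / 2) : ℝ) : ℂ) * ((Real.exp (s / 2) : ℝ) : ℂ) = 1 := by
    rw [← Complex.ofReal_mul, ← Real.exp_add, neg_div, neg_add_cancel, Real.exp_zero,
      Complex.ofReal_one]
  rw [Function.comp_apply, h.cj.J_df h.fix h.fix, df, neg_smul, smul_sub, smul_smul, e, one_smul,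
    neg_sub]

theorem Eig.sum {ι : Type*} (t : Finset ι) {x : ι → ℕ → (H →L[ℂ] H)}
    (hx : ∀ i ∈ t, Eig M J ξ s (x i)) : Eig M J ξ s fun n => ∑ i ∈ t, x i n := by
  refine ⟨Bd.sum t fun i hi => (hx i hi).1, ?_⟩
  have h1 := tendsto_finsetSum t fun i hi => (hx i hi).2
  rw [Finset.sum_const_zero] at h1
  refine h1.congr fun n => ?_
  simp only [df, rt_sum, sum_apply, Finset.sum_sub_distrib, Finset.smul_sum]

theorem Eig.comp (hx : Eig M J ξ s x) {φ : ℕ → ℕ} (hφ : Tendsto φ atTop atTop) :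
    Eig M J ξ s fun n => x (φ n) :=
  ⟨hx.1.comp φ, hx.2.comp hφ⟩

theorem Eig.σ (h : Mod M J ξ F) (hx : Eig M J ξ s x) (t : ℝ) :
    Eig M J ξ s fun n => F.σ t (x n) := by
  obtain ⟨⟨h1, C, hC⟩, h2⟩ := hx
  refine ⟨⟨fun n => h.sigma_mem t _ (h1 n), C, fun n => (F.σ_norm t _).trans_le (hC n)⟩, ?_⟩
  have h3 := ((F.V t).continuous.tendsto _).comp h2
  rw [map_zero] at h3
  exact h3.congr fun n => (h.df_σ _ _ _).symm

theorem Eig.left (hx : Eig M J ξ s x) :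
    Tendsto (fun n => x n ξ - ((Real.exp (-(s / 2)) : ℝ) : ℂ) • rt J (x n) ξ) atTop (𝓝 0) := by
  have h1 := hx.2.const_smul ((Real.exp (-(s / 2)) : ℝ) : ℂ)
  rw [smul_zero] at h1
  refine h1.congr fun n => ?_
  have e : ((Real.exp (-(s / 2)) : ℝ) : ℂ) * ((Real.exp (s / 2) : ℝ) : ℂ) = 1 := by
    rw [← Complex.ofReal_mul, ← Real.exp_add, neg_add_cancel, Real.exp_zero, Complex.ofReal_one]
  rw [df, smul_sub, smul_smul, e, one_smul]

/-- A strongly null sequence times an approximate eigensequence is null. -/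
theorem Eig.mul_zero (h : Mod M J ξ F) (hc : Bd M c)
    (h0 : Tendsto (fun n => c n ξ) atTop (𝓝 0)) (hx : Eig M J ξ s x) :
    Tendsto (fun n => c n (x n ξ)) atTop (𝓝 0) := by
  have h1 := (hc.apply_zero hx.left).add
    ((hx.1.rt_apply_zero h.cj h0).const_smul ((Real.exp (-(s / 2)) : ℝ) : ℂ))
  rw [smul_zero, add_zero] at h1
  refine h1.congr fun n => ?_
  rw [map_sub, map_smul, h.bi.comm_apply (hc.1 n) (hx.1.1 n), sub_add_cancel]

theorem Eig.norm_sub (h : Mod M J ξ F) (hx : Eig M J ξ s x) (hc : Bd M c) :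
    Tendsto (fun n => ⟪rt J (x n) ξ, c n (rt J (x n) ξ)⟫_ℂ -
      ((Real.exp s : ℝ) : ℂ) * ⟪x n ξ, c n (x n ξ)⟫_ℂ) atTop (𝓝 0) := by
  obtain ⟨C, hC⟩ := hx.1.2
  obtain ⟨D, hD⟩ := hc.2
  have k1 : Tendsto (fun n => ⟪df J (Real.exp (s / 2)) (x n) ξ ξ, c n (rt J (x n) ξ)⟫_ℂ) atTop
      (𝓝 0) := by
    refine squeeze_zero_norm (a := fun n => ‖df J (Real.exp (s / 2)) (x n) ξ ξ‖ * (D * (C * ‖ξ‖)))
      (fun n => (norm_inner_le_norm _ _).trans (mul_le_mul_of_nonneg_left ?_ (norm_nonneg _))) ?_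
    · refine ((c n).le_of_opNorm_le (hD n) _).trans (mul_le_mul_of_nonneg_left ?_
        ((norm_nonneg _).trans (hD n)))
      exact (h.cj.norm_rt_le _ _).trans (mul_le_mul_of_nonneg_right (hC n) (norm_nonneg _))
    · simpa using (tendsto_zero_iff_norm_tendsto_zero.1 hx.2).mul_const (D * (C * ‖ξ‖))
  have k2 : Tendsto (fun n => ⟪x n ξ, c n (df J (Real.exp (s / 2)) (x n) ξ ξ)⟫_ℂ) atTop
      (𝓝 0) := by
    refine squeeze_zero_norm (a := fun n => C * ‖ξ‖ * ‖c n (df J (Real.exp (s / 2)) (x n) ξ ξ)‖)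
      (fun n => (norm_inner_le_norm _ _).trans (mul_le_mul_of_nonneg_right
        ((x n).le_of_opNorm_le (hC n) _) (norm_nonneg _))) ?_
    simpa using (tendsto_zero_iff_norm_tendsto_zero.1 (hc.apply_zero hx.2)).const_mul (C * ‖ξ‖)
  have h1 := (k1.add (k2.const_mul ((Real.exp (s / 2) : ℝ) : ℂ))).neg
  rw [MulZeroClass.mul_zero, add_zero, neg_zero] at h1
  refine h1.congr fun n => ?_
  have e : ((Real.exp s : ℝ) : ℂ) = ((Real.exp (s / 2) : ℝ) : ℂ) * ((Real.exp (s / 2) : ℝ) : ℂ) := by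
    rw [← Complex.ofReal_mul, ← Real.exp_add, add_halves]
  simp only [df, map_sub, map_smul, inner_sub_left, inner_sub_right, inner_smul_left,
    inner_smul_right, Complex.conj_ofReal, e]
  ring

/-- Bounded sequences in `M` that kill `ξ` in the limit. -/
def Nul (M : VonNeumannAlgebra H) (ξ : H) (c : ℕ → (H →L[ℂ] H)) : Prop :=
  Bd M c ∧ Tendsto (fun n => c n ξ) atTop (𝓝 0)

theorem Nul.congr (hc : Nul M ξ c) (e : ∀ n, c n = y n) : Nul M ξ y := by
  rwa [← funext e]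

theorem Nul.zero : Nul M ξ fun _ => 0 := ⟨Bd.const (zero_mem M), by simp⟩

theorem Nul.add (hc : Nul M ξ c) (hy : Nul M ξ y) : Nul M ξ fun n => c n + y n :=
  ⟨hc.1.add hy.1, by simpa using hc.2.add hy.2⟩

theorem Nul.sub (hc : Nul M ξ c) (hy : Nul M ξ y) : Nul M ξ fun n => c n - y n :=
  ⟨hc.1.sub hy.1, by simpa using hc.2.sub hy.2⟩

theorem Nul.neg (hc : Nul M ξ c) : Nul M ξ fun n => -c n :=
  (Nul.zero.sub hc).congr fun _ => zero_sub _

theorem Nul.sum {ι : Type*} (t : Finset ι) {c : ι → ℕ → (H →L[ℂ] H)}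
    (hc : ∀ i ∈ t, Nul M ξ (c i)) : Nul M ξ fun n => ∑ i ∈ t, c i n := by
  refine ⟨Bd.sum t fun i hi => (hc i hi).1, ?_⟩
  simpa using tendsto_finsetSum t fun i hi => (hc i hi).2

theorem Nul.left (hc : Nul M ξ c) (hy : Bd M y) : Nul M ξ fun n => y n * c n :=
  ⟨hy.mul hc.1, hy.apply_zero hc.2⟩

theorem Nul.strong (hc : Nul M ξ c) (h : Mod M J ξ F) (η : H) :
    Tendsto (fun n => c n η) atTop (𝓝 0) :=
  h.sep.tendsto_zero hc.1 hc.2 η

theorem Nul.const (hc : Nul M ξ c) (h : Mod M J ξ F) {a : H →L[ℂ] H} (ha : a ∈ M) :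
    Nul M ξ fun n => c n * a :=
  ⟨hc.1.mul (Bd.const ha), hc.strong h (a ξ)⟩

theorem Nul.eig (hc : Nul M ξ c) (h : Mod M J ξ F) (hx : Eig M J ξ s x) :
    Nul M ξ fun n => c n * x n :=
  ⟨hc.1.mul hx.1, Eig.mul_zero h hc.1 hc.2 hx⟩

theorem Nul.eq_zero (h : Mod M J ξ F) {a : H →L[ℂ] H} (hc : Nul M ξ fun _ => a) : a = 0 :=
  h.sep a (hc.1.1 0) (tendsto_nhds_unique tendsto_const_nhds hc.2)

theorem Nul.of_tendsto (hc : Bd M c) {a : H →L[ℂ] H} (ha : a ∈ M)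
    (h0 : Tendsto (fun n => c n ξ) atTop (𝓝 (a ξ))) : Nul M ξ fun n => c n - a :=
  ⟨hc.sub (Bd.const ha), tendsto_sub_nhds_zero_iff.2 h0⟩

end Vale.Agent.P132
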