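import Vale.Agent.P132.Basic

/-! Existence of the functional calculus in the variable `log ((2 - R) / R)`. -/

open scoped InnerProductSpace Topology ComplexConjugate
open Filter MeasureTheory

namespace Vale.Agent.P132

open Vale.Agent.P104

variable {H : Type*} [NormedAddCommGroup H] [InnerProductSpace ℂ H] [CompleteSpace H]

section Riesz

variable {X : Type*} [TopologicalSpace X] [CompactSpace X] [T2Space X] [MeasurableSpace X]
  [BorelSpace X]

/-- A real continuous function seen as a complex one. -/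
noncomputable def fc1C (f : C(X, ℝ)) : C(X, ℂ) := ⟨fun x => (f x : ℂ), by fun_prop⟩

omit [CompactSpace X] [T2Space X] [MeasurableSpace X] [BorelSpace X] in
lemma fc1_inner (Φ : C(X, ℂ) →⋆ₐ[ℂ] (H →L[ℂ] H)) (g k : C(X, ℂ)) (η ζ : H) :
    ⟪Φ g η, Φ k ζ⟫_ℂ = ⟪η, Φ (star g * k) ζ⟫_ℂ := by
  rw [map_mul, map_star, ContinuousLinearMap.star_eq_adjoint, mul_apply_eq_comp,
    ContinuousLinearMap.adjoint_inner_right]

omit [CompactSpace X] [T2Space X] [MeasurableSpace X] [BorelSpace X] in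
lemma fc1_real (Φ : C(X, ℂ) →⋆ₐ[ℂ] (H →L[ℂ] H)) (f : C(X, ℝ)) (η : H) :
    (((⟪η, Φ (fc1C f) η⟫_ℂ).re : ℝ) : ℂ) = ⟪η, Φ (fc1C f) η⟫_ℂ := by
  rw [← Complex.conj_eq_iff_re, inner_conj_symm]
  have h := fc1_inner Φ (fc1C f) 1 η η
  rw [map_one, one_apply_eq_self, mul_one] at h
  rw [h]
  congr 3
  ext x
  simp [fc1C]

omit [CompactSpace X] [T2Space X] [MeasurableSpace X] [BorelSpace X] in
lemma fc1_pos (Φ : C(X, ℂ) →⋆ₐ[ℂ] (H →L[ℂ] H)) (f : C(X, ℝ)) (hf : ∀ x, 0 ≤ f x) (η : H) :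
    0 ≤ (⟪η, Φ (fc1C f) η⟫_ℂ).re := by
  let g : C(X, ℝ) := ⟨fun x => √(f x), by fun_prop⟩
  have e : fc1C f = star (fc1C g) * fc1C g := by
    ext x
    simp only [fc1C, g, ContinuousMap.coe_mk, ContinuousMap.mul_apply, ContinuousMap.star_apply,
      Complex.star_def, Complex.conj_ofReal]
    rw [← Complex.ofReal_mul, Real.mul_self_sqrt (hf x)]
  rw [e, ← fc1_inner]
  exact inner_self_nonneg (𝕜 := ℂ)

open scoped CompactlySupported in
lemma fc1_riesz (Φ : C(X, ℂ) →⋆ₐ[ℂ] (H →L[ℂ] H)) (η : H) :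
    ∃ ν : Measure X, IsFiniteMeasure ν ∧ ∀ g : C(X, ℂ), ⟪η, Φ g η⟫_ℂ = ∫ x, g x ∂ν := by
  have hadd : ∀ f k : C(X, ℝ), fc1C (f + k) = fc1C f + fc1C k := by
    intro f k
    ext x
    simp [fc1C]
  let Λ : C_c(X, ℝ) →ₚ[ℝ] ℝ :=
    { toFun := fun F => (⟪η, Φ (fc1C F.toContinuousMap) η⟫_ℂ).re
      map_add' := fun F G => by
        have e : (F + G).toContinuousMap = F.toContinuousMap + G.toContinuousMap := rfl
        rw [e, hadd, map_add, add_apply, inner_add_right, Complex.add_re]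
      map_smul' := fun c F => by
        have e : fc1C (c • F).toContinuousMap = (c : ℂ) • fc1C F.toContinuousMap := by
          ext x
          simp [fc1C]
        rw [e, map_smul, smul_apply, inner_smul_right]
        simp
      monotone' := fun F G hFG => by
        have e : G.toContinuousMap = F.toContinuousMap + (G.toContinuousMap - F.toContinuousMap) :=
          by abel
        have h := fc1_pos Φ (G.toContinuousMap - F.toContinuousMap)
          (fun x => sub_nonneg.mpr (hFG x)) η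
        change (⟪η, Φ (fc1C F.toContinuousMap) η⟫_ℂ).re ≤ (⟪η, Φ (fc1C G.toContinuousMap) η⟫_ℂ).re
        rw [e, hadd, map_add, add_apply, inner_add_right, Complex.add_re]
        linarith }
  have hr : ∀ f : C(X, ℝ), ⟪η, Φ (fc1C f) η⟫_ℂ =
      ((∫ x, f x ∂(RealRMK.rieszMeasure Λ) : ℝ) : ℂ) := by
    intro f
    let F : C_c(X, ℝ) := ⟨f, HasCompactSupport.of_compactSpace _⟩
    have h := RealRMK.integral_rieszMeasure Λ F
    rw [← fc1_real]
    exact congrArg _ h.symm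
  refine ⟨RealRMK.rieszMeasure Λ, inferInstance, fun g => ?_⟩
  let a : C(X, ℝ) := ⟨fun x => (g x).re, by fun_prop⟩
  let b : C(X, ℝ) := ⟨fun x => (g x).im, by fun_prop⟩
  have e : g = fc1C a + Complex.I • fc1C b := by
    ext x
    simp only [fc1C, a, b, ContinuousMap.add_apply, ContinuousMap.smul_apply,
      ContinuousMap.coe_mk, smul_eq_mul]
    rw [mul_comm, Complex.re_add_im]
  have hi : Integrable g (RealRMK.rieszMeasure Λ) :=
    (BoundedContinuousFunction.mkOfCompact g).integrable _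
  rw [← integral_re_add_im hi]
  conv_lhs => rw [e]
  rw [map_add, map_smul, add_apply, smul_apply,
    inner_add_right, inner_smul_right, hr, hr, mul_comm]
  rfl

variable {Φ : C(X, ℂ) →⋆ₐ[ℂ] (H →L[ℂ] H)} {η : H} {ν : Measure X}

omit [CompactSpace X] [T2Space X] [BorelSpace X] in
lemma fc1_norm (h : ∀ g : C(X, ℂ), ⟪η, Φ g η⟫_ℂ = ∫ x, g x ∂ν) (g : C(X, ℂ)) :
    ‖Φ g η‖ ^ 2 = ∫ x, ‖g x‖ ^ 2 ∂ν := by
  have h1 := fc1_inner Φ g g η η
  rw [h, inner_self_eq_norm_sq_to_K] at h1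
  have h2 : ∫ x, (star g * g) x ∂ν = ((∫ x, ‖g x‖ ^ 2 ∂ν : ℝ) : ℂ) := by
    rw [← integral_complex_ofReal]
    refine integral_congr_ae (Eventually.of_forall fun x => ?_)
    simp only [ContinuousMap.mul_apply, ContinuousMap.star_apply, Complex.star_def]
    rw [Complex.conj_mul']
    push_cast
    rfl
  rw [h2] at h1
  refine Complex.ofReal_injective ?_
  rw [Complex.ofReal_pow]
  exact h1

omit [CompactSpace X] [T2Space X] in
lemma fc1_zero [IsFiniteMeasure ν] (h : ∀ g : C(X, ℂ), ⟪η, Φ g η⟫_ℂ = ∫ x, g x ∂ν)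
    {ι : Type*} {l : Filter ι} [l.IsCountablyGenerated] (g : ι → C(X, ℂ)) {C : ℝ}
    (hC : ∀ n x, ‖g n x‖ ≤ C) {G : X → ℂ} (hG : ∀ᵐ x ∂ν, Tendsto (fun n => g n x) l (𝓝 (G x))) :
    Tendsto (fun n => ‖Φ (g n) η‖ ^ 2) l (𝓝 (∫ x, ‖G x‖ ^ 2 ∂ν)) := by
  simp only [fc1_norm h]
  refine tendsto_integral_filter_of_dominated_convergence (fun _ => C ^ 2)
    (Eventually.of_forall fun n => ((g n).continuous.norm.pow 2).aestronglyMeasurable)
    (Eventually.of_forall fun n => Eventually.of_forall fun x => ?_) (integrable_const _) ?_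
  · rw [norm_pow, norm_norm]
    exact pow_le_pow_left₀ (norm_nonneg _) (hC n x) 2
  · filter_upwards [hG] with x hx
    exact hx.norm.pow 2

omit [CompactSpace X] [T2Space X] in
lemma fc1_lim [IsFiniteMeasure ν] (h : ∀ g : C(X, ℂ), ⟪η, Φ g η⟫_ℂ = ∫ x, g x ∂ν)
    (g : ℕ → C(X, ℂ)) {C : ℝ} (hC : ∀ n x, ‖g n x‖ ≤ C) {G : X → ℂ}
    (hG : ∀ᵐ x ∂ν, Tendsto (fun n => g n x) atTop (𝓝 (G x))) :
    ∃ ζ, Tendsto (fun n => Φ (g n) η) atTop (𝓝 ζ) := by
  refine cauchySeq_tendsto_of_complete (cauchySeq_iff_tendsto_dist_atTop_0.mpr ?_)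
  have h1 := fc1_zero h (l := atTop) (fun p : ℕ × ℕ => g p.1 - g p.2) (C := C + C)
    (fun p x => (norm_sub_le _ _).trans (add_le_add (hC _ x) (hC _ x))) (G := fun _ => 0) (by
      filter_upwards [hG] with x hx
      have h2 : Tendsto (fun p : ℕ × ℕ => g p.1 x - g p.2 x) atTop (𝓝 (G x - G x)) := by
        rw [← prod_atTop_atTop_eq]
        exact (hx.comp tendsto_fst).sub (hx.comp tendsto_snd)
      simpa using h2)
  have h2 := h1.sqrt
  simp only [map_sub, sub_apply, Real.sqrt_sq (norm_nonneg _)] at h2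
  simpa [dist_eq_norm] using h2

omit [T2Space X] in
lemma fc1_null [IsFiniteMeasure ν] (h : ∀ g : C(X, ℂ), ⟪η, Φ g η⟫_ℂ = ∫ x, g x ∂ν)
    (r : C(X, ℂ)) (hr : ∀ ζ, Φ r ζ = 0 → ζ = 0) : ∀ᵐ x ∂ν, r x ≠ 0 := by
  let τ : ℕ → C(X, ℂ) := fun n => fc1C ⟨fun x => max (1 - n * ‖r x‖) 0, by fun_prop⟩
  let G : X → ℂ := {x | r x = 0}.indicator fun _ => 1
  have hb : ∀ n x, ‖τ n x‖ ≤ 1 := by
    intro n x
    simp only [τ, fc1C, ContinuousMap.coe_mk, Complex.norm_real, Real.norm_eq_abs]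
    rw [abs_of_nonneg (le_max_right _ _)]
    have : 0 ≤ (n : ℝ) * ‖r x‖ := by positivity
    exact max_le (by linarith) zero_le_one
  have hl : ∀ x, Tendsto (fun n => τ n x) atTop (𝓝 (G x)) := by
    intro x
    by_cases hx : r x = 0
    · simp [τ, fc1C, G, hx]
    · have h1 : Tendsto (fun n : ℕ => (n : ℝ) * ‖r x‖) atTop atTop :=
        tendsto_natCast_atTop_atTop.atTop_mul_const (norm_pos_iff.mpr hx)
      have e : G x = 0 := by simp [G, hx]
      rw [e]
      refine tendsto_const_nhds.congr' ?_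
      filter_upwards [h1.eventually_ge_atTop 1] with n hn
      simp only [τ, fc1C, ContinuousMap.coe_mk]
      rw [max_eq_right (by linarith), Complex.ofReal_zero]
  obtain ⟨ζ, hζ⟩ := fc1_lim h τ hb (Eventually.of_forall hl)
  have h1 : Tendsto (fun n => ‖Φ (r * τ n) η‖ ^ 2) atTop (𝓝 (∫ x, ‖r x * G x‖ ^ 2 ∂ν)) := by
    refine fc1_zero h (fun n => r * τ n) (C := ‖r‖ * 1) (fun n x => ?_)
      (Eventually.of_forall fun x => (hl x).const_mul _)
    rw [ContinuousMap.mul_apply, norm_mul]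
    exact mul_le_mul (r.norm_coe_le_norm x) (hb n x) (norm_nonneg _) (norm_nonneg _)
  have h2 : ∀ x, r x * G x = 0 := by
    intro x
    by_cases hx : r x = 0 <;> simp [G, hx]
  have h3 : Tendsto (fun n => ‖Φ (r * τ n) η‖ ^ 2) atTop (𝓝 (‖Φ r ζ‖ ^ 2)) := by
    simp only [map_mul, mul_apply_eq_comp]
    exact (((Φ r).continuous.tendsto ζ).comp hζ).norm.pow 2
  have h4 : ζ = 0 := by
    have := tendsto_nhds_unique h3 h1
    simp only [h2, norm_zero, ne_eq, OfNat.ofNat_ne_zero, not_false_eq_true, zero_pow,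
      integral_zero, pow_eq_zero_iff, norm_eq_zero] at this
    exact hr ζ this
  have h5 := tendsto_nhds_unique (hζ.norm.pow 2) (fc1_zero h τ hb (Eventually.of_forall hl))
  have hm : MeasurableSet {x | r x = 0} :=
    (isClosed_eq r.continuous continuous_const).measurableSet
  have h6 : ∫ x, ‖G x‖ ^ 2 ∂ν = ν.real {x | r x = 0} := by
    rw [← integral_indicator_one hm]
    refine integral_congr_ae (Eventually.of_forall fun x => ?_)
    by_cases hx : r x = 0 <;> simp [G, hx]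
  rw [h6, h4] at h5
  rw [ae_iff]
  simp only [ne_eq, not_not]
  rw [← measureReal_eq_zero_iff]
  simpa using h5.symm

/-- Functional calculus in a variable `s` that is an almost everywhere limit of continuous
functions. -/
lemma fc1_fc (Φ : C(X, ℂ) →⋆ₐ[ℂ] (H →L[ℂ] H)) (r : C(X, ℂ)) (hr : ∀ ζ, Φ r ζ = 0 → ζ = 0)
    (sn : ℕ → C(X, ℝ)) (s : X → ℝ) (hs : Measurable s)
    (hl : ∀ x, r x ≠ 0 → Tendsto (fun n => sn n x) atTop (𝓝 (s x))) :
    ∃ F : FC H, ∀ g, BC g → ∀ k : C(X, ℂ), (∀ x, r x ≠ 0 → g (s x) = k x) → F.f g = Φ k := by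
  classical
  choose ν hfin hν using fc1_riesz Φ
  let c : ∀ g, BC g → ℕ → C(X, ℂ) := fun g hg n =>
    ⟨fun x => g (sn n x), hg.1.comp (sn n).continuous⟩
  have hae : ∀ g (hg : BC g) η, ∀ᵐ x ∂(ν η),
      Tendsto (fun n => c g hg n x) atTop (𝓝 (g (s x))) := by
    intro g hg η
    filter_upwards [fc1_null (hν η) r hr] with x hx
    exact (hg.1.tendsto _).comp (hl x hx)
  have hT : ∀ g (hg : BC g), ∃ T : H →L[ℂ] H, ∀ η,
      Tendsto (fun n => Φ (c g hg n) η) atTop (𝓝 (T η)) := by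
    intro g hg
    obtain ⟨C, hC⟩ := hg.2
    choose f hf using fun η => fc1_lim (hν η) (c g hg) (fun n x => hC _) (hae g hg η)
    exact ⟨continuousLinearMapOfTendsto (fun n => Φ (c g hg n)) (tendsto_pi_nhds.mpr hf), hf⟩
  choose T hT using hT
  have hrep : ∀ g (hg : BC g) η, ⟪η, T g hg η⟫_ℂ = ∫ x, g (s x) ∂(ν η) := by
    intro g hg η
    obtain ⟨C, hC⟩ := hg.2
    have h1 : Tendsto (fun n => ⟪η, Φ (c g hg n) η⟫_ℂ) atTop (𝓝 ⟪η, T g hg η⟫_ℂ) :=
      tendsto_const_nhds.inner (hT g hg η)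
    refine tendsto_nhds_unique h1 ?_
    simp only [hν]
    exact tendsto_integral_of_dominated_convergence (fun _ => C)
      (fun n => (c g hg n).continuous.aestronglyMeasurable) (integrable_const _)
      (fun n => Eventually.of_forall fun x => hC _) (hae g hg η)
  have hk : ∀ g (hg : BC g), ∀ k : C(X, ℂ), (∀ x, r x ≠ 0 → g (s x) = k x) → T g hg = Φ k := by
    intro g hg k e
    refine ContinuousLinearMap.coe_injective ((ext_inner_map _ _).mp fun η => ?_)
    change ⟪T g hg η, η⟫_ℂ = ⟪Φ k η, η⟫_ℂ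
    rw [← inner_conj_symm, hrep, ← inner_conj_symm (Φ k η), hν]
    congr 1
    refine integral_congr_ae ?_
    filter_upwards [fc1_null (hν η) r hr] with x hx
    exact e x hx
  have h1 : BC fun _ => (1 : ℂ) := ⟨continuous_const, 1, fun _ => by simp⟩
  refine ⟨⟨fun g => if hg : BC g then T g hg else 0, fun η => (ν η).map s, fun η => inferInstance,
    fun g hg η => ?_, ?_, fun g k hg hk' => ?_⟩, fun g hg k e => ?_⟩
  · rw [dif_pos hg, hrep, integral_map hs.aemeasurable hg.1.aestronglyMeasurable]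
  · rw [dif_pos h1, hk _ h1 1 fun _ _ => rfl, map_one]
  · obtain ⟨C, hC⟩ := hg.2
    obtain ⟨D, hD⟩ := hk'.2
    have hgk : BC fun s => g s * k s := ⟨hg.1.mul hk'.1, C * D, fun s => by
      rw [norm_mul]
      exact mul_le_mul (hC s) (hD s) (norm_nonneg _) ((norm_nonneg _).trans (hC s))⟩
    rw [dif_pos hg, dif_pos hk', dif_pos hgk]
    ext η
    refine tendsto_nhds_unique (hT _ hgk η) ?_
    have hC0 : 0 ≤ C := (norm_nonneg _).trans (hC 0)
    have h2 : Tendsto (fun n => Φ (c g hg n) (Φ (c k hk' n) η - T k hk' η)) atTop (𝓝 0) := by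
      refine squeeze_zero_norm (a := fun n => C * ‖Φ (c k hk' n) η - T k hk' η‖) (fun n => ?_) ?_
      · refine ((Φ (c g hg n)).le_opNorm _).trans (mul_le_mul_of_nonneg_right ?_ (norm_nonneg _))
        exact (NonUnitalStarAlgHom.norm_apply_le Φ _).trans
          ((ContinuousMap.norm_le _ hC0).mpr fun x => hC _)
      · simpa using (tendsto_iff_norm_sub_tendsto_zero.mp (hT k hk' η)).const_mul C
    have h3 := h2.add (hT g hg (T k hk' η))
    rw [zero_add] at h3
    refine h3.congr fun n => ?_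
    have e : c _ hgk n = c g hg n * c k hk' n := rfl
    rw [e, map_mul, map_sub, sub_add_cancel, mul_apply_eq_comp]
  · exact (dif_pos hg).trans (hk g hg k e)

end Riesz

open scoped ComplexOrder in
theorem exists_fc (R : H →L[ℂ] H) (h0 : 0 ≤ R) (h2 : 0 ≤ 2 - R) (i0 : ∀ η, R η = 0 → η = 0)
    (i2 : ∀ η, (2 - R) η = 0 → η = 0) : ∃ F : FC H, F.f (fun s => fa s * fa s) = R := by
  have hn : IsStarNormal R := (IsSelfAdjoint.of_nonneg h0).isStarNormal
  let Φ : C(spectrum ℂ R, ℂ) →⋆ₐ[ℂ] (H →L[ℂ] H) := cfcHom hn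
  let z : C(spectrum ℂ R, ℂ) := (ContinuousMap.id ℂ).restrict (spectrum ℂ R)
  have hz : Φ z = R := cfcHom_id hn
  have hz2 : Φ (2 - z) = 2 - R := by rw [map_sub, hz, map_ofNat]
  have p0 : ∀ x, 0 ≤ z x := fun x => spectrum_nonneg_of_nonneg h0 x.2
  have p2 : ∀ x, 0 ≤ 2 - z x := fun x => by
    refine spectrum_nonneg_of_nonneg h2 ?_
    rw [← hz2, cfcHom_map_spectrum]
    exact ⟨x, rfl⟩
  have q0 : ∀ x, 0 ≤ (z x).re := fun x => (Complex.le_def.mp (p0 x)).1
  have q2 : ∀ x, 0 ≤ 2 - (z x).re := fun x => by simpa using (Complex.le_def.mp (p2 x)).1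
  have q1 : ∀ x, (((z x).re : ℝ) : ℂ) = z x := fun x =>
    Complex.ext rfl (by simpa using (Complex.le_def.mp (p0 x)).2)
  have hpos : ∀ n : ℕ, (0 : ℝ) < 1 / ((n : ℝ) + 1) := fun n => by positivity
  let sn : ℕ → C(spectrum ℂ R, ℝ) := fun n =>
    ⟨fun x => Real.log (2 - (z x).re + 1 / ((n : ℝ) + 1)) - Real.log ((z x).re + 1 / ((n : ℝ) + 1)),
      (Continuous.log (by fun_prop) fun x => (add_pos_of_nonneg_of_pos (q2 x) (hpos n)).ne').sub
        (Continuous.log (by fun_prop) fun x => (add_pos_of_nonneg_of_pos (q0 x) (hpos n)).ne')⟩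
  have hne : ∀ x, (z * (2 - z)) x ≠ 0 → 0 < (z x).re ∧ 0 < 2 - (z x).re := by
    intro x hx
    have e : (z * (2 - z)) x = (((z x).re * (2 - (z x).re) : ℝ) : ℂ) := by
      push_cast
      rw [q1]
      rfl
    rw [e, Complex.ofReal_ne_zero, mul_ne_zero_iff] at hx
    exact ⟨(q0 x).lt_of_ne' hx.1, (q2 x).lt_of_ne' hx.2⟩
  obtain ⟨F, hF⟩ := fc1_fc Φ (z * (2 - z))
    (fun ζ h => by
      rw [map_mul, hz, hz2, mul_apply_eq_comp] at h
      exact i2 _ (i0 _ h))
    sn (fun x => Real.log (2 - (z x).re) - Real.log ((z x).re))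
    ((Real.measurable_log.comp (by fun_prop : Continuous fun x => 2 - (z x).re).measurable).sub
      (Real.measurable_log.comp (by fun_prop : Continuous fun x => (z x).re).measurable))
    (fun x hx => by
      obtain ⟨a, b⟩ := hne x hx
      have t0 := tendsto_one_div_add_atTop_nhds_zero_nat (𝕜 := ℝ)
      have t1 := (t0.const_add (2 - (z x).re)).log (by rw [add_zero]; exact b.ne')
      have t2 := (t0.const_add ((z x).re)).log (by rw [add_zero]; exact a.ne')
      rw [add_zero] at t1 t2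
      exact t1.sub t2)
  have hsq : ∀ s, fa s * fa s = ((2 / (1 + Real.exp s) : ℝ) : ℂ) := by
    intro s
    rw [fa, ← Complex.ofReal_mul, Real.mul_self_sqrt (by positivity)]
  refine ⟨F, (hF _ ?_ z fun x hx => ?_).trans hz⟩
  · simp only [hsq]
    refine ⟨Complex.continuous_ofReal.comp
      (continuous_const.div (by fun_prop) fun s => by positivity), 2, fun s => ?_⟩
    rw [Complex.norm_real, Real.norm_of_nonneg (by positivity), div_le_iff₀ (by positivity)]
    linarith [Real.exp_pos s]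
  · obtain ⟨a, b⟩ := hne x hx
    rw [hsq, Real.exp_sub, Real.exp_log a, Real.exp_log b, ← q1 x]
    congr 1
    rw [Complex.ofReal_re]
    field_simp
    ring

end Vale.Agent.P132
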