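import Vale.Agent.P132.FC2a

/-! Basic rules of the functional calculus. -/

open scoped InnerProductSpace Topology ComplexConjugate
open Filter MeasureTheory

namespace Vale.Agent.P132

open Vale.Agent.P104

variable {H : Type*} [NormedAddCommGroup H] [InnerProductSpace ℂ H] [CompleteSpace H]

omit [CompleteSpace H] in
/-- Operators are determined by their quadratic forms. -/
theorem ext_quad {S T : H →L[ℂ] H} (h : ∀ η, ⟪η, S η⟫_ℂ = ⟪η, T η⟫_ℂ) : S = T := by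
  have h1 : (S : H →ₗ[ℂ] H) = (T : H →ₗ[ℂ] H) := by
    refine (ext_inner_map _ _).1 fun x => ?_
    rw [← inner_conj_symm, ← inner_conj_symm ((T : H →ₗ[ℂ] H) x)]
    exact congrArg conj (h x)
  exact ContinuousLinearMap.coe_injective h1

namespace FC

variable (F : FC H)

theorem int {g : ℝ → ℂ} (hg : BC g) (η : H) : Integrable g (F.μ η) :=
  haveI := F.fin η
  hg.integrable _

theorem int_sq {g : ℝ → ℂ} (hg : BC g) (η : H) : Integrable (fun s => ‖g s‖ ^ 2) (F.μ η) :=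
  haveI := F.fin η
  hg.integrable_sq _

theorem f_add {g k : ℝ → ℂ} (hg : BC g) (hk : BC k) :
    F.f (fun s => g s + k s) = F.f g + F.f k := by
  refine ext_quad fun η => ?_
  rw [ContinuousLinearMap.add_apply, inner_add_right, F.rep _ (hg.add hk), F.rep _ hg, F.rep _ hk,
    integral_add (F.int hg η) (F.int hk η)]

theorem f_sub {g k : ℝ → ℂ} (hg : BC g) (hk : BC k) :
    F.f (fun s => g s - k s) = F.f g - F.f k := by
  refine ext_quad fun η => ?_
  rw [ContinuousLinearMap.sub_apply, inner_sub_right, F.rep _ (hg.sub hk), F.rep _ hg, F.rep _ hk,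
    integral_sub (F.int hg η) (F.int hk η)]

theorem f_const_mul {g : ℝ → ℂ} (c : ℂ) (hg : BC g) : F.f (fun s => c * g s) = c • F.f g := by
  refine ext_quad fun η => ?_
  rw [ContinuousLinearMap.smul_apply, inner_smul_right, F.rep _ (hg.const_mul c), F.rep _ hg,
    integral_const_mul]

theorem f_const (c : ℂ) : F.f (fun _ => c) = c • (1 : H →L[ℂ] H) := by
  have := F.f_const_mul c (BC.const 1)
  rw [F.one] at this
  simpa using this

theorem f_sum {ι : Type*} (t : Finset ι) {g : ι → ℝ → ℂ} (hg : ∀ i ∈ t, BC (g i)) :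
    F.f (fun s => ∑ i ∈ t, g i s) = ∑ i ∈ t, F.f (g i) := by
  classical
  induction t using Finset.induction_on with
  | empty => simpa using F.f_const 0
  | insert a t ha ih =>
    have h1 := fun i hi => hg i (Finset.mem_insert_of_mem hi)
    simp only [Finset.sum_insert ha]
    rw [F.f_add (hg a (Finset.mem_insert_self _ _)) (BC.sum t h1), ih h1]

theorem f_star {g : ℝ → ℂ} (hg : BC g) : star (F.f g) = F.f fun s => conj (g s) := by
  refine ext_quad fun η => ?_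
  rw [ContinuousLinearMap.star_eq_adjoint, ContinuousLinearMap.adjoint_inner_right,
    ← inner_conj_symm, F.rep _ hg, F.rep _ hg.cj, integral_conj]

theorem f_comm {g k : ℝ → ℂ} (hg : BC g) (hk : BC k) : F.f g * F.f k = F.f k * F.f g := by
  rw [← F.mul _ _ hg hk, ← F.mul _ _ hk hg]
  simp only [mul_comm]

theorem f_f {g k : ℝ → ℂ} (hg : BC g) (hk : BC k) (η : H) :
    F.f g (F.f k η) = F.f (fun s => g s * k s) η := by
  rw [F.mul _ _ hg hk]; rfl

theorem inner_f {g : ℝ → ℂ} (hg : BC g) (η ζ : H) :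
    ⟪F.f g η, ζ⟫_ℂ = ⟪η, F.f (fun s => conj (g s)) ζ⟫_ℂ := by
  rw [← F.f_star hg, ContinuousLinearMap.star_eq_adjoint, ContinuousLinearMap.adjoint_inner_right]

theorem norm_sq {g : ℝ → ℂ} (hg : BC g) (η : H) :
    ‖F.f g η‖ ^ 2 = ∫ s, ‖g s‖ ^ 2 ∂(F.μ η) := by
  have h1 : ⟪F.f g η, F.f g η⟫_ℂ = ∫ s, ((‖g s‖ ^ 2 : ℝ) : ℂ) ∂(F.μ η) := by
    rw [F.inner_f hg, F.f_f hg.cj hg, F.rep _ (hg.cj.mul hg)]
    simp only [Complex.conj_mul', Complex.ofReal_pow]
  rw [integral_complex_ofReal, inner_self_eq_norm_sq_to_K] at h1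
  have h2 : ((‖F.f g η‖ ^ 2 : ℝ) : ℂ) = ((∫ s, ‖g s‖ ^ 2 ∂(F.μ η) : ℝ) : ℂ) := by
    rw [← h1]; simp
  exact_mod_cast h2

theorem mass (η : H) : (F.μ η).real Set.univ = ‖η‖ ^ 2 := by
  have := F.norm_sq (BC.const 1) η
  rw [F.one] at this
  simpa using this.symm

theorem supp_univ (η : H) : F.Supp η Set.univ := by
  unfold Supp; simp

theorem Supp.mono {F : FC H} {η : H} {S S' : Set ℝ} (h : F.Supp η S) (hS : S ⊆ S') :
    F.Supp η S' :=
  measure_mono_null (Set.compl_subset_compl.2 hS) h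

theorem Supp.ae {F : FC H} {η : H} {S : Set ℝ} (h : F.Supp η S) : ∀ᵐ s ∂(F.μ η), s ∈ S := h

theorem sum_le {ι κ : Type*} (t : Finset ι) (t' : Finset κ) {g : ι → ℝ → ℂ} {k : κ → ℝ → ℂ}
    (hg : ∀ i ∈ t, BC (g i)) (hk : ∀ j ∈ t', BC (k j)) {η : H} {S : Set ℝ} (hS : F.Supp η S)
    {C : ℝ} (h : ∀ s ∈ S, ∑ i ∈ t, ‖g i s‖ ^ 2 ≤ C * ∑ j ∈ t', ‖k j s‖ ^ 2) :
    ∑ i ∈ t, ‖F.f (g i) η‖ ^ 2 ≤ C * ∑ j ∈ t', ‖F.f (k j) η‖ ^ 2 := by
  rw [Finset.sum_congr rfl fun i hi => F.norm_sq (hg i hi) η,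
    Finset.sum_congr rfl fun j hj => F.norm_sq (hk j hj) η,
    ← integral_finsetSum _ fun i hi => F.int_sq (hg i hi) η,
    ← integral_finsetSum _ fun j hj => F.int_sq (hk j hj) η, ← integral_const_mul]
  exact integral_mono_ae (integrable_finsetSum _ fun i hi => F.int_sq (hg i hi) η)
    ((integrable_finsetSum _ fun j hj => F.int_sq (hk j hj) η).const_mul C)
    (hS.ae.mono fun s hs => h s hs)

theorem norm_le_norm {g k : ℝ → ℂ} (hg : BC g) (hk : BC k) {η : H} {S : Set ℝ}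
    (hS : F.Supp η S) {C : ℝ} (hC : 0 ≤ C) (h : ∀ s ∈ S, ‖g s‖ ≤ C * ‖k s‖) :
    ‖F.f g η‖ ≤ C * ‖F.f k η‖ := by
  refine (pow_le_pow_iff_left₀ (norm_nonneg _) (by positivity) two_ne_zero).1 ?_
  rw [mul_pow, F.norm_sq hg, F.norm_sq hk, ← integral_const_mul]
  refine integral_mono_ae (F.int_sq hg η) ((F.int_sq hk η).const_mul _)
    (hS.ae.mono fun s hs => ?_)
  show ‖g s‖ ^ 2 ≤ C ^ 2 * ‖k s‖ ^ 2
  rw [← mul_pow]
  exact pow_le_pow_left₀ (norm_nonneg _) (h s hs) 2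

theorem norm_le {g : ℝ → ℂ} (hg : BC g) {η : H} {S : Set ℝ} (hS : F.Supp η S) {C : ℝ}
    (hC : 0 ≤ C) (h : ∀ s ∈ S, ‖g s‖ ≤ C) : ‖F.f g η‖ ≤ C * ‖η‖ := by
  have := F.norm_le_norm hg (BC.const 1) hS hC (by simpa using h)
  rwa [F.one] at this

theorem f_congr {g k : ℝ → ℂ} (hg : BC g) (hk : BC k) {η : H} {S : Set ℝ} (hS : F.Supp η S)
    (h : ∀ s ∈ S, g s = k s) : F.f g η = F.f k η := by
  have := F.norm_le (hg.sub hk) hS le_rfl fun s hs => by rw [h s hs, sub_self, norm_zero]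
  rw [F.f_sub hg hk, zero_mul, norm_le_zero_iff] at this
  exact sub_eq_zero.1 this

theorem f_eq_zero {g : ℝ → ℂ} (hg : BC g) {η : H} {S : Set ℝ} (hS : F.Supp η S)
    (h : ∀ s ∈ S, g s = 0) : F.f g η = 0 := by
  have := F.norm_le hg hS le_rfl fun s hs => by rw [h s hs, norm_zero]
  rwa [zero_mul, norm_le_zero_iff] at this

theorem supp_of_f_eq_zero {g : ℝ → ℂ} (hg : BC g) {η : H} (h : F.f g η = 0) :
    F.Supp η {s | g s = 0} := by
  have h1 := F.norm_sq hg η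
  rw [h, norm_zero, zero_pow two_ne_zero] at h1
  have h2 := (integral_eq_zero_iff_of_nonneg (fun s => sq_nonneg _) (F.int_sq hg η)).1 h1.symm
  have h3 : ∀ᵐ s ∂(F.μ η), g s = 0 := h2.mono fun s hs => by simpa using hs
  exact h3

theorem eq_zero_of_supp_empty {η : H} (h : F.Supp η ∅) : η = 0 := by
  have := F.f_eq_zero (BC.const 1) h (by simp)
  rwa [F.one] at this

theorem supp_iff {η : H} {S : Set ℝ} (hS : IsClosed S) :
    F.Supp η S ↔ ∀ g, BC g → (∀ s ∈ S, g s = 0) → F.f g η = 0 := by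
  refine ⟨fun h g hg h0 => F.f_eq_zero hg h h0, fun h => ?_⟩
  rcases S.eq_empty_or_nonempty with rfl | hne
  · exact (F.supp_of_f_eq_zero (BC.const 1) (h _ (BC.const 1) (by simp))).mono (by simp)
  · have hb : BC fun s => ((min 1 (Metric.infDist s S) : ℝ) : ℂ) := by
      refine ⟨Complex.continuous_ofReal.comp
        (continuous_const.min (Metric.continuous_infDist_pt S)), 1, fun s => ?_⟩
      rw [Complex.norm_real, Real.norm_of_nonneg (le_min zero_le_one Metric.infDist_nonneg)]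
      exact min_le_left _ _
    refine (F.supp_of_f_eq_zero hb (h _ hb fun s hs => ?_)).mono fun s hs => ?_
    · rw [Metric.infDist_zero_of_mem hs]; simp
    · have h1 : min 1 (Metric.infDist s S) = 0 := Complex.ofReal_eq_zero.1 hs
      refine (hS.mem_iff_infDist_zero hne).2 ?_
      rcases min_eq_iff.1 h1 with h2 | h2
      · exact absurd h2.1 one_ne_zero
      · exact h2.1

theorem supp_f {g : ℝ → ℂ} (hg : BC g) {η : H} {S S' : Set ℝ} (hS : F.Supp η S)
    (hS' : IsClosed S') (h : ∀ s ∈ S, s ∉ S' → g s = 0) : F.Supp (F.f g η) S' := by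
  refine (F.supp_iff hS').2 fun k hk hk0 => ?_
  rw [F.f_f hk hg]
  refine F.f_eq_zero (hk.mul hg) hS fun s hs => ?_
  by_cases hs' : s ∈ S'
  · rw [hk0 s hs', zero_mul]
  · rw [h s hs hs', mul_zero]

theorem supp_map {T : H →L[ℂ] H} (hT : ∀ g, BC g → T * F.f g = F.f g * T) {η : H} {S : Set ℝ}
    (hS : IsClosed S) (h : F.Supp η S) : F.Supp (T η) S := by
  refine (F.supp_iff hS).2 fun g hg h0 => ?_
  have h1 : F.f g (T η) = T (F.f g η) := (congrArg (fun A : H →L[ℂ] H => A η) (hT g hg)).symm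
  rw [h1, F.f_eq_zero hg h h0, map_zero]

theorem supp_add {η ζ : H} {S : Set ℝ} (hS : IsClosed S) (h : F.Supp η S) (h' : F.Supp ζ S) :
    F.Supp (η + ζ) S := by
  refine (F.supp_iff hS).2 fun g hg h0 => ?_
  rw [map_add, F.f_eq_zero hg h h0, F.f_eq_zero hg h' h0, add_zero]

theorem supp_smul (c : ℂ) {η : H} {S : Set ℝ} (hS : IsClosed S) (h : F.Supp η S) :
    F.Supp (c • η) S := by
  refine (F.supp_iff hS).2 fun g hg h0 => ?_
  rw [map_smul, F.f_eq_zero hg h h0, smul_zero]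

theorem inj {g : ℝ → ℂ} (hg : BC g) (h0 : ∀ s, g s ≠ 0) {η : H} (h : F.f g η = 0) : η = 0 :=
  F.eq_zero_of_supp_empty ((F.supp_of_f_eq_zero hg h).mono fun s hs => h0 s hs)

theorem denseRange {g : ℝ → ℂ} (hg : BC g) (h0 : ∀ s, g s ≠ 0) : DenseRange (F.f g) := by
  have h1 : (LinearMap.range (F.f g : H →ₗ[ℂ] H))ᗮ = ⊥ := by
    refine (Submodule.eq_bot_iff _).2 fun ζ hζ => ?_
    refine F.inj hg.cj (fun s hs => h0 s ((map_eq_zero _).1 hs)) ?_
    refine ext_inner_left ℂ fun η => ?_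
    rw [← F.inner_f hg, inner_zero_right]
    exact hζ _ ⟨η, rfl⟩
  have h2 := (Submodule.topologicalClosure_eq_top_iff.2 h1)
  exact Submodule.dense_iff_topologicalClosure_eq_top.2 h2

theorem eigen_of_supp {g : ℝ → ℂ} (hg : BC g) {η : H} {h : ℝ} (hS : F.Supp η {h}) :
    F.f g η = g h • η := by
  rw [F.f_congr hg (BC.const (g h)) hS (fun s hs => by rw [Set.mem_singleton_iff.1 hs]), F.f_const]
  rfl

theorem tendsto {ι : Type*} {l : Filter ι} [l.IsCountablyGenerated] {g : ι → ℝ → ℂ} {k : ℝ → ℂ}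
    (hg : ∀ᶠ i in l, BC (g i)) (hk : BC k) {C : ℝ} (hC : ∀ᶠ i in l, ∀ s, ‖g i s‖ ≤ C)
    (h : ∀ s, Tendsto (fun i => g i s) l (𝓝 (k s))) (η : H) :
    Tendsto (fun i => F.f (g i) η) l (𝓝 (F.f k η)) := by
  have := F.fin η
  obtain ⟨D, hD⟩ := hk.2
  have h1 : Tendsto (fun i => ∫ s, ‖g i s - k s‖ ^ 2 ∂(F.μ η)) l (𝓝 (∫ _s, (0 : ℝ) ∂(F.μ η))) := by
    refine tendsto_integral_filter_of_dominated_convergence (fun _ => (C + D) ^ 2)
      (hg.mono fun i hi => ((hi.1.sub hk.1).norm.pow 2).aestronglyMeasurable)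
      (hC.mono fun i hi => Eventually.of_forall fun s => ?_) (integrable_const _)
      (Eventually.of_forall fun s => ?_)
    · rw [norm_pow, norm_norm]
      exact pow_le_pow_left₀ (norm_nonneg _)
        ((norm_sub_le _ _).trans (add_le_add (hi s) (hD s))) 2
    · simpa using (tendsto_iff_norm_sub_tendsto_zero.1 (h s)).pow 2
  rw [integral_zero] at h1
  have h2 : Tendsto (fun i => ‖F.f (g i) η - F.f k η‖ ^ 2) l (𝓝 0) := by
    refine h1.congr' (hg.mono fun i hi => ?_)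
    show _ = ‖F.f (g i) η - F.f k η‖ ^ 2
    rw [← F.norm_sq (hi.sub hk), F.f_sub hi hk]
    rfl
  have h3 := h2.sqrt
  simp only [Real.sqrt_sq (norm_nonneg _), Real.sqrt_zero] at h3
  exact tendsto_iff_norm_sub_tendsto_zero.2 h3

theorem sum_f_apply {ι : Type*} (t : Finset ι) {g : ι → ℝ → ℂ} (hg : ∀ i ∈ t, BC (g i)) (η : H) :
    ∑ i ∈ t, F.f (g i) η = F.f (fun s => ∑ i ∈ t, g i s) η := by
  rw [F.f_sum t hg, ContinuousLinearMap.sum_apply]

/-- Finite triangle sums recover `η` in the limit. -/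
theorem tendsto_sum_tri {ε : ℝ} (hε : 0 < ε) (η : H) :
    Tendsto (fun n : ℕ => ∑ k ∈ Finset.Icc (-(n : ℤ)) n, F.f (tri (k * ε) ε) η) atTop (𝓝 η) := by
  have h1 := F.tendsto (l := atTop)
    (g := fun (n : ℕ) s => ∑ k ∈ Finset.Icc (-(n : ℤ)) n, tri (k * ε) ε s)
    (Eventually.of_forall fun n => BC.sum _ fun k _ => bc_tri _ hε) (BC.const 1) (C := 1)
    (Eventually.of_forall fun n s => norm_sum_tri_le hε s _) (fun s => ?_) η
  · rw [F.one] at h1
    refine h1.congr fun n => ?_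
    exact (F.sum_f_apply _ (fun k _ => bc_tri _ hε) η).symm
  · refine tendsto_const_nhds.congr' ?_
    filter_upwards [eventually_ge_atTop ⌈|s / ε| + 1⌉₊] with n hn
    refine (sum_tri hε _ fun k hk => ?_).symm
    rw [← div_lt_one hε, abs_sub_div hε] at hk
    have h2 : |s / ε| + 1 ≤ n := (Nat.le_ceil _).trans (by exact_mod_cast hn)
    have h3 := abs_lt.1 hk
    have h4 := le_abs_self (s / ε)
    have h5 := neg_abs_le (s / ε)
    rw [Finset.mem_Icc]
    constructor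
    · have : -(n : ℝ) ≤ k := by linarith
      exact_mod_cast this
    · have : (k : ℝ) ≤ n := by linarith
      exact_mod_cast this

theorem sum_tri_of_supp {ε : ℝ} (hε : 0 < ε) {η : H} {S : Set ℝ} (hS : F.Supp η S)
    (t : Finset ℤ) (ht : ∀ s ∈ S, ∀ k : ℤ, |s - k * ε| < ε → k ∈ t) :
    ∑ k ∈ t, F.f (tri (k * ε) ε) η = η := by
  rw [F.sum_f_apply t (g := fun k : ℤ => tri (k * ε) ε) (fun k _ => bc_tri _ hε),
    F.f_congr (BC.sum t fun k _ => bc_tri _ hε) (BC.const 1) hS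
      (fun s hs => sum_tri hε t (ht s hs)), F.one]
  rfl

theorem sum_tri_norm_sq_le {ε : ℝ} (hε : 0 < ε) (η : H) (t : Finset ℤ) :
    ∑ k ∈ t, ‖F.f (tri (k * ε) ε) η‖ ^ 2 ≤ ‖η‖ ^ 2 := by
  have := F.sum_le t ({()} : Finset Unit) (g := fun k : ℤ => tri (k * ε) ε)
    (k := fun _ _ => 1) (fun k _ => bc_tri _ hε) (fun _ _ => BC.const 1) (F.supp_univ η) (C := 1)
    (fun s _ => by simpa using sum_tri_sq_le hε s t)
  simpa [F.one] using this

theorem supp_tri {δ : ℝ} (hδ : 0 < δ) (h : ℝ) (η : H) :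
    F.Supp (F.f (tri h δ) η) (Set.Icc (h - δ) (h + δ)) := by
  refine F.supp_f (bc_tri h hδ) (F.supp_univ η) isClosed_Icc fun s _ hs => tri_eq_zero hδ ?_
  by_contra hlt
  have := abs_lt.1 (not_le.1 hlt)
  exact hs ⟨by linarith, by linarith⟩

end FC

end Vale.Agent.P132
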