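import Vale.Agent.P132.Basic

/-! Scalar facts used by the functional calculus. -/

open scoped InnerProductSpace Topology ComplexConjugate
open Filter MeasureTheory

namespace Vale.Agent.P132

theorem BC.bound {g : ℝ → ℂ} (hg : BC g) : ∃ C : ℝ, 0 ≤ C ∧ ∀ s, ‖g s‖ ≤ C := by
  obtain ⟨C, hC⟩ := hg.2
  exact ⟨C, (norm_nonneg _).trans (hC 0), hC⟩

theorem BC.const (c : ℂ) : BC fun _ => c := ⟨continuous_const, ‖c‖, fun _ => le_rfl⟩

theorem BC.add {g k : ℝ → ℂ} (hg : BC g) (hk : BC k) : BC fun s => g s + k s := by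
  obtain ⟨C, hC⟩ := hg.2
  obtain ⟨D, hD⟩ := hk.2
  exact ⟨hg.1.add hk.1, C + D, fun s => (norm_add_le _ _).trans (add_le_add (hC s) (hD s))⟩

theorem BC.sub {g k : ℝ → ℂ} (hg : BC g) (hk : BC k) : BC fun s => g s - k s := by
  obtain ⟨C, hC⟩ := hg.2
  obtain ⟨D, hD⟩ := hk.2
  exact ⟨hg.1.sub hk.1, C + D, fun s => (norm_sub_le _ _).trans (add_le_add (hC s) (hD s))⟩

theorem BC.mul {g k : ℝ → ℂ} (hg : BC g) (hk : BC k) : BC fun s => g s * k s := by
  obtain ⟨C, hC0, hC⟩ := hg.bound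
  obtain ⟨D, hD⟩ := hk.2
  exact ⟨hg.1.mul hk.1, C * D, fun s =>
    (norm_mul_le _ _).trans (mul_le_mul (hC s) (hD s) (norm_nonneg _) hC0)⟩

theorem BC.const_mul {g : ℝ → ℂ} (c : ℂ) (hg : BC g) : BC fun s => c * g s :=
  (BC.const c).mul hg

theorem BC.cj {g : ℝ → ℂ} (hg : BC g) : BC fun s => conj (g s) := by
  obtain ⟨C, hC⟩ := hg.2
  exact ⟨Complex.continuous_conj.comp hg.1, C, fun s => by rw [Complex.norm_conj]; exact hC s⟩

theorem BC.comp_neg {g : ℝ → ℂ} (hg : BC g) : BC fun s => g (-s) := by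
  obtain ⟨C, hC⟩ := hg.2
  exact ⟨hg.1.comp continuous_neg, C, fun s => hC _⟩

theorem BC.sum {ι : Type*} (t : Finset ι) {g : ι → ℝ → ℂ} (hg : ∀ i ∈ t, BC (g i)) :
    BC fun s => ∑ i ∈ t, g i s := by
  classical
  induction t using Finset.induction_on with
  | empty => simpa using BC.const 0
  | insert a t ha ih =>
    simp only [Finset.sum_insert ha]
    exact (hg a (Finset.mem_insert_self _ _)).add
      (ih fun i hi => hg i (Finset.mem_insert_of_mem hi))

theorem BC.integrable {g : ℝ → ℂ} (hg : BC g) (μ : Measure ℝ) [IsFiniteMeasure μ] :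
    Integrable g μ := by
  obtain ⟨C, hC⟩ := hg.2
  exact Integrable.of_bound hg.1.aestronglyMeasurable C (Eventually.of_forall hC)

theorem BC.integrable_sq {g : ℝ → ℂ} (hg : BC g) (μ : Measure ℝ) [IsFiniteMeasure μ] :
    Integrable (fun s => ‖g s‖ ^ 2) μ := by
  obtain ⟨C, hC⟩ := hg.2
  refine Integrable.of_bound (hg.1.norm.pow 2).aestronglyMeasurable (C ^ 2)
    (Eventually.of_forall fun s => ?_)
  rw [norm_pow, norm_norm]
  exact pow_le_pow_left₀ (norm_nonneg _) (hC s) 2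

theorem norm_ex (t s : ℝ) : ‖ex t s‖ = 1 := by
  unfold ex
  rw [Complex.norm_exp]
  simp

theorem ex_add (t t' s : ℝ) : ex (t + t') s = ex t s * ex t' s := by
  unfold ex
  rw [← Complex.exp_add]
  push_cast
  ring_nf

theorem ex_add' (t s s' : ℝ) : ex t (s + s') = ex t s * ex t s' := by
  unfold ex
  rw [← Complex.exp_add]
  push_cast
  ring_nf

theorem ex_comm (t s : ℝ) : ex t s = ex s t := by
  unfold ex
  rw [mul_right_comm]

theorem ex_zero (s : ℝ) : ex 0 s = 1 := by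
  unfold ex
  simp

theorem conj_ex (t s : ℝ) : conj (ex t s) = ex (-t) s := by
  unfold ex
  rw [← Complex.exp_conj]
  simp

theorem continuous_ex : Continuous fun p : ℝ × ℝ => ex p.1 p.2 := by
  unfold ex
  fun_prop

theorem bc_ex (t : ℝ) : BC (ex t) :=
  ⟨by unfold ex; fun_prop, 1, fun s => (norm_ex t s).le⟩

theorem bc_fa : BC fa := by
  refine ⟨?_, 2, fun s => ?_⟩
  · unfold fa
    refine Complex.continuous_ofReal.comp (Continuous.sqrt (continuous_const.div (by fun_prop) ?_))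
    intro s
    positivity
  · unfold fa
    rw [Complex.norm_real, Real.norm_of_nonneg (Real.sqrt_nonneg _), Real.sqrt_le_iff]
    refine ⟨by norm_num, ?_⟩
    rw [div_le_iff₀ (by positivity)]
    have := Real.exp_pos s
    nlinarith

theorem fa_neg (s : ℝ) : fa (-s) = fb s := by
  unfold fa fb
  have h : 2 / (1 + Real.exp (-s)) = 2 * Real.exp s / (1 + Real.exp s) := by
    rw [Real.exp_neg]
    have := Real.exp_pos s
    field_simp
    ring
  rw [h]

theorem bc_fb : BC fb := by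
  have := bc_fa.comp_neg
  simpa only [fa_neg] using this

theorem fa_ne_zero (s : ℝ) : fa s ≠ 0 := by
  unfold fa
  exact Complex.ofReal_ne_zero.2 (Real.sqrt_pos.2 (by positivity)).ne'

theorem fb_ne_zero (s : ℝ) : fb s ≠ 0 := by
  rw [← fa_neg]; exact fa_ne_zero _

theorem fb_eq (s : ℝ) : fb s = (Real.exp (s / 2) : ℝ) * fa s := by
  unfold fa fb
  have h : 2 * Real.exp s / (1 + Real.exp s) = Real.exp (s / 2) ^ 2 * (2 / (1 + Real.exp s)) := by
    rw [← Real.exp_nat_mul]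
    have : ((2 : ℕ) : ℝ) * (s / 2) = s := by push_cast; ring
    rw [this]
    ring
  rw [h, Real.sqrt_mul (sq_nonneg _), Real.sqrt_sq (Real.exp_pos _).le, Complex.ofReal_mul]

theorem conj_fa (s : ℝ) : conj (fa s) = fa s := Complex.conj_ofReal _

theorem conj_fb (s : ℝ) : conj (fb s) = fb s := Complex.conj_ofReal _

theorem fa_sq_add (s : ℝ) : fa s * fa s + fb s * fb s = 2 := by
  unfold fa fb
  rw [← Complex.ofReal_mul, ← Complex.ofReal_mul, Real.mul_self_sqrt (by positivity),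
    Real.mul_self_sqrt (by positivity), ← Complex.ofReal_add]
  have h : 2 / (1 + Real.exp s) + 2 * Real.exp s / (1 + Real.exp s) = 2 := by
    have := Real.exp_pos s
    field_simp
  rw [h]
  simp

theorem norm_tri (h δ s : ℝ) : ‖tri h δ s‖ = max (1 - |s - h| / δ) 0 := by
  unfold tri
  rw [Complex.norm_real, Real.norm_of_nonneg (le_max_right _ _)]

theorem norm_tri_le (h : ℝ) {δ : ℝ} (hδ : 0 < δ) (s : ℝ) : ‖tri h δ s‖ ≤ 1 := by
  rw [norm_tri]
  have : 0 ≤ |s - h| / δ := by positivity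
  exact max_le (by linarith) zero_le_one

theorem bc_tri (h : ℝ) {δ : ℝ} (hδ : 0 < δ) : BC (tri h δ) :=
  ⟨by unfold tri; fun_prop, 1, norm_tri_le h hδ⟩

theorem conj_tri (h δ s : ℝ) : conj (tri h δ s) = tri h δ s := Complex.conj_ofReal _

theorem tri_eq_zero {h δ s : ℝ} (hδ : 0 < δ) (hs : δ ≤ |s - h|) : tri h δ s = 0 := by
  unfold tri
  have : 1 ≤ |s - h| / δ := (one_le_div hδ).2 hs
  rw [max_eq_right (by linarith), Complex.ofReal_zero]

theorem tri_ne_zero {h δ s : ℝ} (hδ : 0 < δ) (hs : |s - h| < δ) : tri h δ s ≠ 0 := by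
  unfold tri
  have : |s - h| / δ < 1 := (div_lt_one hδ).2 hs
  exact Complex.ofReal_ne_zero.2 (lt_max_of_lt_left (by linarith)).ne'

theorem abs_sub_div {ε : ℝ} (hε : 0 < ε) (s : ℝ) (k : ℤ) : |s - k * ε| / ε = |s / ε - k| := by
  have : s / ε - k = (s - k * ε) / ε := by field_simp
  rw [this, abs_div, abs_of_pos hε]

theorem tri_cases (u : ℝ) (k : ℤ) (φ : ℝ → ℝ) (h0 : φ 0 = 0) : φ (max (1 - |u - k|) 0) =
    (if k = ⌊u⌋ then φ (1 - Int.fract u) else 0) +
      (if k = ⌊u⌋ + 1 then φ (Int.fract u) else 0) := by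
  have h1 := Int.fract_nonneg u
  have h2 := Int.fract_lt_one u
  have h3 : u = ⌊u⌋ + Int.fract u := (Int.floor_add_fract u).symm
  by_cases ha : k = ⌊u⌋
  · have hb : k ≠ ⌊u⌋ + 1 := by omega
    have e : u - k = Int.fract u := by rw [ha]; linarith
    rw [if_pos ha, if_neg hb, e, abs_of_nonneg h1, max_eq_left (by linarith), add_zero]
  by_cases hb : k = ⌊u⌋ + 1
  · have e : u - k = Int.fract u - 1 := by rw [hb]; push_cast; linarith
    rw [if_neg ha, if_pos hb, e, abs_of_nonpos (by linarith), max_eq_left (by linarith), zero_add]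
    congr 1
    ring
  · rw [if_neg ha, if_neg hb, add_zero, max_eq_right, h0]
    rcases lt_or_gt_of_ne ha with h | h
    · have : (k : ℝ) + 1 ≤ ⌊u⌋ := by exact_mod_cast h
      have := le_abs_self (u - k)
      linarith
    · have : (⌊u⌋ : ℝ) + 2 ≤ k := by exact_mod_cast (show ⌊u⌋ + 2 ≤ k by omega)
      have := neg_le_abs (u - k)
      linarith

theorem sum_tri_phi {ε : ℝ} (hε : 0 < ε) (s : ℝ) (t : Finset ℤ) (φ : ℝ → ℝ) (h0 : φ 0 = 0) :
    ∑ k ∈ t, φ (max (1 - |s - k * ε| / ε) 0) =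
      (if ⌊s / ε⌋ ∈ t then φ (1 - Int.fract (s / ε)) else 0) +
        (if ⌊s / ε⌋ + 1 ∈ t then φ (Int.fract (s / ε)) else 0) := by
  simp only [abs_sub_div hε, tri_cases _ _ φ h0]
  rw [Finset.sum_add_distrib, Finset.sum_ite_eq', Finset.sum_ite_eq']

theorem sum_tri_phi' {ε s : ℝ} (hε : 0 < ε) (t : Finset ℤ)
    (ht : ∀ k : ℤ, |s - k * ε| < ε → k ∈ t) (φ : ℝ → ℝ) (h0 : φ 0 = 0) :
    ∑ k ∈ t, φ (max (1 - |s - k * ε| / ε) 0) =
      φ (1 - Int.fract (s / ε)) + φ (Int.fract (s / ε)) := by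
  have h1 := Int.fract_nonneg (s / ε)
  have h2 := Int.fract_lt_one (s / ε)
  have h3 : s / ε = ⌊s / ε⌋ + Int.fract (s / ε) := (Int.floor_add_fract _).symm
  have ht' : ∀ k : ℤ, |s / ε - k| < 1 → k ∈ t := fun k hk =>
    ht k (by rwa [← abs_sub_div hε, div_lt_one hε] at hk)
  rw [sum_tri_phi hε s t φ h0, if_pos (ht' _ (abs_lt.2 ⟨by linarith, by linarith⟩))]
  rcases h1.eq_or_lt with h | h
  · rw [← h, h0, ite_self]
  · rw [if_pos (ht' _ (abs_lt.2 ⟨by push_cast; linarith, by push_cast; linarith⟩))]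

/-- Partition of unity by triangles: `t` contains every integer `k` with `|s - k ε| < ε`. -/
theorem sum_tri {ε s : ℝ} (hε : 0 < ε) (t : Finset ℤ) (ht : ∀ k : ℤ, |s - k * ε| < ε → k ∈ t) :
    ∑ k ∈ t, tri (k * ε) ε s = 1 := by
  unfold tri
  rw [← Complex.ofReal_sum, sum_tri_phi' hε t ht (fun x => x) rfl]
  simp

theorem sum_tri_sq_le {ε : ℝ} (hε : 0 < ε) (s : ℝ) (t : Finset ℤ) :
    ∑ k ∈ t, ‖tri (k * ε) ε s‖ ^ 2 ≤ 1 := by
  simp only [norm_tri]
  rw [sum_tri_phi hε s t (fun x => x ^ 2) (by simp)]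
  have h1 := Int.fract_nonneg (s / ε)
  have h2 := Int.fract_lt_one (s / ε)
  split_ifs <;> nlinarith

theorem norm_sum_tri_le {ε : ℝ} (hε : 0 < ε) (s : ℝ) (t : Finset ℤ) :
    ‖∑ k ∈ t, tri (k * ε) ε s‖ ≤ 1 := by
  refine (norm_sum_le _ _).trans ?_
  simp only [norm_tri]
  rw [sum_tri_phi hε s t (fun x => x) rfl]
  have h1 := Int.fract_nonneg (s / ε)
  have h2 := Int.fract_lt_one (s / ε)
  split_ifs <;> linarith

theorem le_sum_tri_sq {ε s : ℝ} (hε : 0 < ε) (t : Finset ℤ)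
    (ht : ∀ k : ℤ, |s - k * ε| < ε → k ∈ t) : 1 / 2 ≤ ∑ k ∈ t, ‖tri (k * ε) ε s‖ ^ 2 := by
  simp only [norm_tri]
  rw [sum_tri_phi' hε t ht (fun x => x ^ 2) (by simp)]
  nlinarith [sq_nonneg (1 - 2 * Int.fract (s / ε))]

/-- The trapezoid `2 tri h (2 δ) - tri h δ` equals one on `[h - δ, h + δ]`. -/
theorem trap_eq_one {h δ s : ℝ} (hδ : 0 < δ) (hs : |s - h| ≤ δ) :
    2 * tri h (2 * δ) s - tri h δ s = 1 := by
  unfold tri
  have h1 : |s - h| / δ ≤ 1 := (div_le_one hδ).2 hs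
  have h2 : |s - h| / (2 * δ) = |s - h| / δ / 2 := by field_simp
  rw [h2, max_eq_left (by linarith), max_eq_left (by linarith)]
  push_cast
  ring

theorem bc_ft {k : ℝ → ℂ} (hk : Integrable k) : BC (ft k) := by
  have hb : ∀ s t, ‖k t * ex t s‖ = ‖k t‖ := fun s t => by rw [norm_mul, norm_ex, mul_one]
  refine ⟨?_, ∫ t, ‖k t‖, fun s => ?_⟩
  · refine continuous_of_dominated (bound := fun t => ‖k t‖) (fun s => ?_)
      (fun s => Eventually.of_forall fun t => (hb s t).le) hk.norm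
      (Eventually.of_forall fun t => continuous_const.mul (bc_ex t).1)
    refine hk.1.mul (Continuous.aestronglyMeasurable ?_)
    unfold ex
    fun_prop
  · refine (norm_integral_le_integral_norm _).trans (le_of_eq ?_)
    simp only [hb]

end Vale.Agent.P132
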