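import Vale.Agent.P132.Arv
import Vale.Agent.P132.Join

/-! Approximate intertwiners at every frequency. -/

open scoped InnerProductSpace Topology ComplexConjugate
open Filter MeasureTheory

namespace Vale.Agent.P132

open Vale.Agent.P104

variable {H : Type*} [NormedAddCommGroup H] [InnerProductSpace ℂ H] [CompleteSpace H]
  {M : VonNeumannAlgebra H} {J : H →L⋆[ℂ] H} {P : Set H} {ξ : H} {F : FC H}

/-- Full spectrum in every corner of the centralizer. -/
theorem Ctx.corner_band (h : Ctx M J P) (hξ : ξ ∈ P) (hm : Mod M J ξ F) {e : H →L[ℂ] H}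
    (heM : e ∈ M) (he : IsStarProjection e) (h0 : e ≠ 0) (hc : rt J e ξ = e ξ) (s : ℝ) {δ : ℝ}
    (hδ : 0 < δ) :
    ∃ y ∈ M, y ≠ 0 ∧ e * y = y ∧ y * e = y ∧ F.Supp (y ξ) (Set.Icc (s - δ) (s + δ)) := by
  have hB := h.bi
  obtain ⟨v, hv, v1, v2⟩ := h.t3.iso e heM he h0
  have hv' := star_mem hv
  obtain ⟨a1, a2, a3, -⟩ := h.pull hξ hm.sep hv v1 (by rw [v2, hc])
  set ζ := star v (rt J v ξ) with hζ
  obtain ⟨F', hm', hF'⟩ := h.md ζ a1 a2
  have a5 : rt J (star v) ζ = star v ξ := by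
    rw [hζ, ← hB.comm_apply hv' hv', ← hB.cj.rt_mul_apply, v2, hc, ← mul_apply_eq_comp, ← v2,
      ← mul_assoc, v1, one_mul]
  have sA : star (v * rt J (star v)) = rt J v * star v := by
    rw [star_mul, hB.cj.rt_star, star_star]
  have hA : ∀ x ∈ M, (v * rt J (star v)) (x ζ) = (v * x * star v) ξ := fun x hx => by
    rw [mul_apply_eq_comp, ← hB.comm_apply hx hv', a5]; rfl
  have key := fun η => hm'.inter hm (v * rt J (star v))
    (fun x hx => ⟨v * x * star v, mul_mem (mul_mem hv hx) hv', hA x hx, by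
      rw [mul_apply_eq_comp, hB.comm_apply hv hv', hB.comm_apply hv hx, a3, hB.cj.rt_mul_apply,
        hB.cj.rt_mul_apply]⟩)
    (fun x hx => ⟨star v * x * v, mul_mem (mul_mem hv' hx) hv, by
      rw [sA, mul_apply_eq_comp, ← hB.comm_apply hv' hv, ← hB.comm_apply hx hv, ← a3]; rfl, by
      rw [sA, mul_apply_eq_comp, hB.comm_apply hv' hx, ← a5, hB.cj.rt_mul_apply,
        hB.cj.rt_mul_apply]⟩) (bc_tri s hδ) η
  have inj : ∀ η, (v * rt J (star v)) η = 0 → η = 0 := fun η h0 => by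
    have := congrArg (fun ζ => rt J v (star v ζ)) h0
    simp only [mul_apply_eq_comp, map_zero] at this
    rwa [← mul_apply_eq_comp (star v), v1, one_apply_eq_self, ← hB.cj.rt_mul_apply, v1, hB.cj.rt_one,
      one_apply_eq_self] at this
  obtain ⟨x, hx, hx0⟩ : ∃ x ∈ M, F'.f (tri s δ) (x ζ) ≠ 0 := by
    by_contra hn
    push Not at hn
    refine hF' s δ hδ (ContinuousLinearMap.ext fun η => ?_)
    exact hm'.cyc.ext (F'.f (tri s δ)).continuous continuous_const hn η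
  have hx' : v * x * star v ∈ M := mul_mem (mul_mem hv hx) hv'
  have hy : e * F.band s δ (v * x * star v) * e = F.band s δ (v * x * star v) := by
    rw [hm.band_corner hδ s heM hc heM hc, ← v2]
    congr 1
    calc v * star v * (v * x * star v) * (v * star v)
        = v * (star v * v) * x * (star v * v) * star v := by simp only [mul_assoc]
      _ = _ := by rw [v1, mul_one, mul_one]
  refine ⟨_, hm.band_mem hδ s hx', fun e0 => hx0 (inj _ ?_), ?_, ?_, hm.band_supp hδ s _⟩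
  · rw [key, hA x hx, ← hm.band_xi hδ, e0, zero_apply]
  · rw [← hy, ← mul_assoc, ← mul_assoc, he.isIdempotentElem.eq]
  · rw [← hy, mul_assoc _ e e, he.isIdempotentElem.eq]

theorem gamma_commute (N : Submodule ℂ H) [N.HasOrthogonalProjection] {T : H →L[ℂ] H}
    (h1 : ∀ η ∈ N, T η ∈ N) (h2 : ∀ η ∈ N, star T η ∈ N) : Commute T N.starProjection := by
  have hp : IsStarProjection N.starProjection := isStarProjection_starProjection
  have k : ∀ S : H →L[ℂ] H, (∀ η ∈ N, S η ∈ N) →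
      N.starProjection * (S * N.starProjection) = S * N.starProjection := fun S hS =>
    ContinuousLinearMap.ext fun η =>
      Submodule.starProjection_eq_self_iff.2 (hS _ (N.starProjection_apply_mem η))
  have h3 := congrArg star (k _ h2)
  simp only [star_mul, star_star, hp.isSelfAdjoint.star_eq, mul_assoc] at h3
  exact (k _ h1).symm.trans h3

theorem Ctx.offdiag_band (h : Ctx M J P) (hξ : ξ ∈ P) (hm : Mod M J ξ F) {e f : H →L[ℂ] H}
    (heM : e ∈ M) (he : IsStarProjection e) (he0 : e ≠ 0) (hec : rt J e ξ = e ξ)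
    (hfM : f ∈ M) (hf : IsStarProjection f) (hf0 : f ≠ 0) (hfc : rt J f ξ = f ξ) (s : ℝ) {δ : ℝ}
    (hδ : 0 < δ) :
    ∃ y ∈ M, y ≠ 0 ∧ f * y = y ∧ y * e = y ∧ F.Supp (y ξ) (Set.Icc (s - δ) (s + δ)) := by
  have hε := half_pos hδ
  obtain ⟨v, hv, v1, v2⟩ := h.t3.equiv heM he he0 hfM hf hf0
  have q : IsPI v := isPI_of_init (v1 ▸ he)
  obtain ⟨k, hk⟩ : ∃ k : ℤ, F.f (tri (k * (δ / 2)) (δ / 2)) (v ξ) ≠ 0 := by
    by_contra hn
    push Not at hn
    have := F.tendsto_sum_tri hε (v ξ)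
    simp only [hn, Finset.sum_const_zero] at this
    have h0 := hm.sep v hv (tendsto_nhds_unique this tendsto_const_nhds)
    exact he0 (by rw [← v1, h0, mul_zero])
  set x := F.band (k * (δ / 2)) (δ / 2) v with hx
  have hxM : x ∈ M := hm.band_mem hε _ hv
  have hx1 : f * x * e = x := by
    rw [hx, hm.band_corner hε _ hfM hfc heM hec, ← v1, ← v2, q, q.mul_init]
  have hfx : f * x = x := by rw [← hx1, ← mul_assoc, ← mul_assoc, hf.isIdempotentElem.eq]
  have hxe : x * e = x := by rw [← hx1, mul_assoc _ e e, he.isIdempotentElem.eq]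
  let N : Submodule ℂ H := ⨅ t : ℝ, (F.σ t x).ker
  have hN : ∀ η, η ∈ N ↔ ∀ t, F.σ t x η = 0 := fun η => by simp [N]
  have hNc : IsClosed (N : Set H) := by
    simp only [N, Submodule.coe_iInf]
    exact isClosed_iInter fun t => (F.σ t x).isClosed_ker
  have : CompleteSpace N := hNc.completeSpace_coe
  have hp : IsStarProjection N.starProjection := isStarProjection_starProjection
  have hpM : N.starProjection ∈ M := by
    refine mem_of_commute M fun y hy => gamma_commute N ?_ ?_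
    · intro η hη
      refine (hN _).2 fun t => ?_
      rw [← mul_apply_eq_comp, ← (commute_of_mem M hy (hm.sigma_mem t x hxM)).eq,
        mul_apply_eq_comp, (hN _).1 hη, map_zero]
    · intro η hη
      refine (hN _).2 fun t => ?_
      rw [← mul_apply_eq_comp, ← (commute_of_mem M (star_mem hy) (hm.sigma_mem t x hxM)).eq,
        mul_apply_eq_comp, (hN _).1 hη, map_zero]
  have hV : ∀ r, ∀ η ∈ N, F.V r η ∈ N := fun r η hη => (hN _).2 fun t => by
    have : F.σ t x = F.σ r (F.σ (t - r) x) := by rw [F.σ_σ, add_sub_cancel]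
    rw [this, F.σ_V, (hN _).1 hη, map_zero]
  have hσ : ∀ t, F.σ t (1 - N.starProjection) = 1 - N.starProjection := fun t => by
    have := gamma_commute N (hV t) (by rw [F.V_star]; exact hV (-t))
    rw [F.σ_sub, F.σ_one, FC.σ, this.eq, mul_assoc, F.V_mul_neg₃, mul_one]
  have he'M : 1 - N.starProjection ∈ M := sub_mem (one_mem M) hpM
  have he'0 : 1 - N.starProjection ≠ 0 := fun h0 => by
    have h1 : N.starProjection ξ = ξ := by rw [← sub_eq_zero.1 h0]; rfl
    have h2 := (hN _).1 (Submodule.starProjection_eq_self_iff.1 h1) 0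
    rw [F.σ_zero, hx, hm.band_xi hε] at h2
    exact hk h2
  have he'e : (1 - N.starProjection) * e = 1 - N.starProjection := by
    ext η
    have h1 : η - e η ∈ N := (hN _).2 fun t => by
      rw [map_sub, ← mul_apply_eq_comp, ← hm.σ_of_cen heM hec t, ← F.σ_mul, hxe, sub_self]
    have h2 := Submodule.starProjection_eq_self_iff.2 h1
    rw [map_sub] at h2
    simp only [mul_apply_eq_comp, sub_apply, one_apply_eq_self]
    rw [sub_eq_sub_iff_sub_eq_sub, ← neg_sub, ← h2, neg_sub]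
  obtain ⟨y, hy, y0, y1, y2, y3⟩ := h.corner_band hξ hm he'M hp.one_sub he'0
    (hm.cen_of_σ he'M hσ) (s - k * (δ / 2)) hε
  obtain ⟨t, ht⟩ : ∃ t, F.σ t x * y ≠ 0 := by
    by_contra hn
    push Not at hn
    refine y0 (ContinuousLinearMap.ext fun η => ?_)
    have h1 : y η ∈ N := (hN _).2 fun t => by rw [← mul_apply_eq_comp, hn t, zero_apply]
    rw [← y1, mul_apply_eq_comp, sub_apply, Submodule.starProjection_eq_self_iff.2 h1]
    simp
  refine ⟨_, mul_mem (hm.sigma_mem t x hxM) hy, ht, ?_, ?_, ?_⟩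
  · rw [← mul_assoc, ← hm.σ_of_cen hfM hfc t, ← F.σ_mul, hfx]
  · rw [← y2, mul_assoc, mul_assoc, he'e]
  · have h1 : F.Supp (F.σ t x ξ) (Set.Icc (k * (δ / 2) - δ / 2) (k * (δ / 2) + δ / 2)) := by
      rw [hm.σ_xi]
      exact F.supp_map (fun g hg => F.V_comm t hg) isClosed_Icc (hm.band_supp hε _ v)
    have h2 := hm.supp_mul (hm.sigma_mem t x hxM) h1 y3
    exact h2.mono (Set.Icc_subset_Icc (by linarith) (by linarith))

theorem Ctx.gamma (h : Ctx M J P) {ζ₁ ζ₂ : H} (m₁ : ζ₁ ∈ P) (m₂ : ζ₂ ∈ P) {e₁ e₂ : H →L[ℂ] H}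
    (s₁ : IsSupp M J e₁ ζ₁) (s₂ : IsSupp M J e₂ ζ₂) (n₁ : e₁ ≠ 0) (n₂ : e₂ ≠ 0) {δ : ℝ}
    (hδ : 0 < δ) :
    ∃ x ∈ M, e₂ * x = x ∧ x * e₁ = x ∧ x ζ₁ ≠ 0 ∧ ‖df J 1 x ζ₁ ζ₂‖ ≤ δ * ‖x ζ₁‖ := by
  obtain ⟨t₁, t₂, ζ, j⟩ := h.join m₁ m₂ s₁ s₂ n₁ n₂
  obtain ⟨F, hm, -⟩ := h.md ζ j.cone j.sep
  have q₁ : IsPI t₁ := isPI_of_init (j.init₁ ▸ s₁.proj)
  have q₂ : IsPI t₂ := isPI_of_init (j.init₂ ▸ s₂.proj)
  have ne : ∀ {t e : H →L[ℂ] H}, IsPI t → star t * t = e → e ≠ 0 → t * star t ≠ 0 := by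
    intro t e q i n h0
    exact n (by rw [← i, ← (show t * star t * t = t from q), h0, zero_mul, mul_zero])
  have hδ' : 0 < min δ 1 := lt_min hδ one_pos
  obtain ⟨y, hy, y0, y1, y2, y3⟩ := h.offdiag_band j.cone hm
    (mul_mem j.mem₁ (star_mem j.mem₁)) q₁.fin (ne q₁ j.init₁ n₁) (j.right₁.trans j.left₁.symm)
    (mul_mem j.mem₂ (star_mem j.mem₂)) q₂.fin (ne q₂ j.init₂ n₂) (j.right₂.trans j.left₂.symm)
    0 hδ'
  have hd := hm.df_le_of_supp hy hδ'.le (min_le_right _ _) y3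
  rw [zero_div, Real.exp_zero, mul_one] at hd
  obtain ⟨b1, b2, -, b4, b5, -⟩ := j.back h m₁ m₂ s₁ s₂ hy y1 y2
  refine ⟨_, mul_mem (mul_mem (star_mem j.mem₂) hy) j.mem₁, b1, b2, fun h0 => y0 ?_, ?_⟩
  · rw [h0, norm_zero] at b4
    exact j.sep y hy (norm_eq_zero.1 b4.symm)
  · rw [b4, b5]
    exact hd.trans (mul_le_mul_of_nonneg_right (min_le_left _ _) (norm_nonneg _))

end Vale.Agent.P132
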