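import Vale.Agent.P132.Basic

/-! Comparison of projections in a sigma finite factor. -/

open scoped InnerProductSpace Topology ComplexConjugate
open Filter MeasureTheory

namespace Vale.Agent.P132

open Vale.Agent.P104

variable {H : Type*} [NormedAddCommGroup H] [InnerProductSpace ℂ H] [CompleteSpace H]
  {M : VonNeumannAlgebra H} {J : H →L⋆[ℂ] H} {P : Set H} {ξ : H} {F : FC H}

/-- If no corner is almost tracial then every projection contains an infinite family. -/
theorem exists_inf (hs : Sep M ξ)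
    (hS : ∀ e ∈ M, IsStarProjection e → e ≠ 0 →
      ∃ x ∈ M, e * x * e = x ∧ 2 * ‖x ξ‖ ^ 2 < ‖star x ξ‖ ^ 2)
    {e : H →L[ℂ] H} (heM : e ∈ M) (he : IsStarProjection e) (h0 : e ≠ 0) :
    ∃ f ∈ M, IsStarProjection f ∧ f ≠ 0 ∧ ∃ u : ℕ → (H →L[ℂ] H), (∀ k, u k ∈ M ∧ e * u k = u k) ∧
      ∀ k l, star (u k) * u l = if k = l then f else 0 := by
  have hS' : ∀ e ∈ M, IsStarProjection e → e ≠ 0 →
      ∃ Y ∈ M, IsPI Y ∧ e * Y = Y ∧ Y * e = Y ∧ 2 * ‖Y ξ‖ ^ 2 < ‖star Y ξ‖ ^ 2 := by
    intro f hfM hf hf0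
    by_contra hc
    obtain ⟨x, hx, h1, h2⟩ := hS f hfM hf hf0
    exact h2.not_ge (ratio_of_pi M hf ξ
      (fun W hWM hW h1 h2 => not_lt.1 fun h => hc ⟨W, hWM, hW, h1, h2, h⟩) hx h1)
  obtain ⟨F, V, hV, hpi, h1, -, s1, s2, s3, -, -, hmax⟩ := exists_max_sum M
    (fun v => v ∈ M ∧ IsPI v ∧ e * v = v ∧ v * e = v ∧ 2 * ‖v ξ‖ ^ 2 ≤ ‖star v ξ‖ ^ 2)
    (fun v hv => ⟨hv.1, hv.2.1⟩) (fun _ _ => True) (fun _ _ h => h)
  have hsV : e * V = V := sum_mul_left s1 fun v => (h1 _ v.2).2.2.1
  have hVs : V * e = V := sum_mul_right s1 fun v => (h1 _ v.2).2.2.2.1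
  have hVle : 2 * ‖V ξ‖ ^ 2 ≤ ‖star V ξ‖ ^ 2 :=
    hasSum_le (fun v => (h1 _ v.2).2.2.2.2) ((s2 ξ).mul_left _) (s3 ξ)
  have hsQ : e * (star V * V) = star V * V := by rw [← mul_assoc, star_right he hVs]
  have hsP : e * (V * star V) = V * star V := by rw [← mul_assoc, hsV]
  have hb : IsStarProjection (e - star V * V) := hpi.init.sub_of_mul_eq_right he hsQ
  have ha : IsStarProjection (e - V * star V) := hpi.fin.sub_of_mul_eq_right he hsP
  set b := e - star V * V with hb0
  set a := e - V * star V with ha0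
  have hbM : b ∈ M := sub_mem heM (mul_mem (star_mem hV) hV)
  have haM : a ∈ M := sub_mem heM (mul_mem hV (star_mem hV))
  have hsb : e * b = b := by rw [hb0, mul_sub, he.isIdempotentElem, hsQ]
  have hsa : e * a = a := by rw [ha0, mul_sub, he.isIdempotentElem, hsP]
  have hbS : b * star V = 0 := by
    rw [hb0, sub_mul, star_right he hVs, hpi.init_mul, sub_self]
  have haV : a * V = 0 := by rw [ha0, sub_mul, hsV, hpi, sub_self]
  have hb1 : b ≠ 0 := fun hb' => by
    have e1 := sub_eq_zero.1 hb'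
    have e2 := hpi.norm_init ξ
    rw [← e1] at e2
    have e3 := pow_le_pow_left₀ (norm_nonneg _) (hpi.star.norm_apply_le (e ξ)) 2
    rw [← mul_apply_eq_comp, star_left he hsV] at e3
    have e4 := norm_pos_iff.2 fun h => h0 (hs e heM h)
    rw [← e2] at hVle
    nlinarith
  by_cases hcase : ∀ x ∈ M, a * x * b = 0
  · have p1 : ∀ k : ℕ, e * (star V ^ k * b) = star V ^ k * b := fun k => by
      cases k with
      | zero => rw [pow_zero, one_mul, hsb]
      | succ k => rw [pow_succ', ← mul_assoc, ← mul_assoc, star_right he hVs]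
    have p2 : ∀ k : ℕ, V * star V * (star V ^ k * b) = star V ^ k * b := fun k => by
      have := hcase _ (pow_mem (star_mem hV) k)
      rw [mul_assoc, ha0, sub_mul, p1, sub_eq_zero] at this
      exact this.symm
    have p3 : ∀ l : ℕ, star (star V ^ 0 * b) * (star V ^ (l + 1) * b) = 0 := fun l => by
      rw [pow_zero, one_mul, hb.isSelfAdjoint.star_eq, pow_succ', ← mul_assoc, ← mul_assoc, hbS,
        zero_mul, zero_mul]
    refine ⟨b, hbM, hb, hb1, fun k => star V ^ k * b,
      fun k => ⟨mul_mem (pow_mem (star_mem hV) k) hbM, p1 k⟩, fun k => ?_⟩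
    induction k with
    | zero =>
      intro l
      cases l with
      | zero => simpa [hb.isSelfAdjoint.star_eq] using hb.isIdempotentElem.eq
      | succ l => rw [if_neg (by omega)]; exact p3 l
    | succ k ih =>
      intro l
      cases l with
      | zero =>
        rw [if_neg (by omega)]
        have := congrArg star (p3 k)
        rwa [star_mul, star_star, star_zero] at this
      | succ l =>
        have e' : star (star V ^ (k + 1) * b) * (star V ^ (l + 1) * b) =
            star (star V ^ k * b) * (V * star V * (star V ^ l * b)) := by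
          rw [pow_succ', pow_succ', mul_assoc (star V), star_mul (star V), star_star]
          noncomm_ring
        beta_reduce
        rw [e', p2]
        simpa using ih l
  · exfalso
    push Not at hcase
    obtain ⟨x, hxM, hx⟩ := hcase
    obtain ⟨U, hUM, hU, hU0, c1, c2⟩ := exists_pi_of_ne_zero M (mul_mem (mul_mem haM hxM) hbM) hx
    have haU : a * U = U := c1 a (by rw [← mul_assoc, ← mul_assoc, ha.isIdempotentElem])
    have hUb : U * b = U := c2 b hb (by rw [mul_assoc, hb.isIdempotentElem])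
    have hq := hU.init
    set q := star U * U with hq0
    have hqM : q ∈ M := mul_mem (star_mem hUM) hUM
    have hsU : e * U = U := by rw [← haU, ← mul_assoc, hsa]
    have hbq : b * q = q := by rw [hq0, ← mul_assoc, star_right hb hUb]
    have hsq : e * q = q := by rw [← hbq, ← mul_assoc, hsb]
    have H0 : ∀ W ∈ M, IsPI W → q * W = W → W * q = W →
        ‖star W (star U ξ)‖ ^ 2 ≤ 2 * ‖W ξ‖ ^ 2 := by
      intro W hWM hW hqW hWq
      by_contra hlt
      rw [not_le] at hlt
      have i1 : star (U * W) * (U * W) = star W * W := by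
        rw [star_mul, mul_assoc, ← mul_assoc (star U), ← hq0, hqW]
      have h0 := hmax (U * W) ⟨mul_mem hUM hWM, isPI_of_init (i1 ▸ hW.init),
        by rw [← mul_assoc, hsU], by rw [mul_assoc, ← hWq, mul_assoc, proj_flip he hq hsq],
        by rw [norm_apply_congr i1, star_mul, mul_apply_eq_comp]; exact hlt.le⟩
        (by rw [star_mul, ← star_left ha haU, mul_assoc, mul_assoc, haV, mul_zero, mul_zero])
        (by rw [← hWq, ← proj_flip hb hq hbq, mul_assoc, mul_assoc, mul_assoc, hbS, mul_zero,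
          mul_zero, mul_zero]) fun _ _ => trivial
      have hW0 : W = 0 := by rw [← hqW, hq0, mul_assoc, h0, mul_zero]
      simp [hW0] at hlt
    have Hn : ∀ n : ℕ, ∀ W ∈ M, IsPI W → q * W = W → W * q = W →
        ‖star W (star U ξ)‖ ^ 2 ≤ 2 * (1 / 2) ^ n * ‖W ξ‖ ^ 2 := by
      intro n
      induction n with
      | zero => simpa using H0
      | succ n ih =>
        have := descent M ξ (star U ξ) hq (fun e h1 h2 h3 _ => hS' e h1 h2 h3) (by positivity) ih
        have e' : (2 : ℝ) * (1 / 2) ^ (n + 1) = 2 * (1 / 2) ^ n / 2 := by ring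
        rwa [e']
    have hz : ‖star U ξ‖ ^ 2 ≤ 0 := by
      have t : Filter.Tendsto (fun n : ℕ => 2 * (1 / 2 : ℝ) ^ n * ‖q ξ‖ ^ 2) Filter.atTop
          (nhds (2 * 0 * ‖q ξ‖ ^ 2)) :=
        ((tendsto_pow_atTop_nhds_zero_of_lt_one (by norm_num) (by norm_num)).const_mul
          2).mul_const _
      rw [mul_zero, zero_mul] at t
      refine ge_of_tendsto' t fun n => ?_
      have := Hn n q hqM (isPI_of_proj hq) hq.isIdempotentElem hq.isIdempotentElem
      rwa [hq.isSelfAdjoint.star_eq, ← mul_apply_eq_comp, hU.init_mul] at this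
    have hz' : star U ξ = 0 := by
      rw [← norm_eq_zero]
      nlinarith [norm_nonneg (star U ξ)]
    exact hU0 (star_eq_zero.1 (hs _ (star_mem hUM) hz'))

theorem InfAux.commute_proj {K : Submodule ℂ H} [K.HasOrthogonalProjection] {y : H →L[ℂ] H}
    (h1 : ∀ η ∈ K, y η ∈ K) (h2 : ∀ η ∈ K, star y η ∈ K) : Commute y K.starProjection := by
  ext ζ
  refine (Submodule.eq_starProjection_of_mem_orthogonal (h1 _ (K.starProjection_apply_mem ζ))
    ?_).symm
  change y ζ - y (K.starProjection ζ) ∈ _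
  rw [← map_sub, Submodule.mem_orthogonal]
  intro u hu
  rw [← inner_star_left]
  exact (Submodule.mem_orthogonal _ _).1 (K.sub_starProjection_mem_orthogonal ζ) _ (h2 _ hu)

theorem InfAux.exists_ne (hM : IsFactor M) {p e : H →L[ℂ] H} (hp : p ∈ M) (hp0 : p ≠ 0)
    (he0 : e ≠ 0) : ∃ x ∈ M, p * x * e ≠ 0 := by
  by_contra hc
  push Not at hc
  let K : Submodule ℂ H := ⨅ x ∈ M, LinearMap.ker ((p * x : H →L[ℂ] H) : H →ₗ[ℂ] H)
  have hK : ∀ η, η ∈ K ↔ ∀ x ∈ M, p (x η) = 0 := fun η => by
    simp [K, Submodule.mem_iInf]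
  have hcl : IsClosed (K : Set H) := by
    have : (K : Set H) = ⋂ x ∈ M, {η | p (x η) = 0} := by
      ext η
      simp [hK]
    rw [this]
    exact isClosed_biInter fun x _ => isClosed_eq (by fun_prop) continuous_const
  have : CompleteSpace K := hcl.completeSpace_coe
  have i1 : ∀ y ∈ M, ∀ η ∈ K, y η ∈ K := fun y hy η hη =>
    (hK _).2 fun x hx => (hK _).1 hη (x * y) (mul_mem hx hy)
  have i2 : ∀ y ∈ M.commutant, ∀ η ∈ K, y η ∈ K := fun y hy η hη =>
    (hK _).2 fun x hx => by
      have h1 := congrArg (fun T : H →L[ℂ] H => T η) (commute_of_mem M hy (mul_mem hp hx)).eq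
      exact h1.symm.trans (by
        change y (p (x η)) = 0
        rw [(hK _).1 hη x hx, map_zero])
  obtain ⟨c, hcz⟩ := hM K.starProjection
    (mem_of_commute M fun y hy => InfAux.commute_proj (i2 y hy) (i2 _ (star_mem hy)))
    fun x hx => (InfAux.commute_proj (i1 x hx) (i1 _ (star_mem hx))).eq.symm
  obtain ⟨η, hη⟩ : ∃ η, e η ≠ 0 := by
    by_contra h
    push Not at h
    exact he0 (ContinuousLinearMap.ext h)
  have h1 : K.starProjection (e η) = e η := Submodule.starProjection_eq_self_iff.2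
    ((hK _).2 fun x hx => congrArg (fun T : H →L[ℂ] H => T η) (hc x hx))
  have h2 : c = 1 := by
    rw [hcz] at h1
    exact smul_left_injective ℂ hη (h1.trans (one_smul ℂ _).symm)
  refine hp0 (ContinuousLinearMap.ext fun ζ => ?_)
  have h3 := K.starProjection_apply_mem ζ
  rw [hcz, h2, one_smul] at h3
  exact (hK _).1 h3 1 (one_mem _)

theorem InfAux.sum_proj {ι : Type*} (p : ι → (H →L[ℂ] H)) (hM : ∀ i, p i ∈ M)
    (hp : ∀ i, IsStarProjection (p i)) (ho : Pairwise fun i j => p i * p j = 0) :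
    ∃ q ∈ M, IsStarProjection q ∧ (∀ η, HasSum (fun i => p i η) (q η)) ∧
      (∀ η, Summable fun i => ‖p i η‖ ^ 2) ∧ ∀ i, q * p i = p i := by
  obtain ⟨V, hV, hpi, s1, -, s3, -, s5, -, -, s8⟩ := exists_sum M p hM
    (fun i => isPI_of_proj (hp i))
    (fun i j hij => by beta_reduce; rw [(hp i).isSelfAdjoint.star_eq]; exact ho hij)
    (fun i j hij => by beta_reduce; rw [(hp j).isSelfAdjoint.star_eq]; exact ho hij)
  have hVV : star V * V = V := by
    ext η
    have a1 := s5 η
    simp only [(hp _).isSelfAdjoint.star_eq, (hp _).isIdempotentElem.eq] at a1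
    exact a1.unique (s1 η)
  have hVp : IsStarProjection V := hVV ▸ hpi.init
  refine ⟨V, hV, hVp, s1, fun η => (s3 η).summable, fun i => ?_⟩
  have := s8 i
  rwa [hVp.isSelfAdjoint.star_eq, hVp.isIdempotentElem.eq] at this

/-- Countable cover of the unit by subprojections of `e`. -/
theorem exists_cover (hM : IsFactor M) (hs : Sep M ξ) {e : H →L[ℂ] H} (heM : e ∈ M)
    (he : IsStarProjection e) (h0 : e ≠ 0) :
    ∃ v : ℕ → (H →L[ℂ] H), (∀ n, v n ∈ M ∧ IsPI (v n) ∧ v n * e = v n) ∧
      (Pairwise fun n m => star (v n) * v m = 0) ∧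
      ∀ η, HasSum (fun n => (v n * star (v n)) η) η := by
  obtain ⟨F, h1, h2, h3⟩ := exists_maximal_family
    (fun v : H →L[ℂ] H => v ∈ M ∧ IsPI v ∧ v * e = v ∧ v ≠ 0) (fun v w => star v * w = 0)
    fun v w h => by simpa using congrArg star h
  obtain ⟨q, hqM, hq, s1, s2, s3⟩ := InfAux.sum_proj (M := M) (fun v : F => v.1 * star v.1)
    (fun v => mul_mem (h1 _ v.2).1 (star_mem (h1 _ v.2).1)) (fun v => (h1 _ v.2).2.1.fin)
    fun v w hvw => by
      have : star v.1 * w.1 = 0 := h2 v.2 w.2 fun h => hvw (Subtype.ext h)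
      beta_reduce
      rw [mul_assoc, ← mul_assoc (star v.1), this, zero_mul, mul_zero]
  have hqv : ∀ v ∈ F, q * v = v := fun v hv => by
    have h4 := s3 ⟨v, hv⟩
    have h5 : v * star v * v = v := (h1 v hv).2.1
    dsimp only at h4
    rw [← h5, ← mul_assoc, h4]
  have hq1 : q = 1 := by
    by_contra hne
    obtain ⟨x, hx, hx0⟩ := InfAux.exists_ne hM (sub_mem (one_mem _) hqM)
      (sub_ne_zero.2 (Ne.symm hne)) h0
    obtain ⟨v, hvM, hv, hv0, c1, c2⟩ := exists_pi_of_ne_zero M
      (mul_mem (mul_mem (sub_mem (one_mem _) hqM) hx) heM) hx0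
    have a1 : (1 - q) * v = v :=
      c1 _ (by rw [← mul_assoc, ← mul_assoc, hq.one_sub.isIdempotentElem])
    have a2 : v * e = v := c2 e he (by rw [mul_assoc, he.isIdempotentElem])
    have a3 : v ∈ F := h3 v ⟨hvM, hv, a2, hv0⟩ fun w hw => by
      rw [← star_left hq.one_sub a1, mul_assoc, sub_mul, one_mul, hqv w hw, sub_self, mul_zero]
    rw [sub_mul, one_mul, hqv v a3, sub_self] at a1
    exact hv0 a1.symm
  have hcount : Countable F := by
    have h4 := (s2 ξ).countable_support
    rw [Function.support_eq_univ, Set.countable_univ_iff] at h4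
    · exact h4
    · intro v hv
      have h5 := hs _ (mul_mem (h1 _ v.2).1 (star_mem (h1 _ v.2).1))
        (norm_eq_zero.1 (pow_eq_zero_iff two_ne_zero |>.1 hv))
      have h6 : v.1 * star v.1 * v.1 = v.1 := (h1 _ v.2).2.1
      rw [h5, zero_mul] at h6
      exact (h1 _ v.2).2.2.2 h6.symm
  obtain ⟨i, hi⟩ := Countable.exists_injective_nat F
  have c1 : ∀ v : F, Function.extend i (fun v => v.1) 0 (i v) = v.1 := fun v =>
    hi.extend_apply _ _ v
  have c2 : ∀ n, n ∉ Set.range i → Function.extend i (fun v : F => v.1) 0 n = 0 := fun n hn =>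
    Function.extend_apply' _ _ n hn
  refine ⟨Function.extend i (fun v => v.1) 0, fun n => ?_, fun n m hnm => ?_, fun η => ?_⟩
  · by_cases hn : n ∈ Set.range i
    · obtain ⟨v, rfl⟩ := hn
      rw [c1]
      exact ⟨(h1 _ v.2).1, (h1 _ v.2).2.1, (h1 _ v.2).2.2.1⟩
    · rw [c2 n hn]
      exact ⟨zero_mem _, by simp [IsPI], zero_mul _⟩
  · beta_reduce
    by_cases hn : n ∈ Set.range i
    · by_cases hm : m ∈ Set.range i
      · obtain ⟨v, rfl⟩ := hn
        obtain ⟨w, rfl⟩ := hm
        rw [c1, c1]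
        exact h2 v.2 w.2 fun h => hnm (congrArg i (Subtype.ext h))
      · rw [c2 m hm, mul_zero]
    · rw [c2 n hn, star_zero, zero_mul]
  · refine (hi.hasSum_iff fun n hn => by simp [c2 n hn]).1 ?_
    have h4 := s1 η
    rw [hq1] at h4
    simp only [Function.comp_def, c1]
    exact h4

theorem equiv_of_isometry {e w : H →L[ℂ] H} (heM : e ∈ M) (he : IsStarProjection e)
    (hw : w ∈ M) (h1 : star w * w = 1) (h2 : e * w = w) :
    ∃ v ∈ M, star v * v = 1 ∧ v * star v = e := by
  have hf := he.one_sub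
  have a1 : (1 - e) * w = 0 := by rw [sub_mul, one_mul, h2, sub_self]
  have a2 : ∀ k : ℕ, star (w ^ k) * w ^ k = 1 := fun k => by
    induction k with
    | zero => simp
    | succ k ih => rw [pow_succ', star_mul, mul_assoc, ← mul_assoc (star w), h1, one_mul, ih]
  have a3 : ∀ k l : ℕ, k < l → (1 - e) * star (w ^ k) * w ^ l = 0 := fun k l hkl => by
    obtain ⟨d, rfl⟩ := Nat.exists_eq_add_of_lt hkl
    rw [add_assoc, pow_add, mul_assoc, ← mul_assoc (star _), a2, one_mul, pow_succ', ← mul_assoc,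
      a1, zero_mul]
  have a4 : ∀ k l : ℕ, k < l →
      w ^ k * (1 - e) * star (w ^ k) * (w ^ l * (1 - e) * star (w ^ l)) = 0 := fun k l hkl => by
    calc _ = w ^ k * ((1 - e) * star (w ^ k) * w ^ l) * ((1 - e) * star (w ^ l)) := by
          simp only [mul_assoc]
      _ = 0 := by rw [a3 k l hkl, mul_zero, zero_mul]
  have a5 : ∀ k : ℕ, IsStarProjection (w ^ k * (1 - e) * star (w ^ k)) := fun k => by
    refine ⟨?_, ?_⟩
    · calc _ = w ^ k * ((1 - e) * (star (w ^ k) * w ^ k) * (1 - e)) * star (w ^ k) := by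
            simp only [mul_assoc]
        _ = _ := by rw [a2, mul_one, hf.isIdempotentElem.eq]
    · rw [IsSelfAdjoint, star_mul, star_mul, star_star, hf.isSelfAdjoint.star_eq, mul_assoc]
  obtain ⟨q, hqM, hq, s1, -, -⟩ := InfAux.sum_proj (M := M)
    (fun k : ℕ => w ^ k * (1 - e) * star (w ^ k))
    (fun k => mul_mem (mul_mem (pow_mem hw k) (sub_mem (one_mem _) heM)) (star_mem (pow_mem hw k)))
    a5 fun k l hkl => by
      rcases lt_or_gt_of_ne hkl with h | h
      · exact a4 k l h
      · have := congrArg star (a4 l k h)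
        rwa [star_mul, (a5 k).isSelfAdjoint.star_eq, (a5 l).isSelfAdjoint.star_eq,
          star_zero] at this
  have b1 : q = (1 - e) + w * q * star w := by
    ext η
    have t1 := w.hasSum (s1 (star w η))
    have t2 : HasSum (fun k : ℕ => (w ^ (k + 1) * (1 - e) * star (w ^ (k + 1))) η)
        (w (q (star w η))) := by
      convert t1 using 2 with k
      rw [pow_succ' w k, star_mul]
      rfl
    have t3 := (hasSum_nat_add_iff
      (f := fun k : ℕ => (w ^ k * (1 - e) * star (w ^ k)) η) 1).1 t2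
    rw [(s1 η).unique t3, add_comm]
    simp
  have b2 : q * w * q = w * q := by
    calc q * w * q = ((1 - e) + w * q * star w) * w * q := by rw [← b1]
      _ = (1 - e) * w * q + w * q * (star w * w) * q := by noncomm_ring
      _ = w * q := by rw [a1, h1, zero_mul, zero_add, mul_one, mul_assoc, hq.isIdempotentElem.eq]
  have b3 : q * star w * q = q * star w := by
    have := congrArg star b2
    rwa [star_mul, star_mul, star_mul, hq.isSelfAdjoint.star_eq, ← mul_assoc] at this
  have hqq := hq.isIdempotentElem.eq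
  refine ⟨w * q + (1 - q), add_mem (mul_mem hw hqM) (sub_mem (one_mem _) hqM), ?_, ?_⟩
  · rw [star_add, star_mul, hq.isSelfAdjoint.star_eq, hq.one_sub.isSelfAdjoint.star_eq]
    calc _ = q * (star w * w) * q + (q * star w - q * star w * q) + (w * q - q * w * q) +
          (1 - q - q + q * q) := by noncomm_ring
      _ = 1 := by rw [h1, b2, b3, mul_one, hqq]; abel
  · rw [star_add, star_mul, hq.isSelfAdjoint.star_eq, hq.one_sub.isSelfAdjoint.star_eq]
    calc _ = w * (q * q) * star w + (w * q - w * (q * q)) + (q * star w - q * q * star w) +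
          (1 - q - q + q * q) := by noncomm_ring
      _ = w * q * star w + 1 - q := by rw [hqq]; abel
      _ = e := by
        rw [sub_eq_iff_eq_add]
        nth_rewrite 2 [b1]
        abel

theorem t3_of_ratio (hM : IsFactor M) (hs : Sep M ξ) (h0 : ξ ≠ 0)
    (hS : ∀ e ∈ M, IsStarProjection e → e ≠ 0 →
      ∃ x ∈ M, e * x * e = x ∧ 2 * ‖x ξ‖ ^ 2 < ‖star x ξ‖ ^ 2) : T3 M := by
  constructor
  · intro e heM he he0
    obtain ⟨f, hfM, hf, hf0, u, hu1, hu2⟩ := exists_inf hs hS heM he he0
    obtain ⟨v, hv1, hv2, hv3⟩ := exists_cover hM hs hfM hf hf0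
    have i1 : ∀ n m, star (u n * star (v n)) * (u m * star (v m)) =
        v n * (star (u n) * u m) * star (v m) := fun n m => by
      rw [star_mul, star_star]; simp only [mul_assoc]
    have i2 : ∀ n, star (u n * star (v n)) * (u n * star (v n)) = v n * star (v n) := fun n => by
      rw [i1, hu2, if_pos rfl, (hv1 n).2.2]
    obtain ⟨W, hW, -, s1, -, -, -, s5, -⟩ := exists_sum M (fun n => u n * star (v n))
      (fun n => mul_mem (hu1 n).1 (star_mem (hv1 n).1))
      (fun n => isPI_of_init (i2 n ▸ (hv1 n).2.1.fin))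
      (fun n m hnm => by beta_reduce; rw [i1, hu2, if_neg hnm, mul_zero, zero_mul])
      (fun n m hnm => by
        beta_reduce
        rw [star_mul, star_star, mul_assoc, ← mul_assoc (star (v n)), hv2 hnm, zero_mul, mul_zero])
    refine equiv_of_isometry heM he hW (ContinuousLinearMap.ext fun η => ?_)
      (sum_mul_left s1 fun n => by rw [← mul_assoc, (hu1 n).2])
    have := s5 η
    simp only [i2] at this
    exact this.unique (hv3 η)
  · obtain ⟨f, -, hf, hf0, u, hu1, hu2⟩ := exists_inf hs hS (one_mem M) (IsStarProjection.one _)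
      fun h => h0 (congrArg (fun T : H →L[ℂ] H => T ξ) h)
    have e0 : star (u 0) * u 0 = f := by simpa using hu2 0 0
    have e1 : star (u 1) * u 1 = f := by simpa using hu2 1 1
    have e2 : star (u 0) * u 1 = 0 := by simpa using hu2 0 1
    have hpi : IsPI (u 0) := isPI_of_init (e0 ▸ hf)
    refine ⟨u 0 * star (u 0), mul_mem (hu1 0).1 (star_mem (hu1 0).1), hpi.fin, fun h => hf0 ?_,
      fun h => hf0 ?_⟩
    · have h1 : u 0 * star (u 0) * u 0 = u 0 := hpi
      rw [← e0, ← h1, h, zero_mul, mul_zero]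
    · rw [← e1, ← one_mul (u 1), ← h, mul_assoc (u 0), e2, mul_zero, mul_zero]

end Vale.Agent.P132
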