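import Vale.Agent.P132.Basic

/-! Fourier inversion in the normalisation `ft`, Fejer and Gauss kernels. -/

open scoped Topology FourierTransform
open Filter MeasureTheory

namespace Vale.Agent.P132

theorem kf_norm_ex (t s : ℝ) : ‖ex t s‖ = 1 := by
  have : Complex.I * (t : ℂ) * (s : ℂ) = ((t * s : ℝ) : ℂ) * Complex.I := by push_cast; ring
  rw [ex, this, Complex.norm_exp_ofReal_mul_I]

theorem kf_cont_ex (s : ℝ) : Continuous fun t => ex t s := by
  unfold ex; fun_prop

theorem kf_int_mul_ex {k : ℝ → ℂ} (hk : Integrable k) (s : ℝ) :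
    Integrable fun t => k t * ex t s :=
  hk.mul_bdd (c := 1) (kf_cont_ex s).aestronglyMeasurable
    (Eventually.of_forall fun t => (kf_norm_ex t s).le)

theorem kf_fourier (f : ℝ → ℂ) (w : ℝ) : 𝓕 f w = ft f (-(2 * Real.pi * w)) := by
  rw [Real.fourier_real_eq_integral_exp_smul, ft]
  refine integral_congr_ae (Eventually.of_forall fun t => ?_)
  simp only [smul_eq_mul, ex]
  rw [mul_comm]
  refine congrArg (fun z => f t * Complex.exp z) ?_
  push_cast; ring

theorem kf_inv {f : ℝ → ℂ} (hc : Continuous f) (hf : Integrable f) (h' : Integrable (ft f))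
    (v : ℝ) : ∫ t, ft f (-t) * ex t v = 2 * Real.pi * f v := by
  have hp : (2 * Real.pi) ≠ 0 := by positivity
  have e : 𝓕 f = fun w => ft f (-(2 * Real.pi) * w) := by
    funext w; rw [kf_fourier, neg_mul]
  have h1 : Integrable (𝓕 f) := by
    rw [e]; exact h'.comp_mul_left' (neg_ne_zero.mpr hp)
  have h2 := hf.fourierInv_fourier_eq h1 (v := v) hc.continuousAt
  rw [Real.fourierInv_eq_fourier_neg, kf_fourier, ft] at h2
  have h3 := Measure.integral_comp_mul_left (fun t => ft f (-t) * ex t v) (2 * Real.pi)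
  have h4 : (fun x => ft f (-(2 * Real.pi * x)) * ex (2 * Real.pi * x) v) =
      fun t => 𝓕 f t * ex t (-(2 * Real.pi * -v)) := by
    funext t
    rw [kf_fourier]
    refine congrArg (fun z => ft f (-(2 * Real.pi * t)) * Complex.exp z) ?_
    push_cast; ring
  rw [h4, h2, abs_of_pos (by positivity), Complex.real_smul] at h3
  rw [h3]
  have : (2 * Real.pi : ℂ) ≠ 0 := by exact_mod_cast hp
  push_cast
  field_simp

theorem kf_int_inv {c : ℝ} (hc : c ≠ 0) (K : ℝ) :
    Integrable fun t : ℝ => K * (1 + (c * t) ^ 2)⁻¹ :=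
  (integrable_inv_one_add_sq.comp_mul_left' hc).const_mul K

theorem kf_sinc_sq (x : ℝ) : Real.sinc x ^ 2 ≤ 2 * (1 + x ^ 2)⁻¹ := by
  have h1 : Real.sinc x ^ 2 ≤ 1 := by
    rw [← sq_abs]; exact pow_le_one₀ (abs_nonneg _) (Real.abs_sinc_le_one x)
  have h2 : x ^ 2 * Real.sinc x ^ 2 ≤ 1 := by
    by_cases hx : x = 0
    · simp [hx]
    · rw [Real.sinc_of_ne_zero hx, div_pow, mul_div_cancel₀ _ (pow_ne_zero 2 hx)]
      exact Real.sin_sq_le_one x
  rw [← div_eq_mul_inv, le_div_iff₀ (by positivity)]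
  nlinarith

theorem kf_cont_fej (ε : ℝ) : Continuous (fej ε) := by
  unfold fej
  exact continuous_const.mul ((Real.continuous_sinc.comp (by fun_prop)).pow 2)

theorem kf_int_fej {ε : ℝ} (hε : 0 < ε) : Integrable (fej ε) := by
  refine (kf_int_inv (c := ε / 2) (by positivity) (ε / (2 * Real.pi) * 2)).mono'
    (kf_cont_fej ε).aestronglyMeasurable (Eventually.of_forall fun t => ?_)
  have h := kf_sinc_sq (ε * t / 2)
  rw [fej, Real.norm_of_nonneg (by positivity), mul_assoc, show ε / 2 * t = ε * t / 2 by ring]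
  exact mul_le_mul_of_nonneg_left h (by positivity)

theorem kf_half {ε : ℝ} (hε : 0 < ε) {c : ℂ} (hc : c ≠ 0) :
    ∫ s in (0 : ℝ)..ε, (1 - (s : ℂ) / ε) * Complex.exp (c * s) =
      -1 / c + (Complex.exp (c * ε) - 1) / (ε * c ^ 2) := by
  have hε' : (ε : ℂ) ≠ 0 := by exact_mod_cast hε.ne'
  have hd : ∀ z : ℂ, HasDerivAt
      (fun z : ℂ => (1 - z / ε) * Complex.exp (c * z) / c + Complex.exp (c * z) / (ε * c ^ 2))
      ((1 - z / ε) * Complex.exp (c * z)) z := by
    intro z
    have h1 : HasDerivAt (fun z : ℂ => Complex.exp (c * z)) (Complex.exp (c * z) * c) z := by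
      simpa using ((hasDerivAt_id z).const_mul c).cexp
    have h2 : HasDerivAt (fun z : ℂ => 1 - z / ε) (-(1 / ε)) z :=
      ((hasDerivAt_id z).div_const (ε : ℂ)).const_sub 1
    refine (((h2.mul h1).div_const c).add (h1.div_const (ε * c ^ 2))).congr_deriv ?_
    field_simp
    ring
  rw [intervalIntegral.integral_eq_sub_of_hasDerivAt (fun x _ => (hd x).comp_ofReal)
    (by apply Continuous.intervalIntegrable; fun_prop)]
  simp only [Complex.ofReal_zero, mul_zero, Complex.exp_zero, zero_div, sub_zero]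
  field_simp
  ring

theorem kf_cont_tri (ε : ℝ) : Continuous (tri 0 ε) := by
  unfold tri; fun_prop

theorem kf_supp_tri {ε : ℝ} (hε : 0 < ε) {s : ℝ} (hs : tri 0 ε s ≠ 0) : s ∈ Set.Ioc (-ε) ε := by
  by_contra h
  apply hs
  have : ε ≤ |s| := by
    rw [Set.mem_Ioc, not_and_or] at h
    rcases h with h | h
    · exact le_abs.mpr (Or.inr (by linarith))
    · exact le_abs.mpr (Or.inl (by linarith))
  have h2 : 1 - |s - 0| / ε ≤ 0 := by
    rw [sub_zero, sub_nonpos, le_div_iff₀ hε]; linarith
  rw [tri, max_eq_right h2, Complex.ofReal_zero]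

theorem kf_int_tri {ε : ℝ} (hε : 0 < ε) : Integrable (tri 0 ε) :=
  (kf_cont_tri ε).integrable_of_hasCompactSupport
    (HasCompactSupport.intro (isCompact_Icc (a := -ε) (b := ε)) fun s hs => by
      by_contra h
      exact hs (Set.Ioc_subset_Icc_self (kf_supp_tri hε h)))

theorem kf_ft_tri_split {ε : ℝ} (hε : 0 < ε) (t : ℝ) :
    ft (tri 0 ε) t = (∫ s in (0 : ℝ)..ε, (1 - (s : ℂ) / ε) * Complex.exp (-(Complex.I * t) * s)) +
      ∫ s in (0 : ℝ)..ε, (1 - (s : ℂ) / ε) * Complex.exp (Complex.I * t * s) := by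
  have hc : Continuous fun s => tri 0 ε s * ex s t := (kf_cont_tri ε).mul (kf_cont_ex t)
  have hv : ∀ s ∈ Set.uIcc 0 ε, tri 0 ε s = 1 - (s : ℂ) / ε := by
    intro s hs
    rw [Set.uIcc_of_le hε.le] at hs
    have h2 : 0 ≤ 1 - |s - 0| / ε := by
      rw [sub_zero, abs_of_nonneg hs.1, sub_nonneg, div_le_one hε]; exact hs.2
    rw [tri, max_eq_left h2, sub_zero, abs_of_nonneg hs.1]
    push_cast; rfl
  rw [ft, ← intervalIntegral.integral_eq_integral_of_support_subset (a := -ε) (b := ε)
    (fun s hs => kf_supp_tri hε (left_ne_zero_of_mul hs)),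
    ← intervalIntegral.integral_add_adjacent_intervals (b := 0) (hc.intervalIntegrable _ _)
      (hc.intervalIntegrable _ _)]
  refine congrArg₂ (· + ·) ?_ ?_
  · have := intervalIntegral.integral_comp_neg (a := 0) (b := ε) (fun s => tri 0 ε s * ex s t)
    rw [neg_zero] at this
    rw [← this]
    refine intervalIntegral.integral_congr fun s hs => ?_
    have h3 : tri 0 ε (-s) = tri 0 ε s := by simp [tri]
    simp only [h3, hv s hs, ex]
    refine congrArg (fun z => (1 - (s : ℂ) / ε) * Complex.exp z) ?_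
    push_cast; ring
  · refine intervalIntegral.integral_congr fun s hs => ?_
    simp only [hv s hs, ex]
    refine congrArg (fun z => (1 - (s : ℂ) / ε) * Complex.exp z) ?_
    ring

theorem kf_ft_tri {ε : ℝ} (hε : 0 < ε) (t : ℝ) :
    ft (tri 0 ε) t = 2 * Real.pi * (fej ε t : ℂ) := by
  have hε' : (ε : ℂ) ≠ 0 := by exact_mod_cast hε.ne'
  have hπ : (Real.pi : ℂ) ≠ 0 := by exact_mod_cast Real.pi_ne_zero
  rw [kf_ft_tri_split hε]
  by_cases ht : t = 0
  · have h : ∫ s in (0 : ℝ)..ε, (1 - (s : ℂ) / ε) = ε / 2 := by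
      have h1 : ∫ s in (0 : ℝ)..ε, (1 - s / ε) = ε / 2 := by
        rw [intervalIntegral.integral_sub (by simp) (by apply Continuous.intervalIntegrable; fun_prop),
          intervalIntegral.integral_div, integral_id]
        simp only [intervalIntegral.integral_const, smul_eq_mul]
        field_simp
        ring
      have h2 := intervalIntegral.integral_ofReal (μ := volume) (a := 0) (b := ε)
        (f := fun s => 1 - s / ε)
      rw [h1] at h2
      push_cast at h2
      exact h2
    simp only [ht, Complex.ofReal_zero, mul_zero, neg_zero, zero_mul, Complex.exp_zero, mul_one, h,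
      fej, zero_div, Real.sinc_zero]
    push_cast
    field_simp
    ring
  · have ht' : (t : ℂ) ≠ 0 := by exact_mod_cast ht
    have hc : Complex.I * t ≠ 0 := mul_ne_zero Complex.I_ne_zero ht'
    rw [kf_half hε hc, kf_half hε (neg_ne_zero.mpr hc), fej,
      Real.sinc_of_ne_zero (by positivity)]
    have h1 : Complex.exp (Complex.I * t * ε) = Complex.exp (ε * t / 2 * Complex.I) ^ 2 := by
      rw [← Complex.exp_nat_mul]; congr 1; push_cast; ring
    have h2 : Complex.exp (-(Complex.I * t) * ε) = Complex.exp (-(ε * t / 2) * Complex.I) ^ 2 := by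
      rw [← Complex.exp_nat_mul]; congr 1; push_cast; ring
    have h3 : Complex.exp (ε * t / 2 * Complex.I) * Complex.exp (-(ε * t / 2) * Complex.I) = 1 := by
      rw [← Complex.exp_add]; simp
    push_cast
    rw [h1, h2, Complex.sin]
    generalize Complex.exp (ε * t / 2 * Complex.I) = a at h3 ⊢
    generalize Complex.exp (-(ε * t / 2) * Complex.I) = b at h3 ⊢
    field_simp
    have hI := Complex.I_sq
    have hI4 : Complex.I ^ 4 = 1 := Complex.I_pow_four
    linear_combination (exp := 1) (2 : ℂ) * h3 - (b - a) ^ 2 * hI4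

theorem kf_ft_fej {ε : ℝ} (hε : 0 < ε) : ft (fun t => (fej ε t : ℂ)) = tri 0 ε := by
  funext v
  have hπ : (2 * Real.pi : ℂ) ≠ 0 := by exact_mod_cast (by positivity : (2 * Real.pi) ≠ 0)
  have h' : Integrable (ft (tri 0 ε)) := by
    rw [show ft (tri 0 ε) = fun t => 2 * Real.pi * (fej ε t : ℂ) from funext (kf_ft_tri hε)]
    exact (kf_int_fej hε).ofReal.const_mul _
  have h := kf_inv (kf_cont_tri ε) (kf_int_tri hε) h' v
  have hn : ∀ t, fej ε (-t) = fej ε t := by
    intro t
    rw [fej, fej, mul_neg, neg_div, Real.sinc_neg]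
  simp only [kf_ft_tri hε, hn, mul_assoc, integral_const_mul] at h
  rw [← mul_assoc, ← mul_assoc] at h
  exact mul_left_cancel₀ hπ h

theorem kf_gau (n h s t : ℝ) : gau n t * ex t h * ex t s =
    (√(n / Real.pi) : ℝ) *
      (Complex.exp (Complex.I * ((s + h : ℝ) : ℂ) * t) * Complex.exp (-(n : ℂ) * t ^ 2)) := by
  simp only [gau, ex]
  push_cast
  simp only [mul_assoc, ← Complex.exp_add]
  refine congrArg (fun z => _ * Complex.exp z) ?_
  ring

theorem kf_int_gau {n : ℝ} (hn : 0 < n) (h : ℝ) : Integrable fun t => gau n t * ex t h := by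
  refine kf_int_mul_ex ?_ h
  unfold gau
  refine Integrable.ofReal (Integrable.const_mul ?_ _)
  simpa only [neg_mul] using integrable_exp_neg_mul_sq hn

theorem kf_ft_gau {n : ℝ} (hn : 0 < n) (h s : ℝ) :
    ft (fun t => gau n t * ex t h) s = (Real.exp (-((s + h) ^ 2 / (4 * n))) : ℝ) := by
  simp only [ft, kf_gau, integral_const_mul]
  rw [fourierIntegral_gaussian (by simpa using hn), ← mul_assoc]
  have h1 : ((Real.pi : ℂ) / n) ^ (1 / 2 : ℂ) = (√(Real.pi / n) : ℝ) := by
    rw [Real.sqrt_eq_rpow, Complex.ofReal_cpow (by positivity)]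
    push_cast; rfl
  have h2 : √(n / Real.pi) * √(Real.pi / n) = 1 := by
    rw [← Real.sqrt_mul (by positivity), show n / Real.pi * (Real.pi / n) = 1 by field_simp,
      Real.sqrt_one]
  rw [h1, ← Complex.ofReal_mul, h2]
  push_cast
  rw [one_mul, neg_div]

theorem kf_int_exp_abs {c : ℝ} (hc : 0 < c) : Integrable fun t : ℝ => Real.exp (-(c * |t|)) := by
  refine (kf_int_inv hc.ne' 2).mono' (by fun_prop) (Eventually.of_forall fun t => ?_)
  have h := Real.quadratic_le_exp_of_nonneg (x := c * |t|) (by positivity)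
  have h0 : 0 ≤ c * |t| := by positivity
  have h2 : (c * |t|) ^ 2 = (c * t) ^ 2 := by rw [mul_pow, mul_pow, sq_abs]
  rw [Real.norm_of_nonneg (Real.exp_pos _).le, Real.exp_neg, ← div_eq_mul_inv,
    le_div_iff₀ (by positivity), inv_mul_le_iff₀ (Real.exp_pos _)]
  nlinarith

theorem kf_cosh (t : ℝ) :
    (2 * Real.cosh (Real.pi * t))⁻¹ ≤ Real.exp (-(Real.pi * |t|)) := by
  rw [Real.exp_neg]
  refine inv_anti₀ (Real.exp_pos _) ?_
  rw [← Real.cosh_abs, abs_mul, abs_of_pos Real.pi_pos, Real.cosh_eq]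
  have := Real.exp_pos (-(Real.pi * |t|))
  linarith

theorem kf_cont_sech (θ : ℝ) : Continuous (sech θ) := by
  unfold sech
  refine Complex.continuous_ofReal.comp (Continuous.div (by fun_prop) (by fun_prop) fun t => ?_)
  have := Real.cosh_pos (Real.pi * t)
  positivity

theorem kf_int_sech {θ : ℝ} (hθ : |θ| < Real.pi) : Integrable (sech θ) := by
  refine (kf_int_exp_abs (sub_pos.mpr hθ)).mono' (kf_cont_sech θ).aestronglyMeasurable
    (Eventually.of_forall fun t => ?_)
  have hc := Real.cosh_pos (Real.pi * t)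
  rw [sech, Complex.norm_real, Real.norm_of_nonneg (by positivity), div_eq_mul_inv]
  have h1 : Real.exp (-(θ * t)) ≤ Real.exp (|θ| * |t|) := by
    rw [Real.exp_le_exp, ← abs_mul]; exact neg_le_abs _
  calc _ ≤ Real.exp (|θ| * |t|) * Real.exp (-(Real.pi * |t|)) :=
        mul_le_mul h1 (kf_cosh t) (by positivity) (by positivity)
    _ = _ := by rw [← Real.exp_add]; congr 1; ring

theorem kf_beta (p : ℂ) : Complex.betaIntegral p (1 - p) =
    ∫ x : ℝ, (Real.sigmoid x : ℂ) * Complex.exp (x * (p - 1)) := by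
  have h := integral_image_eq_integral_abs_deriv_smul (s := Set.univ) (f := Real.sigmoid)
    (f' := fun x => Real.sigmoid x * (1 - Real.sigmoid x)) MeasurableSet.univ
    (fun x _ => (Real.hasDerivAt_sigmoid x).hasDerivWithinAt) Real.sigmoid_injective.injOn
    (fun x : ℝ => (x : ℂ) ^ (p - 1) * (1 - (x : ℂ)) ^ (1 - p - 1))
  rw [Set.image_univ, Real.range_sigmoid, Measure.restrict_univ] at h
  rw [Complex.betaIntegral, intervalIntegral.integral_of_le zero_le_one,
    integral_Ioc_eq_integral_Ioo, h]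
  refine integral_congr_ae (Eventually.of_forall fun x => ?_)
  have h0 := Real.sigmoid_pos x
  have h1 : 0 < 1 - Real.sigmoid x := sub_pos.mpr (Real.sigmoid_lt_one x)
  obtain ⟨L, hL⟩ : ∃ L, Real.sigmoid x = Real.exp L := ⟨_, (Real.exp_log h0).symm⟩
  have h2 : 1 - Real.sigmoid x = Real.exp (L - x) := by
    rw [← Real.sigmoid_neg, ← Real.sigmoid_mul_rexp_neg, hL, ← Real.exp_add, sub_eq_add_neg]
  have h3 : (1 : ℂ) - (Real.sigmoid x : ℂ) = Complex.exp ((L - x : ℝ) : ℂ) := by
    rw [← Complex.ofReal_exp, ← h2]; push_cast; rfl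
  have h4 : ∀ (y : ℝ) (z : ℂ), Complex.exp (y : ℂ) ^ z = Complex.exp (y * z) := by
    intro y z
    rw [Complex.cpow_def_of_ne_zero (Complex.exp_ne_zero _), Complex.log_exp]
    · simpa using Real.pi_pos
    · simpa using Real.pi_pos.le
  simp only
  rw [abs_of_pos (mul_pos h0 h1), Complex.real_smul, h3, h2, hL, Complex.ofReal_mul,
    Complex.ofReal_exp, Complex.ofReal_exp, h4, h4]
  simp only [← Complex.exp_add]
  congr 1
  push_cast
  ring

theorem kf_ft_sech {θ : ℝ} (hθ : |θ| < Real.pi) (s : ℝ) :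
    (ex (θ / 2) 1 * (Real.exp (s / 2) : ℝ) + ex (-(θ / 2)) 1 * (Real.exp (-(s / 2)) : ℝ)) *
      ft (sech θ) s = 1 := by
  have hπ : (Real.pi : ℂ) ≠ 0 := by exact_mod_cast Real.pi_ne_zero
  have hp0 := Real.pi_pos
  obtain ⟨hθ1, hθ2⟩ := abs_lt.mp hθ
  set p : ℂ := ((1 / 2 - θ / (2 * Real.pi) : ℝ) : ℂ) + (s / (2 * Real.pi) : ℝ) * Complex.I with hp
  have hre : p.re = 1 / 2 - θ / (2 * Real.pi) := by
    simp only [hp, Complex.add_re, Complex.ofReal_re, Complex.mul_re, Complex.I_re, mul_zero,
      Complex.ofReal_im, zero_mul, sub_zero, add_zero]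
  have hr1 : 0 < p.re := by
    rw [hre, sub_pos, div_lt_iff₀ (by positivity)]; linarith
  have hr2 : 0 < (1 - p).re := by
    rw [Complex.sub_re, hre, Complex.one_re]
    have : -(1 / 2) < θ / (2 * Real.pi) := by rw [lt_div_iff₀ (by positivity)]; linarith
    linarith
  have hB := Complex.Gamma_mul_Gamma_eq_betaIntegral hr1 hr2
  have hne := mul_ne_zero (Complex.Gamma_ne_zero_of_re_pos hr1)
    (Complex.Gamma_ne_zero_of_re_pos hr2)
  rw [Complex.Gamma_mul_Gamma_one_sub] at hB hne
  have hsin : Complex.sin (Real.pi * p) ≠ 0 := fun h => hne (by rw [h, div_zero])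
  rw [add_sub_cancel, Complex.Gamma_one, one_mul, kf_beta] at hB
  have h3 := Measure.integral_comp_mul_left
    (fun x : ℝ => (Real.sigmoid x : ℂ) * Complex.exp (x * (p - 1))) (2 * Real.pi)
  have h4 : (fun t : ℝ => (Real.sigmoid (2 * Real.pi * t) : ℂ) *
      Complex.exp (((2 * Real.pi * t : ℝ) : ℂ) * (p - 1))) = fun t => sech θ t * ex t s := by
    funext t
    have e1 : Real.sigmoid (2 * Real.pi * t) =
        Real.exp (Real.pi * t) / (2 * Real.cosh (Real.pi * t)) := by
      have e2 : Real.exp (-(2 * Real.pi * t)) =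
          Real.exp (-(Real.pi * t)) / Real.exp (Real.pi * t) := by
        rw [← Real.exp_sub]; congr 1; ring
      have := Real.exp_pos (Real.pi * t)
      have := Real.exp_pos (-(Real.pi * t))
      rw [Real.sigmoid_def, Real.cosh_eq, e2]
      field_simp
    rw [e1, sech, ex, Complex.ofReal_div, Complex.ofReal_div, Complex.ofReal_exp,
      Complex.ofReal_exp, div_mul_eq_mul_div, div_mul_eq_mul_div, ← Complex.exp_add,
      ← Complex.exp_add]
    congr 2
    rw [hp]
    push_cast
    field_simp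
    ring
  rw [h4, ← hB, abs_of_pos (by positivity), Complex.real_smul] at h3
  have h5 : ex (θ / 2) 1 * (Real.exp (s / 2) : ℝ) + ex (-(θ / 2)) 1 * (Real.exp (-(s / 2)) : ℝ) =
      2 * Complex.sin (Real.pi * p) := by
    have e1 : (Real.pi : ℂ) * p = Real.pi / 2 - (θ / 2 - s / 2 * Complex.I) := by
      rw [hp]; push_cast; field_simp; ring
    rw [e1, Complex.sin_pi_div_two_sub, Complex.two_cos, ex, ex, Complex.ofReal_exp,
      Complex.ofReal_exp, ← Complex.exp_add, ← Complex.exp_add]
    refine congrArg₂ (fun a b => Complex.exp a + Complex.exp b) ?_ ?_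
    · push_cast
      linear_combination (s / 2 : ℂ) * Complex.I_mul_I
    · push_cast
      linear_combination (-(s / 2) : ℂ) * Complex.I_mul_I
  rw [h5, ft, h3]
  push_cast
  field_simp

theorem kf_eq_zero_of_sech {g : ℝ → ℂ} (hg : BC g)
    (h : ∀ θ : ℝ, |θ| < Real.pi → ∫ t, sech θ t * g t = 0) (t : ℝ) : g t = 0 := by
  obtain ⟨hgc, C, hC⟩ := hg
  have hC0 : 0 ≤ C := (norm_nonneg _).trans (hC 0)
  set k : ℝ → ℂ := fun t => sech 0 t * g t with hk
  have hkc : Continuous k := (kf_cont_sech 0).mul hgc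
  have hkb : ∀ t, ‖k t‖ ≤ Real.exp (-(Real.pi * |t|)) * C := by
    intro t
    have hc := Real.cosh_pos (Real.pi * t)
    rw [hk, norm_mul, sech, Complex.norm_real, Real.norm_of_nonneg (by positivity), zero_mul,
      neg_zero, Real.exp_zero, one_div]
    exact mul_le_mul (kf_cosh t) (hC t) (norm_nonneg _) (by positivity)
  set U : Set ℂ := {z | |z.re| < 1} with hU
  have hUo : IsOpen U := isOpen_lt (by fun_prop) continuous_const
  have hUc : Convex ℝ U := by
    have : U = {z : ℂ | -1 < z.re} ∩ {z : ℂ | z.re < 1} := by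
      ext z; simp [hU, abs_lt]
    rw [this]
    exact (convex_halfSpace_re_gt _).inter (convex_halfSpace_re_lt _)
  have hexp : ∀ z ∈ U, ∀ t : ℝ, ‖Complex.exp (z * t)‖ ≤ Real.exp |t| := by
    intro z hz t
    rw [Complex.norm_exp, Real.exp_le_exp, Complex.re_mul_ofReal]
    calc z.re * t ≤ |z.re| * |t| := by rw [← abs_mul]; exact le_abs_self _
      _ ≤ 1 * |t| := mul_le_mul_of_nonneg_right (le_of_lt hz) (abs_nonneg _)
      _ = |t| := one_mul _
  have hbd : ∀ z ∈ U, ∀ (t : ℝ) (a : ℂ), ‖a‖ ≤ Real.exp |t| →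
      ‖Complex.exp (z * t) * a * k t‖ ≤ Real.exp (-(1 * |t|)) * C := by
    intro z hz t a ha
    rw [norm_mul, norm_mul]
    calc _ ≤ Real.exp |t| * Real.exp |t| * (Real.exp (-(Real.pi * |t|)) * C) :=
          mul_le_mul (mul_le_mul (hexp z hz t) ha (norm_nonneg _) (by positivity)) (hkb t)
            (norm_nonneg _) (by positivity)
      _ = Real.exp (|t| + |t| + -(Real.pi * |t|)) * C := by
          rw [Real.exp_add, Real.exp_add]; ring
      _ ≤ _ := by
          refine mul_le_mul_of_nonneg_right (Real.exp_le_exp.mpr ?_) hC0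
          nlinarith [Real.pi_gt_three, abs_nonneg t]
  have hint := (kf_int_exp_abs one_pos).mul_const C
  have hI : ∀ z ∈ U, Integrable fun t : ℝ => Complex.exp (z * t) * k t := by
    intro z hz
    refine hint.mono' (Continuous.aestronglyMeasurable (by fun_prop))
      (Eventually.of_forall fun t => ?_)
    have := hbd z hz t 1 (by rw [norm_one]; exact Real.one_le_exp (abs_nonneg t))
    rwa [mul_one] at this
  set F : ℂ → ℂ := fun z => ∫ t : ℝ, Complex.exp (z * t) * k t with hF
  have hd : DifferentiableOn ℂ F U := by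
    intro z hz
    refine (hasDerivAt_integral_of_dominated_loc_of_deriv_le (μ := volume) (hUo.mem_nhds hz)
      (F := fun z (t : ℝ) => Complex.exp (z * t) * k t)
      (F' := fun z (t : ℝ) => Complex.exp (z * t) * t * k t)
      (Eventually.of_forall fun z => Continuous.aestronglyMeasurable (by fun_prop)) (hI z hz)
      (Continuous.aestronglyMeasurable (by fun_prop))
      (Eventually.of_forall fun t w hw => hbd w hw t t ?_) hint
      (Eventually.of_forall fun t w _ => ?_)).2.differentiableAt.differentiableWithinAt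
    · rw [Complex.norm_real, Real.norm_eq_abs]
      linarith [Real.add_one_le_exp |t|]
    · simpa using (((hasDerivAt_id w).mul_const (t : ℂ)).cexp).mul_const (k t)
  have hreal : ∀ θ : ℝ, |θ| < Real.pi → F θ = 0 := by
    intro θ hθ
    rw [← h (-θ) (by rwa [abs_neg])]
    refine integral_congr_ae (Eventually.of_forall fun t => ?_)
    simp only [hk, sech]
    push_cast
    simp only [zero_mul, neg_zero, Complex.exp_zero, neg_mul, neg_neg]
    ring
  have h0U : (0 : ℂ) ∈ U := by simp [hU]
  have hfr : ∃ᶠ z in 𝓝[≠] (0 : ℂ), F z = 0 := by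
    have ht : Tendsto (fun n : ℕ => ((1 / ((n : ℝ) + 1) : ℝ) : ℂ)) atTop (𝓝[≠] (0 : ℂ)) := by
      refine tendsto_nhdsWithin_iff.mpr ⟨?_, Eventually.of_forall fun n => ?_⟩
      · have := (Complex.continuous_ofReal.tendsto 0).comp tendsto_one_div_add_atTop_nhds_zero_nat
        rw [Complex.ofReal_zero] at this
        exact this
      · have : (0 : ℝ) < 1 / ((n : ℝ) + 1) := by positivity
        exact Complex.ofReal_ne_zero.mpr this.ne'
    refine ht.frequently (Frequently.of_forall fun n => hreal _ ?_)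
    have h1 : (1 : ℝ) / ((n : ℝ) + 1) ≤ 1 := by
      rw [div_le_one (by positivity)]; linarith [Nat.cast_nonneg (α := ℝ) n]
    rw [abs_of_pos (by positivity)]
    linarith [Real.pi_gt_three]
  have hz := (hd.analyticOnNhd hUo).eqOn_zero_of_preconnected_of_frequently_eq_zero
    hUc.isPreconnected h0U hfr
  have hft : ft k = fun _ => 0 := by
    funext s
    have := hz (show Complex.I * s ∈ U by simp [hU])
    rw [← show F (Complex.I * s) = 0 from this]
    refine integral_congr_ae (Eventually.of_forall fun t => ?_)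
    simp only [ex]
    rw [mul_comm, mul_right_comm]
  have hki : Integrable k := by simpa using hI 0 h0U
  have h5 := kf_inv hkc hki (by rw [hft]; exact integrable_zero _ _ _) t
  simp only [hft, zero_mul, integral_zero] at h5
  have hπ : (2 * Real.pi : ℂ) ≠ 0 := by exact_mod_cast (by positivity : (2 * Real.pi) ≠ 0)
  have h6 : sech 0 t ≠ 0 := by
    have hc := Real.cosh_pos (Real.pi * t)
    exact Complex.ofReal_ne_zero.mpr (by positivity)
  exact (mul_eq_zero.mp ((mul_eq_zero.mp h5.symm).resolve_left hπ)).resolve_left h6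

end Vale.Agent.P132
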