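import Vale.Agent.P132.FC2
import Vale.Agent.P132.KernF

/-! Scalar kernels and Fejer means. -/

open scoped InnerProductSpace Topology ComplexConjugate
open Filter MeasureTheory

namespace Vale.Agent.P132

open Vale.Agent.P104

variable {H : Type*} [NormedAddCommGroup H] [InnerProductSpace ℂ H] [CompleteSpace H]

theorem fej_nonneg {ε : ℝ} (hε : 0 < ε) (t : ℝ) : 0 ≤ fej ε t := by
  unfold fej; positivity

theorem fej_neg (ε t : ℝ) : fej ε (-t) = fej ε t := by
  rw [fej, fej, mul_neg, neg_div, Real.sinc_neg]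

theorem continuous_fej (ε : ℝ) : Continuous (fej ε) := by
  exact kf_cont_fej ε

theorem integrable_fej {ε : ℝ} (hε : 0 < ε) : Integrable (fej ε) := by
  exact kf_int_fej hε

theorem ft_fej {ε : ℝ} (hε : 0 < ε) : ft (fun t => (fej ε t : ℂ)) = tri 0 ε := by
  exact kf_ft_fej hε

theorem integral_fej {ε : ℝ} (hε : 0 < ε) : ∫ t, fej ε t = 1 := by
  have h := congrFun (kf_ft_fej hε) 0
  simp only [ft, ex, tri, Complex.ofReal_zero, mul_zero, Complex.exp_zero, mul_one, sub_zero,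
    abs_zero, zero_div, integral_complex_ofReal] at h
  rw [max_eq_left zero_le_one] at h
  exact_mod_cast h

theorem integrable_fejx {ε : ℝ} (hε : 0 < ε) (h : ℝ) :
    Integrable fun t => (fej ε t : ℂ) * ex t (-h) := by
  exact kf_int_mul_ex (kf_int_fej hε).ofReal _

theorem ft_fejx {ε : ℝ} (hε : 0 < ε) (h : ℝ) :
    ft (fun t => (fej ε t : ℂ) * ex t (-h)) = tri h ε := by
  funext s
  have h1 := congrFun (kf_ft_fej hε) (s - h)
  have h2 : tri 0 ε (s - h) = tri h ε s := by simp only [tri, sub_zero]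
  rw [← h2, ← h1]
  refine integral_congr_ae (Eventually.of_forall fun t => ?_)
  simp only [ex, mul_assoc, ← Complex.exp_add]
  refine congrArg (fun z => (fej ε t : ℂ) * Complex.exp z) ?_
  push_cast
  ring

theorem integral_norm_fejx {ε : ℝ} (hε : 0 < ε) (h : ℝ) :
    ∫ t, ‖(fej ε t : ℂ) * ex t (-h)‖ = 1 := by
  rw [← integral_fej hε]
  refine integral_congr_ae (Eventually.of_forall fun t => ?_)
  simp only [norm_mul, kf_norm_ex, mul_one, Complex.norm_real,
    Real.norm_of_nonneg (fej_nonneg hε t)]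

theorem integrable_sech {θ : ℝ} (hθ : |θ| < Real.pi) : Integrable (sech θ) := by
  exact kf_int_sech hθ

theorem ft_sech {θ : ℝ} (hθ : |θ| < Real.pi) (s : ℝ) :
    (ex (θ / 2) 1 * (Real.exp (s / 2) : ℝ) + ex (-(θ / 2)) 1 * (Real.exp (-(s / 2)) : ℝ)) *
      ft (sech θ) s = 1 := by
  exact kf_ft_sech hθ s

theorem eq_zero_of_sech {g : ℝ → ℂ} (hg : BC g)
    (h : ∀ θ : ℝ, |θ| < Real.pi → ∫ t, sech θ t * g t = 0) (t : ℝ) : g t = 0 := by
  exact kf_eq_zero_of_sech hg h t

theorem integrable_gau {n : ℝ} (hn : 0 < n) (h : ℝ) : Integrable fun t => gau n t * ex t h := by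
  exact kf_int_gau hn h

theorem ft_gau {n : ℝ} (hn : 0 < n) (h s : ℝ) :
    ft (fun t => gau n t * ex t h) s = (Real.exp (-((s + h) ^ 2 / (4 * n))) : ℝ) := by
  exact kf_ft_gau hn h s

theorem BR.const (c : ℝ) : BR fun _ => c := by
  exact ⟨continuous_const, |c|, fun _ => le_rfl⟩

theorem BR.add {g k : ℝ → ℝ} (hg : BR g) (hk : BR k) : BR fun t => g t + k t := by
  obtain ⟨h1, C, hC⟩ := hg
  obtain ⟨h2, D, hD⟩ := hk
  exact ⟨h1.add h2, C + D, fun s => (abs_add_le _ _).trans (add_le_add (hC s) (hD s))⟩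

theorem BR.sub {g k : ℝ → ℝ} (hg : BR g) (hk : BR k) : BR fun t => g t - k t := by
  obtain ⟨h1, C, hC⟩ := hg
  obtain ⟨h2, D, hD⟩ := hk
  exact ⟨h1.sub h2, C + D, fun s => (abs_sub _ _).trans (add_le_add (hC s) (hD s))⟩

theorem BR.const_mul {g : ℝ → ℝ} (c : ℝ) (hg : BR g) : BR fun t => c * g t := by
  obtain ⟨h1, C, hC⟩ := hg
  refine ⟨continuous_const.mul h1, |c| * C, fun s => ?_⟩
  rw [abs_mul]
  exact mul_le_mul_of_nonneg_left (hC s) (abs_nonneg c)

theorem BR.sum {ι : Type*} (s : Finset ι) {g : ι → ℝ → ℝ} (hg : ∀ i ∈ s, BR (g i)) :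
    BR fun t => ∑ i ∈ s, g i t := by
  classical
  induction s using Finset.induction_on with
  | empty => simpa using BR.const 0
  | insert a s ha ih =>
    simp only [Finset.sum_insert ha]
    exact (hg a (Finset.mem_insert_self _ _)).add
      (ih fun i hi => hg i (Finset.mem_insert_of_mem hi))

theorem BR.comp_neg {g : ℝ → ℝ} (hg : BR g) : BR fun t => g (-t) := by
  obtain ⟨h1, C, hC⟩ := hg
  exact ⟨h1.comp continuous_neg, C, fun s => hC _⟩

theorem BC.re {g : ℝ → ℂ} (hg : BC g) : BR fun t => (g t).re := by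
  obtain ⟨h1, C, hC⟩ := hg
  exact ⟨Complex.continuous_re.comp h1, C, fun s => (Complex.abs_re_le_norm _).trans (hC s)⟩

theorem br_norm_sq {E : Type*} [NormedAddCommGroup E] {η : ℝ → E} (h : Continuous η) {C : ℝ}
    (hC : ∀ t, ‖η t‖ ≤ C) : BR fun t => ‖η t‖ ^ 2 := by
  refine ⟨h.norm.pow 2, C ^ 2, fun s => ?_⟩
  rw [abs_of_nonneg (by positivity)]
  exact pow_le_pow_left₀ (norm_nonneg _) (hC s) 2

theorem kern_int {ε : ℝ} (hε : 0 < ε) {g : ℝ → ℝ} (hg : BR g) :
    Integrable fun t => fej ε t * g t := by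
  obtain ⟨h1, C, hC⟩ := hg
  exact (kf_int_fej hε).mul_bdd (c := C) h1.aestronglyMeasurable (Eventually.of_forall hC)

theorem mn_add {ε : ℝ} (hε : 0 < ε) {g k : ℝ → ℝ} (hg : BR g) (hk : BR k) :
    mn ε (fun t => g t + k t) = mn ε g + mn ε k := by
  simp only [mn, mul_add]
  exact integral_add (kern_int hε hg) (kern_int hε hk)

theorem mn_sub {ε : ℝ} (hε : 0 < ε) {g k : ℝ → ℝ} (hg : BR g) (hk : BR k) :
    mn ε (fun t => g t - k t) = mn ε g - mn ε k := by
  simp only [mn, mul_sub]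
  exact integral_sub (kern_int hε hg) (kern_int hε hk)

theorem mn_const_mul (ε c : ℝ) (g : ℝ → ℝ) : mn ε (fun t => c * g t) = c * mn ε g := by
  simp only [mn, ← integral_const_mul, mul_left_comm]

theorem mn_const {ε : ℝ} (hε : 0 < ε) (c : ℝ) : mn ε (fun _ => c) = c := by
  simp only [mn, integral_mul_const, integral_fej hε, one_mul]

theorem mn_sum {ε : ℝ} (hε : 0 < ε) {ι : Type*} (s : Finset ι) {g : ι → ℝ → ℝ}
    (hg : ∀ i ∈ s, BR (g i)) : mn ε (fun t => ∑ i ∈ s, g i t) = ∑ i ∈ s, mn ε (g i) := by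
  simp only [mn, Finset.mul_sum]
  exact integral_finsetSum s fun i hi => kern_int hε (hg i hi)

theorem mn_mono {ε : ℝ} (hε : 0 < ε) {g k : ℝ → ℝ} (hg : BR g) (hk : BR k)
    (h : ∀ t, g t ≤ k t) : mn ε g ≤ mn ε k := by
  exact integral_mono (kern_int hε hg) (kern_int hε hk)
    fun t => mul_le_mul_of_nonneg_left (h t) (fej_nonneg hε t)

theorem mn_nonneg {ε : ℝ} (hε : 0 < ε) {g : ℝ → ℝ} (h : ∀ t, 0 ≤ g t) : 0 ≤ mn ε g := by
  exact integral_nonneg fun t => mul_nonneg (fej_nonneg hε t) (h t)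

theorem mn_comp_neg (ε : ℝ) (g : ℝ → ℝ) : mn ε (fun t => g (-t)) = mn ε g := by
  rw [mn, mn, ← integral_neg_eq_self (fun t => fej ε t * g t)]
  simp only [fej_neg]

theorem mc_comp_neg (ε : ℝ) (g : ℝ → ℂ) : mc ε (fun t => g (-t)) = mc ε g := by
  rw [mc, mc, ← integral_neg_eq_self (fun t => (fej ε t : ℂ) * g t)]
  simp only [fej_neg]

theorem mn_re {ε : ℝ} (hε : 0 < ε) {g : ℝ → ℂ} (hg : BC g) :
    mn ε (fun t => (g t).re) = (mc ε g).re := by
  obtain ⟨h1, C, hC⟩ := hg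
  have hi : Integrable fun t => (fej ε t : ℂ) * g t :=
    (kf_int_fej hε).ofReal.mul_bdd (c := C) h1.aestronglyMeasurable (Eventually.of_forall hC)
  have h := integral_re hi
  simp only [RCLike.re_to_complex, Complex.re_ofReal_mul] at h
  exact h

theorem exists_pos_of_mn {ε : ℝ} (hε : 0 < ε) {g : ℝ → ℝ} (h : 0 < mn ε g) : ∃ t, 0 < g t := by
  by_contra hn
  push Not at hn
  exact absurd (integral_nonpos fun t => mul_nonpos_of_nonneg_of_nonpos (fej_nonneg hε t) (hn t))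
    (not_le.mpr h)

/-- The mean sees only a long bounded window up to a small error. -/
theorem le_mn_of_window {ε : ℝ} (hε : 0 < ε) {γ : ℝ} (hγ : 0 < γ) :
    ∃ T : ℝ, 0 < T ∧ ∀ g k : ℝ → ℝ, BR g → BR k → ∀ C : ℝ, (∀ t, k t - g t ≤ C) → 0 ≤ C →
      (∀ t, |t| ≤ T → k t ≤ g t) → mn ε k ≤ mn ε g + γ * C := by
  have hi := kf_int_fej hε
  have ht := tendsto_setIntegral_of_monotone (μ := volume) (f := fej ε)
    (s := fun n : ℕ => Set.Icc (-((n : ℝ) + 1)) (n + 1)) (fun _ => measurableSet_Icc)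
    (fun a b hab => Set.Icc_subset_Icc (by linarith [(Nat.cast_le (α := ℝ)).mpr hab])
      (by linarith [(Nat.cast_le (α := ℝ)).mpr hab])) hi.integrableOn
  have hu : (⋃ n : ℕ, Set.Icc (-((n : ℝ) + 1)) (n + 1)) = Set.univ := by
    refine Set.eq_univ_of_forall fun t => ?_
    obtain ⟨n, hn⟩ := exists_nat_ge |t|
    exact Set.mem_iUnion.mpr ⟨n, by linarith [neg_abs_le t], by linarith [le_abs_self t]⟩
  rw [hu, Measure.restrict_univ, integral_fej hε] at ht
  obtain ⟨n, hn⟩ := (ht.eventually (lt_mem_nhds (show 1 - γ < 1 by linarith))).exists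
  refine ⟨n + 1, by positivity, fun g k hg hk C hC hC0 hT => ?_⟩
  set S := Set.Icc (-((n : ℝ) + 1)) (n + 1) with hS
  have hSm : MeasurableSet S := measurableSet_Icc
  have h1 := integral_add_compl hSm hi
  rw [integral_fej hε] at h1
  have h2 : mn ε (fun t => k t - g t) ≤ ∫ t, Sᶜ.indicator (fej ε) t * C := by
    refine integral_mono (kern_int hε (hk.sub hg)) ((hi.indicator hSm.compl).mul_const C)
      fun t => ?_
    by_cases h : t ∈ S
    · have h3 := hT t (abs_le.mpr h)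
      simp only [Set.indicator_of_notMem (Set.notMem_compl_iff.mpr h), zero_mul]
      exact mul_nonpos_of_nonneg_of_nonpos (fej_nonneg hε t) (by linarith)
    · simp only [Set.indicator_of_mem (Set.mem_compl h)]
      exact mul_le_mul_of_nonneg_left (hC t) (fej_nonneg hε t)
  rw [mn_sub hε hk hg, integral_mul_const, integral_indicator hSm.compl] at h2
  have h4 : (∫ t in Sᶜ, fej ε t) * C ≤ γ * C := mul_le_mul_of_nonneg_right (by linarith) hC0
  linarith

end Vale.Agent.P132
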