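import Vale.Agent.P132.OpInt
import Vale.Agent.P132.Std

/-! A symmetric braiding without eigenvectors is trivial. -/

open scoped InnerProductSpace Topology ComplexConjugate
open Filter MeasureTheory

namespace Vale.Agent.P132

open Vale.Agent.P104

variable {H : Type*} [NormedAddCommGroup H] [InnerProductSpace ℂ H] [CompleteSpace H]
  {M : VonNeumannAlgebra H} {J : H →L⋆[ℂ] H} {P : Set H} {ξ : H} {F : FC H}

theorem lz_divide (s : ℝ) {e : ℝ} (he : e ≠ 0) : ∃ (k : ℤ) (r : ℝ), s = k * e + r ∧ |r| ≤ |e| := by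
  refine ⟨⌊s / e⌋, Int.fract (s / e) * e, ?_, ?_⟩
  · rw [← add_mul, Int.floor_add_fract, div_mul_cancel₀ _ he]
  · rw [abs_mul, abs_of_nonneg (Int.fract_nonneg _)]
    exact mul_le_of_le_one_left (abs_nonneg _) (Int.fract_lt_one _).le

theorem lz_int {P : ℝ → Prop} {e : ℝ} (h0 : P 0) (h1 : ∀ t, P t → P (t + e))
    (h2 : ∀ t, P t → P (t - e)) (k : ℤ) : P (k * e) := by
  induction k using Int.induction_on with
  | zero => simpa using h0
  | succ k ih => have := h1 _ ih; push_cast at this ⊢; rwa [add_mul, one_mul]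
  | pred k ih => have := h2 _ ih; push_cast at this ⊢; rwa [sub_mul, one_mul]

theorem char_eq_one {χ : ℝ → ℂ} (hm : ∀ s t, χ (s + t) = χ s * χ t) {C : ℝ}
    (hl : ∀ s, ‖χ s - 1‖ ≤ C * |s|) {d : ℝ} (hd : d ≠ 0) (hC : C * |d| < 2)
    (h : χ d * χ d = 1) (s : ℝ) : χ s = 1 := by
  have hC0 : 0 ≤ C := by simpa using (norm_nonneg _).trans (hl 1)
  have h0 : χ 0 = 1 := by simpa [sub_eq_zero] using hl 0
  have step : ∀ e : ℝ, C * |e| < 2 → χ e * χ e = 1 → χ e = 1 := by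
    intro e he h1
    rcases mul_self_eq_one_iff.1 h1 with h2 | h2
    · exact h2
    · have := hl e
      rw [h2] at this
      norm_num at this
      linarith
  have half : ∀ n : ℕ, χ (d / 2 ^ n) = 1 := by
    intro n
    induction n with
    | zero => simpa using step d hC h
    | succ n ih =>
      refine step _ (lt_of_le_of_lt (mul_le_mul_of_nonneg_left ?_ hC0) hC) ?_
      · rw [abs_div, abs_of_pos (by positivity : (0 : ℝ) < 2 ^ (n + 1))]
        exact div_le_self (abs_nonneg _) (one_le_pow₀ one_le_two)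
      · rw [← hm, ← ih]
        congr 1
        rw [pow_succ]; field_simp; ring
  have bd : ∀ n : ℕ, ‖χ s - 1‖ ≤ C * |d| * (1 / 2) ^ n := by
    intro n
    have he : d / 2 ^ n ≠ 0 := by positivity
    obtain ⟨k, r, e, hr⟩ := lz_divide s he
    have hk : χ (k * (d / 2 ^ n)) = 1 := lz_int (P := fun t => χ t = 1) h0
      (fun t ht => by rw [hm, ht, half, mul_one])
      (fun t ht => by
        have := hm (t - d / 2 ^ n) (d / 2 ^ n)
        rw [sub_add_cancel, ht, half, mul_one] at this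
        exact this.symm) k
    rw [e, hm, hk, one_mul]
    refine (hl r).trans ?_
    rw [mul_assoc]
    refine mul_le_mul_of_nonneg_left (hr.trans_eq ?_) hC0
    rw [abs_div, abs_of_pos (by positivity : (0 : ℝ) < 2 ^ n), one_div, inv_pow, div_eq_mul_inv]
  have lim := (tendsto_pow_atTop_nhds_zero_of_lt_one (r := (1 / 2 : ℝ)) (by norm_num)
    (by norm_num)).const_mul (C * |d|)
  rw [mul_zero] at lim
  exact sub_eq_zero.1 (norm_le_zero_iff.1 (ge_of_tendsto' lim bd))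

variable {U : ℝ → (H →L[ℂ] H)} {L : Submodule ℂ H}

/-- Unit vectors concentrating at `h`, with their limiting coefficient function. -/
structure LzAdm (F : FC H) (U : ℝ → (H →L[ℂ] H)) (L : Submodule ℂ H) (h : ℝ) (α : ℕ → H)
    (ψ : ℝ → ℂ) : Prop where
  mem : ∀ n, α n ∈ L
  norm : ∀ n, ‖α n‖ = 1
  supp : ∀ δ : ℝ, 0 < δ → ∀ᶠ n in hyperfilter ℕ, F.Supp (α n) (Set.Icc (h - δ) (h + δ))
  lim : ∀ s, Tendsto (fun n => ⟪U (-s) (α n), α n⟫_ℂ) (hyperfilter ℕ) (𝓝 (ψ s))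

theorem lz_adm (Un : ∀ s η, ‖U s η‖ = ‖η‖) {h : ℝ} {c : ℕ → ℝ}
    (hc : Tendsto c (hyperfilter ℕ) (𝓝 h)) {β : ℕ → H} (h1 : ∀ n, β n ∈ L) (h2 : ∀ n, β n ≠ 0)
    (h3 : ∀ n : ℕ, F.Supp (β n) (Set.Icc (c n - 1 / ((n : ℝ) + 1)) (c n + 1 / ((n : ℝ) + 1)))) :
    ∃ ψ, LzAdm F U L h (fun n => ((‖β n‖⁻¹ : ℝ) : ℂ) • β n) ψ := by
  have hn : ∀ n, ‖((‖β n‖⁻¹ : ℝ) : ℂ) • β n‖ = 1 := fun n => by
    rw [norm_smul, Complex.norm_real, norm_inv, norm_norm, inv_mul_cancel₀ (norm_ne_zero_iff.2 (h2 n))]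
  have ex : ∀ s, ∃ z, Tendsto (fun n => ⟪U (-s) (((‖β n‖⁻¹ : ℝ) : ℂ) • β n),
      ((‖β n‖⁻¹ : ℝ) : ℂ) • β n⟫_ℂ) (hyperfilter ℕ) (𝓝 z) := by
    intro s
    obtain ⟨z, -, hz⟩ := (isCompact_closedBall (0 : ℂ) 1).ultrafilter_le_nhds'
      ((hyperfilter ℕ).map fun n => ⟪U (-s) (((‖β n‖⁻¹ : ℝ) : ℂ) • β n),
        ((‖β n‖⁻¹ : ℝ) : ℂ) • β n⟫_ℂ)
      (Ultrafilter.mem_map.2 (univ_mem' fun n => mem_closedBall_zero_iff.2
        ((norm_inner_le_norm _ _).trans_eq (by rw [Un, hn, mul_one]))))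
    exact ⟨z, hz⟩
  choose ψ hψ using ex
  refine ⟨ψ, fun n => L.smul_mem _ (h1 n), hn, fun δ hδ => ?_, hψ⟩
  have t1 := (tendsto_one_div_add_atTop_nhds_zero_nat (𝕜 := ℝ)).mono_left
    Nat.hyperfilter_le_atTop
  have t2 := hc.sub t1
  have t3 := hc.add t1
  filter_upwards [t2.eventually (le_mem_nhds (show h - δ < h - 0 by linarith)),
    t3.eventually (ge_mem_nhds (show h + 0 < h + δ by linarith))] with n a b
  exact F.supp_smul _ isClosed_Icc ((h3 n).mono (Set.Icc_subset_Icc a b))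

namespace LzAdm

variable {h h' C : ℝ} {α β : ℕ → H} {ψ φ : ℝ → ℂ}

theorem norm_le (a : LzAdm F U L h α ψ) (Un : ∀ s η, ‖U s η‖ = ‖η‖) (s : ℝ) : ‖ψ s‖ ≤ 1 :=
  le_of_tendsto' (a.lim s).norm fun n =>
    (norm_inner_le_norm _ _).trans_eq (by rw [Un, a.norm, mul_one])

theorem inner_self (a : LzAdm F U L h α ψ) (n : ℕ) : ⟪α n, α n⟫_ℂ = 1 := by
  rw [inner_self_eq_norm_sq_to_K, a.norm]; simp

theorem zero (a : LzAdm F U L h α ψ) (U0 : U 0 = 1) : ψ 0 = 1 := by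
  have := a.lim 0
  simp only [neg_zero, U0, one_apply_eq_self, a.inner_self] at this
  exact tendsto_nhds_unique this tendsto_const_nhds

theorem lip (a : LzAdm F U L h α ψ) (hl : ∀ s, ∀ η ∈ L, ‖U s η - η‖ ≤ C * |s| * ‖η‖) (s : ℝ) :
    ‖ψ s - 1‖ ≤ C * |s| := by
  refine le_of_tendsto' ((a.lim s).sub_const 1).norm fun n => ?_
  rw [← a.inner_self n, ← inner_sub_left]
  refine (norm_inner_le_norm _ _).trans ?_
  simpa only [a.norm, mul_one, abs_neg] using hl (-s) _ (a.mem n)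

theorem braid (a : LzAdm F U L h α ψ) (b : LzAdm F U L h' β φ) (Un : ∀ s η, ‖U s η‖ = ‖η‖)
    (hb : Braid F U L) (hC : 0 ≤ C) (hl : ∀ s, ∀ η ∈ L, ‖U s η - η‖ ≤ C * |s| * ‖η‖) :
    φ h * ψ h' = 1 ∧ ‖φ h‖ = 1 := by
  have key : ∀ δ : ℝ, 0 < δ → 1 - (φ h * ψ h').re ≤ 36 * (C * (6 * δ)) ^ 2 := by
    intro δ hδ
    have t := ((Complex.continuous_re.tendsto _).comp ((b.lim h).mul (a.lim h'))).const_sub 1
    refine le_of_tendsto t ?_
    filter_upwards [a.supp δ hδ, b.supp δ hδ] with n s1 s2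
    have w : ∀ η ∈ L, ‖η‖ = 1 → ∀ s, |s| ≤ 6 * δ → ‖U s η - η‖ ≤ C * (6 * δ) := fun η hη e s hs =>
      (hl s η hη).trans (by rw [e, mul_one]; exact mul_le_mul_of_nonneg_left hs hC)
    have := hb _ (a.mem n) _ (b.mem n) h h' δ _ _ hδ s1 s2 (w _ (a.mem n) (a.norm n))
      (w _ (b.mem n) (b.norm n))
    rw [a.norm, b.norm] at this
    simp only [Function.comp]
    linarith
  have h1 : 1 - (φ h * ψ h').re ≤ 0 := by
    have t : Tendsto (fun δ : ℝ => 36 * (C * (6 * δ)) ^ 2) (𝓝[>] 0) (𝓝 (36 * (C * (6 * 0)) ^ 2)) :=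
      (Continuous.tendsto (by fun_prop) 0).mono_left nhdsWithin_le_nhds
    simpa using ge_of_tendsto t (eventually_nhdsWithin_of_forall key)
  have n1 := a.norm_le Un h'
  have n2 := b.norm_le Un h
  have n3 : ‖φ h * ψ h'‖ ≤ 1 := by rw [norm_mul]; exact mul_le_one₀ n2 (norm_nonneg _) n1
  have n4 := Complex.re_le_norm (φ h * ψ h')
  have e : φ h * ψ h' = 1 := by
    have h2 : (φ h * ψ h').re = ‖φ h * ψ h'‖ := by linarith
    have h3 := Complex.re_eq_norm.1 h2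
    rw [← Complex.norm_of_nonneg' h3, show ‖φ h * ψ h'‖ = 1 by linarith, Complex.ofReal_one]
  refine ⟨e, le_antisymm n2 ?_⟩
  have := congrArg Norm.norm e
  rw [norm_mul, norm_one] at this
  nlinarith [norm_nonneg (φ h)]

theorem eig (a : LzAdm F U L h α ψ) (Un : ∀ s η, ‖U s η‖ = ‖η‖) {s : ℝ} (hs : ‖ψ s‖ = 1) :
    Tendsto (fun n => U (-s) (α n) - conj (ψ s) • α n) (hyperfilter ℕ) (𝓝 0) := by
  have t := (((Complex.continuous_re.tendsto _).comp ((a.lim s).const_mul (conj (ψ s)))).const_mul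
    2).const_sub 2
  rw [Complex.conj_mul', hs] at t
  have t2 : Tendsto (fun n => ‖U (-s) (α n) - conj (ψ s) • α n‖ ^ 2) (hyperfilter ℕ) (𝓝 0) := by
    convert t using 2
    · rw [@norm_sub_sq ℂ, Un, norm_smul, Complex.norm_conj, hs, a.norm, inner_smul_right]
      simp only [Function.comp, RCLike.re_to_complex]
      ring
    · simp
  rw [tendsto_zero_iff_norm_tendsto_zero]
  simpa using t2.sqrt

theorem mul_of (a : LzAdm F U L h α ψ) (Ua : ∀ s t, U (s + t) = U s * U t)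
    (Un : ∀ s η, ‖U s η‖ = ‖η‖) {s : ℝ} (hs : ‖ψ s‖ = 1) (t : ℝ) : ψ (s + t) = ψ s * ψ t := by
  have t1 : Tendsto (fun n => ⟪U (-t) (U (-s) (α n) - conj (ψ s) • α n), α n⟫_ℂ)
      (hyperfilter ℕ) (𝓝 0) := by
    refine squeeze_zero_norm (fun n => ?_) (tendsto_zero_iff_norm_tendsto_zero.1 (a.eig Un hs))
    exact (norm_inner_le_norm _ _).trans_eq (by rw [Un, a.norm, mul_one])
  have t2 := (a.lim (s + t)).sub ((a.lim t).const_mul (ψ s))
  refine sub_eq_zero.1 (tendsto_nhds_unique t2 (t1.congr fun n => ?_))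
  rw [map_sub, map_smul, inner_sub_left, inner_smul_left, Complex.conj_conj, neg_add_rev, Ua]
  rfl

theorem mul (a : LzAdm F U L h α ψ) (U0 : U 0 = 1) (Ua : ∀ s t, U (s + t) = U s * U t)
    (Un : ∀ s η, ‖U s η‖ = ‖η‖) (hC : 0 ≤ C) (hl : ∀ s, ∀ η ∈ L, ‖U s η - η‖ ≤ C * |s| * ‖η‖)
    (hc : ∀ γ : ℝ, 0 < γ → ∃ p q : ℝ, p ≠ q ∧ |p - q| < γ ∧ ‖ψ p‖ = 1 ∧ ‖ψ q‖ = 1) (s t : ℝ) :
    ψ (s + t) = ψ s * ψ t := by
  refine a.mul_of Ua Un (le_antisymm (a.norm_le Un s) ?_) t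
  have add : ∀ x y, ‖ψ x‖ = 1 → ‖ψ (y + x)‖ = ‖ψ y‖ := fun x y hx => by
    rw [add_comm, a.mul_of Ua Un hx, norm_mul, hx, one_mul]
  have sub : ∀ x y, ‖ψ x‖ = 1 → ‖ψ (y - x)‖ = ‖ψ y‖ := fun x y hx => by
    rw [← add x _ hx, sub_add_cancel]
  refine le_of_forall_pos_le_add fun ε hε => ?_
  obtain ⟨p, q, hpq, hd, hp, hq⟩ := hc (ε / (C + 1)) (by positivity)
  have h1 : ‖ψ (p - q)‖ = 1 := by rw [sub q p hq, hp]
  obtain ⟨k, r, e, hr⟩ := lz_divide s (sub_ne_zero.2 hpq)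
  have h2 : ‖ψ (k * (p - q))‖ = 1 := lz_int (P := fun t => ‖ψ t‖ = 1)
    (by rw [a.zero U0, norm_one]) (fun t ht => by rw [add _ _ h1, ht])
    (fun t ht => by rw [sub _ _ h1, ht]) k
  rw [e, add_comm _ r, add _ _ h2]
  have h3 := a.lip hl r
  have h4 := norm_sub_norm_le (1 : ℂ) (ψ r)
  rw [norm_one, norm_sub_rev] at h4
  rw [lt_div_iff₀ (by positivity)] at hd
  nlinarith [mul_le_mul_of_nonneg_left hr hC, abs_nonneg (p - q)]

end LzAdm

theorem lz_band (F : FC H) {T : H →L[ℂ] H} (hT : ∀ g, BC g → T * F.f g = F.f g * T) {η : H}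
    {a b : ℝ} (hS : F.Supp η (Set.Icc a b)) (h0 : T η ≠ 0) {ε : ℝ} (hε : 0 < ε) :
    ∃ c : ℝ, a - ε ≤ c ∧ c ≤ b + ε ∧ F.f (tri c ε) η ≠ 0 ∧
      ‖T η‖ / (2 * ‖η‖) * ‖F.f (tri c ε) η‖ ≤ ‖T (F.f (tri c ε) η)‖ := by
  have hη : 0 < ‖η‖ := norm_pos_iff.2 fun e => h0 (by rw [e, map_zero])
  have hTη : 0 < ‖T η‖ := norm_pos_iff.2 h0
  let t : Finset ℤ := Finset.Icc ⌊(a - ε) / ε⌋ ⌈(b + ε) / ε⌉
  have ht : ∀ s ∈ Set.Icc a b, ∀ k : ℤ, |s - k * ε| < ε → k ∈ t := by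
    intro s hs k hk
    rw [abs_lt] at hk
    refine Finset.mem_Icc.2 ⟨Int.floor_le_iff.2 ?_, Int.le_ceil_iff.2 ?_⟩
    · rw [div_lt_iff₀ hε]; nlinarith [hs.1]
    · rw [lt_div_iff₀ hε]; nlinarith [hs.2]
  have h1 := F.sum_le ({()} : Finset Unit) t (g := fun _ _ => 1)
    (k := fun k : ℤ => tri (k * ε) ε) (fun _ _ => BC.const 1) (fun k _ => bc_tri _ hε)
    (F.supp_map hT isClosed_Icc hS) (C := 2) fun s hs => by
      have := le_sum_tri_sq hε t (ht s hs)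
      simp only [Finset.sum_singleton, norm_one, one_pow]
      linarith
  rw [Finset.sum_singleton, F.one, one_apply_eq_self] at h1
  have h2 := F.sum_tri_norm_sq_le hε η t
  obtain ⟨k, -, hk⟩ : ∃ k ∈ t, (‖T η‖ / (2 * ‖η‖)) ^ 2 * ‖F.f (tri (k * ε) ε) η‖ ^ 2 <
      ‖F.f (tri (k * ε) ε) (T η)‖ ^ 2 := by
    refine Finset.exists_lt_of_sum_lt ?_
    rw [← Finset.mul_sum]
    have e : (‖T η‖ / (2 * ‖η‖)) ^ 2 * ‖η‖ ^ 2 = ‖T η‖ ^ 2 / 4 := by field_simp; ring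
    have := mul_le_mul_of_nonneg_left h2 (sq_nonneg (‖T η‖ / (2 * ‖η‖)))
    nlinarith [pow_pos hTη 2]
  rw [← mul_apply_eq_comp, ← hT _ (bc_tri _ hε), mul_apply_eq_comp, ← mul_pow] at hk
  have hne : F.f (tri (k * ε) ε) η ≠ 0 := fun e => by simp [e] at hk
  obtain ⟨s, hs, hs'⟩ : ∃ s ∈ Set.Icc a b, |s - k * ε| < ε := by
    by_contra hn
    push Not at hn
    exact hne (F.f_eq_zero (bc_tri _ hε) hS fun s hs => tri_eq_zero hε (hn s hs))
  rw [abs_lt] at hs'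
  exact ⟨k * ε, by linarith [hs.1], by linarith [hs.2], hne,
    (lt_of_pow_lt_pow_left₀ 2 (norm_nonneg _) hk).le⟩

theorem lz_local (F : FC H) {T : H →L[ℂ] H} (hT : ∀ g, BC g → T * F.f g = F.f g * T)
    (hF : ∀ g, BC g → ∀ η ∈ L, F.f g η ∈ L) {η : H} (hη : η ∈ L) (h0 : T η ≠ 0) :
    ∃ (h : ℝ) (c : ℕ → ℝ) (β : ℕ → H) (κ : ℝ), 0 < κ ∧ Tendsto c (hyperfilter ℕ) (𝓝 h) ∧
      (∀ n, β n ∈ L) ∧ (∀ n, β n ≠ 0) ∧
      (∀ n : ℕ, F.Supp (β n) (Set.Icc (c n - 1 / ((n : ℝ) + 1)) (c n + 1 / ((n : ℝ) + 1)))) ∧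
      ∀ n, κ * ‖β n‖ ≤ ‖T (β n)‖ := by
  obtain ⟨k, hk⟩ : ∃ k : ℤ, T (F.f (tri (k * 1) 1) η) ≠ 0 := by
    by_contra hn
    push Not at hn
    have := (T.continuous.tendsto _).comp (F.tendsto_sum_tri one_pos η)
    simp only [Function.comp_def, map_sum, hn, Finset.sum_const_zero] at this
    exact h0 (tendsto_nhds_unique this tendsto_const_nhds)
  have hS := F.supp_tri one_pos (k * 1) η
  choose c c1 c2 c3 c4 using fun n : ℕ => lz_band F hT hS hk (Nat.one_div_pos_of_nat (n := n))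
  have le1 : ∀ n : ℕ, 1 / ((n : ℝ) + 1) ≤ 1 := fun n => by
    rw [div_le_one (by positivity)]; linarith [Nat.cast_nonneg (α := ℝ) n]
  obtain ⟨h, -, hh⟩ := (isCompact_Icc (a := (k : ℝ) * 1 - 1 - 1)
      (b := (k : ℝ) * 1 + 1 + 1)).ultrafilter_le_nhds'
    ((hyperfilter ℕ).map c) (Ultrafilter.mem_map.2 (univ_mem' fun n =>
      ⟨by linarith [c1 n, le1 n], by linarith [c2 n, le1 n]⟩))
  have hη' : 0 < ‖F.f (tri (k * 1) 1) η‖ := norm_pos_iff.2 fun e => hk (by rw [e, map_zero])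
  exact ⟨h, c, _, _, div_pos (norm_pos_iff.2 hk) (by positivity), hh,
    fun n => hF _ (bc_tri _ Nat.one_div_pos_of_nat) _ (hF _ (bc_tri _ one_pos) _ hη), c3,
    fun n => F.supp_tri Nat.one_div_pos_of_nat _ _, c4⟩

theorem lemmaZ_lip (F : FC H) (U0 : U 0 = 1) (Ua : ∀ s t, U (s + t) = U s * U t)
    (Un : ∀ s η, ‖U s η‖ = ‖η‖) (Uc : ∀ s g, BC g → U s * F.f g = F.f g * U s)
    (hF : ∀ g, BC g → ∀ η ∈ L, F.f g η ∈ L)
    (hno : ∀ h, ∀ η ∈ L, F.Supp η {h} → η = 0) (hb : Braid F U L) {C : ℝ}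
    (hl : ∀ s, ∀ η ∈ L, ‖U s η - η‖ ≤ C * |s| * ‖η‖) (s : ℝ) {η : H} (hη : η ∈ L) : U s η = η := by
  by_contra hne
  have hη0 : η ≠ 0 := by rintro rfl; simp at hne
  have hC : 0 ≤ C := by
    have := (norm_nonneg _).trans (hl 1 η hη)
    rw [abs_one, mul_one] at this
    exact nonneg_of_mul_nonneg_left this (norm_pos_iff.2 hη0)
  have close := fun γ (hγ : 0 < γ) => F.exists_close hF ⟨η, hη, hη0⟩ hno hγ
  have sp : ∀ p ∈ F.Sp L, ∃ α ψ, LzAdm F U L p α ψ := by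
    intro p hp
    choose β h1 h2 using fun n : ℕ => hp (1 / ((n : ℝ) + 1)) Nat.one_div_pos_of_nat
    obtain ⟨ψ, hψ⟩ := lz_adm (U := U) Un (c := fun _ => p) tendsto_const_nhds
      (fun n => hF _ (bc_tri p Nat.one_div_pos_of_nat) _ (h1 n)) h2
      (fun n => F.supp_tri Nat.one_div_pos_of_nat p (β n))
    exact ⟨_, ψ, hψ⟩
  have mult : ∀ {h α ψ}, LzAdm F U L h α ψ → ∀ s t, ψ (s + t) = ψ s * ψ t := by
    intro h α ψ a
    refine a.mul U0 Ua Un hC hl fun γ hγ => ?_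
    obtain ⟨p, hp, q, hq, hpq, hd⟩ := close γ hγ
    obtain ⟨_, _, ap⟩ := sp p hp
    obtain ⟨_, _, aq⟩ := sp q hq
    exact ⟨p, q, hpq, hd, (ap.braid a Un hb hC hl).2, (aq.braid a Un hb hC hl).2⟩
  obtain ⟨p, hp, q, hq, hpq, hd⟩ := close (1 / (C + 1)) (by positivity)
  have hd' : 2 * C * |p - q| < 2 := by
    rw [lt_div_iff₀ (by positivity)] at hd
    nlinarith [abs_nonneg (p - q)]
  obtain ⟨αp, ψp, ap⟩ := sp p hp
  obtain ⟨αq, ψq, aq⟩ := sp q hq
  have inv : ∀ {h α ψ}, LzAdm F U L h α ψ → ∀ s, ψ s * ψ (-s) = 1 := fun a s => by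
    rw [← mult a, add_neg_cancel, a.zero U0]
  have e1 : ∀ s, ψp s * ψq (-s) = 1 := by
    refine char_eq_one (χ := fun s => ψp s * ψq (-s)) (C := 2 * C) (fun s t => ?_) (fun s => ?_)
      (sub_ne_zero.2 hpq) hd' ?_
    · rw [neg_add, mult ap, mult aq]; ring
    · have : ψp s * ψq (-s) - 1 = ψp s * (ψq (-s) - 1) + (ψp s - 1) := by ring
      rw [this]
      have h1 := aq.lip hl (-s)
      have h2 := ap.lip hl s
      have h3 := mul_le_of_le_one_left (norm_nonneg (ψq (-s) - 1)) (ap.norm_le Un s)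
      rw [abs_neg] at h1
      refine (norm_add_le _ _).trans ?_
      rw [norm_mul]
      linarith
    · have h1 := (ap.braid ap Un hb hC hl).1
      have h2 := (aq.braid aq Un hb hC hl).1
      have h3 := (ap.braid aq Un hb hC hl).1
      have h4 : ψp (-q) * ψq (-p) = 1 := by
        linear_combination (-(ψp (-q) * ψq (-p))) * h3 + ψq p * ψq (-p) * inv ap q + inv aq p
      rw [neg_sub, sub_eq_add_neg, sub_eq_add_neg, mult ap, mult aq]
      linear_combination (ψp p * ψp p * ψq q * ψq q * (ψp (-q) * ψq (-p) + 1)) * h4 +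
        ψq q * ψq q * h1 + h2
  have triv : ∀ {h α ψ}, LzAdm F U L h α ψ → ∀ s, ψ s = 1 := by
    intro h α ψ a
    have h1 := (ap.braid a Un hb hC hl).1
    have h2 := (aq.braid a Un hb hC hl).1
    have h3 : ψ (p - q) = 1 := by
      rw [sub_eq_add_neg, mult a]
      linear_combination (ψ (-q) * ψq (-h)) * h1 - ψ p * ψ (-q) * e1 h + inv a q
        - ψ (-q) * ψq (-h) * h2 + ψ q * ψ (-q) * inv aq h
    refine char_eq_one (mult a) (a.lip hl) (sub_ne_zero.2 hpq) ?_ (by rw [h3, mul_one])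
    nlinarith [mul_nonneg hC (abs_nonneg (p - q))]
  obtain ⟨h, c, β, κ, hκ, b1, b2, b3, b4, b5⟩ := lz_local F (T := U s - 1)
    (fun g hg => by rw [sub_mul, mul_sub, Uc s g hg, one_mul, mul_one]) hF hη
    (fun h0 => hne (sub_eq_zero.1 h0))
  obtain ⟨ψ, a⟩ := lz_adm (U := U) Un b1 b2 b3 b4
  have h1 := a.eig Un (s := -s) (by rw [triv a, norm_one])
  rw [triv a, neg_neg, map_one, tendsto_zero_iff_norm_tendsto_zero] at h1
  refine absurd (ge_of_tendsto' h1 fun n => ?_) (not_le.2 hκ)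
  have h2 := norm_pos_iff.2 (b3 n)
  rw [one_smul, map_smul, ← smul_sub, norm_smul, Complex.norm_real, norm_inv, norm_norm,
    le_inv_mul_iff₀ h2, mul_comm]
  exact b5 n

theorem lz_commute (N : Submodule ℂ H) [N.HasOrthogonalProjection] {T : H →L[ℂ] H}
    (h1 : ∀ η ∈ N, T η ∈ N) (h2 : ∀ η ∈ N, star T η ∈ N) : Commute T N.starProjection := by
  have hp : IsStarProjection N.starProjection := isStarProjection_starProjection
  have k : ∀ S : H →L[ℂ] H, (∀ η ∈ N, S η ∈ N) →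
      N.starProjection * (S * N.starProjection) = S * N.starProjection := fun S hS =>
    ContinuousLinearMap.ext fun η =>
      Submodule.starProjection_eq_self_iff.2 (hS _ (N.starProjection_apply_mem η))
  have h3 := congrArg star (k _ h2)
  simp only [star_mul, star_star, hp.isSelfAdjoint.star_eq, mul_assoc] at h3
  exact (k _ h1).symm.trans h3

theorem lz_star (U0 : U 0 = 1) (Ua : ∀ s t, U (s + t) = U s * U t)
    (Un : ∀ s η, ‖U s η‖ = ‖η‖) (s : ℝ) : star (U s) = U (-s) := by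
  ext η
  refine ext_inner_left ℂ fun ζ => ?_
  have := LinearIsometry.inner_map_map (𝕜 := ℂ) ⟨(U s : H →ₗ[ℂ] H), Un s⟩ ζ (U (-s) η)
  rw [inner_star_right, ← this]
  change _ = ⟪U s ζ, (U s * U (-s)) η⟫_ℂ
  rw [← Ua, add_neg_cancel, U0, one_apply_eq_self]

theorem lz_avg (Ua : ∀ s t, U (s + t) = U s * U t) (Un : ∀ s η, ‖U s η‖ = ‖η‖)
    (Ucont : ∀ η, Continuous fun s => U s η) {a : ℝ} (ha : 0 < a) :
    ∃ A : H →L[ℂ] H, ‖A‖ ≤ 1 ∧ (∀ T : H →L[ℂ] H, (∀ s, Commute T (U s)) → Commute T A) ∧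
      (∀ s ζ, ‖A (U s ζ - ζ)‖ ≤ 2 / a * |s| * ‖ζ‖) ∧
      ∀ η δ, (∀ t ∈ Set.Icc 0 a, ‖U t η - η‖ ≤ δ) → ‖A η - η‖ ≤ δ := by
  have sc : SC U := ⟨Ucont, 1, fun t =>
    ContinuousLinearMap.opNorm_le_bound _ zero_le_one fun η => by rw [Un, one_mul]⟩
  have hk : Integrable ((Set.Ioc 0 a).indicator fun _ => (1 : ℂ)) :=
    (integrable_indicator_iff measurableSet_Ioc).2 (integrableOn_const (by simp))
  have hA : ∀ η, opInt ((Set.Ioc 0 a).indicator fun _ => (1 : ℂ)) U η = ∫ t in (0 : ℝ)..a, U t η := by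
    intro η
    rw [opInt_apply sc hk, intervalIntegral.integral_of_le ha.le, ← integral_indicator measurableSet_Ioc]
    congr 1
    funext t
    by_cases ht : t ∈ Set.Ioc 0 a <;> simp [ht]
  have ii : ∀ η x y, IntervalIntegrable (fun t => U t η) volume x y := fun η x y =>
    (Ucont η).intervalIntegrable x y
  have bd : ∀ η x y, ‖∫ t in x..y, U t η‖ ≤ ‖η‖ * |y - x| := fun η x y =>
    intervalIntegral.norm_integral_le_of_norm_le_const fun t _ => (Un t η).le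
  have na : ‖((a⁻¹ : ℝ) : ℂ)‖ = a⁻¹ := by
    rw [Complex.norm_real, Real.norm_of_nonneg (inv_nonneg.2 ha.le)]
  refine ⟨((a⁻¹ : ℝ) : ℂ) • opInt ((Set.Ioc 0 a).indicator fun _ => (1 : ℂ)) U, ?_,
    fun T hT => Commute.smul_right ?_ _, fun s ζ => ?_, fun η δ h => ?_⟩
  · refine ContinuousLinearMap.opNorm_le_bound _ zero_le_one fun η => ?_
    rw [smul_apply, norm_smul, na, hA, inv_mul_le_iff₀ ha]
    simpa [abs_of_pos ha, mul_comm] using bd η 0 a
  · have h1 := mul_opInt_mul sc hk T 1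
    have h2 := mul_opInt_mul sc hk 1 T
    simp only [mul_one, one_mul, (hT _).eq] at h1 h2
    exact h1.trans h2.symm
  · have e : ∫ t in (0 : ℝ)..a, U t (U s ζ) = ∫ t in s..(a + s), U t ζ := by
      have := intervalIntegral.integral_comp_add_right (a := 0) (b := a) (fun t => U t ζ) s
      simp only [Ua, zero_add] at this
      exact this
    rw [smul_apply, norm_smul, na, map_sub, hA, hA, e,
      intervalIntegral.integral_interval_sub_interval_comm' (ii _ _ _) (ii _ _ _) (ii _ _ _),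
      inv_mul_le_iff₀ ha]
    refine (norm_sub_le _ _).trans ((add_le_add (bd _ _ _) (bd _ _ _)).trans_eq ?_)
    simp only [add_sub_cancel_left, sub_zero]
    field_simp
    ring
  · have e : η = ((a⁻¹ : ℝ) : ℂ) • ∫ _ in (0 : ℝ)..a, η := by
      rw [intervalIntegral.integral_const, sub_zero, Complex.coe_smul, smul_smul,
        inv_mul_cancel₀ ha.ne', one_smul]
    rw [smul_apply, hA]
    conv_lhs => enter [1, 2]; rw [e]
    rw [← smul_sub, ← intervalIntegral.integral_sub (ii _ _ _) intervalIntegrable_const, norm_smul,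
      na, inv_mul_le_iff₀ ha]
    refine (intervalIntegral.norm_integral_le_of_norm_le_const (C := δ) fun t ht => ?_).trans_eq ?_
    · rw [Set.uIoc_of_le ha.le] at ht
      exact h t ⟨ht.1.le, ht.2⟩
    · rw [sub_zero, abs_of_pos ha, mul_comm]

theorem lz_cfc (A : H →L[ℂ] H) : ∃ φ k : H →L[ℂ] H,
    (∀ T, Commute (star A * A) T → Commute φ T ∧ Commute k T) ∧ (∀ η, φ (k η) = 0) ∧
      (∀ ζ, φ ζ = 0 → ‖ζ‖ ≤ 2 * ‖A ζ‖) ∧ ∀ η, ‖η - k η‖ ≤ 3 * ‖η - (star A * A) η‖ := by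
  set B := star A * A with hB
  have sa : IsSelfAdjoint B := IsSelfAdjoint.star_mul_self A
  have e1 : cfc (fun r : ℝ => r - 1 / 4) B = B - algebraMap ℝ _ (1 / 4) := by
    rw [cfc_sub _ _ B, cfc_id' ℝ B, cfc_const _ B]
  have e2 : cfc (fun r : ℝ => 1 - r) B = 1 - B := by
    rw [cfc_sub _ _ B, cfc_id' ℝ B, cfc_const_one ℝ B]
  refine ⟨cfc (fun r : ℝ => max (1 / 4 - r) 0) B, cfc (fun r : ℝ => 4 / 3 * max (r - 1 / 4) 0) B,
    fun T hT => ⟨hT.cfc_real _, hT.cfc_real _⟩, fun η => ?_, fun ζ h => ?_, fun η => ?_⟩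
  · rw [← mul_apply_eq_comp, ← cfc_mul _ _ B, cfc_congr (g := fun _ => 0), cfc_const_zero,
      zero_apply]
    intro r _
    rcases le_total r (1 / 4) with hs | hs
    · simp only [max_eq_right (sub_nonpos.2 hs), mul_zero]
    · simp only [max_eq_right (sub_nonpos.2 hs), zero_mul]
  · have e3 : cfc (fun r : ℝ => max (r - 1 / 4) 0) B - cfc (fun r : ℝ => max (1 / 4 - r) 0) B =
        B - algebraMap ℝ _ (1 / 4) := by
      rw [← cfc_sub _ _ B, ← e1]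
      refine cfc_congr fun r _ => ?_
      rcases le_total r (1 / 4) with hs | hs
      · simp only [max_eq_right (sub_nonpos.2 hs), max_eq_left (sub_nonneg.2 hs)]; ring
      · simp only [max_eq_right (sub_nonpos.2 hs), max_eq_left (sub_nonneg.2 hs)]; ring
    have pos : 0 ≤ (⟪ζ, cfc (fun r : ℝ => max (r - 1 / 4) 0) B ζ⟫_ℂ).re :=
      ((ContinuousLinearMap.nonneg_iff_isPositive (cfc (fun r : ℝ => max (r - 1 / 4) 0) B)).1
        (cfc_nonneg fun s _ => le_max_right _ _)).re_inner_nonneg_right ζ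
    rw [eq_add_of_sub_eq e3, add_apply, h, add_zero, sub_apply, inner_sub_right, Complex.sub_re,
      ← norm_sq_apply, Algebra.algebraMap_eq_smul_one, smul_apply, one_apply_eq_self,
      ← Complex.coe_smul, inner_smul_right, Complex.re_ofReal_mul] at pos
    have e4 : (⟪ζ, ζ⟫_ℂ).re = ‖ζ‖ ^ 2 := inner_self_eq_norm_sq (𝕜 := ℂ) ζ
    rw [e4] at pos
    refine (pow_le_pow_iff_left₀ (norm_nonneg _) (by positivity) two_ne_zero).1 ?_
    nlinarith
  · have hc : Continuous fun r : ℝ => 4 / 3 - 4 / 3 * max (1 / 4 - r) 0 / max (1 - r) (3 / 4) :=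
      continuous_const.sub (Continuous.div (by fun_prop) (by fun_prop) fun r =>
        (lt_max_of_lt_right (by norm_num)).ne')
    have e3 : 1 - cfc (fun r : ℝ => 4 / 3 * max (r - 1 / 4) 0) B =
        cfc (fun r : ℝ => 4 / 3 - 4 / 3 * max (1 / 4 - r) 0 / max (1 - r) (3 / 4)) B * (1 - B) := by
      rw [← e2, ← cfc_mul _ _ B hc.continuousOn, ← cfc_const_one ℝ B, ← cfc_sub _ _ B]
      refine cfc_congr fun r _ => ?_
      rcases le_total r (1 / 4) with hs | hs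
      · have h1 : (3 / 4 : ℝ) ≤ 1 - r := by linarith
        have h2 : 1 - r ≠ 0 := by linarith
        simp only [max_eq_right (sub_nonpos.2 hs), max_eq_left (sub_nonneg.2 hs), max_eq_left h1]
        field_simp
        ring
      · simp only [max_eq_right (sub_nonpos.2 hs), max_eq_left (sub_nonneg.2 hs)]
        ring
    have e4 := congrArg (fun T : H →L[ℂ] H => T η) e3
    simp only [sub_apply, one_apply_eq_self, mul_apply_eq_comp] at e4
    rw [e4]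
    refine ContinuousLinearMap.le_of_opNorm_le _ (norm_cfc_le (by norm_num) fun r _ => ?_) _
    have h0 : (0 : ℝ) < max (1 - r) (3 / 4) := lt_max_of_lt_right (by norm_num)
    have h1 : 0 ≤ 4 / 3 * max (1 / 4 - r) 0 / max (1 - r) (3 / 4) := by positivity
    have h2 : 4 / 3 * max (1 / 4 - r) 0 / max (1 - r) (3 / 4) ≤ 4 / 3 := by
      rw [div_le_iff₀ h0]
      exact mul_le_mul_of_nonneg_left (max_le_max (by linarith) (by norm_num)) (by norm_num)
    rw [Real.norm_eq_abs, abs_le]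
    constructor <;> linarith

theorem lemmaZ (F : FC H) (U0 : U 0 = 1) (Ua : ∀ s t, U (s + t) = U s * U t)
    (Un : ∀ s η, ‖U s η‖ = ‖η‖) (Ucont : ∀ η, Continuous fun s => U s η)
    (Uc : ∀ s g, BC g → U s * F.f g = F.f g * U s) (hL : IsClosed (L : Set H))
    (hF : ∀ g, BC g → ∀ η ∈ L, F.f g η ∈ L) (hU : ∀ s, ∀ η ∈ L, U s η ∈ L)
    (hno : ∀ h, ∀ η ∈ L, F.Supp η {h} → η = 0) (hb : Braid F U L) (s : ℝ) {η : H} (hη : η ∈ L) :
    U s η = η := by
  have : CompleteSpace L := hL.completeSpace_coe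
  have Us := lz_star U0 Ua Un
  have stC : ∀ T : H →L[ℂ] H, (∀ s, Commute T (U s)) → ∀ s, Commute (star T) (U s) := by
    intro T hT s
    have := (hT (-s)).star_star
    rwa [Us, neg_neg] at this
  have pC : ∀ s, Commute L.starProjection (U s) := fun s =>
    (lz_commute L (hU s) (by rw [Us]; exact hU (-s))).symm
  rw [← sub_eq_zero, ← norm_le_zero_iff]
  refine le_of_forall_pos_le_add fun ε hε => ?_
  obtain ⟨δ, hδ, hδ'⟩ : ∃ δ : ℝ, 0 < δ ∧ 2 * ‖η‖ * δ ≤ (ε / 6) ^ 2 :=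
    ⟨(ε / 6) ^ 2 / (2 * ‖η‖ + 1), by positivity, by
      rw [← mul_div_assoc, div_le_iff₀ (by positivity)]; nlinarith [sq_nonneg (ε / 6)]⟩
  obtain ⟨a, ha, ha'⟩ : ∃ a : ℝ, 0 < a ∧ ∀ t ∈ Set.Icc 0 a, ‖U t η - η‖ ≤ δ := by
    obtain ⟨r, hr, h⟩ := Metric.continuousAt_iff.1 ((Ucont η).continuousAt (x := 0)) δ hδ
    refine ⟨r / 2, half_pos hr, fun t ht => ?_⟩
    have := h (x := t) (by rw [Real.dist_eq, sub_zero, abs_of_nonneg ht.1]; linarith [ht.2])
    rw [U0, one_apply_eq_self, dist_eq_norm] at this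
    exact this.le
  obtain ⟨A, A1, A2, A3, A4⟩ := lz_avg Ua Un Ucont ha
  have BC' : ∀ T : H →L[ℂ] H, (∀ s, Commute T (U s)) → Commute (star A * A) T := fun T hT => by
    have := (A2 _ (stC T hT)).star_star
    rw [star_star] at this
    exact (this.mul_right (A2 T hT)).symm
  obtain ⟨φ, k, c1, c2, c3, c4⟩ := lz_cfc A
  have inv : ∀ T : H →L[ℂ] H, (∀ s, Commute T (U s)) → ∀ ζ, φ ζ = 0 → φ (T ζ) = 0 :=
    fun T hT ζ h => by
      rw [← mul_apply_eq_comp, (c1 T (BC' T hT)).1.eq, mul_apply_eq_comp, h, map_zero]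
  have UU : ∀ s t, Commute (U s) (U t) := fun s t => by
    rw [Commute, SemiconjBy, ← Ua, ← Ua, add_comm]
  have hk : k η ∈ L := by
    rw [← Submodule.starProjection_eq_self_iff, ← mul_apply_eq_comp, ← (c1 _ (BC' _ pC)).2.eq,
      mul_apply_eq_comp, Submodule.starProjection_eq_self_iff.2 hη]
  have fix : U s (k η) = k η := by
    refine lemmaZ_lip F (L := L ⊓ φ.ker) U0 Ua Un Uc (fun g hg ζ hζ => ⟨hF g hg ζ hζ.1,
      inv _ (fun s => (Uc s g hg).symm) ζ hζ.2⟩) (fun h ζ hζ => hno h ζ hζ.1)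
      (fun α hα β hβ => hb α hα.1 β hβ.1) (C := 4 / a) (fun s ζ hζ => ?_) s ⟨hk, c2 η⟩
    have h1 : φ (U s ζ - ζ) = 0 := by
      rw [map_sub, inv _ (UU s) ζ hζ.2, zero_sub, neg_eq_zero]; exact hζ.2
    refine (c3 _ h1).trans ((mul_le_mul_of_nonneg_left (A3 s ζ) zero_le_two).trans_eq ?_)
    ring
  have h1 : ‖η - (star A * A) η‖ ≤ ε / 6 := by
    refine (pow_le_pow_iff_left₀ (norm_nonneg _) (by positivity) two_ne_zero).1 ?_
    have b1 : ‖A η‖ ≤ ‖η‖ := (A.le_opNorm η).trans (mul_le_of_le_one_left (norm_nonneg _) A1)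
    have b2 : ‖(star A * A) η‖ ≤ ‖A η‖ := ((star A).le_opNorm _).trans
      (mul_le_of_le_one_left (norm_nonneg _) ((norm_star A).trans_le A1))
    have b3 := norm_sub_norm_le η (A η)
    have b4 := A4 η δ ha'
    rw [norm_sub_rev] at b4
    rw [@norm_sub_sq ℂ, RCLike.re_to_complex, ← norm_sq_apply]
    nlinarith [pow_le_pow_left₀ (norm_nonneg _) b2 2, norm_nonneg (A η), norm_nonneg η]
  have h2 : U s η - η = U s (η - k η) - (η - k η) := by rw [map_sub, fix]; abel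
  rw [h2]
  refine (norm_sub_le _ _).trans ?_
  rw [Un]
  linarith [c4 η]

end Vale.Agent.P132
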