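import Mathlib

/-! Literal definitions for the statement of the bicentralizer theorem (P132). -/

open scoped InnerProductSpace Topology ENNReal NNReal ComplexOrder
open Filter

namespace Vale.Agent.P132.Lit

universe u

variable {H : Type u} [NormedAddCommGroup H] [InnerProductSpace ℂ H] [CompleteSpace H]

/-- The centre of `M` consists of the scalars. -/
def IsFactor (M : VonNeumannAlgebra H) : Prop :=
  ∀ z ∈ M, (∀ x ∈ M, z * x = x * z) → ∃ c : ℂ, z = c • (1 : H →L[ℂ] H)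

/-- The positive cone of `M`. -/
def Pos (M : VonNeumannAlgebra H) : Set (H →L[ℂ] H) := {x | x ∈ M ∧ 0 ≤ x}

/-- `φ` restricted to `M` is a faithful normal state. -/
structure IsFNState (M : VonNeumannAlgebra H) (φ : (H →L[ℂ] H) → ℂ) : Prop where
  add : ∀ x ∈ M, ∀ y ∈ M, φ (x + y) = φ x + φ y
  smul : ∀ c : ℂ, ∀ x ∈ M, φ (c • x) = c * φ x
  pos : ∀ x ∈ Pos M, 0 ≤ φ x
  one : φ 1 = 1
  faithful : ∀ x ∈ Pos M, φ x = 0 → x = 0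
  normal : ∀ S ⊆ Pos M, S.Nonempty → DirectedOn (· ≤ ·) S → ∀ a ∈ Pos M, IsLUB S a →
    IsLUB (φ '' S) (φ a)

/-- The left ideal `n_ψ` of a weight. -/
def nIdeal (M : VonNeumannAlgebra H) (ψ : (H →L[ℂ] H) → ℝ≥0∞) : Set (H →L[ℂ] H) :=
  {x | x ∈ M ∧ ψ (star x * x) < ∞}

/-- `ψ` restricted to the positive cone of `M` is a faithful normal semifinite weight. -/
structure IsFNSWeight (M : VonNeumannAlgebra H) (ψ : (H →L[ℂ] H) → ℝ≥0∞) : Prop where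
  add : ∀ x ∈ Pos M, ∀ y ∈ Pos M, ψ (x + y) = ψ x + ψ y
  smul : ∀ c : ℝ≥0, ∀ x ∈ Pos M, ψ ((c : ℂ) • x) = c * ψ x
  faithful : ∀ x ∈ Pos M, ψ x = 0 → x = 0
  normal : ∀ S ⊆ Pos M, S.Nonempty → DirectedOn (· ≤ ·) S → ∀ a ∈ Pos M, IsLUB S a →
    IsLUB (ψ '' S) (ψ a)
  semifinite : ∀ x ∈ M, ∀ t : Finset H, ∀ ε : ℝ, 0 < ε →
    ∃ y ∈ nIdeal M ψ, ∀ η ∈ t, ‖x η - y η‖ < ε

section GNS

variable {K : Type*} [NormedAddCommGroup K] [InnerProductSpace ℂ K]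

/-- `Λ` restricted to `n_ψ` is a GNS map of the weight `ψ` into the Hilbert space `K`. -/
structure IsGNS (M : VonNeumannAlgebra H) (ψ : (H →L[ℂ] H) → ℝ≥0∞) (Λ : (H →L[ℂ] H) → K) :
    Prop where
  add : ∀ x ∈ nIdeal M ψ, ∀ y ∈ nIdeal M ψ, Λ (x + y) = Λ x + Λ y
  smul : ∀ c : ℂ, ∀ x ∈ nIdeal M ψ, Λ (c • x) = c • Λ x
  norm : ∀ x ∈ nIdeal M ψ, ‖Λ x‖ ^ 2 = (ψ (star x * x)).toReal
  dense : Dense (Λ '' nIdeal M ψ)

/-- Graph of the Tomita operator `S`, the closure of `Λ x ↦ Λ x*` on `n_ψ ∩ n_ψ*`. -/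
def graphS (M : VonNeumannAlgebra H) (ψ : (H →L[ℂ] H) → ℝ≥0∞) (Λ : (H →L[ℂ] H) → K) :
    Set (K × K) :=
  closure {p | ∃ x ∈ nIdeal M ψ, star x ∈ nIdeal M ψ ∧ p = (Λ x, Λ (star x))}

/-- Graph of `S* S` for a conjugate linear operator `S` with graph `G`. -/
def graphDelta (G : Set (K × K)) : Set (K × K) :=
  {p | ∃ η', (p.1, η') ∈ G ∧ ∀ q ∈ G, ⟪q.1, p.2⟫_ℂ = ⟪η', q.2⟫_ℂ}

/-- `l` is in the resolvent set of the operator `A` with graph `Γ`: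
`A - l` is a bijection from the domain onto `K` with bounded inverse `T`. -/
def InResolvent (Γ : Set (K × K)) (l : ℂ) : Prop :=
  ∃ T : K →L[ℂ] K, ∀ η ζ : K, (η, ζ + l • η) ∈ Γ ↔ η = T ζ

end GNS

/-- The spectrum of the modular operator `Δ_ψ = S* S` on the GNS space of `ψ`. -/
def modSpec (M : VonNeumannAlgebra H) (ψ : (H →L[ℂ] H) → ℝ≥0∞) : Set ℂ :=
  {l | ∃ (K : Type u) (_ : NormedAddCommGroup K) (_ : InnerProductSpace ℂ K) (_ : CompleteSpace K)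
    (Λ : (H →L[ℂ] H) → K), IsGNS M ψ Λ ∧ ¬ InResolvent (graphDelta (graphS M ψ Λ)) l}

/-- The invariant `S(M)` of Connes. -/
def connesS (M : VonNeumannAlgebra H) : Set ℂ :=
  ⋂ ψ ∈ {ψ | IsFNSWeight M ψ}, modSpec M ψ

/-- Factors of type III one: `S(M) = [0, ∞)`. -/
def IsTypeIIIOne (M : VonNeumannAlgebra H) : Prop :=
  IsFactor M ∧ connesS M = Complex.ofReal '' Set.Ici 0

/-- A bounded sequence `w` in `M` with `‖w n φ - φ (w n)‖ → 0` in the norm of functionals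
on `M`. -/
def AsymptCentral (M : VonNeumannAlgebra H) (φ : (H →L[ℂ] H) → ℂ) (w : ℕ → (H →L[ℂ] H)) : Prop :=
  (∀ n, w n ∈ M) ∧ (∃ C : ℝ, ∀ n, ‖w n‖ ≤ C) ∧
    ∀ ε : ℝ, 0 < ε → ∀ᶠ n in atTop, ∀ y ∈ M, ‖y‖ ≤ 1 → ‖φ (y * w n) - φ (w n * y)‖ ≤ ε

/-- The bicentralizer of `φ`. -/
def bicentralizer (M : VonNeumannAlgebra H) (φ : (H →L[ℂ] H) → ℂ) : Set (H →L[ℂ] H) :=
  {a | a ∈ M ∧ ∀ w, AsymptCentral M φ w →
    ∀ η : H, Tendsto (fun n => (a * w n - w n * a) η) atTop (𝓝 0)}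

end Vale.Agent.P132.Lit
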