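import Vale.Agent.P132.WrapAux

/-! Positive functionals dominated by sums of vector functionals. -/

open scoped InnerProductSpace Topology ComplexConjugate ComplexOrder
open Filter

namespace Vale.Agent.P132.LitAux

open Vale.Agent.P104

universe u

variable {H : Type u} [NormedAddCommGroup H] [InnerProductSpace ℂ H] [CompleteSpace H]
  {M : VonNeumannAlgebra H} {ψ : (H →L[ℂ] H) → ℂ} {x y : H →L[ℂ] H}

omit [CompleteSpace H] in
theorem nonneg_iff {T : H →L[ℂ] H} : 0 ≤ T ↔ ∀ v, 0 ≤ ⟪T v, v⟫_ℂ := by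
  rw [ContinuousLinearMap.nonneg_iff_isPositive]
  refine ⟨fun h => h.inner_nonneg_left, fun h => (T.isPositive_iff_complex).2 fun v => ?_⟩
  obtain ⟨h1, h2⟩ := Complex.nonneg_iff.1 (h v)
  exact ⟨Complex.ext rfl h2, h1⟩

theorem inner_star_mul (x : H →L[ℂ] H) (v : H) :
    ⟪(star x * x) v, v⟫_ℂ = ((‖x v‖ ^ 2 : ℝ) : ℂ) := by
  rw [mul_apply_eq_comp, inner_star_left, inner_self_eq_norm_sq_to_K]
  simp

/-- Positive linear functional on `M`. -/
structure PL (M : VonNeumannAlgebra H) (ψ : (H →L[ℂ] H) → ℂ) : Prop where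
  add : ∀ x ∈ M, ∀ y ∈ M, ψ (x + y) = ψ x + ψ y
  smul : ∀ c : ℂ, ∀ x ∈ M, ψ (c • x) = c * ψ x
  pos : ∀ x ∈ M, 0 ≤ x → 0 ≤ ψ x

theorem smul_mem (c : ℂ) (hx : x ∈ M) : c • x ∈ M := M.toStarSubalgebra.smul_mem hx c

namespace PL

theorem zero (h : PL M ψ) : ψ 0 = 0 := by
  simpa using h.smul 0 0 (zero_mem M)

theorem sub (h : PL M ψ) (hx : x ∈ M) (hy : y ∈ M) : ψ (x - y) = ψ x - ψ y := by
  rw [eq_sub_iff_add_eq, ← h.add _ (sub_mem hx hy) _ hy, sub_add_cancel]

theorem sum (h : PL M ψ) {ι : Type*} (t : Finset ι) {y : ι → (H →L[ℂ] H)}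
    (hy : ∀ i ∈ t, y i ∈ M) : ψ (∑ i ∈ t, y i) = ∑ i ∈ t, ψ (y i) := by
  classical
  induction t using Finset.induction_on with
  | empty => simpa using h.zero
  | insert i t hi ih =>
    have h1 := fun j hj => hy j (Finset.mem_insert_of_mem hj)
    rw [Finset.sum_insert hi, Finset.sum_insert hi,
      h.add _ (hy i (Finset.mem_insert_self _ _)) _ (sum_mem h1), ih h1]

theorem mono (h : PL M ψ) (hx : x ∈ M) (hy : y ∈ M) (e : x ≤ y) : ψ x ≤ ψ y := by
  rw [← sub_nonneg, ← h.sub hy hx]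
  exact h.pos _ (sub_mem hy hx) (sub_nonneg.2 e)

theorem sq_nonneg (h : PL M ψ) (hx : x ∈ M) : 0 ≤ ψ (star x * x) :=
  h.pos _ (mul_mem (star_mem hx) hx) (star_mul_self_nonneg x)

/-- Vector inequalities pass to the functional. -/
theorem le (h : PL M ψ) (hx : x ∈ M) {ι : Type*} (t : Finset ι) {y : ι → (H →L[ℂ] H)}
    (hy : ∀ i ∈ t, y i ∈ M) (d : ι → ℝ) (hv : ∀ v, ‖x v‖ ^ 2 ≤ ∑ i ∈ t, d i * ‖y i v‖ ^ 2) :
    (ψ (star x * x)).re ≤ ∑ i ∈ t, d i * (ψ (star (y i) * y i)).re := by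
  have h1 : ∀ i ∈ t, star (y i) * y i ∈ M := fun i hi => mul_mem (star_mem (hy i hi)) (hy i hi)
  have h2 : ∀ i ∈ t, (d i : ℂ) • (star (y i) * y i) ∈ M := fun i hi => smul_mem _ (h1 i hi)
  have h3 := h.mono (mul_mem (star_mem hx) hx) (sum_mem h2) (sub_nonneg.1 (nonneg_iff.2 fun v => by
    simp only [sub_apply, sum_apply, smul_apply, inner_sub_left, sum_inner, inner_smul_left,
      inner_star_mul, Complex.conj_ofReal]
    exact_mod_cast sub_nonneg.2 (hv v)))
  rw [h.sum t h2] at h3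
  refine (Complex.le_def.1 h3).1.trans_eq ?_
  rw [Complex.re_sum]
  exact Finset.sum_congr rfl fun i hi => by rw [h.smul _ _ (h1 i hi), Complex.re_ofReal_mul]

theorem symm (h : PL M ψ) (hx : x ∈ M) (hy : y ∈ M) :
    conj (ψ (star y * x)) = ψ (star x * y) := by
  have key : ∀ c : ℂ, (c * ψ (star x * y) + conj c * ψ (star y * x)).im = 0 := fun c => by
    have hc := smul_mem c hy
    have h1 := (Complex.nonneg_iff.1 (h.sq_nonneg (add_mem hx hc))).2
    have h2 := (Complex.nonneg_iff.1 (h.sq_nonneg hx)).2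
    have h3 := (Complex.nonneg_iff.1 (h.sq_nonneg hc)).2
    have m1 := mul_mem (star_mem hx) hy
    have m2 := mul_mem (star_mem hy) hx
    have e : star (x + c • y) * (x + c • y) = star x * x + star (c • y) * (c • y) +
        (c • (star x * y) + conj c • (star y * x)) := by
      rw [star_add, add_mul, mul_add, mul_add, mul_smul_comm, star_smul c y, smul_mul_assoc _ _ x]
      simp only [Complex.star_def]
      abel
    rw [e, h.add _ (add_mem (mul_mem (star_mem hx) hx) (mul_mem (star_mem hc) hc)) _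
      (add_mem (smul_mem _ m1) (smul_mem _ m2)),
      h.add _ (mul_mem (star_mem hx) hx) _ (mul_mem (star_mem hc) hc),
      h.add _ (smul_mem _ m1) _ (smul_mem _ m2), h.smul _ _ m1, h.smul _ _ m2, Complex.add_im,
      Complex.add_im, ← h2, ← h3] at h1
    linarith
  have k1 := key 1
  have k2 := key Complex.I
  simp only [one_mul, map_one, Complex.add_im, Complex.conj_I, neg_mul, Complex.neg_im,
    Complex.I_mul_im] at k1 k2
  refine Complex.ext ?_ ?_
  · rw [Complex.conj_re]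
    linarith
  · rw [Complex.conj_im]
    linarith

theorem cs (h : PL M ψ) (hx : x ∈ M) (hy : y ∈ M) :
    ‖ψ (star x * y)‖ ^ 2 ≤ (ψ (star x * x)).re * (ψ (star y * y)).re := by
  let c : PreInnerProductSpace.Core ℂ M.toStarSubalgebra :=
    { inner := fun a b => ψ (star a.1 * b.1)
      conj_inner_symm := fun a b => h.symm a.2 b.2
      re_inner_nonneg := fun a => (Complex.nonneg_iff.1 (h.sq_nonneg a.2)).1
      add_left := fun a b c => by
        show ψ (star (a.1 + b.1) * c.1) = _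
        rw [star_add, add_mul, h.add _ (mul_mem (star_mem a.2) c.2) _ (mul_mem (star_mem b.2) c.2)]
      smul_left := fun a b r => by
        show ψ (star (r • a.1) * b.1) = _
        rw [star_smul, smul_mul_assoc, h.smul _ _ (mul_mem (star_mem a.2) b.2)]
        rfl }
  have h1 : ‖ψ (star x * y)‖ * ‖ψ (star y * x)‖ ≤ (ψ (star x * x)).re * (ψ (star y * y)).re :=
    InnerProductSpace.Core.inner_mul_inner_self_le (𝕜 := ℂ) (c := c) ⟨x, hx⟩ ⟨y, hy⟩
  rwa [← Complex.norm_conj (ψ (star y * x)), h.symm hx hy, ← sq] at h1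

theorem corner (h : PL M ψ) {p : H →L[ℂ] H} (hp : p ∈ M) : PL M fun x => ψ (star p * x * p) where
  add x hx y hy := by
    rw [mul_add, add_mul, h.add _ (mul_mem (mul_mem (star_mem hp) hx) hp) _
      (mul_mem (mul_mem (star_mem hp) hy) hp)]
  smul c x hx := by
    rw [mul_smul_comm, smul_mul_assoc, h.smul _ _ (mul_mem (mul_mem (star_mem hp) hx) hp)]
  pos x hx h0 := h.pos _ (mul_mem (mul_mem (star_mem hp) hx) hp) (star_left_conjugate_nonneg h0 p)

/-- Radon-Nikodym theorem for functionals dominated by a sequence of vectors. -/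
theorem rn_nat (h : PL M ψ) {ξ : ℕ → H} (hs : Summable fun n => ‖ξ n‖ ^ 2)
    (hd : ∀ x ∈ M, ∀ s, HasSum (fun n => ‖x (ξ n)‖ ^ 2) s → (ψ (star x * x)).re ≤ s) :
    ∃ z : ℕ → H, HasSum (fun n => ‖z n‖ ^ 2) (ψ 1).re ∧
      ∀ x ∈ M, HasSum (fun n => ⟪z n, x (z n)⟫_ℂ) (ψ x) := by
  obtain ⟨K, _, _, _, W, π, Ξ, hW, hΞ, hc⟩ := exists_wrapAmp M hs
  have hq : ∀ x ∈ M, (ψ (star x * x)).re ≤ ‖π x Ξ‖ ^ 2 := fun x hx => hd x hx _ (by
    simpa only [hW.inter x hx, hΞ] using hW.normSq (π x Ξ))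
  have hb : ∀ x ∈ M, ∀ y ∈ M, ‖ψ (star x * y)‖ ≤ ‖π x Ξ‖ * ‖π y Ξ‖ := fun x hx y hy => by
    refine (sq_le_sq₀ (norm_nonneg _) (by positivity)).1 ((h.cs hx hy).trans ?_)
    rw [mul_pow]
    exact mul_le_mul (hq x hx) (hq y hy) (Complex.nonneg_iff.1 (h.sq_nonneg hy)).1 (by positivity)
  let e : M.toStarSubalgebra →ₗ[ℂ] K :=
    { toFun := fun a => π a.1 Ξ
      map_add' := fun a b => congrArg (fun T : K →L[ℂ] K => T Ξ) (hW.add a.2 b.2)
      map_smul' := fun c a => congrArg (fun T : K →L[ℂ] K => T Ξ) (hW.smul c a.2) }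
  have hde : DenseRange e := fun η => Metric.mem_closure_iff.2 fun ε hε => by
    obtain ⟨x, hx, hd⟩ := hc η _ (half_pos hε)
    exact ⟨_, ⟨⟨x, hx⟩, rfl⟩, by
      rw [dist_eq_norm]
      exact hd.trans_lt (half_lt_self hε)⟩
  have h1 : ∀ a : M.toStarSubalgebra, ∃ t : K, ‖t‖ ≤ 1 * ‖e a‖ ∧
      ∀ b : M.toStarSubalgebra, ⟪t, e b⟫_ℂ = ψ (star a.1 * b.1) := fun a => by
    let f : M.toStarSubalgebra →ₗ[ℂ] ℂ :=
      { toFun := fun b => ψ (star a.1 * b.1)
        map_add' := fun b c => by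
          show ψ (star a.1 * (b.1 + c.1)) = _
          rw [mul_add, h.add _ (mul_mem (star_mem a.2) b.2) _ (mul_mem (star_mem a.2) c.2)]
        map_smul' := fun c b => by
          show ψ (star a.1 * (c • b.1)) = _
          rw [mul_smul_comm, h.smul _ _ (mul_mem (star_mem a.2) b.2)]
          rfl }
    have hf : ∀ b, ‖f b‖ ≤ ‖e a‖ * ‖e b‖ := fun b => hb _ a.2 _ b.2
    refine ⟨(InnerProductSpace.toDual ℂ K).symm (f.extendOfNorm e), ?_, fun b => ?_⟩
    · rw [LinearIsometryEquiv.norm_map, one_mul]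
      exact LinearMap.opNorm_extendOfNorm_le hde (norm_nonneg _) hf
    · rw [InnerProductSpace.toDual_symm_apply, LinearMap.extendOfNorm_eq hde ⟨_, hf⟩]
      rfl
  choose t ht1 ht2 using h1
  have hext : ∀ {u v : K}, (∀ b, ⟪u, e b⟫_ℂ = ⟪v, e b⟫_ℂ) → u = v := fun {u v} k =>
    ext_inner_right ℂ fun η => hde.induction_on η (isClosed_eq (by fun_prop) (by fun_prop)) k
  let t' : M.toStarSubalgebra →ₗ[ℂ] K :=
    { toFun := t
      map_add' := fun a b => hext fun c => by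
        rw [inner_add_left, ht2, ht2, ht2]
        show ψ (star (a.1 + b.1) * c.1) = _
        rw [star_add, add_mul, h.add _ (mul_mem (star_mem a.2) c.2) _ (mul_mem (star_mem b.2) c.2)]
      map_smul' := fun r a => hext fun b => by
        rw [inner_smul_left, ht2, ht2]
        show ψ (star (r • a.1) * b.1) = _
        rw [star_smul, smul_mul_assoc, h.smul _ _ (mul_mem (star_mem a.2) b.2)]
        rfl }
  obtain ⟨T, hT⟩ : ∃ T : K →L[ℂ] K, ∀ a, T (e a) = t a :=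
    ⟨t'.extendOfNorm e, LinearMap.extendOfNorm_eq hde ⟨1, ht1⟩⟩
  have hT0 : 0 ≤ T := nonneg_iff.2 fun v => hde.induction_on v
    (isClosed_le continuous_const (by fun_prop)) fun a => by
      rw [hT, ht2]
      exact h.sq_nonneg a.2
  have hmul : ∀ x (hx : x ∈ M) (a : M.toStarSubalgebra), π x (e a) = e (⟨x, hx⟩ * a) :=
    fun x hx a => (congrArg (fun T : K →L[ℂ] K => T Ξ) (hW.mul hx a.2)).symm
  have hcomm : ∀ x ∈ M, Commute T (π x) := fun x hx => by
    ext v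
    refine hde.induction_on v (isClosed_eq (by fun_prop) (by fun_prop)) fun a => hext fun b => ?_
    rw [mul_apply_eq_comp, mul_apply_eq_comp, hmul x hx, hT, hT, ht2, ← inner_star_right,
      ← hW.star hx, hmul _ (star_mem hx), ht2]
    show ψ (star (x * a.1) * b.1) = ψ (star a.1 * (star x * b.1))
    rw [star_mul, mul_assoc]
  have h2 : ∀ x ∈ M, ⟪CFC.sqrt T Ξ, π x (CFC.sqrt T Ξ)⟫_ℂ = ψ x := fun x hx => by
    have k1 : Commute (CFC.sqrt T) (π x) := (hcomm x hx).cfcₙ_nnreal _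
    have k2 : e 1 = Ξ := congrArg (fun T : K →L[ℂ] K => T Ξ) hW.one
    rw [← mul_apply_eq_comp, ← k1.eq, mul_apply_eq_comp, ← inner_star_left,
      (IsSelfAdjoint.of_nonneg (CFC.sqrt_nonneg T)).star_eq, ← mul_apply_eq_comp,
      CFC.sqrt_mul_sqrt_self T hT0]
    have k3 := ht2 1 ⟨x, hx⟩
    rw [← hT, k2] at k3
    exact k3.trans (by simp)
  refine ⟨fun n => W n (CFC.sqrt T Ξ), ?_, fun x hx => h2 x hx ▸ hW.vec hx _ _⟩
  rw [← h2 1 (one_mem M), hW.one, one_apply_eq_self, ← RCLike.re_to_complex, inner_self_eq_norm_sq]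
  exact hW.normSq _

theorem rn (h : PL M ψ) {ι : Type*} [Countable ι] {ξ : ι → H} (hs : Summable fun i => ‖ξ i‖ ^ 2)
    (hd : ∀ x ∈ M, ∀ s, HasSum (fun i => ‖x (ξ i)‖ ^ 2) s → (ψ (star x * x)).re ≤ s) :
    ∃ z : ℕ → H, HasSum (fun n => ‖z n‖ ^ 2) (ψ 1).re ∧
      ∀ x ∈ M, HasSum (fun n => ⟪z n, x (z n)⟫_ℂ) (ψ x) := by
  obtain ⟨f, hf⟩ := exists_injective_nat ι
  have k : ∀ (x : H →L[ℂ] H) s, HasSum (fun i => ‖x (ξ i)‖ ^ 2) s ↔
      HasSum (fun n => ‖x (Function.extend f ξ 0 n)‖ ^ 2) s := fun x s => by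
    rw [← hf.hasSum_iff fun n hn => by rw [Function.extend_apply' _ _ _ hn]; simp]
    simp only [Function.comp_def, hf.extend_apply]
  exact h.rn_nat (ξ := Function.extend f ξ 0) ((k 1 _).1 hs.hasSum).summable
    fun x hx s h1 => hd x hx s ((k x s).2 h1)

end PL

end Vale.Agent.P132.LitAux
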