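import Vale.Agent.P132.Lit
import Vale.Agent.P132.LitAux

/-! Order normal states are sums of vector states. -/

open scoped InnerProductSpace Topology ComplexConjugate
open Filter

namespace Vale.Agent.P132

open Vale.Agent.P104

universe u

variable {H : Type u} [NormedAddCommGroup H] [InnerProductSpace ℂ H] [CompleteSpace H]
  {M : VonNeumannAlgebra H} {φ : (H →L[ℂ] H) → ℂ}

namespace LitAux

open scoped ComplexOrder

variable {e p : H →L[ℂ] H}

theorem proj_sq (hp : IsStarProjection p) : star p * p = p := by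
  rw [hp.isSelfAdjoint.star_eq, hp.isIdempotentElem.eq]

theorem proj_sum {ι : Type*} {v : ι → (H →L[ℂ] H)} (hv : ∀ i, IsStarProjection (v i))
    (ho : Pairwise fun i j => v i * v j = 0) (t : Finset ι) : IsStarProjection (∑ i ∈ t, v i) := by
  classical
  induction t using Finset.induction_on with
  | empty => simp
  | insert i t hi ih =>
    rw [Finset.sum_insert hi]
    refine (hv i).add ih ?_
    rw [Finset.mul_sum]
    exact Finset.sum_eq_zero fun j hj => ho fun e => hi (e ▸ hj)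

/-- Maximal orthogonal families of subprojections of `e`. -/
theorem exists_max (Pr : (H →L[ℂ] H) → Prop)
    (hPr : ∀ p, Pr p → p ∈ M ∧ IsStarProjection p ∧ e * p = p) :
    ∃ (F : Set (H →L[ℂ] H)) (q : H →L[ℂ] H), q ∈ M ∧ IsStarProjection q ∧ e * q = q ∧
      (∀ p ∈ F, Pr p) ∧ (Pairwise fun v w : F => v.1 * w.1 = 0) ∧
      (∀ ξ, HasSum (fun v : F => v.1 ξ) (q ξ)) ∧ (∀ v ∈ F, q * v = v) ∧
      ∀ p, Pr p → q * p = 0 → p = 0 := by
  obtain ⟨F, V, hV, hpi, h1, h2, s1, -, -, s4, s5, hmax⟩ := exists_max_sum M Pr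
    (fun v hv => ⟨(hPr v hv).1, isPI_of_proj (hPr v hv).2.1⟩)
    (fun v w => v * w = 0 ∧ w * v = 0) (fun v w h => ⟨h.2, h.1⟩)
  have e1 : star V * V = V := by
    ext ξ
    refine (s4 ξ).unique ?_
    simpa only [fun v : F => proj_sq (hPr _ (h1 _ v.2)).2.1] using s1 ξ
  have hq : IsStarProjection V := e1 ▸ hpi.init
  have h3 : ∀ v ∈ F, V * v = v := fun v hv => by
    have := (s5 v hv).2
    rwa [hq.isSelfAdjoint.star_eq, hq.isIdempotentElem.eq] at this
  refine ⟨F, V, hV, hq, sum_mul_left s1 fun v => (hPr _ (h1 _ v.2)).2.2, h1,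
    fun v w hvw => (h2 v.2 w.2 fun h => hvw (Subtype.ext h)).1, s1, h3, fun p hp h0 => ?_⟩
  have hp' := (hPr p hp).2.1
  have h4 : p * V = 0 := by
    simpa [hp'.isSelfAdjoint.star_eq, hq.isSelfAdjoint.star_eq] using congrArg star h0
  refine hmax p hp (by rwa [hp'.isSelfAdjoint.star_eq]) (by rwa [hq.isSelfAdjoint.star_eq])
    fun w hw => ⟨by rw [← h3 w hw, ← mul_assoc, h4, zero_mul], ?_⟩
  rw [← proj_flip hq (hPr _ (h1 _ hw)).2.1 (h3 w hw), mul_assoc, h0, mul_zero]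

theorem proj_le {q : H →L[ℂ] H} (hp : IsStarProjection p) (hq : IsStarProjection q)
    (h : q * p = p) : p ≤ q :=
  sub_nonneg.1 (hp.sub_of_mul_eq_right hq h).nonneg

/-- A corner on which the functional is dominated by a vector on projections. -/
theorem exists_corner (h : PL M φ) (heM : e ∈ M) (he : IsStarProjection e) (h0 : e ≠ 0) :
    ∃ p ∈ M, IsStarProjection p ∧ e * p = p ∧ p ≠ 0 ∧ ∃ ξ : H,
      ∀ r ∈ M, IsStarProjection r → p * r = r → (φ r).re ≤ ‖r ξ‖ ^ 2 := by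
  obtain ⟨ξ, hξ⟩ : ∃ ξ, (φ e).re < ‖e ξ‖ ^ 2 := by
    obtain ⟨η, hη⟩ : ∃ η, e η ≠ 0 := by
      by_contra hn
      push Not at hn
      exact h0 (ContinuousLinearMap.ext hn)
    have h1 := (Complex.nonneg_iff.1 (h.pos e heM he.nonneg)).1
    refine ⟨((((φ e).re + 1) / ‖e η‖ : ℝ) : ℂ) • η, ?_⟩
    rw [map_smul, norm_smul, Complex.norm_real, Real.norm_of_nonneg (by positivity),
      div_mul_cancel₀ _ (norm_ne_zero_iff.2 hη)]
    nlinarith
  obtain ⟨F, q, hq, hq1, hq2, h1, h2, h3, h4, h5⟩ := exists_max (M := M) (e := e)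
    (fun r => (r ∈ M ∧ IsStarProjection r ∧ e * r = r) ∧ ‖r ξ‖ ^ 2 ≤ (φ r).re) fun _ h => h.1
  have hp := hq1.sub_of_mul_eq_right he hq2
  have h6 : ‖q ξ‖ ^ 2 ≤ (φ q).re := by
    have k1 : HasSum (fun v : F => ‖v.1 ξ‖ ^ 2) (‖q ξ‖ ^ 2) := by
      have := Complex.hasSum_re ((innerSL ℂ ξ).hasSum (h3 ξ))
      simp only [innerSL_apply_apply] at this
      simpa only [norm_sq_apply, proj_sq hq1, fun v : F => proj_sq (h1 _ v.2).1.2.1] using this
    refine hasSum_le_of_sum_le k1 fun t => (Finset.sum_le_sum fun v _ => (h1 _ v.2).2).trans ?_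
    rw [← Complex.re_sum, ← h.sum t fun v _ => (h1 _ v.2).1.1]
    refine (Complex.le_def.1 (h.mono (sum_mem fun v _ => (h1 _ v.2).1.1) hq
      (proj_le (proj_sum (fun v : F => (h1 _ v.2).1.2.1) h2 t) hq1 ?_))).1
    rw [Finset.mul_sum]
    exact Finset.sum_congr rfl fun v _ => h4 _ v.2
  have h7 : e * (e - q) = e - q := by rw [mul_sub, he.isIdempotentElem.eq, hq2]
  have h8 : q * (e - q) = 0 := by
    rw [mul_sub, proj_flip he hq1 hq2, hq1.isIdempotentElem.eq, sub_self]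
  refine ⟨e - q, sub_mem heM hq, hp, h7, fun k => ?_, ξ, fun r hr hr1 hr2 => ?_⟩
  · rw [← sub_eq_zero.1 k] at h6
    exact hξ.not_ge h6
  · by_contra hn
    have k := h5 r ⟨⟨hr, hr1, by rw [← hr2, ← mul_assoc, h7]⟩, (not_le.1 hn).le⟩
      (by rw [← hr2, ← mul_assoc, h8, zero_mul])
    rw [k, h.zero] at hn
    exact hn (by simp)

theorem dom_of_proj (h : PL M φ) (hpM : p ∈ M) (hp : IsStarProjection p) {ξ : H}
    (hr : ∀ r ∈ M, IsStarProjection r → p * r = r → (φ r).re ≤ ‖r ξ‖ ^ 2) {x : H →L[ℂ] H}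
    (hx : x ∈ M) : (φ (star (x * p) * (x * p))).re ≤ ‖x (p ξ)‖ ^ 2 := by
  refine le_of_forall_pos_le_add fun δ hδ => ?_
  obtain ⟨ε, hε, hε'⟩ : ∃ ε : ℝ, 0 < ε ∧ 2 * ε * ‖p ξ‖ ^ 2 ≤ δ := by
    refine ⟨δ / (2 * (‖p ξ‖ ^ 2 + 1)), by positivity, ?_⟩
    rw [← mul_div_assoc, div_mul_eq_mul_div, div_le_iff₀ (by positivity)]
    nlinarith
  have hy := mul_mem hx hpM
  obtain ⟨m, f, c, h1, h2, h3, h4, h5⟩ := exists_partition (IsSelfAdjoint.star_mul_self (x * p)) hε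
  have hs := IsSelfAdjoint.star_mul_self (x * p)
  have hh : ∀ a, Commute (star (x * p) * (x * p)) (f a) := fun a =>
    h4 a _ (Commute.refl _) (by rw [hs.star_eq])
  have hpc : Commute p (star (x * p) * (x * p)) := by
    show p * _ = _ * p
    simp only [star_mul, hp.isSelfAdjoint.star_eq, mul_assoc, hp.isIdempotentElem.eq]
    rw [← mul_assoc p p, hp.isIdempotentElem.eq]
  have hpf : ∀ a, Commute p (f a) := fun a => h4 a _ hpc (by rwa [hp.isSelfAdjoint.star_eq])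
  have hfM : ∀ a, f a ∈ M := fun a => mem_of_commute M fun y hy' =>
    h4 a _ (commute_of_mem M hy' (mul_mem (star_mem hy) hy))
      (commute_of_mem M (star_mem hy') (mul_mem (star_mem hy) hy))
  have hw : ∀ a v, |‖(x * p) (f a v)‖ ^ 2 - c a * ‖(p * f a) v‖ ^ 2| ≤ ε * ‖(p * f a) v‖ ^ 2 := by
    intro a v
    have := abs_inner_sub_le (h5 a) (w := (p * f a) v) (by
      rw [← mul_apply_eq_comp, (hpf a).eq, ← mul_assoc, (h1 a).isIdempotentElem.eq])
    rwa [← norm_sq_apply, ← mul_apply_eq_comp (x * p), ← mul_assoc, mul_assoc x p p,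
      hp.isIdempotentElem.eq, mul_apply_eq_comp] at this
  have k1 := h.le hy Finset.univ (y := fun a => p * f a) (fun a _ => mul_mem hpM (hfM a))
    (fun a => max (c a + ε) 0) fun v => by
      rw [← pyth_family (x * p) f h1 h2 h3 hh v]
      refine Finset.sum_le_sum fun a _ => le_trans ?_
        (mul_le_mul_of_nonneg_right (le_max_left _ _) (sq_nonneg _))
      linarith [(abs_le.1 (hw a v)).2]
  have k2 : ∀ a, max (c a + ε) 0 * (φ (star (p * f a) * (p * f a))).re ≤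
      ‖(x * p) (f a ξ)‖ ^ 2 + 2 * ε * ‖p (f a ξ)‖ ^ 2 := fun a => by
    have hp' := hp.mul (h1 a) (hpf a)
    rw [proj_sq hp']
    refine (mul_le_mul_of_nonneg_left (hr _ (mul_mem hpM (hfM a)) hp'
      (by rw [← mul_assoc, hp.isIdempotentElem.eq])) (le_max_right _ _)).trans ?_
    rw [max_mul_of_nonneg _ _ (sq_nonneg _), zero_mul]
    refine max_le ?_ (by positivity)
    have := (abs_le.1 (hw a ξ)).1
    rw [mul_apply_eq_comp p] at this ⊢
    linarith
  refine k1.trans ((Finset.sum_le_sum fun a _ => k2 a).trans ?_)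
  rw [Finset.sum_add_distrib, ← Finset.mul_sum, pyth_family (x * p) f h1 h2 h3 hh,
    pyth_family p f h1 h2 h3 fun a => by rw [proj_sq hp]; exact hpf a]
  exact add_le_add le_rfl hε'

/-- The corner of `φ` at `p` is a sum of vector functionals. -/
def Vec (M : VonNeumannAlgebra H) (φ : (H →L[ℂ] H) → ℂ) (p : H →L[ℂ] H) : Prop :=
  ∃ z : ℕ → H, HasSum (fun n => ‖z n‖ ^ 2) (φ p).re ∧
    ∀ x ∈ M, HasSum (fun n => ‖x (z n)‖ ^ 2) (φ (star (x * p) * (x * p))).re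

theorem exists_vec (h : Lit.IsFNState M φ) (hφ : PL M φ) (heM : e ∈ M) (he : IsStarProjection e)
    {ε : ℝ} (hε : 0 < ε) :
    ∃ p ∈ M, IsStarProjection p ∧ e * p = p ∧ (φ (e - p)).re ≤ ε ∧ Vec M φ p := by
  classical
  obtain ⟨F, q, hq, hq1, hq2, h1, h2, h3, h4, h5⟩ := exists_max (M := M) (e := e)
    (fun p => (p ∈ M ∧ IsStarProjection p ∧ e * p = p) ∧
      ∃ ξ, ∀ x ∈ M, (φ (star (x * p) * (x * p))).re ≤ ‖x ξ‖ ^ 2) fun _ h => h.1
  obtain rfl : e = q := by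
    by_contra hn
    obtain ⟨p, hp, hp1, hp2, hp3, ξ, hξ⟩ := exists_corner hφ (sub_mem heM hq)
      (hq1.sub_of_mul_eq_right he hq2) (sub_ne_zero.2 hn)
    refine hp3 (h5 p ⟨⟨hp, hp1, ?_⟩, p ξ, fun x hx => dom_of_proj hφ hp hp1 hξ hx⟩ ?_)
    · rw [← hp2, ← mul_assoc, mul_sub, he.isIdempotentElem.eq, hq2]
    · rw [← hp2, ← mul_assoc, mul_sub, proj_flip he hq1 hq2, hq1.isIdempotentElem.eq, sub_self,
        zero_mul]
  have m1 : ∀ t : Finset F, ∑ v ∈ t, v.1 ∈ M := fun t => sum_mem fun v _ => (h1 _ v.2).1.1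
  have m2 := proj_sum (fun v : F => (h1 _ v.2).1.2.1) h2
  have m3 : ∀ t : Finset F, e * ∑ v ∈ t, v.1 = ∑ v ∈ t, v.1 := fun t => by
    rw [Finset.mul_sum]
    exact Finset.sum_congr rfl fun v _ => h4 _ v.2
  have hl := h.normal (Set.range fun t : Finset F => ∑ v ∈ t, v.1)
    (by rintro _ ⟨t, rfl⟩; exact ⟨m1 t, (m2 t).nonneg⟩) (Set.range_nonempty _)
    (directedOn_range.2 (Monotone.directed_le fun s t hst =>
      Finset.sum_le_sum_of_subset_of_nonneg hst fun v _ _ => (h1 _ v.2).1.2.1.nonneg))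
    e ⟨heM, he.nonneg⟩ ⟨by rintro _ ⟨t, rfl⟩; exact proj_le (m2 t) he (m3 t), fun b hb => by
      refine sub_nonneg.1 (nonneg_iff.2 fun w => ?_)
      refine ge_of_tendsto' ((tendsto_const_nhds (x := b w)).sub (h3 w) |>.inner (𝕜 := ℂ)
        (tendsto_const_nhds (x := w))) fun t => ?_
      have := nonneg_iff.1 (sub_nonneg.2 (hb ⟨t, rfl⟩)) w
      rwa [sub_apply, sum_apply] at this⟩
  obtain ⟨t, ht⟩ : ∃ t : Finset F, (φ (e - ∑ v ∈ t, v.1)).re ≤ ε := by
    by_contra hn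
    push Not at hn
    have k : φ e ≤ φ e - ε := hl.2 (by
      rintro _ ⟨_, ⟨t, rfl⟩, rfl⟩
      have k1 := hn t
      have k2 := (Complex.le_def.1 (hφ.mono (m1 t) heM (proj_le (m2 t) he (m3 t)))).2
      rw [hφ.sub heM (m1 t), Complex.sub_re] at k1
      refine Complex.le_def.2 ⟨?_, ?_⟩
      · rw [Complex.sub_re, Complex.ofReal_re]
        linarith
      · rw [Complex.sub_im, Complex.ofReal_im, sub_zero, k2])
    have := (Complex.le_def.1 k).1
    rw [Complex.sub_re, Complex.ofReal_re] at this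
    linarith
  refine ⟨_, m1 t, m2 t, m3 t, ht, ?_⟩
  choose ξ hξ using fun v : F => (h1 _ v.2).2
  obtain ⟨z, hz1, hz2⟩ := (hφ.corner (m1 t)).rn (ξ := fun v : t => (t.card : ℂ) • ξ v)
    (hasSum_fintype _).summable fun x hx s hs => by
      rw [← (hasSum_fintype _).unique hs, mul_assoc, mul_assoc, ← mul_assoc, ← star_mul]
      refine (hφ.le (mul_mem hx (m1 t)) t (y := fun v => x * v.1)
        (fun v _ => mul_mem hx (h1 _ v.2).1.1) (fun _ => (t.card : ℝ) ^ 2) fun w => ?_).trans ?_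
      · rw [Finset.mul_sum, sum_apply, ← Finset.mul_sum]
        refine (pow_le_pow_left₀ (norm_nonneg _) (norm_sum_le _ _) 2).trans
          (sq_sum_le_card_mul_sum_sq.trans (mul_le_mul_of_nonneg_right ?_ (by positivity)))
        exact_mod_cast Nat.le_self_pow two_ne_zero _
      · rw [Finset.sum_coe_sort t fun v => ‖x ((t.card : ℂ) • ξ v)‖ ^ 2]
        refine Finset.sum_le_sum fun v _ => ?_
        rw [map_smul, norm_smul, mul_pow, Complex.norm_natCast]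
        exact mul_le_mul_of_nonneg_left (hξ v x hx) (sq_nonneg _)
  refine ⟨z, by rwa [mul_one, proj_sq (m2 t)] at hz1, fun x hx => ?_⟩
  have := Complex.hasSum_re (hz2 _ (mul_mem (star_mem hx) hx))
  simpa only [← norm_sq_apply, star_mul, mul_assoc] using this

theorem exists_seq (h : Lit.IsFNState M φ) (hφ : PL M φ) :
    ∃ E P : ℕ → (H →L[ℂ] H), E 0 = 1 ∧ (∀ k, E k = P k + E (k + 1)) ∧ (∀ k, E k ∈ M) ∧
      (∀ k, P k ∈ M) ∧ (∀ k, IsStarProjection (E k)) ∧ (∀ k, (φ (E k)).re ≤ (1 / 8) ^ k) ∧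
      (∀ k, (φ (P k)).re ≤ (1 / 8) ^ k) ∧ ∀ k, Vec M φ (P k) := by
  choose! P hP using fun (k : ℕ) (e : H →L[ℂ] H) (he : e ∈ M ∧ IsStarProjection e) =>
    exists_vec h hφ he.1 he.2 (ε := (1 / 8) ^ (k + 1)) (by positivity)
  obtain ⟨E, h0, h1⟩ : ∃ E : ℕ → (H →L[ℂ] H), E 0 = 1 ∧ ∀ k, E (k + 1) = E k - P k (E k) :=
    ⟨fun k => Nat.rec 1 (fun k e => e - P k e) k, rfl, fun _ => rfl⟩
  have hE : ∀ k, E k ∈ M ∧ IsStarProjection (E k) := fun k => by
    induction k with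
    | zero => exact h0 ▸ ⟨one_mem M, IsStarProjection.one _⟩
    | succ k ih =>
      obtain ⟨k1, k2, k3, -⟩ := hP k _ ih
      exact h1 k ▸ ⟨sub_mem ih.1 k1, k2.sub_of_mul_eq_right ih.2 k3⟩
  have hE2 : ∀ k, (φ (E k)).re ≤ (1 / 8) ^ k := fun k => by
    cases k with
    | zero => simp [h0, h.one]
    | succ k => exact h1 k ▸ (hP k _ (hE k)).2.2.2.1
  refine ⟨E, fun k => P k (E k), h0, fun k => by rw [h1, add_sub_cancel], fun k => (hE k).1,
    fun k => (hP k _ (hE k)).1, fun k => (hE k).2, hE2, fun k => ?_,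
    fun k => (hP k _ (hE k)).2.2.2.2⟩
  obtain ⟨k1, k2, k3, -⟩ := hP k _ (hE k)
  exact (Complex.le_def.1 (hφ.mono k1 (hE k).1 (proj_le k2 (hE k).2 k3))).1.trans (hE2 k)

theorem le_two (hφ : PL M φ) {a b : H →L[ℂ] H} (ha : a ∈ M) (hb : b ∈ M) :
    (φ (star (a + b) * (a + b))).re ≤ 4 * (φ (star a * a)).re + 4 * (φ (star b * b)).re := by
  have k1 := hφ.le (add_mem ha hb) Finset.univ (y := fun c : Bool => cond c a b)
    (fun c _ => by
      cases c
      exacts [hb, ha]) (fun _ => 4) fun v => by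
    rw [Fintype.sum_bool, cond_true, cond_false, add_apply]
    nlinarith [pow_le_pow_left₀ (norm_nonneg _) (norm_add_le (a v) (b v)) 2,
      sq_nonneg (‖a v‖ - ‖b v‖), sq_nonneg ‖a v‖, sq_nonneg ‖b v‖]
  rwa [Fintype.sum_bool, cond_true, cond_false] at k1

theorem le_series (hφ : PL M φ) {E P : ℕ → (H →L[ℂ] H)} (h0 : E 0 = 1)
    (h1 : ∀ k, E k = P k + E (k + 1)) (hE : ∀ k, E k ∈ M) (hP : ∀ k, P k ∈ M)
    (h2 : ∀ k, IsStarProjection (E k)) (h3 : ∀ k, (φ (E k)).re ≤ (1 / 8) ^ k) {x : H →L[ℂ] H}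
    (hx : x ∈ M) {s : ℝ}
    (hs : HasSum (fun k => 4 ^ (k + 1) * (φ (star (x * P k) * (x * P k))).re) s) :
    (φ (star x * x)).re ≤ s := by
  have h4 : ∀ n, (φ (star x * x)).re ≤ ∑ k ∈ Finset.range n,
      4 ^ (k + 1) * (φ (star (x * P k) * (x * P k))).re +
        4 ^ n * (φ (star (x * E n) * (x * E n))).re := fun n => by
    induction n with
    | zero => simp [h0]
    | succ n ih =>
      have k1 := le_two hφ (mul_mem hx (hP n)) (mul_mem hx (hE (n + 1)))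
      rw [← mul_add x, ← h1] at k1
      have k2 := mul_le_mul_of_nonneg_left k1 (by positivity : (0 : ℝ) ≤ 4 ^ n)
      rw [Finset.sum_range_succ, pow_succ]
      linarith
  have h5 : Tendsto (fun n : ℕ => s + ‖x‖ ^ 2 * (1 / 2 : ℝ) ^ n) atTop (𝓝 (s + ‖x‖ ^ 2 * 0)) :=
    ((tendsto_pow_atTop_nhds_zero_of_lt_one (by norm_num) (by norm_num)).const_mul _).const_add _
  rw [mul_zero, add_zero] at h5
  refine ge_of_tendsto' h5 fun n => (h4 n).trans (add_le_add (sum_le_hasSum _ (fun k _ =>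
    mul_nonneg (by positivity) (Complex.nonneg_iff.1 (hφ.sq_nonneg (mul_mem hx (hP k)))).1) hs) ?_)
  have k1 := hφ.le (mul_mem hx (hE n)) Finset.univ (y := fun _ : Unit => E n)
    (fun _ _ => hE n) (fun _ => ‖x‖ ^ 2) fun v => by
      rw [Fintype.sum_unique, ← mul_pow]
      exact pow_le_pow_left₀ (norm_nonneg _) (x.le_opNorm _) 2
  rw [Fintype.sum_unique, proj_sq (h2 n)] at k1
  refine (mul_le_mul_of_nonneg_left (k1.trans (mul_le_mul_of_nonneg_left (h3 n)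
    (sq_nonneg _))) (by positivity)).trans_eq ?_
  rw [mul_left_comm, ← mul_pow]
  norm_num

theorem summable_pair {g : ℕ → ℕ → ℝ} {a : ℕ → ℝ} (h0 : ∀ k n, 0 ≤ g k n)
    (h1 : ∀ k, HasSum (g k) (a k)) (h2 : ∀ k, a k ≤ (1 / 8) ^ k) :
    Summable fun i : ℕ × ℕ => 4 ^ (i.1 + 1) * g i.1 i.2 := by
  have h3 : ∀ k, HasSum (fun n => 4 ^ (k + 1) * g k n) (4 ^ (k + 1) * a k) := fun k =>
    (h1 k).mul_left _
  refine (summable_prod_of_nonneg fun i => mul_nonneg (by positivity) (h0 _ _)).2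
    ⟨fun k => (h3 k).summable, ?_⟩
  refine Summable.of_nonneg_of_le (fun k => tsum_nonneg fun _ => mul_nonneg (by positivity)
    (h0 _ _)) (fun k => (h3 k).tsum_eq.trans_le ?_) (summable_geometric_two.mul_left 4)
  refine (mul_le_mul_of_nonneg_left (h2 k) (by positivity)).trans_eq ?_
  rw [pow_succ', mul_assoc, ← mul_pow]
  norm_num

end LitAux

open LitAux in
theorem Lit.IsFNState.isNormalState (h : Lit.IsFNState M φ) : IsNormalState M φ := by
  have hφ : PL M φ := ⟨h.add, h.smul, fun x hx h0 => h.pos x ⟨hx, h0⟩⟩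
  obtain ⟨E, P, h0, h1, hE, hP, h2, h3, h4, h5⟩ := exists_seq h hφ
  choose z hz1 hz2 using h5
  have hn : ∀ (x : H →L[ℂ] H) (i : ℕ × ℕ), ‖x ((2 : ℂ) ^ (i.1 + 1) • z i.1 i.2)‖ ^ 2 =
      4 ^ (i.1 + 1) * ‖x (z i.1 i.2)‖ ^ 2 := fun x i => by
    rw [map_smul, norm_smul, mul_pow, norm_pow, Complex.norm_two, pow_right_comm]
    norm_num
  obtain ⟨w, hw1, hw2⟩ := hφ.rn (ξ := fun i : ℕ × ℕ => (2 : ℂ) ^ (i.1 + 1) • z i.1 i.2)
    ((summable_pair (fun _ _ => sq_nonneg _) hz1 h4).congr fun i => (hn 1 i).symm)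
    fun x hx s hs => le_series hφ h0 h1 hE hP h2 h3 hx (hs.prod_fiberwise fun k =>
      (funext fun c => hn x (k, c)) ▸ (hz2 k x hx).mul_left _)
  exact ⟨w, by simpa [h.one] using hw1, hw2⟩

end Vale.Agent.P132
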