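import Vale.Agent.P132.WrapAux

/-! Standard representation of a faithful normal state. -/

open scoped InnerProductSpace Topology ComplexConjugate
open Filter MeasureTheory

namespace Vale.Agent.P132

open Vale.Agent.P104

universe u

variable {H : Type u} [NormedAddCommGroup H] [InnerProductSpace ℂ H] [CompleteSpace H]
  {M : VonNeumannAlgebra H} {J : H →L⋆[ℂ] H} {P : Set H} {ξ : H} {F : FC H}

theorem exists_std {φ : (H →L[ℂ] H) → ℂ} (hn : IsNormalState M φ) (hf : IsFaithful M φ) :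
    ∃ (K : Type u) (_ : NormedAddCommGroup K) (_ : InnerProductSpace ℂ K) (_ : CompleteSpace K)
      (N : VonNeumannAlgebra K) (ξ : K) (π : (H →L[ℂ] H) → (K →L[ℂ] K)), Rep M φ N ξ π := by
  obtain ⟨ξ, h1, h2⟩ := hn
  obtain ⟨K, _, _, _, W, π, Ξ, h, hΞ, hc⟩ := exists_wrapAmp M h1.summable
  have hz : ∀ x ∈ M, (∀ n, x (W n Ξ) = 0) → x = 0 := by
    intro x hx h0
    refine hf x hx ((h2 _ (mul_mem (star_mem hx) hx)).unique ?_)
    simpa only [mul_apply_eq_comp, ← hΞ, h0, map_zero, inner_zero_right] using hasSum_zero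
  have hf' : ∀ x ∈ M, (∀ n ζ, x (W n ζ) = 0) → x = 0 := fun x hx h0 => hz x hx fun n => h0 n Ξ
  have hsep : ∀ x ∈ M, π x Ξ = 0 → x = 0 := fun x hx h0 =>
    hz x hx fun n => by rw [← h.inter x hx, h0, map_zero]
  have h0 : π 0 = 0 := by simpa using h.smul 0 (zero_mem M)
  refine ⟨K, inferInstance, inferInstance, inferInstance, h.img hf', Ξ, π,
    { cyc := fun η ε hε => ?_
      sep := ?_
      norm := ?_
      mem := fun x hx => ⟨x, hx, rfl⟩
      surj := fun y hy => hy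
      add := fun x hx y hy => h.add hx hy
      smul := fun c x hx => h.smul c hx
      mul := fun x hx y hy => h.mul hx hy
      star := fun x hx => h.star hx
      one := h.one
      norm_map := fun x hx => le_antisymm (h.norm_le hx) ?_
      state := fun x hx => (h.vec hx Ξ Ξ).unique (by simpa only [hΞ] using h2 x hx)
      vec := fun ζ => ⟨fun n => W n ζ, h.normSq ζ, fun x hx => h.vec hx ζ ζ⟩ }⟩
  · obtain ⟨x, hx, e⟩ := hc η ε hε
    exact ⟨π x, ⟨x, hx, rfl⟩, e⟩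
  · rintro _ ⟨x, hx, rfl⟩ e
    rw [hsep x hx e, h0]
  · have := (h.normSq Ξ).unique (by simpa only [hΞ] using h1)
    exact (pow_eq_one_iff_of_nonneg (norm_nonneg _) two_ne_zero).1 this
  · obtain ⟨x', hx', e, hle⟩ := h.surj hf' (Set.subset_centralizer_centralizer ⟨x, hx, rfl⟩)
    have hm : (-1 : ℂ) • x ∈ M := M.toStarSubalgebra.smul_mem hx _
    have := hsep _ (add_mem hx' hm) (by rw [h.add hx' hm, h.smul _ hx, e]; simp)
    rw [neg_one_smul, add_neg_eq_zero] at this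
    rwa [← this, e]

section

variable {K : Type u} [NormedAddCommGroup K] [InnerProductSpace ℂ K] [CompleteSpace K]
  {φ : (H →L[ℂ] H) → ℂ} {N : VonNeumannAlgebra K} {ζ : K} {π : (H →L[ℂ] H) → (K →L[ℂ] K)}

theorem Rep.wrap_sub (h : Rep M φ N ζ π) {x y : H →L[ℂ] H} (hx : x ∈ M) (hy : y ∈ M) :
    π (x - y) = π x - π y := by
  have := h.add _ (sub_mem hx hy) _ hy
  rw [sub_add_cancel] at this
  rw [this, add_sub_cancel_right]

theorem Rep.wrap_inj (h : Rep M φ N ζ π) {x y : H →L[ℂ] H} (hx : x ∈ M) (hy : y ∈ M)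
    (e : π x = π y) : x = y := by
  have := h.norm_map _ (sub_mem hx hy)
  rw [h.wrap_sub hx hy, e, sub_self, norm_zero] at this
  exact sub_eq_zero.1 (norm_eq_zero.1 this.symm)

theorem Rep.factor (h : Rep M φ N ζ π) (hM : IsFactor M) : IsFactor N := by
  intro z hz hc
  obtain ⟨a, ha, rfl⟩ := h.surj z hz
  obtain ⟨c, rfl⟩ := hM a ha fun x hx => h.wrap_inj (mul_mem ha hx) (mul_mem hx ha) (by
    rw [h.mul a ha x hx, h.mul x hx a ha, hc _ (h.mem x hx)])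
  exact ⟨c, by rw [h.smul c 1 (one_mem M), h.one]⟩

theorem Rep.wrap_normal (h : Rep M φ N ζ π) {ψ : (K →L[ℂ] K) → ℂ} (hn : IsNormalState N ψ) :
    IsNormalState M fun x => ψ (π x) := by
  obtain ⟨η, h1, h2⟩ := hn
  choose z hz1 hz2 using fun n => h.vec (η n)
  have hS : Summable fun p : ℕ × ℕ => ‖z p.1 p.2‖ ^ 2 := by
    refine (summable_prod_of_nonneg fun p => by positivity).2 ⟨fun n => (hz1 n).summable, ?_⟩
    simpa only [fun n => (hz1 n).tsum_eq] using h1.summable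
  refine ⟨fun k => z (Nat.pairEquiv.symm k).1 (Nat.pairEquiv.symm k).2, ?_, fun x hx => ?_⟩
  · refine (Nat.pairEquiv.symm.hasSum_iff (f := fun p : ℕ × ℕ => ‖z p.1 p.2‖ ^ 2)).2 ?_
    rw [← (hS.hasSum.prod_fiberwise hz1).unique h1]
    exact hS.hasSum
  · refine (Nat.pairEquiv.symm.hasSum_iff
      (f := fun p : ℕ × ℕ => ⟪z p.1 p.2, x (z p.1 p.2)⟫_ℂ)).2 ?_
    have hS' : Summable fun p : ℕ × ℕ => ⟪z p.1 p.2, x (z p.1 p.2)⟫_ℂ := by
      refine Summable.of_norm_bounded (hS.mul_left ‖x‖) fun p => ?_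
      refine (norm_inner_le_norm _ _).trans ?_
      have := mul_le_mul_of_nonneg_left (x.le_opNorm (z p.1 p.2)) (norm_nonneg (z p.1 p.2))
      linarith
    beta_reduce
    rw [← (hS'.hasSum.prod_fiberwise fun n => hz2 n x hx).unique (h2 _ (h.mem x hx))]
    exact hS'.hasSum

theorem Rep.fullSpec (h : Rep M φ N ζ π) (hM : FullSpec M) : FullSpec N := by
  intro ψ hn hf t ht
  have h0 : π 0 = 0 := by simpa using h.smul 0 0 (zero_mem M)
  have hf' : IsFaithful M fun x => ψ (π x) := by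
    intro x hx e
    beta_reduce at e
    rw [h.mul _ (star_mem hx) _ hx, h.star x hx] at e
    exact h.wrap_inj hx (zero_mem M) ((hf _ (h.mem x hx) e).trans h0.symm)
  obtain ⟨K', _, _, _, Λ, hΛ, hr⟩ := hM _ (h.wrap_normal hn) hf' t ht
  have hex : ∀ y : K →L[ℂ] K, ∃ x : H →L[ℂ] H, y ∈ N → x ∈ M ∧ π x = y := by
    intro y
    by_cases hy : y ∈ N
    · obtain ⟨x, hx, e⟩ := h.surj y hy
      exact ⟨x, fun _ => ⟨hx, e⟩⟩
    · exact ⟨0, fun h => absurd h hy⟩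
  choose σ hσ using hex
  have hσπ : ∀ x ∈ M, σ (π x) = x := fun x hx =>
    h.wrap_inj (hσ _ (h.mem x hx)).1 hx (hσ _ (h.mem x hx)).2
  refine ⟨K', inferInstance, inferInstance, inferInstance, fun y => Λ (σ y), ⟨?_, ?_⟩, ?_⟩
  · refine hΛ.1.mono ?_
    rintro _ ⟨x, hx, rfl⟩
    exact ⟨π x, h.mem x hx, congrArg Λ (hσπ x hx)⟩
  · intro y hy y' hy'
    obtain ⟨x, hx, rfl⟩ := h.surj y hy
    obtain ⟨x', hx', rfl⟩ := h.surj y' hy'
    beta_reduce
    rw [hσπ x hx, hσπ x' hx', hΛ.2 x hx x' hx']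
    beta_reduce
    rw [h.mul _ (star_mem hx) _ hx', h.star x hx]
  · have : graphS N (fun y => Λ (σ y)) = graphS M Λ := by
      unfold graphS
      congr 1
      ext p
      constructor
      · rintro ⟨y, hy, rfl⟩
        obtain ⟨x, hx, rfl⟩ := h.surj y hy
        exact ⟨x, hx, by simp only [← h.star x hx, hσπ x hx, hσπ _ (star_mem hx)]⟩
      · rintro ⟨x, hx, rfl⟩
        exact ⟨π x, h.mem x hx, by simp only [← h.star x hx, hσπ x hx, hσπ _ (star_mem hx)]⟩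
    rwa [this]

theorem wrap_defect {J : K →L⋆[ℂ] K} (hB : Bi N J) (hζ : J ζ = ζ) (h1 : ‖ζ‖ = 1)
    {x y : K →L[ℂ] K} (hx : x ∈ N) (hy : y ∈ N) (hy1 : ‖y‖ ≤ 1) :
    ‖⟪ζ, (y * x) ζ⟫_ℂ - ⟪ζ, (x * y) ζ⟫_ℂ‖ ≤ 2 * ‖x ζ - rt J x ζ‖ := by
  have hJ : ∀ η, ‖J η‖ = ‖η‖ := fun η => by
    rw [norm_eq_sqrt_re_inner (𝕜 := ℂ), norm_eq_sqrt_re_inner (𝕜 := ℂ) η, hB.cj.inner]
  have hc : y (rt J x ζ) = rt J x (y ζ) := by
    rw [← mul_apply_eq_comp, ← commute_of_mem N (hB.rt_mem x hx) hy, mul_apply_eq_comp]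
  have e1 : ⟪ζ, rt J x (y ζ)⟫_ℂ = ⟪J (x ζ), y ζ⟫_ℂ := by
    change ⟪ζ, J (star x (J (y ζ)))⟫_ℂ = _
    conv_lhs => rw [← hζ]
    rw [hB.cj.inner, hζ, inner_star_left, ← hB.cj.inner, hB.cj.inv]
  have e2 : ⟪ζ, x (y ζ)⟫_ℂ = ⟪J (rt J x ζ), y ζ⟫_ℂ := by
    change _ = ⟪J (J (star x (J ζ))), y ζ⟫_ℂ
    rw [hB.cj.inv, hζ, inner_star_left]
  have e3 : ⟪ζ, (y * x) ζ⟫_ℂ - ⟪ζ, (x * y) ζ⟫_ℂ =
      ⟪ζ, y (x ζ - rt J x ζ)⟫_ℂ + ⟪J (x ζ - rt J x ζ), y ζ⟫_ℂ := by
    rw [mul_apply_eq_comp, mul_apply_eq_comp, map_sub, map_sub, inner_sub_right, inner_sub_left,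
      hc, e1, e2]
    ring
  have b1 : ∀ v, ‖y v‖ ≤ ‖v‖ := fun v =>
    (y.le_opNorm v).trans (mul_le_of_le_one_left (norm_nonneg _) hy1)
  rw [e3, two_mul]
  refine (norm_add_le _ _).trans (add_le_add ?_ ?_)
  · refine (norm_inner_le_norm _ _).trans ?_
    rw [h1, one_mul]
    exact b1 _
  · refine (norm_inner_le_norm _ _).trans ?_
    rw [hJ]
    exact mul_le_of_le_one_right (norm_nonneg _) ((b1 ζ).trans h1.le)

theorem Rep.bic (h : Rep M φ N ζ π) (hn : IsNormalState M φ) {J : K →L⋆[ℂ] K} (hB : Bi N J)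
    (hζ : J ζ = ζ) {a : H →L[ℂ] H} (ha : a ∈ bicentralizer M φ) : π a ∈ Bic N J ζ := by
  have _ := hn
  refine ⟨h.mem a ha.1, fun x hx => ?_⟩
  obtain ⟨⟨hxN, C, hC⟩, hd⟩ := hx
  choose w hw hwx using fun n => h.surj _ (hxN n)
  have hwC : ∀ n, ‖w n‖ ≤ C := fun n => by rw [← h.norm_map _ (hw n), hwx]; exact hC n
  have hd' : Tendsto (fun n => 2 * ‖x n ζ - rt J (x n) ζ‖) atTop (𝓝 0) := by
    have := (tendsto_zero_iff_norm_tendsto_zero.1 hd).const_mul 2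
    simpa [df] using this
  have hac : AsymptCentral M φ w := by
    refine ⟨hw, ⟨C, hwC⟩, fun ε hε => ?_⟩
    filter_upwards [hd'.eventually (ge_mem_nhds hε)] with n hn y hy hy1
    rw [← h.state _ (mul_mem hy (hw n)), ← h.state _ (mul_mem (hw n) hy), h.mul _ hy _ (hw n),
      h.mul _ (hw n) _ hy, hwx]
    exact (wrap_defect hB hζ h.norm (hxN n) (h.mem y hy) (by rwa [h.norm_map y hy])).trans hn
  have hc := ha.2 w hac
  have hcM : ∀ n, a * w n - w n * a ∈ M := fun n =>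
    sub_mem (mul_mem ha.1 (hw n)) (mul_mem (hw n) ha.1)
  obtain ⟨z, hz1, hz2⟩ := h.vec ζ
  have e : ∀ n, ‖(π a * x n - x n * π a) ζ‖ ^ 2 = ∑' k, ‖(a * w n - w n * a) (z k)‖ ^ 2 := by
    intro n
    have h1 := Complex.hasSum_re (hz2 _ (mul_mem (star_mem (hcM n)) (hcM n)))
    rw [h.mul _ (star_mem (hcM n)) _ (hcM n), h.star _ (hcM n)] at h1
    simp only [← norm_sq_apply] at h1
    rw [h1.tsum_eq, h.wrap_sub (mul_mem ha.1 (hw n)) (mul_mem (hw n) ha.1), h.mul _ ha.1 _ (hw n),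
      h.mul _ (hw n) _ ha.1, hwx]
  have hlim : Tendsto (fun n => ∑' k, ‖(a * w n - w n * a) (z k)‖ ^ 2) atTop
      (𝓝 (∑' _ : ℕ, (0 : ℝ))) := by
    refine tendsto_tsum_of_dominated_convergence
      (hz1.summable.mul_left ((2 * ‖a‖ * C) ^ 2)) (fun k => ?_) (Eventually.of_forall fun n k => ?_)
    · simpa using (tendsto_zero_iff_norm_tendsto_zero.1 (hc (z k))).pow 2
    · rw [Real.norm_of_nonneg (by positivity), ← mul_pow]
      refine pow_le_pow_left₀ (norm_nonneg _) (((a * w n - w n * a).le_opNorm _).trans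
        (mul_le_mul_of_nonneg_right ?_ (norm_nonneg _))) 2
      have := mul_le_mul_of_nonneg_left (hwC n) (norm_nonneg a)
      have h1 := norm_mul_le a (w n)
      have h2 := norm_mul_le (w n) a
      have h3 := norm_sub_le (a * w n) (w n * a)
      linarith
  rw [tsum_zero] at hlim
  simp only [← e] at hlim
  rw [tendsto_zero_iff_norm_tendsto_zero]
  simpa using hlim.sqrt

theorem Rep.scalar (h : Rep M φ N ζ π) {a : H →L[ℂ] H} (ha : a ∈ M) {c : ℂ}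
    (e : π a = c • (1 : K →L[ℂ] K)) : a = c • (1 : H →L[ℂ] H) :=
  h.wrap_inj ha (M.toStarSubalgebra.smul_mem (one_mem M) c) (by
    rw [h.smul c 1 (one_mem M), h.one, e])

end

end Vale.Agent.P132
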