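import Vale.Agent.P132.Lit
import Vale.Agent.P132.RNAux
import Vale.Agent.P132.Wrap

/-! Faithful normal states are faithful normal semifinite weights. -/

open scoped InnerProductSpace Topology ComplexConjugate ENNReal NNReal
open Filter

namespace Vale.Agent.P132

open Vale.Agent.P104

universe u

variable {H : Type u} [NormedAddCommGroup H] [InnerProductSpace ℂ H] [CompleteSpace H]
  {M : VonNeumannAlgebra H} {φ : (H →L[ℂ] H) → ℂ}

omit [CompleteSpace H] in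
theorem lit_re_mono {x y : H →L[ℂ] H} (h : x ≤ y) (η : H) :
    (⟪η, x η⟫_ℂ).re ≤ (⟪η, y η⟫_ℂ).re := by
  have h1 := ((ContinuousLinearMap.le_def _ _).1 h).re_inner_nonneg_right η
  rw [sub_apply, inner_sub_right, map_sub] at h1
  exact sub_nonneg.1 h1

omit [CompleteSpace H] in
theorem lit_re_nonneg {x : H →L[ℂ] H} (h : 0 ≤ x) (η : H) : 0 ≤ (⟪η, x η⟫_ℂ).re := by
  simpa using lit_re_mono h η

/-- A directed set converges weakly to its least upper bound along an ultrafilter. -/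
theorem lit_lub {S : Set (H →L[ℂ] H)} (h0 : S ⊆ Lit.Pos M) (hne : S.Nonempty)
    (hd : DirectedOn (· ≤ ·) S) {a : H →L[ℂ] H} (ha : IsLUB S a) :
    ∃ U : Ultrafilter S, ∀ η : H,
      Tendsto (fun x : S => (⟪η, x.1 η⟫_ℂ).re) U (𝓝 (⟪η, a η⟫_ℂ).re) := by
  have : Nonempty S := hne.to_subtype
  have : IsDirectedOrder S := hd.isDirectedOrder
  let U : Ultrafilter S := Ultrafilter.of atTop
  have hU : (U : Filter S) ≤ atTop := Ultrafilter.of_le _
  obtain ⟨b, -, hb, -, hl⟩ := rn_wl M U (x := fun x : S => x.1) (fun x => (h0 x.2).1)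
    (fun x => (h0 x.2).2.isSelfAdjoint) (norm_nonneg a)
    fun x => CStarAlgebra.norm_le_norm_of_nonneg_of_le (h0 x.2).2 (ha.1 x.2)
  have hl' : ∀ η : H, Tendsto (fun x : S => (⟪η, x.1 η⟫_ℂ).re) U (𝓝 (⟪η, b η⟫_ℂ).re) :=
    fun η => (Complex.continuous_re.tendsto _).comp (hl η η)
  have hab : a ≤ b := ha.2 fun x hx => by
    rw [ContinuousLinearMap.le_def, ContinuousLinearMap.isPositive_def']
    refine ⟨hb.sub (h0 hx).2.isSelfAdjoint, fun η => ?_⟩
    have : (⟪η, x η⟫_ℂ).re ≤ (⟪η, b η⟫_ℂ).re := ge_of_tendsto (hl' η)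
      (hU ((eventually_ge_atTop (⟨x, hx⟩ : S)).mono fun y hy => lit_re_mono hy η))
    rw [ContinuousLinearMap.reApplyInnerSelf_apply, inner_re_symm, sub_apply, inner_sub_right,
      map_sub]
    exact sub_nonneg.2 this
  refine ⟨U, fun η => ?_⟩
  rw [le_antisymm (lit_re_mono hab η)
    (le_of_tendsto' (hl' η) fun x => lit_re_mono (ha.1 x.2) η)]
  exact hl' η

theorem IsNormalState.weight (hn : IsNormalState M φ) (hf : IsFaithful M φ) :
    Lit.IsFNSWeight M fun x => ENNReal.ofReal (φ x).re := by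
  obtain ⟨ξ, h1, h2⟩ := hn
  have h3 : ∀ x ∈ M, HasSum (fun n => (⟪ξ n, x (ξ n)⟫_ℂ).re) (φ x).re :=
    fun x hx => Complex.hasSum_re (h2 x hx)
  have mono : ∀ x ∈ M, ∀ y ∈ M, x ≤ y → (φ x).re ≤ (φ y).re := fun x hx y hy h =>
    hasSum_le (fun n => lit_re_mono h _) (h3 x hx) (h3 y hy)
  have pos : ∀ x ∈ Lit.Pos M, 0 ≤ (φ x).re := fun x hx =>
    (h3 x hx.1).nonneg fun n => lit_re_nonneg hx.2 _
  refine ⟨fun x hx y hy => ?_, fun c x hx => ?_, fun x hx h0 => ?_, fun S hS hne hd a ha hl => ?_,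
    fun x hx t ε hε => ⟨x, ⟨hx, ENNReal.ofReal_lt_top⟩, fun η _ => by simpa using hε⟩⟩
  · rw [← ENNReal.ofReal_add (pos x hx) (pos y hy)]
    congr 1
    refine (h3 _ (add_mem hx.1 hy.1)).unique ?_
    simpa only [add_apply, inner_add_right, Complex.add_re] using (h3 x hx.1).add (h3 y hy.1)
  · rw [← ENNReal.ofReal_coe_nnreal, ← ENNReal.ofReal_mul (NNReal.coe_nonneg c)]
    congr 1
    refine (h3 _ (rn_smul_mem _ hx.1)).unique ?_
    simpa only [smul_apply, inner_smul_right, Complex.re_ofReal_mul] using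
      (h3 x hx.1).mul_left (c : ℝ)
  · have e0 : (φ x).re = 0 := le_antisymm (ENNReal.ofReal_eq_zero.1 h0) (pos x hx)
    have e1 : ∀ n, (⟪ξ n, x (ξ n)⟫_ℂ).re = 0 := fun n => le_antisymm
      (e0 ▸ le_hasSum (h3 x hx.1) n fun m _ => lit_re_nonneg hx.2 _) (lit_re_nonneg hx.2 _)
    have e2 : ∀ n, x (ξ n) = 0 := fun n => by
      have hs : star (CFC.sqrt x) * CFC.sqrt x = x := by
        rw [(CFC.sqrt_nonneg x).isSelfAdjoint.star_eq, CFC.sqrt_mul_sqrt_self x hx.2]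
      have e3 := norm_sq_apply (CFC.sqrt x) (ξ n)
      rw [hs, e1, pow_eq_zero_iff two_ne_zero, norm_eq_zero] at e3
      rw [← hs, mul_apply_eq_comp, e3, map_zero]
    refine hf x hx.1 ((h2 _ (mul_mem (star_mem hx.1) hx.1)).unique ?_)
    simpa only [mul_apply_eq_comp, e2, map_zero, inner_zero_right] using hasSum_zero
  · refine ⟨?_, fun b hb => ?_⟩
    · rintro _ ⟨x, hx, rfl⟩
      exact ENNReal.ofReal_le_ofReal (mono x (hS hx).1 a ha.1 (hl.1 hx))
    · obtain ⟨U, hU⟩ := lit_lub hS hne hd hl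
      have t1 := tendsto_tsum_of_dominated_convergence (𝓕 := (U : Filter S))
        (f := fun (x : S) n => (⟪ξ n, x.1 (ξ n)⟫_ℂ).re) (h3 a ha.1).summable (fun n => hU (ξ n))
        (.of_forall fun x n => by
          rw [Real.norm_of_nonneg (lit_re_nonneg (hS x.2).2 _)]
          exact lit_re_mono (hl.1 x.2) _)
      rw [(h3 a ha.1).tsum_eq] at t1
      refine le_of_tendsto' ((ENNReal.continuous_ofReal.tendsto _).comp t1) fun x => ?_
      rw [Function.comp_apply, (h3 _ (hS x.2).1).tsum_eq]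
      exact hb ⟨x.1, x.2, rfl⟩

theorem Lit.IsTypeIIIOne.fullSpec (h : Lit.IsTypeIIIOne M) : FullSpec M := by
  intro ψ hn hf t ht
  have h1 : (t : ℂ) ∈ Lit.connesS M := h.2 ▸ ⟨t, ht.le, rfl⟩
  obtain ⟨K, _, _, _, Λ, hΛ, hr⟩ := Set.mem_iInter₂.1 h1 _ (hn.weight hf)
  obtain ⟨K', _, _, _, N, ζ, π, r⟩ := exists_std hn hf
  have hI : ∀ x, x ∈ Lit.nIdeal M (fun x => ENNReal.ofReal (ψ x).re) ↔ x ∈ M :=
    fun x => ⟨fun h => h.1, fun h => ⟨h, ENNReal.ofReal_lt_top⟩⟩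
  have e1 : ∀ x ∈ M, ∀ y ∈ M, ⟪π x ζ, π y ζ⟫_ℂ = ψ (star x * y) := fun x hx y hy => by
    rw [← r.state _ (mul_mem (star_mem hx) hy), r.mul _ (star_mem hx) _ hy, r.star x hx,
      mul_apply_eq_comp, inner_star_right]
  have e2 : ∀ x ∈ M, ∀ y ∈ M, ∀ c : ℂ, ‖Λ x + c • Λ y‖ = ‖π x ζ + c • π y ζ‖ :=
    fun x hx y hy c => by
      have hc := rn_smul_mem c hy
      have hz := add_mem hx hc
      have e3 := hΛ.norm _ ((hI _).2 hz)
      rw [← e1 _ hz _ hz, inner_self_eq_norm_sq_to_K, hΛ.add _ ((hI _).2 hx) _ ((hI _).2 hc),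
        hΛ.smul _ _ ((hI _).2 hy), r.add _ hx _ hc, r.smul _ _ hy] at e3
      refine (sq_eq_sq₀ (norm_nonneg _) (norm_nonneg _)).1 (e3.trans ?_)
      simp only [Complex.coe_algebraMap, ← Complex.ofReal_pow, Complex.ofReal_re]
      rw [ENNReal.toReal_ofReal (sq_nonneg _)]
      rfl
  refine ⟨K, inferInstance, inferInstance, inferInstance, Λ, ⟨hΛ.dense.mono
    (Set.image_mono fun x hx => hx.1), fun x hx y hy => ?_⟩, ?_⟩
  · have a1 := e2 x hx y hy 1
    have a2 := e2 x hx y hy (-1)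
    have a3 := e2 x hx y hy Complex.I
    have a4 := e2 x hx y hy (-Complex.I)
    simp only [one_smul, neg_smul, ← sub_eq_add_neg] at a1 a2 a3 a4
    rw [← e1 x hx y hy, inner_eq_sum_norm_sq_div_four, inner_eq_sum_norm_sq_div_four]
    simp only [RCLike.I_to_complex, a1, a2, a3, a4]
  · have : Lit.graphS M (fun x => ENNReal.ofReal (ψ x).re) Λ = P132.graphS M Λ := by
      unfold P132.graphS Lit.graphS
      congr 1
      ext p
      exact ⟨fun ⟨x, hx, _, e⟩ => ⟨x, hx.1, e⟩,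
        fun ⟨x, hx, e⟩ => ⟨x, (hI _).2 hx, (hI _).2 (star_mem hx), e⟩⟩
    rw [this] at hr
    exact hr

theorem Lit.IsFNState.isFaithful (h : Lit.IsFNState M φ) : IsFaithful M φ := fun x hx e =>
  CStarRing.star_mul_self_eq_zero_iff x |>.1
    (h.faithful _ ⟨mul_mem (star_mem hx) hx, star_mul_self_nonneg x⟩ e)

end Vale.Agent.P132
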