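import Vale.Agent.P132.Bic

/-! Matrix form of the modulus of the bicentralizer. -/

open scoped InnerProductSpace Topology ComplexConjugate
open Filter MeasureTheory

namespace Vale.Agent.P132

open Vale.Agent.P104

variable {H : Type*} [NormedAddCommGroup H] [InnerProductSpace ℂ H] [CompleteSpace H]
  {M : VonNeumannAlgebra H} {J : H →L⋆[ℂ] H} {P : Set H} {ξ : H} {F : FC H}

variable {β : ℝ → (H →L[ℂ] H) → (H →L[ℂ] H)} {U : ℝ → (H →L[ℂ] H)}

theorem mm_zero (fl : Flow M J ξ F β U) (h : Mod M J ξ F) {a : H →L[ℂ] H}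
    (ha : a ∈ Bic M J ξ) : β 0 a = a := by
  refine h.sep.ext (fl.mem 0 a ha).1 ha.1 ?_
  rw [← fl.U_apply 0 a ha, fl.U_zero, one_apply_eq_self]

section

variable {ι : Type} [Fintype ι] [DecidableEq ι] {l : ι → ℝ} {w : ι → ℕ → (H →L[ℂ] H)}

/-- The vector `∑ w i η i j (w j)*`. -/
noncomputable def mmA (J : H →L⋆[ℂ] H) (w : ι → ℕ → (H →L[ℂ] H)) (n : ℕ) (η : ι → ι → H) : H :=
  ∑ i, ∑ j, w i n (rt J (star (w j n)) (η i j))

theorem mm_A_le (h : Mod M J ξ F) (tr : Tr M J ξ l w) (n : ℕ) (η : ι → ι → H) :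
    ‖mmA J w n η‖ ^ 2 ≤ ∑ i, ∑ j, ‖η i j‖ ^ 2 := by
  have h1 := tr.row n fun i => ∑ j, rt J (star (w j n)) (η i j)
  simp only [map_sum, one_pow, one_mul] at h1
  refine h1.trans (Finset.sum_le_sum fun i _ => ?_)
  simpa only [one_pow, one_mul, map_sum] using h.cj.grow_rt (tr.row n) (η i)

theorem mm_A_lim (h : Mod M J ξ F) (tr : Tr M J ξ l w) (η : ι → ι → H) :
    Tendsto (fun n => ‖mmA J w n η‖ ^ 2) atTop (𝓝 (∑ i, ∑ j, ‖η i j‖ ^ 2)) := by
  have bd : ∀ i, Bd M (w i) := fun i => (tr.eig i).1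
  have key : ∀ i j k m, Tendsto (fun n => ⟪w i n (rt J (star (w j n)) (η i j)),
      w k n (rt J (star (w m n)) (η k m))⟫_ℂ) atTop
      (𝓝 ⟪η i j, if i = k then (if j = m then η k m else 0) else 0⟫_ℂ) := by
    intro i j k m
    have t1 : Tendsto (fun n => rt J (star (w m n) * w j n) (η k m)) atTop
        (𝓝 (if j = m then η k m else 0)) := by
      have := (J.continuous.tendsto _).comp (tr.orth j m (J (η k m)))
      rw [apply_ite J, h.cj.inv, map_zero] at this
      refine this.congr fun n => ?_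
      rw [Function.comp_apply, rt_apply, star_mul, star_star]
    have t2 := ((bd i).star.mul (bd k)).apply_zero (tendsto_sub_nhds_zero_iff.2 t1)
    have t3 := t2.add (tr.orth i k (if j = m then η k m else 0))
    rw [zero_add] at t3
    refine (tendsto_const_nhds.inner t3).congr fun n => ?_
    rw [map_sub, sub_add_cancel, ← ContinuousLinearMap.adjoint_inner_right,
      ← ContinuousLinearMap.star_eq_adjoint, h.cj.inner_rt_left, star_star, h.cj.rt_mul_apply,
      ← mul_apply_eq_comp (star (w i n)),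
      h.bi.comm_apply (mul_mem (star_mem ((bd i).1 n)) ((bd k).1 n)) ((bd j).1 n)]
  have t4 := (Complex.continuous_re.tendsto _).comp (tendsto_finsetSum Finset.univ fun i _ =>
    tendsto_finsetSum Finset.univ fun j _ => tendsto_finsetSum Finset.univ fun k _ =>
      tendsto_finsetSum Finset.univ fun m _ => key i j k m)
  have e : ∀ ζ : H, (⟪ζ, ζ⟫_ℂ).re = ‖ζ‖ ^ 2 := fun ζ => inner_self_eq_norm_sq (𝕜 := ℂ) ζ
  convert t4 using 2 with n
  · rw [Function.comp_apply, ← e]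
    simp only [mmA, sum_inner]
    simp only [inner_sum]
  · simp only [← inner_sum, Finset.sum_ite_irrel, Finset.sum_const_zero, Finset.sum_ite_eq,
      Finset.mem_univ, if_true, Complex.re_sum, e]

theorem mm_term (h : Mod M J ξ F) (tr : Tr M J ξ l w) (i j : ι) {Y : H →L[ℂ] H} (hY : Y ∈ M) :
    Tendsto (fun n => (w i n * Y * star (w j n)) ξ -
      w i n (rt J (star (w j n)) (((Real.exp (l j / 2) : ℝ) : ℂ) • Y ξ))) atTop (𝓝 0) := by
  have t := ((tr.eig i).1.mul (Bd.const hY)).apply_zero ((tr.eig j).star h).left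
  refine t.congr fun n => ?_
  rw [neg_div, neg_neg]
  simp only [map_sub, map_smul, mul_apply_eq_comp,
    h.bi.comm_apply hY (star_mem ((tr.eig j).1.1 n))]

theorem mm_term_rt (h : Mod M J ξ F) (tr : Tr M J ξ l w) (i j : ι) {Y : H →L[ℂ] H} (hY : Y ∈ M) :
    Tendsto (fun n => w i n (rt J (star (w j n)) (((Real.exp (l i / 2) : ℝ) : ℂ) • rt J Y ξ)) -
      rt J (w i n * Y * star (w j n)) ξ) atTop (𝓝 0) := by
  have t := ((Bd.const hY).mul (tr.eig j).1.star).rt_apply_zero h.cj (tr.eig i).2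
  refine t.congr fun n => ?_
  simp only [df, map_sub, map_smul, h.cj.rt_mul_apply,
    h.bi.comm_apply ((tr.eig i).1.1 n) (star_mem ((tr.eig j).1.1 n)),
    h.bi.comm_apply ((tr.eig i).1.1 n) hY]

end

theorem Flow.mm (fl : Flow M J ξ F β U) (h : Base M J P ξ F) {a : H →L[ℂ] H}
    (ha : a ∈ Bic M J ξ) {γ : ℝ} (hγ : 0 < γ) :
    ∃ δ : ℝ, 0 < δ ∧ ∀ (ι : Type) [Fintype ι] (l : ι → ℝ), ∑ i, Real.exp (l i) = 1 →
      ∀ X : ι → ι → (H →L[ℂ] H), (∀ i j, X i j ∈ M) → MBdd 1 X →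
      ∑ i, ∑ j, ‖((Real.exp (l j / 2) : ℝ) : ℂ) • X i j ξ -
        ((Real.exp (l i / 2) : ℝ) : ℂ) • rt J (X i j) ξ‖ ^ 2 ≤ δ ^ 2 →
      ∑ i, ∑ j, Real.exp (l j) * ‖(β (l i) a * X i j - X i j * β (l j) a) ξ‖ ^ 2 ≤ γ ^ 2 := by
  classical
  have md := h.md
  obtain ⟨δ, hδ, hmod⟩ := Bic.modulus ha hγ
  refine ⟨δ / 2, half_pos hδ, fun ι _ l hl X hX hB hd => ?_⟩
  obtain ⟨w, tr⟩ := h.tr ι l hl
  have bd : ∀ i, Bd M (w i) := fun i => (tr.eig i).1
  let x : ℕ → H →L[ℂ] H := fun n => ∑ i, ∑ j, w i n * X i j * Star.star (w j n)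
  have xm : ∀ n, x n ∈ M := fun n => sum_mem fun i _ => sum_mem fun j _ =>
    mul_mem (mul_mem ((bd i).1 n) (hX i j)) (star_mem ((bd j).1 n))
  have xn : ∀ n, ‖x n‖ ≤ 1 := fun n => by
    refine ContinuousLinearMap.opNorm_le_bound _ zero_le_one fun η => ?_
    have h1 := tr.row n fun i => ∑ j, X i j (Star.star (w j n) η)
    have h2 := hB fun j => Star.star (w j n) η
    have h3 := (tr.row n).col η
    simp only [map_sum, one_pow, one_mul] at h1 h2 h3
    rw [one_mul]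
    refine (pow_le_pow_iff_left₀ (norm_nonneg _) (norm_nonneg _) two_ne_zero).1 ?_
    simp only [x, sum_apply, mul_apply_eq_comp]
    exact h1.trans (h2.trans h3)
  have t1 : Tendsto (fun n => df J 1 (x n) ξ ξ - mmA J w n fun i j =>
      ((Real.exp (l j / 2) : ℝ) : ℂ) • X i j ξ -
        ((Real.exp (l i / 2) : ℝ) : ℂ) • rt J (X i j) ξ) atTop (𝓝 0) := by
    have := tendsto_finsetSum Finset.univ fun i _ => tendsto_finsetSum Finset.univ fun j _ =>
      (mm_term md tr i j (hX i j)).add (mm_term_rt md tr i j (hX i j))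
    simp only [add_zero, Finset.sum_const_zero] at this
    refine this.congr fun n => ?_
    simp only [df, x, mmA, rt_sum, sum_apply, Complex.ofReal_one, one_smul, map_sub,
      ← Finset.sum_sub_distrib]
    refine Finset.sum_congr rfl fun i _ => Finset.sum_congr rfl fun j _ => ?_
    abel
  have t2 : Tendsto (fun n => (a * x n - x n * a) ξ - mmA J w n fun i j =>
      ((Real.exp (l j / 2) : ℝ) : ℂ) • (β (l i) a * X i j - X i j * β (l j) a) ξ) atTop (𝓝 0) := by
    have p1 := fun i j => (Bd.const ha.1).apply_zero (mm_term md tr i j (hX i j))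
    have p2 := fun i j => (bd j).star.rt_apply_zero md.cj (md.sep.tendsto_zero
      (((Bd.const ha.1).mul (bd i)).sub ((bd i).mul (Bd.const (fl.mem (l i) a ha).1)))
      (fl.char (l i) a ha _ (tr.eig i)) (((Real.exp (l j / 2) : ℝ) : ℂ) • X i j ξ))
    have p3 := fun i j => ((bd i).mul (Bd.const (hX i j))).apply_zero
      (fl.char (-l j) _ (fl.mem (l j) a ha) _ ((tr.eig j).star md))
    have p4 := fun i j => mm_term md tr i j (mul_mem (hX i j) (fl.mem (l j) a ha).1)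
    have := tendsto_finsetSum Finset.univ fun i _ => tendsto_finsetSum Finset.univ fun j _ =>
      (((p1 i j).add (p2 i j)).add (p3 i j)).sub (p4 i j)
    simp only [add_zero, sub_zero, Finset.sum_const_zero] at this
    refine this.congr fun n => ?_
    simp only [x, mmA, Finset.mul_sum, Finset.sum_mul, sum_apply, sub_apply,
      ← Finset.sum_sub_distrib]
    refine Finset.sum_congr rfl fun i _ => Finset.sum_congr rfl fun j _ => ?_
    have c1 := md.bi.comm_apply ha.1 (star_mem ((bd j).1 n))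
    have c2 := md.bi.comm_apply ((bd i).1 n) (star_mem ((bd j).1 n))
    rw [← fl.add _ _ a ha, neg_add_cancel, mm_zero fl md ha]
    simp only [mul_apply_eq_comp, map_sub, map_smul, smul_sub, c1, c2]
    abel
  have t3 := ((mm_A_lim md tr fun i j => ((Real.exp (l j / 2) : ℝ) : ℂ) •
    (β (l i) a * X i j - X i j * β (l j) a) ξ).sqrt).sub t2.norm
  have t4 := le_of_tendsto t3 (b := γ) (by
    filter_upwards [t1.norm.eventually (ge_mem_nhds (by rw [norm_zero]; exact half_pos hδ))]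
      with n hn
    have e1 := (pow_le_pow_iff_left₀ (norm_nonneg _) (half_pos hδ).le two_ne_zero).1
      ((mm_A_le md tr n _).trans hd)
    have e2 := hmod (x n) (xm n) (xn n) ((norm_le_norm_add_norm_sub' _ _).trans
      ((add_le_add e1 hn).trans_eq (add_halves δ)))
    rw [Real.sqrt_sq (norm_nonneg _), sub_le_iff_le_add]
    exact (norm_le_norm_add_norm_sub _ _).trans (add_le_add e2 le_rfl))
  rw [norm_zero, sub_zero, Real.sqrt_le_left hγ.le] at t4
  refine le_trans (le_of_eq ?_) t4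
  refine Finset.sum_congr rfl fun i _ => Finset.sum_congr rfl fun j _ => ?_
  rw [norm_smul, mul_pow, Complex.norm_real, Real.norm_of_nonneg (Real.exp_pos _).le,
    ← Real.exp_nat_mul]
  congr 2
  push_cast
  ring

/-- Version with free normalisation of the weights. -/
theorem Flow.mm' (fl : Flow M J ξ F β U) (h : Base M J P ξ F) {a : H →L[ℂ] H}
    (ha : a ∈ Bic M J ξ) {γ : ℝ} (hγ : 0 < γ) :
    ∃ δ : ℝ, 0 < δ ∧ ∀ (ι : Type) [Fintype ι] (l : ι → ℝ) (X : ι → ι → (H →L[ℂ] H)),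
      (∀ i j, X i j ∈ M) → ((∀ i j, X i j ∈ Bic M J ξ) ∨ ∀ s, ∀ b ∈ Bic M J ξ, β s b = b) →
      MBdd 1 X →
      ∑ i, ∑ j, ‖((Real.exp (l j / 2) : ℝ) : ℂ) • X i j ξ -
        ((Real.exp (l i / 2) : ℝ) : ℂ) • rt J (X i j) ξ‖ ^ 2 ≤ δ ^ 2 * ∑ i, Real.exp (l i) →
      ∑ i, ∑ j, Real.exp (l j) * ‖(β (l i) a * X i j - X i j * β (l j) a) ξ‖ ^ 2 ≤
        γ ^ 2 * ∑ i, Real.exp (l i) := by
  have md := h.md
  obtain ⟨δ, hδ, hm⟩ := fl.mm h ha hγ
  refine ⟨δ, hδ, fun ι _ l X hX hor hB hd => ?_⟩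
  rcases isEmpty_or_nonempty ι with hι | hι
  · simp
  obtain ⟨c, hc⟩ : ∃ c, c = ∑ i, Real.exp (l i) := ⟨_, rfl⟩
  have c0 : 0 < c := hc ▸ Finset.sum_pos (fun i _ => Real.exp_pos _) Finset.univ_nonempty
  rw [← hc] at hd ⊢
  obtain ⟨s, hs⟩ : ∃ s, Real.exp s = c⁻¹ := ⟨-Real.log c, by rw [Real.exp_neg, Real.exp_log c0]⟩
  obtain ⟨Y, hY, hYB, e1, e2⟩ : ∃ Y : ι → ι → (H →L[ℂ] H), (∀ i j, Y i j ∈ M) ∧ MBdd 1 Y ∧
      (∀ i j (p q : ℂ), ‖p • Y i j ξ - q • rt J (Y i j) ξ‖ = ‖p • X i j ξ - q • rt J (X i j) ξ‖) ∧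
      ∀ i j, ‖(β (s + l i) a * Y i j - Y i j * β (s + l j) a) ξ‖ =
        ‖(β (l i) a * X i j - X i j * β (l j) a) ξ‖ := by
    rcases hor with hb | triv
    · refine ⟨fun i j => β s (X i j), fun i j => (fl.mem s _ (hb i j)).1, fl.mbdd s ι X hb hB,
        fun i j p q => ?_, fun i j => ?_⟩
      · rw [fl.U_rt s _ (hb i j), ← fl.U_apply s _ (hb i j), ← map_smul (U s), ← map_smul (U s),
          ← map_sub, fl.U_norm]
      · have m1 := fl.mem (l i) a ha
        have m2 := fl.mem (l j) a ha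
        rw [fl.add _ _ a ha, fl.add _ _ a ha, ← fl.mul s _ m1 _ (hb i j), ← fl.mul s _ (hb i j) _ m2,
          sub_apply, ← fl.U_apply s _ (Bic.mul md m1 (hb i j)),
          ← fl.U_apply s _ (Bic.mul md (hb i j) m2), ← map_sub, fl.U_norm, sub_apply]
    · exact ⟨X, hX, hB, fun _ _ _ _ => rfl, fun i j => by simp only [triv _ a ha]⟩
  have := hm ι (fun i => s + l i) (by
      simp only [Real.exp_add, ← Finset.mul_sum, ← hc, hs, inv_mul_cancel₀ c0.ne']) Y hY hYB (by
      have e3 : ‖((Real.exp (s / 2) : ℝ) : ℂ)‖ ^ 2 = c⁻¹ := by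
        rw [Complex.norm_real, Real.norm_of_nonneg (Real.exp_pos _).le, ← Real.exp_nat_mul, ← hs]
        congr 1
        push_cast
        ring
      simp only [e1, add_div, Real.exp_add, Complex.ofReal_mul, mul_smul, ← smul_sub, norm_smul,
        mul_pow, e3, ← Finset.mul_sum]
      rwa [inv_mul_le_iff₀ c0, mul_comm])
  simp only [e2, Real.exp_add, mul_assoc, ← Finset.mul_sum, hs] at this
  rwa [inv_mul_le_iff₀ c0, mul_comm] at this

/-- Toeplitz matrices of bands: one column almost intertwines, on average over the columns. -/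
theorem Flow.toeplitz (fl : Flow M J ξ F β U) (h : Base M J P ξ F) {a : H →L[ℂ] H}
    (ha : a ∈ Bic M J ξ) (C R δ : ℝ) (hδ : 0 < δ) {γ : ℝ} (hγ : 0 < γ) :
    ∀ᶠ ε : ℝ in 𝓝[>] 0, ∀ b ∈ M, ‖b‖ ≤ C →
      (b ∈ Bic M J ξ ∨ ∀ s, ∀ b ∈ Bic M J ξ, β s b = b) →
      ∀ t : Finset ℤ, (∀ k ∈ t, |(k : ℝ) * ε| ≤ R) →
      ∑ j ∈ Finset.range (⌊δ / ε⌋₊ + 1), ∑ k ∈ t,
        ‖(F.band (k * ε) ε b * β (j * ε) a - β (((j : ℝ) - k) * ε) a * F.band (k * ε) ε b) ξ‖ ^ 2 ≤
        γ * (⌊δ / ε⌋₊ + 1) := by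
  classical
  have md := h.md
  obtain ⟨D, hD0, hD⟩ : ∃ D : ℝ, 0 < D ∧ C ≤ D :=
    ⟨|C| + 1, by positivity, by linarith [le_abs_self C]⟩
  obtain ⟨L, hL⟩ : ∃ L, L = |R| + δ := ⟨_, rfl⟩
  have L0 : 0 < L := by rw [hL]; positivity
  obtain ⟨K, hK⟩ : ∃ K, K = (2 * (L / δ) + 3) * Real.exp (L + 1) := ⟨_, rfl⟩
  have K0 : 0 < K := by rw [hK]; positivity
  obtain ⟨d, hd, hm⟩ := fl.mm' h ha (γ := √(γ / (D ^ 2 * K))) (by positivity)
  have hle : ∀ᶠ ε in 𝓝[>] (0 : ℝ), ε ≤ min d 1 :=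
    mem_nhdsWithin_of_mem_nhds (Iic_mem_nhds (lt_min hd one_pos))
  filter_upwards [hle, (self_mem_nhdsWithin : ∀ᶠ ε in 𝓝[>] (0 : ℝ), 0 < ε)]
    with ε hε' hε b hb hbC hor t ht
  replace hε : 0 < ε := hε
  obtain ⟨hεd, hε1⟩ := le_min_iff.1 hε'
  obtain ⟨N, hN⟩ : ∃ N : ℕ, N = ⌈L / ε⌉₊ := ⟨_, rfl⟩
  obtain ⟨m, hmm⟩ : ∃ m : ℕ, m = ⌊δ / ε⌋₊ := ⟨_, rfl⟩
  have N1 : L ≤ N * ε := by rw [← div_le_iff₀ hε, hN]; exact Nat.le_ceil _
  have N2 : (N : ℝ) < L / ε + 1 := hN ▸ Nat.ceil_lt_add_one (by positivity)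
  have m1 : (m : ℝ) * ε ≤ δ := by rw [← le_div_iff₀ hε, hmm]; exact Nat.floor_le (by positivity)
  have m2 : δ / ε < m + 1 := hmm ▸ Nat.lt_floor_add_one _
  rw [← hmm]
  let S : Finset ℤ := Finset.Icc (-(N : ℤ)) N
  have hS : ∀ i : ℤ, i ∈ S ↔ |(i : ℝ)| ≤ N := fun i => by
    rw [Finset.mem_Icc, ← abs_le]
    exact_mod_cast Iff.rfl
  let Z : ℤ → ℤ → H →L[ℂ] H := fun i j => ((D⁻¹ : ℝ) : ℂ) • F.band ((j - i : ℤ) * ε) ε b
  have nD : ‖((D⁻¹ : ℝ) : ℂ)‖ = D⁻¹ := by
    rw [Complex.norm_real, Real.norm_of_nonneg (by positivity)]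
  have hB : MBdd 1 fun i j : S => Z i j := fun η => by
    have := (F.mbdd_toeplitz hε b (fun i : S => (i : ℤ)) Subtype.val_injective).mono
      (norm_nonneg _) (hbC.trans hD) η
    simp only [Z, smul_apply, ← Finset.smul_sum, norm_smul, mul_pow, nD, ← Finset.mul_sum]
    rw [inv_pow, inv_mul_le_iff₀ (by positivity), one_pow, one_mul]
    exact this
  have hcol : ∀ j : S, ∑ i : S, ‖Z i j ξ‖ ^ 2 ≤ 1 := fun j => by
    have := hB (Pi.single j ξ)
    simp only [Pi.single_apply, apply_ite (Z _ _), map_zero, Finset.sum_ite_eq', Finset.mem_univ,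
      if_true, apply_ite (fun ζ : H => ‖ζ‖ ^ 2), h.norm, norm_zero] at this
    simpa using this
  have hc : ∑ i : S, Real.exp ((i : ℤ) * ε) ≤ K * (m + 1) := by
    have e1 : ∀ i : S, Real.exp ((i : ℤ) * ε) ≤ Real.exp (L + 1) := fun i => by
      have := (le_abs_self _).trans ((hS i).1 i.2)
      have e2 : L / ε * ε = L := div_mul_cancel₀ _ hε.ne'
      exact Real.exp_le_exp.2 (by nlinarith)
    refine (Finset.sum_le_sum fun i _ => e1 i).trans ?_
    have e2 : (Finset.univ : Finset S).card = 2 * N + 1 := by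
      simp only [Finset.card_univ, Fintype.card_coe, S, Int.card_Icc]
      omega
    have e3 : L / ε ≤ L / δ * (m + 1) := by
      rw [show L / ε = L / δ * (δ / ε) by field_simp]
      gcongr
    rw [Finset.sum_const, e2, nsmul_eq_mul, hK, mul_right_comm]
    push_cast
    gcongr
    nlinarith [Nat.cast_nonneg (α := ℝ) m]
  have key := hm S (fun i => (i : ℤ) * ε) (fun i j => Z i j)
    (fun i j => M.toStarSubalgebra.smul_mem (md.band_mem hε _ hb) _)
    (hor.imp_left fun hb' i j => Bic.smul _ (Bic.band md hb' _ hε)) hB (by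
      rw [Finset.sum_comm, Finset.mul_sum]
      refine Finset.sum_le_sum fun j _ => ?_
      refine le_trans (Finset.sum_le_sum
        (g := fun i : S => d ^ 2 * Real.exp ((j : ℤ) * ε) * ‖Z i j ξ‖ ^ 2) fun i _ => ?_) ?_
      · have e1 := md.band_df hε hε1 (((j : ℤ) - (i : ℤ) : ℤ) * ε) hb
        have e2 : Real.exp ((j : ℤ) * ε / 2) =
            Real.exp ((i : ℤ) * ε / 2) * Real.exp (((j : ℤ) - (i : ℤ) : ℤ) * ε / 2) := by
          rw [← Real.exp_add]
          congr 1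
          push_cast
          ring
        have e3 : Real.exp ((j : ℤ) * ε) = Real.exp ((j : ℤ) * ε / 2) ^ 2 := by
          rw [← Real.exp_nat_mul]
          congr 1
          push_cast
          ring
        rw [e3, e2, ← mul_pow, ← mul_pow]
        refine pow_le_pow_left₀ (norm_nonneg _) ?_ 2
        simp only [Z, rt_smul, smul_apply, Complex.ofReal_mul, mul_smul]
        rw [← smul_sub, smul_comm _ ((D⁻¹ : ℝ) : ℂ), ← smul_sub, norm_smul, norm_smul, norm_smul,
          Complex.norm_real, Real.norm_of_nonneg (Real.exp_pos _).le, nD]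
        replace e1 := e1.trans (mul_le_mul_of_nonneg_right
          (mul_le_mul_of_nonneg_right hεd (Real.exp_pos _).le) (norm_nonneg _))
        refine (mul_le_mul_of_nonneg_left (mul_le_mul_of_nonneg_left e1 (by positivity))
          (by positivity)).trans_eq ?_
        ring
      · rw [← Finset.mul_sum]
        exact mul_le_of_le_one_right (by positivity) (hcol j))
  let G : ℤ → ℤ → ℝ := fun i j =>
    Real.exp (j * ε) * ‖(β (i * ε) a * Z i j - Z i j * β (j * ε) a) ξ‖ ^ 2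
  have G0 : ∀ i j, 0 ≤ G i j := fun i j => by positivity
  rw [Finset.sum_comm, Real.sq_sqrt (by positivity)] at key
  change ∑ j : S, ∑ i : S, G i j ≤ _ at key
  rw [Finset.sum_congr rfl fun (j : S) _ => Finset.sum_coe_sort S fun i => G i j,
    Finset.sum_coe_sort S (fun j => ∑ i ∈ S, G i j)] at key
  have hj : ∀ j ∈ Finset.range (m + 1), (j : ℝ) * ε ≤ δ := fun j hj =>
    (mul_le_mul_of_nonneg_right (Nat.cast_le.2 (Nat.lt_succ_iff.1 (Finset.mem_range.1 hj)))
      hε.le).trans m1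
  calc _ ≤ ∑ j ∈ Finset.range (m + 1), D ^ 2 * ∑ i ∈ S, G i j := by
        refine Finset.sum_le_sum fun j hj' => ?_
        have j0 : 0 ≤ (j : ℝ) * ε := by positivity
        calc _ ≤ ∑ k ∈ t, D ^ 2 * G (j - k) j := by
              refine Finset.sum_le_sum fun k _ => ?_
              simp only [G, Z, sub_sub_cancel, mul_smul_comm, smul_mul_assoc, ← smul_sub,
                smul_apply, norm_smul, nD, Int.cast_sub, Int.cast_natCast]
              rw [mul_pow, inv_pow, mul_left_comm, mul_inv_cancel_left₀ (by positivity), sub_apply,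
                sub_apply, norm_sub_rev]
              exact le_mul_of_one_le_left (sq_nonneg _) (Real.one_le_exp j0)
          _ = D ^ 2 * ∑ i ∈ t.image fun k => (j : ℤ) - k, G i j := by
              rw [Finset.sum_image fun _ _ _ _ e => sub_right_injective e, Finset.mul_sum]
          _ ≤ _ := by
              refine mul_le_mul_of_nonneg_left (Finset.sum_le_sum_of_subset_of_nonneg
                (fun i hi => ?_) fun i _ _ => G0 i j) (sq_nonneg _)
              obtain ⟨k, hk, rfl⟩ := Finset.mem_image.1 hi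
              have e1 := abs_le.1 ((ht k hk).trans (le_abs_self R))
              have e2 := hj j hj'
              rw [hS, ← mul_le_mul_iff_left₀ hε, ← abs_of_pos hε, ← abs_mul, abs_of_pos hε, abs_le]
              push_cast
              constructor <;> nlinarith
    _ = D ^ 2 * ∑ j ∈ (Finset.range (m + 1)).image (Nat.cast : ℕ → ℤ), ∑ i ∈ S, G i j := by
        rw [Finset.sum_image fun _ _ _ _ e => Nat.cast_injective e, Finset.mul_sum]
    _ ≤ D ^ 2 * ∑ j ∈ S, ∑ i ∈ S, G i j := by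
        refine mul_le_mul_of_nonneg_left (Finset.sum_le_sum_of_subset_of_nonneg
          (fun i hi => ?_) fun j _ _ => Finset.sum_nonneg fun i _ => G0 i j) (sq_nonneg _)
        obtain ⟨j, hj', rfl⟩ := Finset.mem_image.1 hi
        have e2 := hj j hj'
        rw [hS, Int.cast_natCast, Nat.abs_cast, ← mul_le_mul_iff_left₀ hε]
        linarith [abs_nonneg R]
    _ ≤ D ^ 2 * (γ / (D ^ 2 * K) * (K * (m + 1))) := by
        gcongr
        exact key.trans (by gcongr)
    _ = _ := by field_simp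

end Vale.Agent.P132
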