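import Vale.Agent.P132.Braid
import Vale.Agent.P132.Arv

/-! The spectrum on the bicentralizer is the whole line. -/

open scoped InnerProductSpace Topology ComplexConjugate
open Filter MeasureTheory

namespace Vale.Agent.P132

open Vale.Agent.P104

variable {H : Type*} [NormedAddCommGroup H] [InnerProductSpace ℂ H] [CompleteSpace H]
  {M : VonNeumannAlgebra H} {J : H →L⋆[ℂ] H} {P : Set H} {ξ : H} {F : FC H}

variable {β : ℝ → (H →L[ℂ] H) → (H →L[ℂ] H)} {U : ℝ → (H →L[ℂ] H)}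

/-- The spectrum of the modular flow on the bicentralizer is a group. -/
theorem Erg.exists_group₉ (e : Erg M J ξ F) (h : Mod M J ξ F) (hn : ‖ξ‖ = 1) :
    ∃ Γ : AddSubgroup ℝ, ∀ s, s ∈ Γ ↔ ∀ δ : ℝ, 0 < δ →
      ∃ y ∈ Bic M J ξ, y ξ ≠ 0 ∧ F.Supp (y ξ) (Set.Icc (s - δ) (s + δ)) := by
  refine ⟨{ carrier := {s | ∀ δ : ℝ, 0 < δ →
              ∃ y ∈ Bic M J ξ, y ξ ≠ 0 ∧ F.Supp (y ξ) (Set.Icc (s - δ) (s + δ))}
            add_mem' := fun {a b} ha hb δ hδ => ?_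
            zero_mem' := fun δ hδ => ?_
            neg_mem' := fun {a} ha δ hδ => ?_ }, fun s => Iff.rfl⟩
  · obtain ⟨y, hy, y0, hS⟩ := ha _ (half_pos hδ)
    obtain ⟨z, hz, z0, hS'⟩ := hb _ (half_pos hδ)
    have hp : 0 < ‖y ξ‖ ^ 2 * ‖z ξ‖ ^ 2 :=
      mul_pos (pow_pos (norm_pos_iff.2 y0) 2) (pow_pos (norm_pos_iff.2 z0) 2)
    obtain ⟨ε, h1, hε⟩ := (((e.norm_sq h hy (z ξ)).eventually (lt_mem_nhds hp)).and
      self_mem_nhdsWithin).exists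
    obtain ⟨t, ht⟩ := exists_pos_of_mn hε h1
    refine ⟨F.σ t y * z, Bic.mul h (Bic.σ h hy t) hz, fun e0 => ?_, ?_⟩
    · rw [mul_apply_eq_comp] at e0
      rw [e0, norm_zero, zero_pow two_ne_zero] at ht
      exact lt_irrefl _ ht
    · have hS1 : F.Supp (F.σ t y ξ) (Set.Icc (a - δ / 2) (a + δ / 2)) := by
        rw [h.σ_xi]
        exact F.supp_f (bc_ex t) hS isClosed_Icc fun s h1 h2 => (h2 h1).elim
      refine (h.supp_mul (h.sigma_mem t y (Bic.mem hy)) hS1 hS').mono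
        (Set.Icc_subset_Icc ?_ ?_) <;> linarith
  · refine ⟨1, Bic.one, fun e0 => ?_, (F.supp_iff isClosed_Icc).2 fun g hg h0 => ?_⟩
    · rw [one_apply_eq_self] at e0
      rw [e0, norm_zero] at hn
      exact zero_ne_one hn
    · rw [one_apply_eq_self, h.f_xi g hg, h0 0 ⟨by linarith, by linarith⟩, zero_smul]
  · obtain ⟨y, hy, y0, hS⟩ := ha δ hδ
    refine ⟨star y, Bic.star h hy, fun e0 => y0 ?_, (h.supp_star (Bic.mem hy) hS).mono
      (Set.Icc_subset_Icc (by linarith) (by linarith))⟩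
    rw [star_eq_zero.1 (h.sep _ (star_mem (Bic.mem hy)) e0)]
    rfl

theorem Flow.sp_all (fl : Flow M J ξ F β U) (h : Base M J P ξ F) {a : H →L[ℂ] H}
    (ha : a ∈ Bic M J ξ) (h0 : ⟪ξ, a ξ⟫_ℂ = 0) (hne : a ξ ≠ 0) (s : ℝ) {δ : ℝ} (hδ : 0 < δ) :
    ∃ y ∈ Bic M J ξ, ‖y ξ‖ = 1 ∧ F.Supp (y ξ) (Set.Icc (s - δ) (s + δ)) := by
  obtain ⟨Γ, hΓ⟩ := (fl.erg h).exists_group₉ h.md h.norm
  let L : Submodule ℂ H := BK M J ξ ⊓ (ℂ ∙ ξ)ᗮ
  have hL : ∀ η, η ∈ L ↔ η ∈ BK M J ξ ∧ ⟪ξ, η⟫_ℂ = 0 := fun η => by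
    rw [Submodule.mem_inf, Submodule.mem_orthogonal_singleton_iff_inner_right]
  have hSp : ∀ p ∈ F.Sp L, p ∈ Γ := fun p hp => (hΓ p).2 fun γ hγ => by
    obtain ⟨η, hη, h1⟩ := hp γ hγ
    obtain ⟨b, hb, h2⟩ := BK.approx ((hL η).1 hη).1 (half_pos (norm_pos_iff.2 h1))
    refine ⟨F.band p γ b, Bic.band h.md hb p hγ, fun e0 => ?_, h.md.band_supp hγ p b⟩
    rw [h.md.band_xi hγ] at e0
    have h3 := F.norm_le (bc_tri p hγ) (F.supp_univ (η - b ξ)) zero_le_one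
      fun r _ => norm_tri_le p hγ r
    rw [map_sub, e0, sub_zero] at h3
    linarith [norm_pos_iff.2 h1]
  have hD : Dense (Γ : Set ℝ) := by
    refine AddSubgroup.dense_of_not_isolated_zero Γ fun γ hγ => ?_
    obtain ⟨p, hp, q, hq, hpq, h1⟩ := F.exists_close (L := L) (fun g hg η hη => (hL _).2
      ⟨BK.f_mem h.md hg ((hL η).1 hη).1, by
        have := F.inner_f hg.cj ξ η
        simp only [Complex.conj_conj] at this
        rw [← this, h.md.f_xi _ hg.cj, inner_smul_left, ((hL η).1 hη).2, mul_zero]⟩)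
      ⟨a ξ, (hL _).2 ⟨BK.mem ha, h0⟩, hne⟩
      (fun r η hη hS => fl.noeig h ((hL η).1 hη).1 ((hL η).1 hη).2 hS) hγ
    obtain ⟨h2, h3⟩ := abs_lt.1 h1
    rcases lt_or_gt_of_ne hpq with h4 | h4
    · exact ⟨q - p, sub_mem (hSp q hq) (hSp p hp), by linarith, by linarith⟩
    · exact ⟨p - q, sub_mem (hSp p hp) (hSp q hq), by linarith, by linarith⟩
  obtain ⟨r, hr, h1, h2⟩ := hD.exists_between (show s - δ / 2 < s + δ / 2 by linarith)
  obtain ⟨y, hy, y0, hS⟩ := (hΓ r).1 hr _ (half_pos hδ)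
  refine ⟨((‖y ξ‖⁻¹ : ℝ) : ℂ) • y, Bic.smul _ hy, ?_, F.supp_smul _ isClosed_Icc
    (hS.mono (Set.Icc_subset_Icc (by linarith) (by linarith)))⟩
  rw [smul_apply, norm_smul, Complex.norm_real, norm_inv, norm_norm,
    inv_mul_cancel₀ (norm_ne_zero_iff.2 y0)]

theorem Flow.mixAll (fl : Flow M J ξ F β U) (h : Base M J P ξ F)
    (triv : ∀ s, ∀ b ∈ Bic M J ξ, β s b = b) {a : H →L[ℂ] H} (ha : a ∈ Bic M J ξ)
    (h0 : ⟪ξ, a ξ⟫_ℂ = 0) (hne : a ξ ≠ 0) : MixAll M J ξ F := by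
  intro s δ hδ
  have he := Real.exp_pos (s / 2)
  have hp : 0 < min 1 (δ / Real.exp (s / 2)) := lt_min one_pos (div_pos hδ he)
  obtain ⟨y, hy, h1, hS⟩ := fl.sp_all h ha h0 hne s hp
  refine ⟨y, fl.mix h triv hy, h1,
    (h.md.df_le_of_supp (Bic.mem hy) hp.le (min_le_left _ _) hS).trans ?_⟩
  rw [h1, mul_one, ← le_div_iff₀ he]
  exact min_le_right _ _

end Vale.Agent.P132
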