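import Vale.Agent.P132.Tomita
import Vale.Agent.P132.Spec
import Vale.Agent.P132.Wrap
import Vale.Agent.P132.InfA

/-! Full modular spectra force type III. -/

open scoped InnerProductSpace Topology ComplexConjugate
open Filter MeasureTheory

namespace Vale.Agent.P132

open Vale.Agent.P104

universe u

variable {H : Type u} [NormedAddCommGroup H] [InnerProductSpace ℂ H] [CompleteSpace H]
  {M : VonNeumannAlgebra H} {J : H →L⋆[ℂ] H} {P : Set H} {ξ : H} {F : FC H}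

omit [CompleteSpace H] in
theorem TyAux.exists_weights {w : ℕ → H} {C : ℝ} (hw : ∀ n, ‖w n‖ ≤ C) (h0 : ∃ n, w n ≠ 0) :
    ∃ d : ℕ → ℝ, (∀ n, 0 < d n) ∧ (∀ n, d n = 10 * d (n + 1)) ∧
      HasSum (fun n => ‖(d n : ℂ) • w n‖ ^ 2) 1 := by
  have hsum : Summable fun n => ((1 / 10 : ℝ) ^ n) ^ 2 * ‖w n‖ ^ 2 := by
    refine Summable.of_nonneg_of_le (fun n => by positivity) (fun n => ?_)
      ((summable_geometric_of_lt_one (r := (1 / 10 : ℝ) ^ 2) (by positivity)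
        (by norm_num)).mul_right (C ^ 2))
    rw [← pow_mul, ← pow_mul, mul_comm n 2]
    exact mul_le_mul_of_nonneg_left (pow_le_pow_left₀ (norm_nonneg _) (hw n) 2) (by positivity)
  obtain ⟨n, hn⟩ := h0
  have hZ : 0 < ∑' n, ((1 / 10 : ℝ) ^ n) ^ 2 * ‖w n‖ ^ 2 :=
    hsum.tsum_pos (fun n => by positivity) n (by have := norm_pos_iff.2 hn; positivity)
  set Z := ∑' n, ((1 / 10 : ℝ) ^ n) ^ 2 * ‖w n‖ ^ 2
  refine ⟨fun n => (1 / 10) ^ n / √Z, fun n => by positivity, fun n => by ring, ?_⟩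
  have h1 := hsum.hasSum.div_const Z
  rw [div_self hZ.ne'] at h1
  have e : ∀ n, ‖(((1 / 10) ^ n / √Z : ℝ) : ℂ) • w n‖ ^ 2 =
      ((1 / 10 : ℝ) ^ n) ^ 2 * ‖w n‖ ^ 2 / Z := fun n => by
    rw [norm_smul, Complex.norm_real, mul_pow, Real.norm_eq_abs, sq_abs, div_pow,
      Real.sq_sqrt hZ.le]
    ring
  simp only [e]
  exact h1

omit [CompleteSpace H] in
theorem TyAux.hasSum_state {z : ℕ → H} (hz : Summable fun n => ‖z n‖ ^ 2) (x : H →L[ℂ] H) :
    HasSum (fun n => ⟪z n, x (z n)⟫_ℂ) (∑' n, ⟪z n, x (z n)⟫_ℂ) := by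
  refine (Summable.of_norm_bounded (hz.mul_left ‖x‖) fun n => ?_).hasSum
  calc ‖⟪z n, x (z n)⟫_ℂ‖ ≤ ‖z n‖ * (‖x‖ * ‖z n‖) := (norm_inner_le_norm _ _).trans
        (mul_le_mul_of_nonneg_left (x.le_opNorm _) (norm_nonneg _))
    _ = _ := by ring

theorem TyAux.eq_zero {z : ℕ → H} {x : H →L[ℂ] H}
    (h : HasSum (fun n => ⟪z n, (star x * x) (z n)⟫_ℂ) 0) (n : ℕ) : x (z n) = 0 := by
  have h1 := Complex.reCLM.hasSum h
  simp only [Complex.reCLM_apply, ← norm_sq_apply, Complex.zero_re] at h1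
  have h2 := congrFun ((hasSum_zero_iff_of_nonneg fun n => sq_nonneg _).1 h1) n
  exact norm_eq_zero.1 (pow_eq_zero_iff two_ne_zero |>.1 h2)

/-- A self-adjoint element on which the state is tracial is in the centralizer. -/
theorem TyAux.cen (h : Mod M J ξ F) {p : H →L[ℂ] H} (hp : p ∈ M) (hsa : star p = p)
    (htr : ∀ x ∈ M, ⟪ξ, (x * p) ξ⟫_ℂ = ⟪ξ, (p * x) ξ⟫_ℂ) : rt J p ξ = p ξ := by
  have h1 : (p ξ, p ξ) ∈ graphDelta (gr M ξ) := by
    refine ⟨p ξ, by simpa only [hsa] using mem_gr (ξ := ξ) hp, ?_⟩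
    refine closure_minimal (t := {q : H × H | ⟪q.1, p ξ⟫_ℂ = ⟪p ξ, q.2⟫_ℂ}) ?_
      (isClosed_eq (by fun_prop) (by fun_prop))
    rintro _ ⟨x, hx, rfl⟩
    change ⟪x ξ, p ξ⟫_ℂ = ⟪p ξ, star x ξ⟫_ℂ
    rw [← inner_star_right x, ← inner_star_right p, hsa]
    exact htr _ (star_mem hx)
  rw [SpAux.mem_delta h.pre, F.f_f bc_fa bc_fa, F.f_f bc_fb bc_fb, ← sub_eq_zero, ← sub_apply,
    ← F.f_sub (bc_fa.mul bc_fa) (bc_fb.mul bc_fb)] at h1
  have h2 : F.Supp (p ξ) {0} :=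
    (F.supp_of_f_eq_zero ((bc_fa.mul bc_fa).sub (bc_fb.mul bc_fb)) h1).mono fun s hs => by
      have h3 : (1 - (Real.exp s : ℝ) : ℂ) * (fa s * fa s) = 0 := by
        rw [sub_mul, one_mul, ← SpAux.fb_sq]; exact hs
      have h4 := (mul_eq_zero.1 h3).resolve_right (mul_ne_zero (fa_ne_zero s) (fa_ne_zero s))
      have h5 : Real.exp s = 1 := by exact_mod_cast (sub_eq_zero.1 h4).symm
      exact Real.exp_eq_one_iff s |>.1 h5
  simpa using h.rt_of_supp hp h2

theorem TyAux.window (F : FC H) {ρ : H} (hρ : F.Supp ρ (Set.Icc (5 / 2 - 1 / 2) (5 / 2 + 1 / 2))) :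
    ‖F.f fa ρ‖ ^ 2 ≤ 1 / 3 * ‖F.f fb ρ‖ ^ 2 ∧ ‖F.f fb ρ‖ ^ 2 ≤ 27 * ‖F.f fa ρ‖ ^ 2 := by
  have e : ∀ s, ‖fb s‖ ^ 2 = Real.exp s * ‖fa s‖ ^ 2 := fun s => by
    rw [sq, ← norm_mul, SpAux.fb_sq, norm_mul, norm_mul, Complex.norm_real,
      Real.norm_of_nonneg (Real.exp_pos s).le, sq]
  constructor
  · have := F.sum_le ({()} : Finset Unit) ({()} : Finset Unit) (g := fun _ => fa)
      (k := fun _ => fb) (fun _ _ => bc_fa) (fun _ _ => bc_fb) hρ (C := 1 / 3) fun s hs => by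
        have h1 := Real.add_one_le_exp s
        have h2 := hs.1
        simp only [Finset.sum_singleton, e]
        nlinarith [sq_nonneg ‖fa s‖]
    simpa only [Finset.sum_singleton] using this
  · have := F.sum_le ({()} : Finset Unit) ({()} : Finset Unit) (g := fun _ => fb)
      (k := fun _ => fa) (fun _ _ => bc_fb) (fun _ _ => bc_fa) hρ (C := 27) fun s hs => by
        have h1 : Real.exp s ≤ Real.exp 1 ^ 3 := by
          rw [← Real.exp_nat_mul]
          exact Real.exp_le_exp.2 (by have := hs.2; push_cast; linarith)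
        have h2 : Real.exp 1 ^ 3 ≤ 3 ^ 3 :=
          pow_le_pow_left₀ (Real.exp_pos 1).le Real.exp_one_lt_three.le 3
        simp only [Finset.sum_singleton, e]
        nlinarith [sq_nonneg ‖fa s‖]
    simpa only [Finset.sum_singleton] using this

/-- Two sided ratio bounds on a corner exclude the window of the spectrum. -/
theorem TyAux.corner (h : Mod M J ξ F) {p q : H →L[ℂ] H} (hp : p ∈ M) (hq : q ∈ M)
    (hp' : rt J p ξ = p ξ) (hq' : rt J q ξ = q ξ) {c c' : ℝ} (hc : 0 < c)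
    (hcc : c' ≤ c ∨ 100 * c ≤ c')
    (H1 : ∀ x ∈ M, c * ‖star (p * x * q) ξ‖ ^ 2 ≤ 2 * c' * ‖(p * x * q) ξ‖ ^ 2 ∧
      c' * ‖(p * x * q) ξ‖ ^ 2 ≤ 2 * c * ‖star (p * x * q) ξ‖ ^ 2) (η : H) :
    p (rt J q (F.f (tri (5 / 2) (1 / 2)) η)) = 0 := by
  have H2 : ∀ z ∈ gr M ξ, c * ‖p (rt J q (J z.2))‖ ^ 2 ≤ 2 * c' * ‖p (rt J q z.1)‖ ^ 2 ∧
      c' * ‖p (rt J q z.1)‖ ^ 2 ≤ 2 * c * ‖p (rt J q (J z.2))‖ ^ 2 := by
    refine closure_minimal (t := {z : H × H |
      c * ‖p (rt J q (J z.2))‖ ^ 2 ≤ 2 * c' * ‖p (rt J q z.1)‖ ^ 2 ∧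
      c' * ‖p (rt J q z.1)‖ ^ 2 ≤ 2 * c * ‖p (rt J q (J z.2))‖ ^ 2}) ?_
      (IsClosed.and (isClosed_le (by fun_prop) (by fun_prop))
        (isClosed_le (by fun_prop) (by fun_prop)))
    rintro _ ⟨x, hx, rfl⟩
    have e1 : p (rt J q (x ξ)) = (p * x * q) ξ := by
      rw [← h.bi.comm_apply hx hq, hq']; rfl
    have e2 : ‖p (rt J q (J (star x ξ)))‖ = ‖star (p * x * q) ξ‖ := by
      rw [← h.rt_xi, ← h.cj.rt_mul_apply, h.bi.comm_apply hp (mul_mem hx hq), ← hp',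
        ← h.cj.rt_mul_apply, h.cj.norm_rt_fix h.fix, mul_assoc]
    change _ ∧ _
    simp only [e1, e2]
    exact H1 x hx
  have hcomm : ∀ g, BC g → ∀ ρ, p (rt J q (F.f g ρ)) = F.f g (p (rt J q ρ)) := fun g hg ρ => by
    have a1 := congrArg (fun T : H →L[ℂ] H => T ρ) (h.rt_comm_of_cen hq hq' hg)
    have a2 := congrArg (fun T : H →L[ℂ] H => T (rt J q ρ)) (h.comm_of_cen hp hp' hg)
    exact (congrArg p a1).trans a2
  have ht := bc_tri (5 / 2) (δ := 1 / 2) (by norm_num)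
  obtain ⟨b1, b2⟩ := H2 (F.f fa (F.f (tri (5 / 2) (1 / 2)) η),
    J (F.f fb (F.f (tri (5 / 2) (1 / 2)) η))) ((h.pre.graph _ _).2 ⟨_, rfl, h.cj.inv _⟩)
  simp only [h.cj.inv, hcomm _ bc_fa, hcomm _ bc_fb] at b1 b2
  obtain ⟨w1, w2⟩ := TyAux.window F (ρ := p (rt J q (F.f (tri (5 / 2) (1 / 2)) η)))
    (by rw [hcomm _ ht]; exact F.supp_tri (by norm_num) _ _)
  refine F.inj bc_fa fa_ne_zero (norm_eq_zero.1 (pow_eq_zero_iff two_ne_zero |>.1
    (le_antisymm ?_ (sq_nonneg _))))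
  set A := ‖F.f fa (p (rt J q (F.f (tri (5 / 2) (1 / 2)) η)))‖ ^ 2
  set B := ‖F.f fb (p (rt J q (F.f (tri (5 / 2) (1 / 2)) η)))‖ ^ 2
  have hA : 0 ≤ A := sq_nonneg _
  refine le_of_mul_le_mul_left ?_ hc
  rcases hcc with h1 | h1
  · nlinarith [mul_le_mul_of_nonneg_left w1 hc.le, mul_le_mul_of_nonneg_right h1 hA]
  · nlinarith [mul_le_mul_of_nonneg_left w2 hc.le, mul_le_mul_of_nonneg_right h1 hA]

theorem TyAux.weights_cases {d : ℕ → ℝ} (h0 : ∀ n, 0 < d n) (h1 : ∀ n, d n = 10 * d (n + 1))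
    (m n : ℕ) : d m ^ 2 ≤ d n ^ 2 ∨ 100 * d n ^ 2 ≤ d m ^ 2 := by
  have ha : Antitone d := antitone_nat_of_succ_le fun n => by linarith [h0 (n + 1), h1 n]
  rcases le_or_gt n m with h | h
  · exact .inl (pow_le_pow_left₀ (h0 m).le (ha h) 2)
  · have h2 := ha (Nat.succ_le_of_lt h)
    have h3 := h1 m
    exact .inr (by nlinarith [h0 n, h0 (m + 1)])

theorem ratio_of_full (hM : IsFactor M) (hF : FullSpec M) (hs : Sep M ξ) {e : H →L[ℂ] H}
    (heM : e ∈ M) (he : IsStarProjection e) (h0 : e ≠ 0) :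
    ∃ x ∈ M, e * x * e = x ∧ 2 * ‖x ξ‖ ^ 2 < ‖star x ξ‖ ^ 2 := by
  by_contra hcon
  push Not at hcon
  obtain ⟨v, hv1, hv2, hv3⟩ := exists_cover hM hs heM he h0
  have hvM := fun n => (hv1 n).1
  have hPM : ∀ n, v n * star (v n) ∈ M := fun n => mul_mem (hvM n) (star_mem (hvM n))
  have hP : ∀ n, IsStarProjection (v n * star (v n)) := fun n => (hv1 n).2.1.fin
  have hall : ∀ η, (∀ n, star (v n) η = 0) → η = 0 := fun η h => by
    have h1 := hv3 η
    simp only [mul_apply_eq_comp, h, map_zero] at h1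
    exact h1.unique hasSum_zero
  obtain ⟨d, hd0, hd1, hd2⟩ := TyAux.exists_weights (w := fun n => v n ξ)
    (fun n => (hv1 n).2.1.norm_apply_le ξ) (by
      by_contra h
      push Not at h
      refine h0 (ContinuousLinearMap.ext fun η => hall _ fun n => ?_)
      rw [hs _ (hvM n) (h n), star_zero]
      rfl)
  let z : ℕ → H := fun n => (d n : ℂ) • v n ξ
  let ψ : (H →L[ℂ] H) → ℂ := fun x => ∑' n, ⟪z n, x (z n)⟫_ℂ
  have hψ : ∀ x, HasSum (fun n => ⟪z n, x (z n)⟫_ℂ) (ψ x) := TyAux.hasSum_state hd2.summable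
  have hz1 : ∀ n, (v n * star (v n)) (z n) = z n := fun n => by
    simp only [z, map_smul]
    rw [← mul_apply_eq_comp, (hv1 n).2.1]
  have hz2 : ∀ n k, k ≠ n → (v n * star (v n)) (z k) = 0 := fun n k hk => by
    simp only [z, map_smul]
    rw [← mul_apply_eq_comp, mul_assoc, hv2 hk.symm, mul_zero]
    simp
  have hψr : ∀ n x, ψ (x * (v n * star (v n))) = ⟪z n, x (z n)⟫_ℂ := fun n x => by
    refine (tsum_eq_single n fun k hk => ?_).trans ?_
    · rw [mul_apply_eq_comp, hz2 n k hk, map_zero, inner_zero_right]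
    · rw [mul_apply_eq_comp, hz1]
  have hψl : ∀ n x, ψ (v n * star (v n) * x) = ⟪z n, x (z n)⟫_ℂ := fun n x => by
    refine (tsum_eq_single n fun k hk => ?_).trans ?_
    · rw [mul_apply_eq_comp, ← inner_star_left, (hP n).isSelfAdjoint.star_eq, hz2 n k hk,
        inner_zero_left]
    · rw [mul_apply_eq_comp, ← inner_star_left, (hP n).isSelfAdjoint.star_eq, hz1]
  have hzz : ∀ n (x : H →L[ℂ] H), ‖x (z n)‖ ^ 2 = d n ^ 2 * ‖x (v n ξ)‖ ^ 2 := fun n x => by
    simp only [z, map_smul]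
    rw [norm_smul, Complex.norm_real, mul_pow, Real.norm_eq_abs, sq_abs]
  obtain ⟨K, _, _, _, N, ζ, π, hR⟩ := exists_std (M := M) (φ := ψ) ⟨z, hd2, fun x _ => hψ x⟩
    fun x hx hx0 => by
      have h1 : ∀ n, x * v n = 0 := fun n => hs _ (mul_mem hx (hvM n)) (by
        have h2 := TyAux.eq_zero (hx0 ▸ hψ (star x * x)) n
        simp only [z, map_smul, smul_eq_zero, Complex.ofReal_eq_zero, (hd0 n).ne',
          false_or] at h2
        exact h2)
      ext η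
      have h2 := x.hasSum (hv3 η)
      simp only [← mul_apply_eq_comp, ← mul_assoc, h1, zero_mul, zero_apply] at h2
      exact h2.unique hasSum_zero
  obtain ⟨J, F, hmod⟩ := exists_mod hR.cyc hR.sep
  have hζ : ζ ≠ 0 := norm_ne_zero_iff.1 (by rw [hR.norm]; exact one_ne_zero)
  refine (hR.fullSpec hF).tri_ne_zero hR.cyc hR.sep hζ hmod.pre (5 / 2) (δ := 1 / 2) (by norm_num)
    (ContinuousLinearMap.ext fun η => ?_)
  have hnorm : ∀ y ∈ M, ‖π y ζ‖ ^ 2 = (ψ (star y * y)).re := fun y hy => by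
    rw [norm_sq_apply, ← hR.star y hy, ← hR.mul _ (star_mem hy) _ hy,
      hR.state _ (mul_mem (star_mem hy) hy)]
  have hcen : ∀ n, rt J (π (v n * star (v n))) ζ = π (v n * star (v n)) ζ := fun n => by
    refine TyAux.cen hmod (hR.mem _ (hPM n))
      (by rw [← hR.star _ (hPM n), (hP n).isSelfAdjoint.star_eq]) fun x hx => ?_
    obtain ⟨y, hy, rfl⟩ := hR.surj x hx
    rw [← hR.mul _ hy _ (hPM n), ← hR.mul _ (hPM n) _ hy, hR.state _ (mul_mem hy (hPM n)),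
      hR.state _ (mul_mem (hPM n) hy), hψr, hψl]
  have hone : ∀ θ : K, (∀ n, π (v n * star (v n)) θ = 0) → θ = 0 := fun θ hθ => by
    obtain ⟨y, hy1, hy2⟩ := hR.vec θ
    have h1 : ∀ k, y k = 0 := fun k => hall _ fun n => by
      have h2 := hy2 _ (hPM n)
      rw [hθ, inner_zero_right] at h2
      exact TyAux.eq_zero (x := star (v n)) (by rwa [star_star]) k
    simp only [h1, norm_zero, zero_pow two_ne_zero] at hy1
    have h2 := hy1.unique hasSum_zero
    exact norm_eq_zero.1 (pow_eq_zero_iff two_ne_zero |>.1 h2)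
  have hnv : ∀ m n, ∀ y ∈ M, ‖π (v m * star (v m) * y * (v n * star (v n))) ζ‖ ^ 2 =
      d n ^ 2 * ‖(star (v m) * y * v n) ξ‖ ^ 2 := fun m n y hy => by
    have b1 : v m * star (v m) * y * (v n * star (v n)) * (v n * star (v n)) =
        v m * star (v m) * y * (v n * star (v n)) := by
      rw [mul_assoc, (hP n).isIdempotentElem.eq]
    have b2 : v m * star (v m) * y * (v n * star (v n)) * v n = v m * (star (v m) * y * v n) := by
      rw [mul_assoc, (hv1 n).2.1]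
      simp only [mul_assoc]
    have b3 : star (v m * (star (v m) * y * v n)) * (v m * (star (v m) * y * v n)) =
        star (star (v m) * y * v n) * (star (v m) * y * v n) := by
      rw [star_mul, mul_assoc, ← mul_assoc (star (v m)), ← mul_assoc (star (v m) * v m),
        ← mul_assoc (star (v m) * v m), (hv1 m).2.1.init_mul]
    rw [hnorm _ (mul_mem (mul_mem (hPM m) hy) (hPM n))]
    nth_rewrite 2 [← b1]
    rw [← mul_assoc (star _), hψr, ← norm_sq_apply, hzz, ← mul_apply_eq_comp _ (v n), b2,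
      norm_apply_congr b3]
  have hkey : ∀ m n, π (v m * star (v m)) (rt J (π (v n * star (v n)))
      (F.f (tri (5 / 2) (1 / 2)) η)) = 0 := fun m n => by
    refine TyAux.corner hmod (hR.mem _ (hPM m)) (hR.mem _ (hPM n)) (hcen m) (hcen n)
      (pow_pos (hd0 n) 2) (TyAux.weights_cases hd0 hd1 m n) (fun x hx => ?_) η
    obtain ⟨y, hy, rfl⟩ := hR.surj x hx
    have hw : star (v m) * y * v n ∈ M := mul_mem (mul_mem (star_mem (hvM m)) hy) (hvM n)
    have hwe : e * (star (v m) * y * v n) * e = star (v m) * y * v n := by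
      rw [← mul_assoc, ← mul_assoc, star_right he (hv1 m).2.2, mul_assoc _ (v n), (hv1 n).2.2]
    have a1 := hcon _ hw hwe
    have a2 := hcon _ (star_mem hw) (by
      simpa only [star_mul, he.isSelfAdjoint.star_eq, mul_assoc] using congrArg star hwe)
    rw [star_star] at a2
    rw [← hR.mul _ (hPM m) _ hy, ← hR.mul _ (mul_mem (hPM m) hy) _ (hPM n),
      ← hR.star _ (mul_mem (mul_mem (hPM m) hy) (hPM n)), star_mul, star_mul _ y,
      (hP m).isSelfAdjoint.star_eq, (hP n).isSelfAdjoint.star_eq, ← mul_assoc, hnv m n y hy,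
      hnv n m _ (star_mem hy)]
    have a3 : star (v n) * star y * v m = star (star (v m) * y * v n) := by
      simp only [star_mul, star_star, mul_assoc]
    rw [a3]
    have a4 : 0 ≤ d n ^ 2 * d m ^ 2 := by positivity
    constructor <;>
      nlinarith [mul_le_mul_of_nonneg_left a1 a4, mul_le_mul_of_nonneg_left a2 a4]
  refine hmod.cj.inj (Eq.trans (hone _ fun n => ?_) (map_zero J).symm)
  have h1 := congrArg J (hone _ fun m => hkey m n)
  rwa [hmod.cj.J_rt, ← hR.star _ (hPM n), (hP n).isSelfAdjoint.star_eq, map_zero] at h1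

theorem t3_of_full (hM : IsFactor M) (hF : FullSpec M) (hs : Sep M ξ) (h0 : ξ ≠ 0) : T3 M :=
  t3_of_ratio hM hs h0 fun _ heM he he0 => ratio_of_full hM hF hs heM he he0

end Vale.Agent.P132
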