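import Vale.Agent.P132.Final
import Vale.Agent.P132.SpAll
import Vale.Agent.P132.Local
import Vale.Agent.P132.LemmaZ
import Vale.Agent.P132.Beta
import Vale.Agent.P132.CS
import Vale.Agent.P132.Good
import Vale.Agent.P132.TypeIII

/-! Assembly. -/

open scoped InnerProductSpace Topology ComplexConjugate
open Filter MeasureTheory

namespace Vale.Agent.P132

open Vale.Agent.P104

universe u

variable {H : Type u} [NormedAddCommGroup H] [InnerProductSpace ℂ H] [CompleteSpace H]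
  {M : VonNeumannAlgebra H} {J : H →L⋆[ℂ] H} {P : Set H} {ξ : H} {F : FC H}

theorem Base.main (h : Base M J P ξ F) {a : H →L[ℂ] H} (ha : a ∈ Bic M J ξ) :
    ∃ c : ℂ, a = c • (1 : H →L[ℂ] H) := by
  by_contra hne
  push Not at hne
  obtain ⟨β, U, fl⟩ := h.exists_flow
  have hm := h.md
  have hxx : ⟪ξ, ξ⟫_ℂ = 1 := by rw [inner_self_eq_norm_sq_to_K, h.norm]; simp
  let L : Submodule ℂ H := BK M J ξ ⊓ LinearMap.ker (innerSL ℂ ξ : H →ₗ[ℂ] ℂ)
  have hL : ∀ η, η ∈ L ↔ η ∈ BK M J ξ ∧ ⟪ξ, η⟫_ℂ = 0 := fun η => Iff.rfl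
  have hcl : IsClosed (L : Set H) :=
    BK.isClosed.inter (isClosed_eq (innerSL ℂ ξ).continuous continuous_const)
  have hz : ∀ s, ∀ η ∈ L, U s η = η := fun s η hη =>
    lemmaZ F fl.U_zero fl.U_add fl.U_norm fl.U_cont fl.U_comm hcl
      (fun g hg η hη => (hL _).2 ⟨BK.f_mem hm hg ((hL _).1 hη).1, by
        rw [← inner_star_left, F.f_star hg, hm.f_xi _ hg.cj, inner_smul_left, ((hL _).1 hη).2,
          mul_zero]⟩)
      (fun s η hη => (hL _).2 ⟨fl.U_mem s ((hL _).1 hη).1, by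
        rw [← ((hL _).1 hη).2, ← fl.inner s ξ η, fl.U_xi]⟩)
      (fun s η hη hS => fl.noeig h ((hL _).1 hη).1 ((hL _).1 hη).2 hS)
      (fun α hα γ hγ => fl.braid h α ((hL _).1 hα).1 γ ((hL _).1 hγ).1) s hη
  have triv : ∀ s, ∀ b ∈ Bic M J ξ, β s b = b := fun s b hb => by
    refine hm.sep.ext (Bic.mem (fl.mem s b hb)) (Bic.mem hb) ?_
    have h1 : b ξ - ⟪ξ, b ξ⟫_ℂ • ξ ∈ L := (hL _).2
      ⟨sub_mem (BK.mem hb) (Submodule.smul_mem _ _ BK.xi), by
        rw [inner_sub_right, inner_smul_right, hxx, mul_one, sub_self]⟩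
    have h2 := hz s _ h1
    rw [map_sub, map_smul, fl.U_xi, fl.U_apply s b hb] at h2
    exact sub_left_injective h2
  obtain ⟨b, hb, han, h0, hb0⟩ := Bic.exists_an hm h.norm ha hne
  exact hb0 (h.final h.ctx.loc (fl.mixAll h triv hb h0 hb0) hb han h0)

theorem main (M : VonNeumannAlgebra H) (hM : IsFactor M) (hS : FullSpec M)
    (φ : (H →L[ℂ] H) → ℂ) (hn : IsNormalState M φ) (hf : IsFaithful M φ) :
    bicentralizer M φ = Set.range fun c : ℂ => c • (1 : H →L[ℂ] H) := by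
  ext a
  constructor
  · intro ha
    obtain ⟨K, _, _, _, N, ζ, π, r⟩ := exists_std hn hf
    have h0 : ζ ≠ 0 := fun h => by simpa [h] using r.norm
    have hT := t3_of_full (r.factor hM) (r.fullSpec hS) r.sep h0
    obtain ⟨J, P, F, hc, hP, hm⟩ := exists_ctx hT (r.fullSpec hS) r.cyc r.sep
    obtain ⟨c, e⟩ := (hc.cs.base hc hP hm r.norm).main (r.bic hn hm.bi hm.fix ha)
    exact ⟨c, (r.scalar ha.1 e).symm⟩
  · rintro ⟨c, rfl⟩
    refine ⟨M.toStarSubalgebra.smul_mem (one_mem _) c, fun w _ η => ?_⟩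
    simp

end Vale.Agent.P132
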