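import Vale.Agent.P132.FC3
import Vale.Agent.P132.Kern

/-! Strong operator integrals and smearing. -/

open scoped InnerProductSpace Topology ComplexConjugate
open Filter MeasureTheory

namespace Vale.Agent.P132

open Vale.Agent.P104

variable {H : Type*} [NormedAddCommGroup H] [InnerProductSpace ℂ H] [CompleteSpace H]

omit [CompleteSpace H] in
theorem SC.const (x : H →L[ℂ] H) : SC fun _ => x :=
  ⟨fun _ => continuous_const, ‖x‖, fun _ => le_rfl⟩

omit [CompleteSpace H] in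
theorem SC.cont₅ {g : ℝ → (H →L[ℂ] H)} (h : SC g) {η : ℝ → H} (hη : Continuous η) :
    Continuous fun t => g t (η t) := by
  obtain ⟨C, hC⟩ := h.2
  rw [continuous_iff_continuousAt]
  intro t
  have h0 : Tendsto (fun s => C * ‖η s - η t‖) (𝓝 t) (𝓝 0) := by
    have := (tendsto_iff_norm_sub_tendsto_zero.1 (hη.tendsto t)).const_mul C
    rwa [mul_zero] at this
  have h1 : Tendsto (fun s => g s (η s - η t)) (𝓝 t) (𝓝 0) :=
    squeeze_zero_norm (fun s => (g s).le_of_opNorm_le (hC s) _) h0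
  have h2 := h1.add (h.1 (η t)).continuousAt (x := 𝓝 t)
  simpa [ContinuousAt] using h2

theorem SC.mul {g g' : ℝ → (H →L[ℂ] H)} (h : SC g) (h' : SC g') : SC fun t => g t * g' t := by
  refine ⟨fun η => h.cont₅ (h'.1 η), ?_⟩
  obtain ⟨C, hC⟩ := h.2
  obtain ⟨C', hC'⟩ := h'.2
  exact ⟨C * C', fun t => (norm_mul_le _ _).trans
    (mul_le_mul (hC t) (hC' t) (norm_nonneg _) ((norm_nonneg _).trans (hC t)))⟩

omit [CompleteSpace H] in
theorem SC.add {g g' : ℝ → (H →L[ℂ] H)} (h : SC g) (h' : SC g') : SC fun t => g t + g' t := by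
  refine ⟨fun η => (h.1 η).add (h'.1 η), ?_⟩
  obtain ⟨C, hC⟩ := h.2
  obtain ⟨C', hC'⟩ := h'.2
  exact ⟨C + C', fun t => (norm_add_le _ _).trans (add_le_add (hC t) (hC' t))⟩

omit [CompleteSpace H] in
theorem SC.sub {g g' : ℝ → (H →L[ℂ] H)} (h : SC g) (h' : SC g') : SC fun t => g t - g' t := by
  refine ⟨fun η => (h.1 η).sub (h'.1 η), ?_⟩
  obtain ⟨C, hC⟩ := h.2
  obtain ⟨C', hC'⟩ := h'.2
  exact ⟨C + C', fun t => (norm_sub_le _ _).trans (add_le_add (hC t) (hC' t))⟩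

omit [CompleteSpace H] in
theorem SC.comp_neg {g : ℝ → (H →L[ℂ] H)} (h : SC g) : SC fun t => g (-t) := by
  obtain ⟨C, hC⟩ := h.2
  exact ⟨fun η => (h.1 η).comp continuous_neg, C, fun t => hC _⟩

omit [CompleteSpace H] in
theorem SC.br {g : ℝ → (H →L[ℂ] H)} (h : SC g) (η : H) : BR fun t => ‖g t η‖ ^ 2 := by
  obtain ⟨C, hC⟩ := h.2
  exact br_norm_sq (h.1 η) (C := C * ‖η‖) fun t => (g t).le_of_opNorm_le (hC t) η

omit [CompleteSpace H] in
theorem SC.bc {g : ℝ → (H →L[ℂ] H)} (h : SC g) (ζ η : H) : BC fun t => ⟪ζ, g t η⟫_ℂ := by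
  obtain ⟨C, hC⟩ := h.2
  exact ⟨continuous_const.inner (h.1 η), ‖ζ‖ * (C * ‖η‖), fun t => (norm_inner_le_norm _ _).trans
    (mul_le_mul_of_nonneg_left ((g t).le_of_opNorm_le (hC t) η) (norm_nonneg _))⟩

omit [CompleteSpace H] in
theorem SC.integrable {g : ℝ → (H →L[ℂ] H)} (h : SC g) {k : ℝ → ℂ} (hk : Integrable k) (η : H) :
    Integrable fun t => k t • g t η := by
  obtain ⟨C, hC⟩ := h.2
  refine Integrable.mono' (hk.norm.mul_const (C * ‖η‖))
    (hk.aestronglyMeasurable.smul (h.1 η).aestronglyMeasurable) (.of_forall fun t => ?_)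
  rw [norm_smul]
  exact mul_le_mul_of_nonneg_left ((g t).le_of_opNorm_le (hC t) η) (norm_nonneg _)

omit [CompleteSpace H] in
theorem norm_integral_le₅ {g : ℝ → (H →L[ℂ] H)} {k : ℝ → ℂ} (hk : Integrable k) {C : ℝ}
    (hC : ∀ t, ‖g t‖ ≤ C) (η : H) : ‖∫ t, k t • g t η‖ ≤ (∫ t, ‖k t‖) * C * ‖η‖ := by
  rw [mul_assoc, ← integral_mul_const]
  refine norm_integral_le_of_norm_le (hk.norm.mul_const _) (.of_forall fun t => ?_)
  rw [norm_smul]
  exact mul_le_mul_of_nonneg_left ((g t).le_of_opNorm_le (hC t) η) (norm_nonneg _)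

omit [CompleteSpace H] in
theorem opInt_apply {g : ℝ → (H →L[ℂ] H)} (h : SC g) {k : ℝ → ℂ} (hk : Integrable k) (η : H) :
    opInt k g η = ∫ t, k t • g t η := by
  have hex : ∃ T : H →L[ℂ] H, ∀ η, T η = ∫ t, k t • g t η := by
    obtain ⟨C, hC⟩ := h.2
    let S : H →ₗ[ℂ] H :=
      { toFun := fun η => ∫ t, k t • g t η
        map_add' := fun a b => by
          simp only [map_add, smul_add]
          exact integral_add (h.integrable hk a) (h.integrable hk b)
        map_smul' := fun c a => by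
          simp only [map_smul, RingHom.id_apply]
          rw [← integral_smul]
          simp only [smul_comm c] }
    exact ⟨S.mkContinuous ((∫ t, ‖k t‖) * C) (norm_integral_le₅ hk hC), fun _ => rfl⟩
  rw [opInt, dif_pos hex]
  exact hex.choose_spec η

theorem inner_opInt {g : ℝ → (H →L[ℂ] H)} (h : SC g) {k : ℝ → ℂ} (hk : Integrable k) (ζ η : H) :
    ⟪ζ, opInt k g η⟫_ℂ = ∫ t, k t * ⟪ζ, g t η⟫_ℂ := by
  rw [opInt_apply h hk, ← integral_inner (h.integrable hk η)]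
  simp only [inner_smul_right]

omit [CompleteSpace H] in
theorem norm_opInt_le {g : ℝ → (H →L[ℂ] H)} (h : SC g) {k : ℝ → ℂ} (hk : Integrable k) {C : ℝ}
    (hC : ∀ t, ‖g t‖ ≤ C) : ‖opInt k g‖ ≤ (∫ t, ‖k t‖) * C := by
  refine ContinuousLinearMap.opNorm_le_bound _ (mul_nonneg (integral_nonneg fun t => norm_nonneg _)
    ((norm_nonneg _).trans (hC 0))) fun η => ?_
  rw [opInt_apply h hk]
  exact norm_integral_le₅ hk hC η

theorem apply_opInt₅ {g : ℝ → (H →L[ℂ] H)} (h : SC g) {k : ℝ → ℂ} (hk : Integrable k)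
    (a : H →L[ℂ] H) (η : H) : a (opInt k g η) = ∫ t, k t • a (g t η) := by
  rw [opInt_apply h hk, ← a.integral_comp_comm (h.integrable hk η)]
  simp only [map_smul]

theorem mul_opInt_mul {g : ℝ → (H →L[ℂ] H)} (h : SC g) {k : ℝ → ℂ} (hk : Integrable k)
    (a b : H →L[ℂ] H) : a * opInt k g * b = opInt k fun t => a * g t * b := by
  ext η
  rw [opInt_apply (((SC.const a).mul h).mul (SC.const b)) hk]
  exact apply_opInt₅ h hk a (b η)

theorem opInt_mem (M : VonNeumannAlgebra H) {g : ℝ → (H →L[ℂ] H)} (h : SC g) {k : ℝ → ℂ}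
    (hk : Integrable k) (hM : ∀ t, g t ∈ M) : opInt k g ∈ M := by
  refine mem_of_commute M fun y hy => ?_
  have h1 := mul_opInt_mul h hk y 1
  have h2 := mul_opInt_mul h hk 1 y
  simp only [mul_one, one_mul] at h1 h2
  rw [Commute, SemiconjBy, h1, h2]
  congr 1
  funext t
  exact commute_of_mem M hy (hM t)

theorem integrable_conj₅ {k : ℝ → ℂ} (hk : Integrable k) : Integrable fun t => conj (k t) :=
  (Complex.conjCLE : ℂ →L[ℝ] ℂ).integrable_comp hk

theorem star_opInt {g : ℝ → (H →L[ℂ] H)} (h : SC g) (h' : SC fun t => star (g t)) {k : ℝ → ℂ}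
    (hk : Integrable k) : star (opInt k g) = opInt (fun t => conj (k t)) fun t => star (g t) := by
  ext η
  refine ext_inner_left ℂ fun ζ => ?_
  rw [inner_opInt h' (integrable_conj₅ hk), ContinuousLinearMap.star_eq_adjoint,
    ContinuousLinearMap.adjoint_inner_right, ← inner_conj_symm, inner_opInt h hk, ← integral_conj]
  simp only [map_mul, inner_conj_symm, ContinuousLinearMap.star_eq_adjoint,
    ContinuousLinearMap.adjoint_inner_right]

theorem integrable_fejc₅ {ε : ℝ} (hε : 0 < ε) : Integrable fun t => (fej ε t : ℂ) :=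
  (integrable_fej hε).ofReal

theorem mc_inner {g : ℝ → (H →L[ℂ] H)} (h : SC g) {ε : ℝ} (hε : 0 < ε) (ζ η : H) :
    mc ε (fun t => ⟪ζ, g t η⟫_ℂ) = ⟪ζ, opInt (fun t => (fej ε t : ℂ)) g η⟫_ℂ := by
  rw [inner_opInt h (integrable_fejc₅ hε), mc]

namespace FC

variable (F : FC H)

theorem norm_sm_le {k : ℝ → ℂ} (hk : Integrable k) (x : H →L[ℂ] H) :
    ‖F.sm k x‖ ≤ (∫ t, ‖k t‖) * ‖x‖ :=
  norm_opInt_le (F.sc_σ x) hk fun t => (F.σ_norm t x).le

theorem sm_apply₅ {k : ℝ → ℂ} (hk : Integrable k) (x : H →L[ℂ] H) (η : H) :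
    F.sm k x η = ∫ t, k t • F.V t (x (F.V (-t) η)) :=
  opInt_apply (F.sc_σ x) hk η

/-- Operators commuting with the group pass through the smearing. -/
theorem mul_sm_mul {k : ℝ → ℂ} (hk : Integrable k) {a b : H →L[ℂ] H}
    (ha : ∀ t, a * F.V t = F.V t * a) (hb : ∀ t, b * F.V t = F.V t * b) (x : H →L[ℂ] H) :
    a * F.sm k x * b = F.sm k (a * x * b) := by
  rw [FC.sm, mul_opInt_mul (F.sc_σ x) hk, FC.sm]
  congr 1
  funext t
  calc a * F.σ t x * b = (a * F.V t) * x * (F.V (-t) * b) := by simp only [FC.σ, mul_assoc]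
    _ = F.σ t (a * x * b) := by rw [ha, ← hb]; simp only [FC.σ, mul_assoc]

theorem σ_sm {k : ℝ → ℂ} (hk : Integrable k) (t : ℝ) (x : H →L[ℂ] H) :
    F.σ t (F.sm k x) = F.sm k (F.σ t x) :=
  F.mul_sm_mul hk (fun s => F.V_comm t (bc_ex s)) (fun s => F.V_comm (-t) (bc_ex s)) x

theorem star_sm {k : ℝ → ℂ} (hk : Integrable k) (x : H →L[ℂ] H) :
    star (F.sm k x) = F.sm (fun t => conj (k t)) (star x) := by
  have e : (fun t => star (F.σ t x)) = fun t => F.σ t (star x) := funext fun t => F.σ_star t x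
  rw [FC.sm, star_opInt (F.sc_σ x) (e ▸ F.sc_σ (star x)) hk, e, FC.sm]

theorem sm_add {k : ℝ → ℂ} (hk : Integrable k) (x y : H →L[ℂ] H) :
    F.sm k (x + y) = F.sm k x + F.sm k y := by
  ext η
  rw [add_apply, F.sm_apply₅ hk, F.sm_apply₅ hk, F.sm_apply₅ hk]
  simp only [add_apply, map_add, smul_add]
  exact integral_add ((F.sc_σ x).integrable hk η) ((F.sc_σ y).integrable hk η)

theorem sm_smul {k : ℝ → ℂ} (hk : Integrable k) (c : ℂ) (x : H →L[ℂ] H) :
    F.sm k (c • x) = c • F.sm k x := by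
  ext η
  rw [smul_apply, F.sm_apply₅ hk, F.sm_apply₅ hk, ← integral_smul]
  simp only [smul_apply, map_smul, smul_comm c]

theorem sm_apply_fixed {k : ℝ → ℂ} (hk : Integrable k) (x : H →L[ℂ] H) {ξ : H}
    (hξ : ∀ t, F.V t ξ = ξ) : F.sm k x ξ = F.f (ft k) (x ξ) := by
  rw [F.sm_apply₅ hk, ← F.integral_V hk]
  simp only [hξ]

theorem norm_band_le {ε : ℝ} (hε : 0 < ε) (h : ℝ) (x : H →L[ℂ] H) : ‖F.band h ε x‖ ≤ ‖x‖ := by
  have := F.norm_sm_le (integrable_fejx hε h) x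
  rwa [integral_norm_fejx hε, one_mul] at this

theorem σ_band {ε : ℝ} (hε : 0 < ε) (h t : ℝ) (x : H →L[ℂ] H) :
    F.σ t (F.band h ε x) = F.band h ε (F.σ t x) :=
  F.σ_sm (integrable_fejx hε h) t x

theorem star_band {ε : ℝ} (hε : 0 < ε) (h : ℝ) (x : H →L[ℂ] H) :
    star (F.band h ε x) = F.band (-h) ε (star x) := by
  rw [FC.band, F.star_sm (integrable_fejx hε h), FC.band]
  congr 1
  funext t
  rw [map_mul, Complex.conj_ofReal, ex_comm, conj_ex, ex_comm]

theorem band_zero (ε : ℝ) (x : H →L[ℂ] H) :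
    F.band 0 ε x = opInt (fun t => (fej ε t : ℂ)) fun t => F.σ t x := by
  rw [FC.band, FC.sm]
  congr 1
  funext t
  rw [neg_zero, ex_comm, ex_zero, mul_one]

end FC

theorem ex_neg_comm₅ (t s : ℝ) : ex (-t) s = ex t (-s) := by
  simp only [ex, Complex.ofReal_neg, mul_neg, neg_mul]

theorem conj_ex_mul₅ (t a b : ℝ) : conj (ex t (-a)) * ex t (-b) = ex t (-(b - a)) := by
  rw [conj_ex, ex_neg_comm₅, ← ex_add']
  congr 1
  ring

theorem continuous_ex₅ (s : ℝ) : Continuous fun t => ex t s :=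
  continuous_ex.comp (Continuous.prodMk_left s)

omit [CompleteSpace H] in
theorem br_trig₅ {ι : Type*} [Fintype ι] (a : ι → ℝ) (z : ι → H) :
    BR fun t => ‖∑ j, ex t (-a j) • z j‖ ^ 2 := by
  refine br_norm_sq (C := ∑ j, ‖z j‖)
    (continuous_finsetSum _ fun j _ => (continuous_ex₅ _).smul continuous_const) fun t => ?_
  refine (norm_sum_le _ _).trans (Finset.sum_le_sum fun j _ => ?_)
  rw [norm_smul, norm_ex, one_mul]

omit [CompleteSpace H] in
/-- Parseval identity for Fejer means of vector trigonometric sums. -/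
theorem mn_trig₅ {ε : ℝ} (hε : 0 < ε) {ι : Type*} [Fintype ι] (m : ι → ℤ)
    (hm : Function.Injective m) (z : ι → H) :
    mn ε (fun t => ‖∑ j, ex t (-(m j * ε)) • z j‖ ^ 2) = ∑ j, ‖z j‖ ^ 2 := by
  classical
  apply Complex.ofReal_injective
  rw [mn, ← integral_complex_ofReal]
  have e1 : ∀ t, ((fej ε t * ‖∑ j, ex t (-(m j * ε)) • z j‖ ^ 2 : ℝ) : ℂ) =
      ∑ i, ∑ j, (fej ε t : ℂ) * ex t (-(m j * ε - m i * ε)) * ⟪z i, z j⟫_ℂ := fun t => by
    have h := inner_self_eq_norm_sq_to_K (𝕜 := ℂ) (∑ j, ex t (-(m j * ε)) • z j)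
    rw [Complex.ofReal_mul, Complex.ofReal_pow]
    change _ * ((‖∑ j, ex t (-(m j * ε)) • z j‖ : ℂ)) ^ 2 = _
    erw [← h]
    simp only [sum_inner, inner_sum, inner_smul_left, inner_smul_right, Finset.mul_sum,
      ← conj_ex_mul₅]
    rw [Finset.sum_comm]
    refine Finset.sum_congr rfl fun i _ => Finset.sum_congr rfl fun j _ => by ring
  simp only [e1]
  rw [integral_finsetSum _ fun i _ => integrable_finsetSum _ fun j _ =>
    (integrable_fejx hε _).mul_const _]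
  push_cast
  refine Finset.sum_congr rfl fun i _ => ?_
  rw [integral_finsetSum _ fun j _ => (integrable_fejx hε _).mul_const _]
  have e2 : ∀ s, ∫ t, (fej ε t : ℂ) * ex t s = tri 0 ε s := fun s => congrFun (ft_fej hε) s
  simp only [integral_mul_const, e2]
  rw [Finset.sum_eq_single i]
  · rw [sub_self, neg_zero, tri_self₃, one_mul, inner_self_eq_norm_sq_to_K]
    rfl
  · intro j _ hj
    rw [tri_eq_zero hε, zero_mul]
    have h1 : (1 : ℝ) ≤ |((m j - m i : ℤ) : ℝ)| := by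
      rw [← Int.cast_abs]
      exact_mod_cast Int.one_le_abs (sub_ne_zero.2 (hm.ne hj))
    rw [sub_zero, abs_neg, ← sub_mul, abs_mul, abs_of_pos hε]
    push_cast at h1
    nlinarith
  · simp

namespace FC

variable (F : FC H)

/-- Toeplitz matrices of bands are contractive. -/
theorem mbdd_toeplitz {ε : ℝ} (hε : 0 < ε) (x : H →L[ℂ] H) {ι : Type*} [Fintype ι] (m : ι → ℤ)
    (hm : Function.Injective m) :
    MBdd ‖x‖ fun i j => F.band ((m j - m i : ℤ) * ε) ε x := by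
  refine mbdd_of_inner_le (norm_nonneg _) fun θ ζ => ?_
  have hI : ∀ i j, Integrable fun t => (fej ε t : ℂ) * ex t (-((m j - m i : ℤ) * ε)) *
      ⟪θ i, F.σ t x (ζ j)⟫_ℂ := fun i j => by
    obtain ⟨hc, C, hC⟩ := (F.sc_σ x).bc (θ i) (ζ j)
    exact (integrable_fejx hε _).mul_bdd hc.aestronglyMeasurable (.of_forall hC)
  have e : ∑ i, ∑ j, ⟪θ i, F.band ((m j - m i : ℤ) * ε) ε x (ζ j)⟫_ℂ = ∫ t, (fej ε t : ℂ) *
      ⟪∑ i, ex t (-(m i * ε)) • θ i, F.σ t x (∑ j, ex t (-(m j * ε)) • ζ j)⟫_ℂ := by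
    simp only [FC.band, FC.sm, inner_opInt (F.sc_σ x) (integrable_fejx hε _)]
    rw [Finset.sum_congr rfl fun i _ => (integral_finsetSum _ fun j _ => hI i j).symm,
      ← integral_finsetSum _ fun i _ => integrable_finsetSum _ fun j _ => hI i j]
    congr 1
    funext t
    simp only [map_sum, map_smul, sum_inner, inner_sum, inner_smul_left, inner_smul_right,
      Finset.mul_sum]
    rw [Finset.sum_comm]
    refine Finset.sum_congr rfl fun j _ => Finset.sum_congr rfl fun i _ => ?_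
    rw [Int.cast_sub, sub_mul, ← conj_ex_mul₅]
    ring
  have b1 := br_trig₅ (fun i => (m i : ℝ) * ε) θ
  have b2 := br_trig₅ (fun i => (m i : ℝ) * ε) ζ
  rw [e, ← mn_trig₅ hε m hm θ, ← mn_trig₅ hε m hm ζ, ← mn_add hε b1 b2, ← mn_const_mul,
    mul_comm, ← le_div_iff₀ two_pos, mn, ← integral_div]
  refine norm_integral_le_of_norm_le ?_ (.of_forall fun t => ?_)
  · obtain ⟨hc, C, hC⟩ := (b1.add b2).const_mul ‖x‖
    exact ((integrable_fej hε).mul_bdd hc.aestronglyMeasurable (.of_forall hC)).div_const _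
  · rw [norm_mul, Complex.norm_real, Real.norm_of_nonneg (fej_nonneg hε t), mul_div_assoc]
    refine mul_le_mul_of_nonneg_left ?_ (fej_nonneg hε t)
    set a := ∑ i, ex t (-(m i * ε)) • θ i
    set b := ∑ i, ex t (-(m i * ε)) • ζ i
    have h1 : ‖⟪a, F.σ t x b⟫_ℂ‖ ≤ ‖a‖ * (‖x‖ * ‖b‖) := (norm_inner_le_norm _ _).trans
      (mul_le_mul_of_nonneg_left ((F.σ t x).le_of_opNorm_le (F.σ_norm t x).le b) (norm_nonneg _))
    nlinarith [mul_nonneg (norm_nonneg x) (sq_nonneg (‖a‖ - ‖b‖))]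

theorem sum_band_le {ε : ℝ} (hε : 0 < ε) (x : H →L[ℂ] H) (t : Finset ℤ) (η : H) :
    ∑ k ∈ t, ‖F.band (k * ε) ε x η‖ ^ 2 ≤ ‖x‖ ^ 2 * ‖η‖ ^ 2 := by
  classical
  let o : (insert 0 t : Finset ℤ) := ⟨0, Finset.mem_insert_self _ _⟩
  have h := F.mbdd_toeplitz hε x (fun i : (insert 0 t : Finset ℤ) => -(i : ℤ))
    (fun i j hij => Subtype.ext (neg_injective hij)) (fun j => if j = o then η else 0)
  have e1 : ∀ i : (insert 0 t : Finset ℤ), ∑ j : (insert 0 t : Finset ℤ),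
      F.band (((-(j : ℤ) - -(i : ℤ) : ℤ) : ℝ) * ε) ε x (if j = o then η else 0) =
      F.band (((i : ℤ) : ℝ) * ε) ε x η := fun i => by
    rw [Finset.sum_eq_single o (fun j _ hj => by simp [hj])
      fun h => absurd (Finset.mem_univ _) h]
    simp [o]
  have e2 : ∑ j : (insert 0 t : Finset ℤ), ‖if j = o then η else 0‖ ^ 2 = ‖η‖ ^ 2 := by
    rw [Finset.sum_eq_single o (fun j _ hj => by simp [hj])
      fun h => absurd (Finset.mem_univ _) h]
    simp
  simp only [e1, e2] at h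
  rw [Finset.sum_coe_sort (insert 0 t) fun k : ℤ => ‖F.band (k * ε) ε x η‖ ^ 2] at h
  exact (Finset.sum_le_sum_of_subset_of_nonneg (Finset.subset_insert _ _)
    fun _ _ _ => sq_nonneg _).trans h

end FC

end Vale.Agent.P132
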