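import Vale.Agent.P132.FC1
import Vale.Agent.P132.Rt

/-! Polar decomposition of the Tomita operator (Rieffel and van Daele). -/

open scoped InnerProductSpace Topology ComplexConjugate
open Filter MeasureTheory

namespace Vale.Agent.P132

open Vale.Agent.P104

variable {H : Type*} [NormedAddCommGroup H] [InnerProductSpace ℂ H] [CompleteSpace H]
  {M : VonNeumannAlgebra H} {J : H →L⋆[ℂ] H} {P : Set H} {ξ : H} {F : FC H}

lemma pre_proj (K : Submodule ℝ H) (hK : IsClosed (K : Set H)) : ∃ p : H →L[ℝ] H,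
    (∀ η, p η ∈ K) ∧ ∀ η, ∀ k ∈ K, (⟪η - p η, k⟫_ℂ).re = 0 := by
  let : InnerProductSpace ℝ H := InnerProductSpace.rclikeToReal ℂ H
  have : CompleteSpace K := hK.completeSpace_coe
  exact ⟨K.starProjection, K.starProjection_apply_mem, fun η k hk =>
    K.starProjection_inner_eq_zero η k hk⟩

omit [CompleteSpace H] in
lemma pre_smul (L : H →L[ℝ] H) (c : ℂ) (η : H) :
    L (c • η) = (c.re : ℂ) • L η + (c.im : ℂ) • L (Complex.I • η) := by
  have : c • η = c.re • η + c.im • (Complex.I • η) := by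
    rw [← Complex.coe_smul, ← Complex.coe_smul, smul_smul, ← add_smul, Complex.re_add_im]
  rw [this, map_add, map_smul, map_smul, Complex.coe_smul, Complex.coe_smul]

omit [CompleteSpace H] in
lemma pre_re_I (a b : H) : (⟪a, Complex.I • b⟫_ℂ).re = -(⟪a, b⟫_ℂ).im := by
  rw [inner_smul_right]
  simp

omit [CompleteSpace H] in
lemma pre_re_I' (a b : H) : (⟪Complex.I • a, b⟫_ℂ).re = (⟪a, b⟫_ℂ).im := by
  rw [inner_smul_left]
  simp

omit [CompleteSpace H] in
lemma pre_re_symm (a b : H) : (⟪a, b⟫_ℂ).re = (⟪b, a⟫_ℂ).re := inner_re_symm (𝕜 := ℂ) a b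

omit [CompleteSpace H] in
lemma pre_sq (p : H → H) (hp : ∀ η, p (p η) = p η)
    (sp : ∀ η ζ, (⟪p η, ζ⟫_ℂ).re = (⟪η, p ζ⟫_ℂ).re) (η : H) :
    (⟪p η, η⟫_ℂ).re = ‖p η‖ ^ 2 ∧ (⟪η - p η, η⟫_ℂ).re = ‖η - p η‖ ^ 2 := by
  have h1 : (⟪p η, η⟫_ℂ).re = ‖p η‖ ^ 2 := by
    have := sp (p η) η
    rw [hp] at this
    rw [this]
    exact inner_self_eq_norm_sq (𝕜 := ℂ) _
  refine ⟨h1, ?_⟩
  have h2 : (⟪η, η⟫_ℂ).re = ‖η‖ ^ 2 := inner_self_eq_norm_sq (𝕜 := ℂ) _
  have h3 : ‖η - p η‖ ^ 2 = ‖η‖ ^ 2 - 2 * (⟪η, p η⟫_ℂ).re + ‖p η‖ ^ 2 := norm_sub_sq (𝕜 := ℂ) _ _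
  rw [inner_sub_left, Complex.sub_re, h1, h2, h3, pre_re_symm η, h1]
  ring

/-- A conjugate linear map with `D R = (2 - R) D` reflects the calculus. -/
lemma pre_refl (F : FC H) (D : H →L⋆[ℂ] H)
    (h : ∀ η, D (F.f (fun s => fa s * fa s) η) = F.f (fun s => fb s * fb s) (D η))
    {g : ℝ → ℂ} (hg : BC g) (η : H) : D (F.f g η) = F.f (fun s => conj (g (-s))) (D η) := by
  refine bc_induction₃ (P := fun g => ∀ η, D (F.f g η) = F.f (fun s => conj (g (-s))) (D η))
    ?_ ?_ ?_ ?_ ?_ hg η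
  · intro c η
    simp [FC.f_const]
  · intro g k hg hk h1 h2 η
    simp only [map_add]
    rw [F.f_add hg hk, F.f_add hg.comp_neg.cj hk.comp_neg.cj]
    simp [h1, h2]
  · intro g k hg hk h1 h2 η
    simp only [map_mul]
    rw [← F.f_f hg hk, ← F.f_f hg.comp_neg.cj hk.comp_neg.cj, h1, h2]
  · intro g k C hg hk hC hl hP η
    have t1 := (D.continuous.tendsto _).comp
      (F.tendsto (.of_forall hg) hk (.of_forall hC) hl η)
    have t2 := F.tendsto (g := fun n s => conj (g n (-s))) (l := atTop) (C := C)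
      (.of_forall fun n => (hg n).comp_neg.cj) hk.comp_neg.cj
      (.of_forall fun n s => by rw [Complex.norm_conj]; exact hC n _)
      (fun s => (Complex.continuous_conj.tendsto _).comp (hl (-s))) (D η)
    exact tendsto_nhds_unique t1 (t2.congr fun n => (hP n η).symm)
  · simpa only [← fa_mul_fa₃, map_mul, fa_neg, conj_fb] using h

theorem pre_pair (p q : H →L[ℝ] H) (hp : ∀ η, p (p η) = p η) (hq : ∀ η, q (q η) = q η)
    (sp : ∀ η ζ, (⟪p η, ζ⟫_ℂ).re = (⟪η, p ζ⟫_ℂ).re)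
    (sq : ∀ η ζ, (⟪q η, ζ⟫_ℂ).re = (⟪η, q ζ⟫_ℂ).re)
    (ip : ∀ η, p (Complex.I • η) = Complex.I • q η) (iq : ∀ η, q (Complex.I • η) = Complex.I • p η)
    (h0 : ∀ η, p η = 0 → q η = 0 → η = 0) (h2 : ∀ η, p η = η → q η = η → η = 0) :
    ∃ (J : H →L⋆[ℂ] H) (F : FC H), IsConj J ∧
      (∀ g, BC g → ∀ η, J (F.f g η) = F.f (fun s => conj (g (-s))) (J η)) ∧
      ∀ k, p k = k ↔ F.f fa (J k) = F.f fb k := by
  obtain ⟨R, hR⟩ : ∃ R : H →L[ℂ] H, ∀ η, R η = p η + q η :=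
    ⟨{ toFun := fun η => p η + q η
       map_add' := fun a b => by simp only [map_add]; abel
       map_smul' := fun c η => by
        rw [pre_smul p, pre_smul q, ip, iq, RingHom.id_apply]
        conv_rhs => rw [← Complex.re_add_im c]
        module
       cont := by fun_prop }, fun _ => rfl⟩
  obtain ⟨D, hD⟩ : ∃ D : H →L⋆[ℂ] H, ∀ η, D η = p η - q η :=
    ⟨{ toFun := fun η => p η - q η
       map_add' := fun a b => by simp only [map_add]; abel
       map_smul' := fun c η => by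
        have e : (starRingEnd ℂ) c = (c.re : ℂ) - (c.im : ℂ) * Complex.I := by
          apply Complex.ext <;> simp
        rw [pre_smul p, pre_smul q, ip, iq, e]
        module
       cont := by fun_prop }, fun _ => rfl⟩
  have h2a : ∀ η : H, (2 : H →L[ℂ] H) η = η + η := fun η => by
    rw [← one_add_one_eq_two]
    rfl
  have hR2 : ∀ η, (2 - R) η = (η - p η) + (η - q η) := fun η => by
    rw [sub_apply, hR, h2a]
    abel
  have sR : ∀ η ζ, (⟪R η, ζ⟫_ℂ).re = (⟪η, R ζ⟫_ℂ).re := fun η ζ => by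
    rw [hR, hR, inner_add_left, inner_add_right, Complex.add_re, Complex.add_re, sp, sq]
  have sR' : ∀ η ζ, ⟪R η, ζ⟫_ℂ = ⟪η, R ζ⟫_ℂ := fun η ζ => by
    refine Complex.ext (sR η ζ) ?_
    have := sR η (Complex.I • ζ)
    rw [map_smul, pre_re_I, pre_re_I] at this
    linarith
  have sD : ∀ η ζ, (⟪D η, ζ⟫_ℂ).re = (⟪D ζ, η⟫_ℂ).re := fun η ζ => by
    rw [pre_re_symm _ η, hD, hD, inner_sub_left, inner_sub_right, Complex.sub_re, Complex.sub_re,
      sp, sq]
  have sD' : ∀ η ζ, ⟪D η, ζ⟫_ℂ = ⟪D ζ, η⟫_ℂ := fun η ζ => by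
    refine Complex.ext (sD η ζ) ?_
    have := sD η (Complex.I • ζ)
    rw [map_smulₛₗ, Complex.conj_I, neg_smul, inner_neg_left, Complex.neg_re, pre_re_I,
      pre_re_I'] at this
    linarith
  have e0 : ∀ η, (⟪R η, η⟫_ℂ).re = ‖p η‖ ^ 2 + ‖q η‖ ^ 2 := fun η => by
    rw [hR, inner_add_left, Complex.add_re, (pre_sq p hp sp η).1, (pre_sq q hq sq η).1]
  have e2 : ∀ η, (⟪(2 - R) η, η⟫_ℂ).re = ‖η - p η‖ ^ 2 + ‖η - q η‖ ^ 2 := fun η => by
    rw [hR2, inner_add_left, Complex.add_re, (pre_sq p hp sp η).2, (pre_sq q hq sq η).2]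
  have hz : ∀ a b : H, (0 : ℝ) = ‖a‖ ^ 2 + ‖b‖ ^ 2 → a = 0 ∧ b = 0 := fun a b h => by
    have ha := sq_nonneg ‖a‖
    have hb := sq_nonneg ‖b‖
    exact ⟨norm_eq_zero.1 ((pow_eq_zero_iff two_ne_zero).1 (by linarith)),
      norm_eq_zero.1 ((pow_eq_zero_iff two_ne_zero).1 (by linarith))⟩
  obtain ⟨F, hF⟩ := exists_fc R
    ((ContinuousLinearMap.nonneg_iff_isPositive _).2 ⟨sR', fun η => by
      change 0 ≤ (⟪R η, η⟫_ℂ).re
      rw [e0]
      positivity⟩)
    ((ContinuousLinearMap.nonneg_iff_isPositive _).2 ⟨fun η ζ => by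
      change ⟪(2 - R) η, ζ⟫_ℂ = ⟪η, (2 - R) ζ⟫_ℂ
      simp only [sub_apply, h2a, inner_sub_left, inner_sub_right,
        inner_add_left, inner_add_right, sR'], fun η => by
      change 0 ≤ (⟪(2 - R) η, η⟫_ℂ).re
      rw [e2]
      positivity⟩)
    (fun η h => by
      have := e0 η
      rw [h, inner_zero_left, Complex.zero_re] at this
      exact h0 η (hz _ _ this).1 (hz _ _ this).2)
    (fun η h => by
      have := e2 η
      rw [h, inner_zero_left, Complex.zero_re] at this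
      exact h2 η (sub_eq_zero.1 (hz _ _ this).1).symm (sub_eq_zero.1 (hz _ _ this).2).symm)
  have haa : ∀ η, F.f fa (F.f fa η) = R η := fun η => by rw [F.f_f bc_fa bc_fa, hF]
  have hbb : ∀ η, F.f fb (F.f fb η) = (η - p η) + (η - q η) := fun η => by
    rw [← hR2, sub_apply, h2a, ← two_smul ℂ, ← F.fa_fa_add₃, haa,
      add_sub_cancel_left]
  have hDr : ∀ g, BC g → ∀ η, D (F.f g η) = F.f (fun s => conj (g (-s))) (D η) := by
    intro g hg η
    refine pre_refl F D (fun η => ?_) hg η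
    rw [hF, ← F.f_f bc_fb bc_fb, hbb, hR, hD, hD]
    simp only [map_add, map_sub, hp, hq]
    abel
  have bT : BC fun s => fa s * fb s := bc_fa.mul bc_fb
  obtain ⟨T, hT⟩ : ∃ T, T = F.f fun s => fa s * fb s := ⟨_, rfl⟩
  have hT1 : ∀ η, T η = F.f fa (F.f fb η) := fun η => by rw [hT, F.f_f bc_fa bc_fb]
  have hTd : DenseRange T := hT ▸ F.denseRange bT fun s => mul_ne_zero (fa_ne_zero s) (fb_ne_zero s)
  have hTT : ∀ η, T (T η) = D (D η) := fun η => by
    rw [hT1, hT1, ← F.fa_fb_comm₃, haa, hbb, hR, hD, hD]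
    simp only [map_add, map_sub, hp, hq]
    abel
  have hTD : ∀ η, D (T η) = T (D η) := fun η => by
    rw [hT, hDr _ bT]
    simp only [map_mul, fa_neg, ← fa_neg (-_), neg_neg, conj_fa, conj_fb, mul_comm]
  have hTs : ∀ η ζ, ⟪T η, ζ⟫_ℂ = ⟪η, T ζ⟫_ℂ := fun η ζ => by
    rw [hT1, hT1, F.inner_fa₃, F.inner_fb₃, F.fa_fb_comm₃]
  have hin : ∀ η ζ, ⟪D η, D ζ⟫_ℂ = ⟪T ζ, T η⟫_ℂ := fun η ζ => by
    rw [sD', ← hTT, hTs]
  have hJ : ∀ η, (D : H →ₗ⋆[ℂ] H).extendOfNorm (T : H →ₗ[ℂ] H) (T η) = D η :=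
    LinearMap.extendOfNorm_eq hTd ⟨1, fun η => by
      have h1 := hin η η
      rw [inner_self_eq_norm_sq_to_K, inner_self_eq_norm_sq_to_K] at h1
      have h2 : ‖D η‖ ^ 2 = ‖T η‖ ^ 2 := by exact_mod_cast h1
      rw [one_mul]
      exact ((sq_eq_sq₀ (norm_nonneg _) (norm_nonneg _)).1 h2).le⟩
  generalize (D : H →ₗ⋆[ℂ] H).extendOfNorm (T : H →ₗ[ℂ] H) = J at hJ
  have hJr : ∀ g, BC g → ∀ η, J (F.f g η) = F.f (fun s => conj (g (-s))) (J η) := by
    intro g hg η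
    refine hTd.induction_on η (isClosed_eq (by fun_prop) (by fun_prop)) fun a => ?_
    have : F.f g (T a) = T (F.f g a) := by
      rw [hT]
      exact congrArg (fun S : H →L[ℂ] H => S a) (F.f_comm hg bT)
    rw [this, hJ, hJ, hDr g hg]
  have hJT : ∀ η, T (J η) = D η := fun η => by
    rw [← hJ, hT, hJr _ bT]
    simp only [map_mul, fa_neg, ← fa_neg (-_), neg_neg, conj_fa, conj_fb, mul_comm]
  refine ⟨J, F, ⟨fun η => ?_, fun η ζ => ?_⟩, hJr, fun k => ?_⟩
  · refine (hTd.comp hTd T.continuous).induction_on η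
      (isClosed_eq (by fun_prop) (by fun_prop)) fun a => ?_
    rw [Function.comp_apply, hJ, hTD, hJ, hTT]
  · refine hTd.induction_on₂ (p := fun η ζ => ⟪J η, J ζ⟫_ℂ = ⟪ζ, η⟫_ℂ)
      (isClosed_eq (by fun_prop) (by fun_prop)) (fun a b => ?_) η ζ
    rw [hJ, hJ, hin]
  · have key : F.f fb (F.f fa (J k) - F.f fb k) = (2 : ℂ) • (p k - k) := by
      rw [map_sub, ← F.fa_fb_comm₃, ← hT1, hJT, hbb, hD, two_smul]
      abel
    constructor
    · intro h
      rw [h, sub_self, smul_zero] at key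
      exact sub_eq_zero.1 (F.inj bc_fb fb_ne_zero key)
    · intro h
      rw [h, sub_self, map_zero] at key
      exact sub_eq_zero.1 ((smul_eq_zero.1 key.symm).resolve_left two_ne_zero)

theorem pre_of_graph (G : Submodule ℝ (H × H)) (hG : IsClosed (G : Set (H × H)))
    (hsw : ∀ a b, (a, b) ∈ G → (b, a) ∈ G)
    (hI : ∀ a b, (a, b) ∈ G → (Complex.I • a, -(Complex.I • b)) ∈ G)
    (h1 : ∀ b, (0, b) ∈ G → b = 0)
    (hd : ∀ η, (∀ a b, (a, b) ∈ G → (⟪η, a⟫_ℂ).re = 0) → η = 0) :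
    ∃ J F, Pre (G : Set (H × H)) J F := by
  have hII : ∀ a : H, Complex.I • Complex.I • a = -a := fun a => by
    rw [smul_smul, Complex.I_mul_I, neg_one_smul]
  let K : Submodule ℝ H := G.comap ((LinearMap.id : H →ₗ[ℝ] H).prod LinearMap.id)
  have hK : ∀ k, k ∈ K ↔ (k, k) ∈ G := fun k => Iff.rfl
  have hGK : ∀ a b, (a, b) ∈ G ↔ a + b ∈ K ∧ Complex.I • (a - b) ∈ K := by
    intro a b
    rw [hK, hK]
    constructor
    · intro h
      refine ⟨by simpa [add_comm] using G.add_mem h (hsw _ _ h), ?_⟩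
      have := G.add_mem (hI _ _ h) (hsw _ _ (hI _ _ h))
      convert this using 1
      ext <;> simp [sub_eq_add_neg, add_comm]
    · rintro ⟨e1, e2⟩
      have := G.smul_mem (1 / 2 : ℝ) (G.sub_mem e1 (hI _ _ e2))
      convert this using 1
      rw [hII]
      ext
      · simp only [Prod.smul_fst, Prod.fst_sub]
        module
      · simp only [Prod.smul_snd, Prod.snd_sub]
        module
  obtain ⟨p, hp1, hp2⟩ := pre_proj K (hG.preimage (continuous_id.prodMk continuous_id))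
  have hfix : ∀ k, p k = k ↔ k ∈ K := by
    refine fun k => ⟨fun h => h ▸ hp1 k, fun h => ?_⟩
    have := hp2 k _ (K.sub_mem h (hp1 k))
    rw [show (⟪k - p k, k - p k⟫_ℂ).re = ‖k - p k‖ ^ 2 from inner_self_eq_norm_sq (𝕜 := ℂ) _,
      pow_eq_zero_iff two_ne_zero, norm_eq_zero] at this
    exact (sub_eq_zero.1 this).symm
  have sp : ∀ η ζ, (⟪p η, ζ⟫_ℂ).re = (⟪η, p ζ⟫_ℂ).re := fun η ζ => by
    have e1 := hp2 η _ (hp1 ζ)
    have e2 := hp2 ζ _ (hp1 η)
    rw [inner_sub_left, Complex.sub_re] at e1 e2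
    rw [pre_re_symm (p η) ζ, pre_re_symm (p η) (p ζ)] at *
    linarith
  let m : H →L[ℝ] H := (Complex.I • (1 : H →L[ℂ] H)).restrictScalars ℝ
  obtain ⟨q, hq⟩ : ∃ q : H →L[ℝ] H, ∀ η, q η = -(Complex.I • p (Complex.I • η)) :=
    ⟨-(m.comp (p.comp m)), fun η => rfl⟩
  obtain ⟨J, F, hc, hr, hk⟩ := pre_pair p q (fun η => (hfix _).2 (hp1 η))
    (fun η => by rw [hq, hq, smul_neg, hII, neg_neg, (hfix _).2 (hp1 _)]) sp
    (fun η ζ => by
      have := sp (Complex.I • η) (Complex.I • ζ)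
      rw [pre_re_I, pre_re_I'] at this
      rw [hq, hq, inner_neg_left, inner_neg_right, Complex.neg_re, Complex.neg_re, pre_re_I',
        pre_re_I, neg_neg, this])
    (fun η => by rw [hq, smul_neg, hII, neg_neg])
    (fun η => by rw [hq, hII, map_neg, smul_neg, neg_neg])
    (fun η e1 e2 => hd η fun a b hab => by
      obtain ⟨m1, m2⟩ := (hGK a b).1 hab
      have e3 : p (Complex.I • η) = 0 := by
        rw [hq, neg_eq_zero] at e2
        exact (smul_eq_zero.1 e2).resolve_left Complex.I_ne_zero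
      have a1 := hp2 η _ m1
      have a2 := hp2 (Complex.I • η) _ m2
      rw [e1, sub_zero, inner_add_right, Complex.add_re] at a1
      rw [e3, sub_zero, pre_re_I', inner_smul_right, Complex.I_mul_im, inner_sub_right,
        Complex.sub_re] at a2
      linarith)
    (fun η e1 e2 => by
      have e3 : p (Complex.I • η) = Complex.I • η := by
        conv_rhs => rw [← e2, hq, smul_neg, hII, neg_neg]
      refine h1 η ((hGK 0 η).2 ⟨?_, ?_⟩)
      · rw [zero_add]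
        exact (hfix η).1 e1
      · rw [zero_sub, smul_neg]
        exact K.neg_mem ((hfix _).1 e3))
  have Jfa : ∀ η, J (F.f fa η) = F.f fb (J η) := fun η => by
    simp only [hr fa bc_fa, fa_neg, conj_fb]
  have Jfb : ∀ η, J (F.f fb η) = F.f fa (J η) := fun η => by
    rw [← hc.inv η, ← Jfa, hc.inv, hc.inv]
  have hmain : ∀ a b, (a, b) ∈ G ↔
      F.f fa (J b) = F.f fb a ∧ F.f fa (J a) = F.f fb b := by
    intro a b
    rw [hGK, ← hfix, ← hfix, hk, hk]
    simp only [map_add, map_sub, map_smulₛₗ, Complex.conj_I, RingHom.id_apply, neg_smul, map_neg]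
    rw [← smul_neg, (smul_right_injective H Complex.I_ne_zero).eq_iff]
    constructor
    · rintro ⟨e1, e2⟩
      constructor
      · refine smul_right_injective H (two_ne_zero (α := ℂ)) ?_
        simp only [two_smul]
        linear_combination (norm := abel) e1 + e2
      · refine smul_right_injective H (two_ne_zero (α := ℂ)) ?_
        simp only [two_smul]
        linear_combination (norm := abel) e1 - e2
    · rintro ⟨e1, e2⟩
      rw [e1, e2]
      exact ⟨add_comm _ _, neg_sub _ _⟩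
  refine ⟨J, F, hc, hr, fun η η' => ?_⟩
  rw [SetLike.mem_coe, hmain]
  constructor
  · rintro ⟨e1, -⟩
    refine ⟨(1 / 2 : ℂ) • (F.f fa η + F.f fb (J η')), ?_, ?_⟩
    · rw [map_smul, map_add, F.fa_fb_comm₃, e1, F.fa_fa_add₃, smul_smul]
      norm_num
    · rw [map_smul, map_add, ← F.fa_fb_comm₃, ← e1, F.fa_fa_add₃, smul_smul]
      norm_num
  · rintro ⟨ρ, e1, e2⟩
    refine ⟨by rw [e1, e2, F.fa_fb_comm₃], ?_⟩
    rw [← hc.inv η', e1, e2, Jfa, Jfb, F.fa_fb_comm₃]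

theorem exists_pre (hc : Cyc M ξ) (hs : Sep M ξ) : ∃ J F, Pre (gr M ξ) J F := by
  let G₀ : Submodule ℝ (H × H) :=
    { carrier := {p | ∃ x ∈ M, p = (x ξ, star x ξ)}
      add_mem' := by
        rintro _ _ ⟨x, hx, rfl⟩ ⟨y, hy, rfl⟩
        exact ⟨x + y, add_mem hx hy, by simp⟩
      zero_mem' := ⟨0, zero_mem _, by ext <;> simp⟩
      smul_mem' := by
        rintro c _ ⟨x, hx, rfl⟩
        exact ⟨(c : ℂ) • x, M.toStarSubalgebra.smul_mem hx _, by simp⟩ }
  have hcl : ∀ S : Set (H × H), IsClosed S → (∀ x ∈ M, (x ξ, star x ξ) ∈ S) → gr M ξ ⊆ S :=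
    fun S hS h => closure_minimal (by rintro _ ⟨x, hx, rfl⟩; exact h x hx) hS
  refine pre_of_graph G₀.topologicalClosure G₀.isClosed_topologicalClosure (fun a b h => ?_)
    (fun a b h => ?_) (fun b h => ?_) (fun η h => ?_)
  · refine hcl {z | (z.2, z.1) ∈ gr M ξ} (isClosed_closure.preimage (by fun_prop))
      (fun x hx => ?_) h
    simpa using mem_gr (ξ := ξ) (star_mem hx)
  · refine hcl {z | (Complex.I • z.1, -(Complex.I • z.2)) ∈ gr M ξ}
      (isClosed_closure.preimage (by fun_prop)) (fun x hx => ?_) h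
    simpa using mem_gr (ξ := ξ) (M.toStarSubalgebra.smul_mem hx Complex.I)
  · refine inner_self_eq_zero.1 (hs.cyc_comm.ext (f := fun ζ => ⟪b, ζ⟫_ℂ) (g := fun _ => 0)
      (by fun_prop) continuous_const (fun y hy => ?_) b)
    have := hcl {z | ⟪z.2, y ξ⟫_ℂ = ⟪star y ξ, z.1⟫_ℂ} (isClosed_eq (by fun_prop) (by fun_prop))
      (fun x hx => by
        simp only [Set.mem_ofPred_eq, ContinuousLinearMap.star_eq_adjoint,
          ContinuousLinearMap.adjoint_inner_left]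
        exact congrArg (fun S : H →L[ℂ] H => ⟪ξ, S ξ⟫_ℂ)
          (VonNeumannAlgebra.mem_commutant_iff.1 hy x hx)) h
    simpa using this
  · have := hc.ext (f := fun ζ => (⟪η, ζ⟫_ℂ).re) (g := fun _ => 0) (by fun_prop) continuous_const
      (fun x hx => h _ _ (mem_gr hx)) η
    rwa [show (⟪η, η⟫_ℂ).re = ‖η‖ ^ 2 from inner_self_eq_norm_sq (𝕜 := ℂ) _,
      pow_eq_zero_iff two_ne_zero, norm_eq_zero] at this

end Vale.Agent.P132
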