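import Vale.Agent.P132.Std

/-! Construction of the standard representation of a faithful normal state. -/

open scoped InnerProductSpace Topology ComplexConjugate
open Filter

namespace Vale.Agent.P132

open Vale.Agent.P104

universe u

variable {H : Type u} [NormedAddCommGroup H] [InnerProductSpace ℂ H] [CompleteSpace H]
  {K : Type u} [NormedAddCommGroup K] [InnerProductSpace ℂ K] [CompleteSpace K]
  {M : VonNeumannAlgebra H}

/-- A subrepresentation of the amplification, seen through its coordinates. -/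
structure WrapAmp (M : VonNeumannAlgebra H) (W : ℕ → (K →L[ℂ] H))
    (π : (H →L[ℂ] H) → (K →L[ℂ] K)) : Prop where
  inner : ∀ ζ η, HasSum (fun n => ⟪W n ζ, W n η⟫_ℂ) ⟪ζ, η⟫_ℂ
  inter : ∀ x ∈ M, ∀ n ζ, W n (π x ζ) = x (W n ζ)

namespace WrapAmp

variable {W : ℕ → (K →L[ℂ] H)} {π : (H →L[ℂ] H) → (K →L[ℂ] K)}

omit [CompleteSpace K] in
theorem normSq (h : WrapAmp M W π) (ζ : K) : HasSum (fun n => ‖W n ζ‖ ^ 2) (‖ζ‖ ^ 2) := by
  have := Complex.hasSum_re (h.inner ζ ζ)
  simpa only [inner_self_eq_norm_sq_to_K, Complex.coe_algebraMap, ← Complex.ofReal_pow,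
    Complex.ofReal_re] using this

omit [CompleteSpace K] in
theorem ext (h : WrapAmp M W π) {ζ η : K} (e : ∀ n, W n ζ = W n η) : ζ = η := by
  have h1 := h.normSq (ζ - η)
  simp only [map_sub, e, sub_self, norm_zero, ne_eq, OfNat.ofNat_ne_zero, not_false_eq_true,
    zero_pow] at h1
  have := h1.unique hasSum_zero
  rwa [pow_eq_zero_iff two_ne_zero, norm_eq_zero, sub_eq_zero] at this

omit [CompleteSpace K] in
theorem vec (h : WrapAmp M W π) {x : H →L[ℂ] H} (hx : x ∈ M) (ζ η : K) :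
    HasSum (fun n => ⟪W n ζ, x (W n η)⟫_ℂ) ⟪ζ, π x η⟫_ℂ := by
  simpa only [h.inter x hx] using h.inner ζ (π x η)

omit [CompleteSpace K] in
theorem add (h : WrapAmp M W π) {x y : H →L[ℂ] H} (hx : x ∈ M) (hy : y ∈ M) :
    π (x + y) = π x + π y := by
  ext1 ζ
  refine h.ext fun n => ?_
  rw [h.inter _ (add_mem hx hy), add_apply, add_apply,
    map_add, h.inter _ hx, h.inter _ hy]

omit [CompleteSpace K] in
theorem smul (h : WrapAmp M W π) (c : ℂ) {x : H →L[ℂ] H} (hx : x ∈ M) :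
    π (c • x) = c • π x := by
  ext1 ζ
  refine h.ext fun n => ?_
  rw [h.inter _ (M.toStarSubalgebra.smul_mem hx c), smul_apply,
    smul_apply, map_smul, h.inter _ hx]

omit [CompleteSpace K] in
theorem mul (h : WrapAmp M W π) {x y : H →L[ℂ] H} (hx : x ∈ M) (hy : y ∈ M) :
    π (x * y) = π x * π y := by
  ext1 ζ
  refine h.ext fun n => ?_
  rw [h.inter _ (mul_mem hx hy), mul_apply_eq_comp, mul_apply_eq_comp, h.inter _ hx, h.inter _ hy]

omit [CompleteSpace K] in
theorem one (h : WrapAmp M W π) : π 1 = 1 := by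
  ext1 ζ
  exact h.ext fun n => h.inter _ (one_mem M) n ζ

theorem star (h : WrapAmp M W π) {x : H →L[ℂ] H} (hx : x ∈ M) :
    π (Star.star x) = Star.star (π x) := by
  ext1 η
  refine ext_inner_left ℂ fun ζ => ?_
  rw [inner_star_right]
  refine (h.vec (star_mem hx) ζ η).unique ?_
  simpa only [inner_star_right, h.inter x hx] using h.inner (π x ζ) η

omit [CompleteSpace K] in
theorem norm_le (h : WrapAmp M W π) {x : H →L[ℂ] H} (hx : x ∈ M) : ‖π x‖ ≤ ‖x‖ := by
  refine ContinuousLinearMap.opNorm_le_bound _ (norm_nonneg _) fun ζ => ?_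
  refine (pow_le_pow_iff_left₀ (norm_nonneg _) (by positivity) two_ne_zero).1 ?_
  rw [mul_pow]
  refine hasSum_le (fun n => ?_) (h.normSq (π x ζ)) ((h.normSq ζ).mul_left (‖x‖ ^ 2))
  rw [h.inter x hx, ← mul_pow]
  exact pow_le_pow_left₀ (norm_nonneg _) (x.le_opNorm _) 2

theorem comm (h : WrapAmp M W π) {y y' : H →L[ℂ] H} (hy : y ∈ M.commutant)
    (hy' : y' ∈ M.commutant) (n m : ℕ) :
    (ContinuousLinearMap.adjoint (y ∘L W n) ∘L (y' ∘L W m)) ∈ Set.centralizer (π '' M) := by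
  rintro _ ⟨x, hx, rfl⟩
  ext1 η
  refine ext_inner_left ℂ fun ζ => ?_
  have c1 : ∀ v, y (Star.star x v) = Star.star x (y v) := fun v => by
    rw [← mul_apply_eq_comp, commute_of_mem M hy (star_mem hx), mul_apply_eq_comp]
  have c2 : ∀ v, y' (x v) = x (y' v) := fun v => by
    rw [← mul_apply_eq_comp, commute_of_mem M hy' hx, mul_apply_eq_comp]
  rw [mul_apply_eq_comp, mul_apply_eq_comp, ← inner_star_left, ← h.star hx]
  simp only [ContinuousLinearMap.comp_apply, ContinuousLinearMap.adjoint_inner_right]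
  rw [h.inter _ (star_mem hx), h.inter _ hx, c1, c2, inner_star_left]

omit [CompleteSpace K] in
theorem dense (hf : ∀ x ∈ M, (∀ n ζ, x (W n ζ) = 0) → x = 0) :
    Dense (Submodule.span ℂ (Set.range fun i : M.commutant × ℕ × K =>
      (i.1 : H →L[ℂ] H) (W i.2.1 i.2.2)) : Set H) := by
  set D := Submodule.span ℂ (Set.range fun i : M.commutant × ℕ × K =>
      (i.1 : H →L[ℂ] H) (W i.2.1 i.2.2)) with hD
  have hp : D.topologicalClosure.starProjection ∈ M := by
    rw [VonNeumannAlgebra.IsStarProjection.mem_iff isStarProjection_starProjection]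
    intro y hy
    rw [Submodule.range_starProjection]
    have h1 : D ≤ D.topologicalClosure.comap (y : H →ₗ[ℂ] H) := by
      refine Submodule.span_le.2 ?_
      rintro _ ⟨⟨y', n, ζ⟩, rfl⟩
      exact D.le_topologicalClosure
        (Submodule.subset_span ⟨⟨⟨y * y', mul_mem hy y'.2⟩, n, ζ⟩, rfl⟩)
    exact Submodule.topologicalClosure_minimal _ h1
      (D.isClosed_topologicalClosure.preimage y.continuous)
  have h0 := hf _ (sub_mem (one_mem M) hp) fun n ζ => by
    rw [sub_apply, Submodule.starProjection_eq_self_iff.2, one_apply_eq_self,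
      sub_self]
    exact D.le_topologicalClosure (Submodule.subset_span ⟨⟨1, n, ζ⟩, rfl⟩)
  rw [Submodule.dense_iff_topologicalClosure_eq_top, eq_top_iff]
  intro v _
  have : v = D.topologicalClosure.starProjection v := by
    rw [← sub_eq_zero.1 h0]; rfl
  rw [this]
  exact Submodule.starProjection_apply_mem _ _

theorem surj (h : WrapAmp M W π) (hf : ∀ x ∈ M, (∀ n ζ, x (W n ζ) = 0) → x = 0)
    {y : K →L[ℂ] K} (hy : y ∈ Set.centralizer (Set.centralizer (π '' M))) :
    ∃ x ∈ M, π x = y ∧ ‖x‖ ≤ ‖y‖ := by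
  let ι := M.commutant × ℕ × K
  let V : ι → (K →L[ℂ] H) := fun i => (i.1 : H →L[ℂ] H) ∘L W i.2.1
  let T : ι → ι → (K →L[ℂ] K) := fun i j => ContinuousLinearMap.adjoint (V i) ∘L V j
  have hT : ∀ i j, Commute (T i j) y := fun i j => hy _ (h.comm i.1.2 j.1.2 _ _)
  have hT' : ∀ i j, Commute (T i j) (Star.star y) := fun i j => by
    have h1 : Star.star (T j i) = T i j := by
      simp only [T, ContinuousLinearMap.star_eq_adjoint, ContinuousLinearMap.adjoint_comp,
        ContinuousLinearMap.adjoint_adjoint]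
    have := (hT j i).star_star
    rwa [h1] at this
  let P : K →L[ℂ] K := algebraMap ℝ (K →L[ℂ] K) (‖y‖ ^ 2) - Star.star y * y
  have hP : 0 ≤ P := sub_nonneg.2 CStarAlgebra.star_mul_le_algebraMap_norm_sq
  let s := CFC.sqrt P
  have hs : Star.star s = s := (CFC.sqrt_nonneg P).isSelfAdjoint.star_eq
  have hss : s * s = P := CFC.sqrt_mul_sqrt_self P hP
  have hTs : ∀ i j, Commute (T i j) s := fun i j => by
    have : Commute P (T i j) :=
      Commute.sub_left (Algebra.commutes _ _) ((hT' i j).mul_right (hT i j)).symm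
    exact (this.cfcₙ_nnreal _).symm
  have key : ∀ z : K →L[ℂ] K, (∀ i j, Commute (T i j) (Star.star z)) → ∀ i j (ζ η : K),
      ⟪V i (z ζ), V j (z η)⟫_ℂ = ⟪ζ, T i j ((Star.star z * z) η)⟫_ℂ := by
    intro z hz i j ζ η
    rw [← ContinuousLinearMap.adjoint_inner_right, ← inner_star_right, mul_apply_eq_comp,
      ← mul_apply_eq_comp (T i j), hz i j]
    rfl
  let e : (K →L[ℂ] K) → (ι →₀ ℂ) →ₗ[ℂ] H := fun z =>
    Finsupp.linearCombination ℂ fun i => V i (z i.2.2)
  have hsum : ∀ c d, ⟪e y c, e y d⟫_ℂ + ⟪e s c, e s d⟫_ℂ =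
      ((‖y‖ ^ 2 : ℝ) : ℂ) * ⟪e 1 c, e 1 d⟫_ℂ := by
    intro c d
    induction c using Finsupp.induction_linear with
    | zero => simp
    | add c c' h1 h2 => simp only [map_add, inner_add_left]; linear_combination h1 + h2
    | single i a =>
      induction d using Finsupp.induction_linear with
      | zero => simp
      | add d d' h1 h2 => simp only [map_add, inner_add_right]; linear_combination h1 + h2
      | single j b =>
        simp only [e, Finsupp.linearCombination_single, inner_smul_left, inner_smul_right]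
        rw [key y hT', key s (by rw [hs]; exact hTs), key 1 (fun i j => by simp), hs, hss]
        simp only [P, sub_apply, map_sub, inner_sub_right, star_one, mul_one,
          one_apply_eq_self, Algebra.algebraMap_eq_smul_one, smul_apply,
          ← Complex.coe_smul, map_smul, inner_smul_right]
        ring
  have hle : ∀ c, ‖e y c‖ ≤ ‖y‖ * ‖e 1 c‖ := by
    intro c
    have h1 := hsum c c
    simp only [inner_self_eq_norm_sq_to_K, Complex.coe_algebraMap] at h1
    have h2 : ‖e y c‖ ^ 2 + ‖e s c‖ ^ 2 = ‖y‖ ^ 2 * ‖e 1 c‖ ^ 2 := by exact_mod_cast h1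
    refine (pow_le_pow_iff_left₀ (norm_nonneg _) (by positivity) two_ne_zero).1 ?_
    rw [mul_pow, ← h2]
    exact le_add_of_nonneg_right (by positivity)
  have hd := dense (M := M) (W := W) hf
  have hdr : DenseRange (e 1) := by
    have : Set.range (e 1) = (LinearMap.range (e 1) : Set H) := rfl
    rw [DenseRange, this, Finsupp.range_linearCombination]
    exact hd
  let x : H →L[ℂ] H := (e y).extendOfNorm (e 1)
  have hx : ∀ (y' : H →L[ℂ] H) (hy' : y' ∈ M.commutant) n ζ, x (y' (W n ζ)) = y' (W n (y ζ)) := by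
    intro y' hy' n ζ
    have := LinearMap.extendOfNorm_eq hdr ⟨_, hle⟩ (Finsupp.single (⟨⟨y', hy'⟩, n, ζ⟩ : ι) 1)
    simp only [e, Finsupp.linearCombination_single, one_smul] at this
    exact this
  have hxM : x ∈ M := by
    refine mem_of_commute M fun y' hy' => ?_
    refine ContinuousLinearMap.ext_on hd ?_
    rintro _ ⟨⟨y'', n, ζ⟩, rfl⟩
    exact (congrArg y' (hx _ y''.2 n ζ)).trans (hx _ (mul_mem hy' y''.2) n ζ).symm
  refine ⟨x, hxM, ?_, ?_⟩
  · ext1 ζ
    refine h.ext fun n => ?_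
    rw [h.inter x hxM]
    exact hx 1 (one_mem _) n ζ
  · exact ContinuousLinearMap.opNorm_le_bound _ (norm_nonneg _)
      (LinearMap.norm_extendOfNorm_apply_le hdr _ hle)

/-- The image algebra. -/
def img (h : WrapAmp M W π) (hf : ∀ x ∈ M, (∀ n ζ, x (W n ζ) = 0) → x = 0) :
    VonNeumannAlgebra K where
  carrier := π '' M
  mul_mem' := by
    rintro _ _ ⟨x, hx, rfl⟩ ⟨y, hy, rfl⟩
    exact ⟨x * y, mul_mem hx hy, h.mul hx hy⟩
  add_mem' := by
    rintro _ _ ⟨x, hx, rfl⟩ ⟨y, hy, rfl⟩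
    exact ⟨x + y, add_mem hx hy, h.add hx hy⟩
  algebraMap_mem' c := ⟨c • 1, M.toStarSubalgebra.smul_mem (one_mem M) c, by
    rw [h.smul c (one_mem M), h.one, Algebra.algebraMap_eq_smul_one]⟩
  star_mem' := by
    rintro _ ⟨x, hx, rfl⟩
    exact ⟨Star.star x, star_mem hx, h.star hx⟩
  centralizer_centralizer' := by
    refine Set.Subset.antisymm (fun y hy => ?_) Set.subset_centralizer_centralizer
    obtain ⟨x, hx, e, -⟩ := h.surj hf hy
    exact ⟨x, hx, e⟩

end WrapAmp

theorem exists_wrapAmp (M : VonNeumannAlgebra H) {ξ : ℕ → H} (hξ : Summable fun n => ‖ξ n‖ ^ 2) :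
    ∃ (K : Type u) (_ : NormedAddCommGroup K) (_ : InnerProductSpace ℂ K) (_ : CompleteSpace K)
      (W : ℕ → (K →L[ℂ] H)) (π : (H →L[ℂ] H) → (K →L[ℂ] K)) (Ξ : K), WrapAmp M W π ∧
      (∀ n, W n Ξ = ξ n) ∧ ∀ η : K, ∀ ε : ℝ, 0 < ε → ∃ x ∈ M, ‖η - π x Ξ‖ ≤ ε := by
  classical
  let L := lp (fun _ : ℕ => H) 2
  let ρ : (H →L[ℂ] H) → (L →L[ℂ] L) := fun x =>
    lp.mapCLM 2 (fun _ => x) (norm_nonneg x) fun _ => le_rfl
  have hρ : ∀ x (v : L) n, ρ x v n = x (v n) := fun _ _ _ => rfl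
  let Ξ : L := ⟨ξ, memℓp_gen (by simpa using hξ)⟩
  let D : Submodule ℂ L :=
    { carrier := {v | ∃ x ∈ M, ρ x Ξ = v}
      add_mem' := by
        rintro _ _ ⟨x, hx, rfl⟩ ⟨y, hy, rfl⟩
        exact ⟨x + y, add_mem hx hy, lp.ext (funext fun n => rfl)⟩
      zero_mem' := ⟨0, zero_mem M, lp.ext (funext fun n => rfl)⟩
      smul_mem' := by
        rintro c _ ⟨x, hx, rfl⟩
        exact ⟨c • x, M.toStarSubalgebra.smul_mem hx c, lp.ext (funext fun n => rfl)⟩ }
  have hinv : ∀ x ∈ M, ∀ v ∈ D.topologicalClosure, ρ x v ∈ D.topologicalClosure := by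
    intro x hx
    have h1 : D ≤ D.topologicalClosure.comap (ρ x : L →ₗ[ℂ] L) := by
      rintro _ ⟨y, hy, rfl⟩
      exact D.le_topologicalClosure ⟨x * y, mul_mem hx hy, lp.ext (funext fun n => rfl)⟩
    exact Submodule.topologicalClosure_minimal _ h1
      (D.isClosed_topologicalClosure.preimage (ρ x).continuous)
  let π : (H →L[ℂ] H) → (D.topologicalClosure →L[ℂ] D.topologicalClosure) := fun x =>
    if hx : x ∈ M then (ρ x ∘L D.topologicalClosure.subtypeL).codRestrict _
      (fun v => hinv x hx v v.2) else 0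
  have hπ : ∀ x ∈ M, ∀ v, (π x v : L) = ρ x v := by
    intro x hx v
    simp only [π, dif_pos hx]
    rfl
  have hΞ : Ξ ∈ D.topologicalClosure :=
    D.le_topologicalClosure ⟨1, one_mem M, lp.ext (funext fun n => rfl)⟩
  refine ⟨D.topologicalClosure, inferInstance, inferInstance, inferInstance,
    fun n => lp.evalCLM ℂ (fun _ : ℕ => H) 2 n ∘L D.topologicalClosure.subtypeL, π, ⟨Ξ, hΞ⟩,
    ⟨fun ζ η => lp.hasSum_inner (𝕜 := ℂ) (ζ : L) (η : L), fun x hx n ζ => ?_⟩, fun n => rfl, ?_⟩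
  · change (π x ζ : L) n = x ((ζ : L) n)
    rw [hπ x hx, hρ]
  · intro η ε hε
    have hη : (η : L) ∈ closure (D : Set L) := η.2
    obtain ⟨_, ⟨x, hx, rfl⟩, hd⟩ := Metric.mem_closure_iff.1 hη ε hε
    refine ⟨x, hx, ?_⟩
    rw [← Submodule.norm_coe, Submodule.coe_sub, hπ x hx, ← dist_eq_norm]
    exact hd.le

end Vale.Agent.P132
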