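import Vale.Agent.P132.RtA

/-! The block estimate used in the exhaustion argument. -/

open scoped InnerProductSpace Topology ComplexConjugate
open Filter MeasureTheory

namespace Vale.Agent.P132

open Vale.Agent.P104

variable {H : Type*} [NormedAddCommGroup H] [InnerProductSpace ℂ H] [CompleteSpace H]
  {M : VonNeumannAlgebra H} {J : H →L⋆[ℂ] H}

namespace ZornAux

theorem py2 {g : H →L[ℂ] H} (hg : IsStarProjection g) (η : H) :
    ‖η‖ ^ 2 = ‖g η‖ ^ 2 + ‖(1 - g) η‖ ^ 2 := by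
  simpa using (pyth_two 1 hg (by simp) η).symm

theorem py3 {g k : H →L[ℂ] H} (hk : IsStarProjection k) (h : k * g = 0) (η : H) :
    ‖(1 - g) η‖ ^ 2 = ‖k η‖ ^ 2 + ‖(1 - g - k) η‖ ^ 2 := by
  rw [py2 hk ((1 - g) η), ← mul_apply_eq_comp, ← mul_apply_eq_comp]
  have e1 : k * (1 - g) = k := by rw [mul_sub, h, mul_one, sub_zero]
  have e2 : (1 - k) * (1 - g) = 1 - g - k := by rw [sub_mul, e1, one_mul]
  rw [e1, e2]

theorem blk (hB : Bi M J) {b c : H →L[ℂ] H} (a : H →L[ℂ] H) (hb : b ∈ M) (hc : c ∈ M) (X Y : H) :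
    a (rt J b (df J 1 c X Y)) = (a * c) (rt J b X) - a (rt J (c * b) Y) := by
  rw [df, Complex.ofReal_one, one_smul, map_sub, map_sub, hB.cj.rt_mul_apply,
    ← hB.comm_apply hc hb]
  rfl

theorem rt_one_sub (hJ : IsConj J) (p : H →L[ℂ] H) : rt J (1 - p) = 1 - rt J p := by
  rw [rt_sub, hJ.rt_one]

/-- Splitting of the three terms of `Psi` along three left and three right projections. -/
theorem split (hB : Bi M J) {p e q f : H →L[ℂ] H} (hp : IsStarProjection p)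
    (he : IsStarProjection e) (hq : IsStarProjection q) (hf : IsStarProjection f)
    (mp : p ∈ M) (me : e ∈ M) (pe : p * e = 0) (fq : f * q = 0) (D : H) :
    (∀ b, ‖rt J b D‖ ^ 2 =
      ‖q (rt J b D)‖ ^ 2 + ‖f (rt J b D)‖ ^ 2 + ‖(1 - q - f) (rt J b D)‖ ^ 2) ∧
    (∀ a ∈ M, ‖a D‖ ^ 2 =
      ‖a (rt J p D)‖ ^ 2 + ‖a (rt J e D)‖ ^ 2 + ‖a (rt J (1 - p - e) D)‖ ^ 2) ∧
    ‖rt J (1 - p) D‖ ^ 2 = ‖rt J e D‖ ^ 2 + ‖rt J (1 - p - e) D‖ ^ 2 ∧
    ‖(1 - q) D‖ ^ 2 = ‖f D‖ ^ 2 + ‖(1 - q - f) D‖ ^ 2 := by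
  have hJ := hB.cj
  have k : rt J e * rt J p = 0 := by rw [← hJ.rt_mul, pe, rt_zero]
  refine ⟨fun b => ?_, fun a ha => ?_, ?_, py3 hf fq D⟩
  · rw [py2 hq (rt J b D), py3 hf fq, add_assoc]
  · rw [py2 (hJ.rt_proj hp) (a D), py3 (hJ.rt_proj he) k, hB.comm_apply ha mp,
      hB.comm_apply ha me, hB.comm_apply ha (sub_mem (sub_mem (one_mem _) mp) me), rt_sub,
      rt_one_sub hJ, add_assoc]
  · rw [rt_sub (1 - p), rt_one_sub hJ, py3 (hJ.rt_proj he) k]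

theorem norm_rt_pi (hJ : IsConj J) {v : H →L[ℂ] H} (hv : IsPI v) (η : H) :
    ‖rt J v η‖ = ‖rt J (v * star v) η‖ := by
  rw [hJ.norm_rt_apply, hJ.norm_rt_apply, star_mul, star_star, hv.norm_fin]

omit [InnerProductSpace ℂ H] [CompleteSpace H] in
theorem sub_sq_le (a b : H) : ‖a - b‖ ^ 2 ≤ 2 * ‖a‖ ^ 2 + 2 * ‖b‖ ^ 2 := by
  nlinarith [norm_sub_le a b, norm_nonneg (a - b), sq_nonneg (‖a‖ - ‖b‖), norm_nonneg a,
    norm_nonneg b]

/-- Two orthogonal elements satisfying `IsPI` with their supports and the complements. -/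
structure Blk (M : VonNeumannAlgebra H) (u v p e P q f Q : H →L[ℂ] H) : Prop where
  mu : u ∈ M
  mv : v ∈ M
  mp : p ∈ M
  me : e ∈ M
  mq : q ∈ M
  mf : f ∈ M
  pp : IsStarProjection p
  pe : IsStarProjection e
  pq : IsStarProjection q
  pf : IsStarProjection f
  hP : P = 1 - p - e
  hQ : Q = 1 - q - f
  up : u * p = u
  ve : v * e = v
  qu : q * u = u
  fv : f * v = v
  ue : u * e = 0
  vp : v * p = 0
  qv : q * v = 0
  fu : f * u = 0
  p_e : p * e = 0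
  f_q : f * q = 0

namespace Blk

variable {u v p e P q f Q : H →L[ℂ] H}

theorem mP (h : Blk M u v p e P q f Q) : P ∈ M :=
  h.hP ▸ sub_mem (sub_mem (one_mem _) h.mp) h.me

theorem mQ (h : Blk M u v p e P q f Q) : Q ∈ M :=
  h.hQ ▸ sub_mem (sub_mem (one_mem _) h.mq) h.mf

theorem uP (h : Blk M u v p e P q f Q) : u * P = 0 := by
  rw [h.hP, mul_sub, mul_sub, h.up, h.ue, mul_one, sub_self, sub_zero]

theorem vP (h : Blk M u v p e P q f Q) : v * P = 0 := by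
  rw [h.hP, mul_sub, mul_sub, h.vp, h.ve, mul_one, sub_zero, sub_self]

theorem Qu (h : Blk M u v p e P q f Q) : Q * u = 0 := by
  rw [h.hQ, sub_mul, sub_mul, h.qu, h.fu, one_mul, sub_self, sub_zero]

theorem Qv (h : Blk M u v p e P q f Q) : Q * v = 0 := by
  rw [h.hQ, sub_mul, sub_mul, h.qv, h.fv, one_mul, sub_zero, sub_self]

theorem sp (h : Blk M u v p e P q f Q) (hB : Bi M J) (D : H) :
    (∀ b, ‖rt J b D‖ ^ 2 = ‖q (rt J b D)‖ ^ 2 + ‖f (rt J b D)‖ ^ 2 + ‖Q (rt J b D)‖ ^ 2) ∧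
    (∀ a ∈ M, ‖a D‖ ^ 2 = ‖a (rt J p D)‖ ^ 2 + ‖a (rt J e D)‖ ^ 2 + ‖a (rt J P D)‖ ^ 2) ∧
    ‖rt J (1 - p) D‖ ^ 2 = ‖rt J e D‖ ^ 2 + ‖rt J P D‖ ^ 2 ∧
    ‖(1 - q) D‖ ^ 2 = ‖f D‖ ^ 2 + ‖Q D‖ ^ 2 := by
  rw [h.hP, h.hQ]
  exact split hB h.pp h.pe h.pq h.pf h.mp h.me h.p_e h.f_q D

theorem sum (h : Blk M u v p e P q f Q) (hB : Bi M J) (X Y : H) :
    ‖df J 1 (u + v) X Y‖ ^ 2 + 4 * ‖rt J P (df J 1 (u + v) X Y)‖ ^ 2 +
      4 * ‖Q (df J 1 (u + v) X Y)‖ ^ 2 =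
    ‖u (rt J p X) - q (rt J u Y)‖ ^ 2 + ‖u (rt J e X) - q (rt J v Y)‖ ^ 2 +
      ‖v (rt J p X) - f (rt J u Y)‖ ^ 2 + ‖v (rt J e X) - f (rt J v Y)‖ ^ 2 +
      5 * (‖u (rt J P X)‖ ^ 2 + ‖v (rt J P X)‖ ^ 2 + ‖Q (rt J u Y)‖ ^ 2 + ‖Q (rt J v Y)‖ ^ 2) := by
  have mw := add_mem h.mu h.mv
  have a1 := (h.sp hB (df J 1 (u + v) X Y)).2.1 1 (one_mem _)
  have a2 := (h.sp hB (df J 1 (u + v) X Y)).1
  have a3 := (h.sp hB (df J 1 (u + v) X Y)).2.1 Q h.mQ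
  simp only [one_apply_eq_self] at a1
  rw [a1, a2 p, a2 e, a2 P, a3]
  simp only [blk hB _ h.mp mw, blk hB _ h.me mw, blk hB _ h.mP mw, mul_add, add_mul, h.up, h.ue,
    h.uP, h.vp, h.ve, h.vP, h.qu, h.fu, h.Qu, h.qv, h.fv, h.Qv, add_zero, zero_add, rt_zero,
    zero_apply, map_zero, sub_zero, zero_sub, norm_neg, norm_zero]
  ring

theorem fst (h : Blk M u v p e P q f Q) (hB : Bi M J) (X Y : H) :
    ‖df J 1 u X Y‖ ^ 2 + 4 * ‖rt J (1 - p) (df J 1 u X Y)‖ ^ 2 +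
      4 * ‖(1 - q) (df J 1 u X Y)‖ ^ 2 =
    ‖u (rt J p X) - q (rt J u Y)‖ ^ 2 +
      5 * (‖u (rt J e X)‖ ^ 2 + ‖u (rt J P X)‖ ^ 2 + ‖f (rt J u Y)‖ ^ 2 + ‖Q (rt J u Y)‖ ^ 2) := by
  have b1 := (h.sp hB (df J 1 u X Y)).2.1 1 (one_mem _)
  have b2 := (h.sp hB (df J 1 u X Y)).1
  have b3 := (h.sp hB (df J 1 u X Y)).2.1 Q h.mQ
  have b4 := (h.sp hB (df J 1 u X Y)).2.1 f h.mf
  have b5 := (h.sp hB (df J 1 u X Y)).2.2
  simp only [one_apply_eq_self] at b1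
  rw [b1, b5.1, b5.2, b2 p, b2 e, b2 P, b3, b4]
  simp only [blk hB _ h.mp h.mu, blk hB _ h.me h.mu, blk hB _ h.mP h.mu, h.up, h.ue,
    h.uP, h.qu, h.fu, h.Qu, rt_zero, zero_apply, map_zero, sub_zero, zero_sub, norm_neg, norm_zero]
  ring

theorem snd (h : Blk M u v p e P q f Q) (hB : Bi M J) (X Y : H) :
    ‖df J 1 v (cmp J (1 - p) X) (cmp J (1 - q) Y)‖ ^ 2 =
    ‖v (rt J e X) - f (rt J v Y)‖ ^ 2 + ‖v (rt J P X)‖ ^ 2 + ‖Q (rt J v Y)‖ ^ 2 := by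
  have vp' : v * (1 - p) = v := by rw [mul_sub, h.vp, mul_one, sub_zero]
  have qv' : (1 - q) * v = v := by rw [sub_mul, h.qv, one_mul, sub_zero]
  have mp' : 1 - p ∈ M := sub_mem (one_mem _) h.mp
  have mq' : 1 - q ∈ M := sub_mem (one_mem _) h.mq
  have d0 : df J 1 v (cmp J (1 - p) X) (cmp J (1 - q) Y) =
      (1 - q) (rt J (1 - p) (df J 1 v X Y)) := by
    rw [blk hB _ mp' h.mv, vp', qv', df, cmp, cmp, Complex.ofReal_one, one_smul,
      ← mul_apply_eq_comp, vp', ← hB.comm_apply mq' h.mv, ← hB.cj.rt_mul_apply, qv']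
  have c1 := (h.sp hB (rt J (1 - p) (df J 1 v X Y))).2.2.2
  have c2 := (h.sp hB (f (df J 1 v X Y))).2.2.1
  have c3 := (h.sp hB (Q (df J 1 v X Y))).2.2.1
  rw [← hB.comm_apply h.mf mp', ← hB.comm_apply h.mf h.me, ← hB.comm_apply h.mf h.mP] at c2
  rw [← hB.comm_apply h.mQ mp', ← hB.comm_apply h.mQ h.me, ← hB.comm_apply h.mQ h.mP] at c3
  rw [d0, c1, c2, c3]
  simp only [blk hB _ h.me h.mv, blk hB _ h.mP h.mv, h.ve, h.vP, h.fv, h.Qv, rt_zero,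
    zero_apply, map_zero, sub_zero, zero_sub, norm_neg, norm_zero]
  ring

end Blk

theorem init_add {u v : H →L[ℂ] H} (uv : star u * v = 0) :
    star (u + v) * (u + v) = star u * u + star v * v := by
  have uv' : star v * u = 0 := by simpa using congrArg star uv
  rw [star_add, add_mul, mul_add, mul_add, uv, uv', add_zero, zero_add]

theorem fin_add {u v : H →L[ℂ] H} (vu : v * star u = 0) :
    (u + v) * star (u + v) = u * star u + v * star v := by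
  have vu' : u * star v = 0 := by simpa using congrArg star vu
  rw [star_add, add_mul, mul_add, mul_add, vu, vu', add_zero, zero_add]

theorem blk_of_pi {u v : H →L[ℂ] H} (mu : u ∈ M) (mv : v ∈ M) (hu : IsPI u) (hv : IsPI v)
    (uv : star u * v = 0) (vu : v * star u = 0) :
    Blk M u v (star u * u) (star v * v) (1 - star u * u - star v * v) (u * star u) (v * star v)
      (1 - u * star u - v * star v) := by
  have uv' : star v * u = 0 := by simpa using congrArg star uv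
  have vu' : u * star v = 0 := by simpa using congrArg star vu
  have ue : u * (star v * v) = 0 := by rw [← mul_assoc, vu', zero_mul]
  have fu : v * star v * u = 0 := by rw [mul_assoc, uv', mul_zero]
  exact ⟨mu, mv, mul_mem (star_mem mu) mu, mul_mem (star_mem mv) mv, mul_mem mu (star_mem mu),
    mul_mem mv (star_mem mv), hu.init, hv.init, hu.fin, hv.fin, rfl, rfl, hu.mul_init, hv.mul_init,
    hu, hv, ue, by rw [← mul_assoc, vu, zero_mul], by rw [mul_assoc, uv, mul_zero], fu,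
    by rw [mul_assoc, ue, mul_zero], by rw [← mul_assoc, fu, zero_mul]⟩

theorem psi_add (hB : Bi M J) {X Y : H} (hX : J X = X) (hY : J Y = Y) {u v : H →L[ℂ] H}
    (mu : u ∈ M) (mv : v ∈ M) (hu : IsPI u) (hv : IsPI v) (uv : star u * v = 0)
    (vu : v * star u = 0) :
    Psi J (u + v) X Y ≤ Psi J u X Y +
      (5 * ‖df J 1 v (cmp J (1 - star u * u) X) (cmp J (1 - u * star u) Y)‖ ^ 2 -
        ‖(star u * u) (rt J (star v * v) X)‖ ^ 2 - ‖(u * star u) (rt J (v * star v) Y)‖ ^ 2) := by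
  have hJ := hB.cj
  have h := blk_of_pi mu mv hu hv uv vu
  have n1 := hu.norm_init (rt J (star v * v) X)
  have n2 : ‖v (rt J (star u * u) X)‖ = ‖(star u * u) (rt J (star v * v) X)‖ := by
    rw [← hv.norm_init, hB.norm_flip hX h.me h.mp, h.pp.isSelfAdjoint.star_eq,
      h.pe.isSelfAdjoint.star_eq]
  have n3 : ‖(u * star u) (rt J v Y)‖ = ‖(u * star u) (rt J (v * star v) Y)‖ := by
    rw [hB.comm_apply h.mq mv, hB.comm_apply h.mq h.mf, norm_rt_pi hJ hv]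
  have n4 : ‖(v * star v) (rt J u Y)‖ = ‖(u * star u) (rt J (v * star v) Y)‖ := by
    rw [hB.comm_apply h.mf mu, norm_rt_pi hJ hu, ← hB.comm_apply h.mf h.mq,
      hB.norm_flip hY h.mf h.mq, h.pq.isSelfAdjoint.star_eq, h.pf.isSelfAdjoint.star_eq]
  have t1 := sub_sq_le (u (rt J (star v * v) X)) ((u * star u) (rt J v Y))
  have t2 := sub_sq_le (v (rt J (star u * u) X)) ((v * star v) (rt J u Y))
  rw [Psi, Psi, init_add uv, fin_add vu, ← sub_sub, ← sub_sub, h.sum hB, h.fst hB, h.snd hB, n4,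
    ← n1]
  rw [← n1, n3] at t1
  rw [n2, n4] at t2
  linarith [sq_nonneg ‖v (rt J (star v * v) X) - (v * star v) (rt J v Y)‖]

end ZornAux

end Vale.Agent.P132
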